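import Vale.Agent.P129.NegLoop

/-!
Branch functionals and the extraction of an infinite special sequence.
-/

open Finset Filter Topology

namespace Vale.Agent.P129N

/-- The fixed free ultrafilter. -/
noncomputable abbrev UU : Filter ℕ := (hyperfilter ℕ : Filter ℕ)

theorem UU_ge (n : ℕ) : ∀ᶠ k in UU, n ≤ k := Nat.hyperfilter_le_atTop (eventually_ge_atTop n)

theorem exists_ulim {E : Type} [NormedAddCommGroup E] [NormedSpace ℝ E] (φ : ℕ → E →L[ℝ] ℝ)
    (C : ℝ) (h : ∀ n x, |φ n x| ≤ C * ‖x‖) :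
    ∃ ξ : E →L[ℝ] ℝ, ∀ x, Tendsto (fun n => φ n x) UU (𝓝 (ξ x)) := by
  have hx : ∀ x, ∃ a, |a| ≤ C * ‖x‖ ∧ Tendsto (fun n => φ n x) UU (𝓝 a) := by
    intro x
    obtain ⟨a, ha, h2⟩ := (isCompact_Icc (a := -(C * ‖x‖)) (b := C * ‖x‖)).ultrafilter_le_nhds
      ((hyperfilter ℕ).map (fun n => φ n x)) (by
        rw [le_principal_iff]
        exact mem_map.2 (Eventually.of_forall fun n => abs_le.1 (h n x)))
    exact ⟨a, abs_le.2 ha, h2⟩
  choose l h1 h2 using hx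
  refine ⟨LinearMap.mkContinuous
    { toFun := l
      map_add' := fun x y => tendsto_nhds_unique (h2 (x + y))
        (by simpa only [map_add] using (h2 x).add (h2 y))
      map_smul' := fun c x => tendsto_nhds_unique (h2 (c • x))
        (by simpa only [map_smul, smul_eq_mul, RingHom.id_apply] using (h2 x).const_mul c) } C
    h1, h2⟩

variable {I : Type} [LinearOrder I] [Cod I]

/-- Infinite special sequences. -/
def Br (I : Type) [LinearOrder I] [Cod I] : Type := {ψ : ℕ → F I × ℕ // ∀ p, Spec ψ p}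

omit [LinearOrder I] [Cod I] in
theorem seg_congr {ψ ψ' : ℕ → F I × ℕ} {p : ℕ} (h : ∀ a < p, ψ a = ψ' a) (E : Set I)
    (lo hi : ℕ) : seg ψ p E lo hi = seg ψ' p E lo hi :=
  Finset.sum_congr rfl fun a ha => by rw [h a (mem_range.1 ha)]

theorem seg_trunc {ψ : ℕ → F I × ℕ} {p a0 : ℕ} (h : Chain ψ p) (ha : a0 ≤ p) (E : Set I)
    (lo : ℕ) {hi : ℕ} (hw : a0 < p → hi ≤ (ψ a0).2) : seg ψ p E lo hi = seg ψ a0 E lo hi := by
  unfold seg
  symm
  refine Finset.sum_subset (Finset.range_subset_range.2 ha) fun a h1 h2 => ?_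
  rw [mem_range] at h1 h2
  have := h.le (not_lt.1 h2) h1
  have := hw (by omega)
  rw [if_neg (by omega)]

theorem seg_ne {ψ : ℕ → F I × ℕ} {p lo hi : ℕ} {z : Z I} (h : ev (seg ψ p Set.univ lo hi) z ≠ 0) :
    ∃ a < p, lo ≤ (ψ a).2 ∧ (ψ a).2 < hi ∧ ∃ α, (ψ a).1 α ≠ 0 ∧ co z α ≠ 0 := by
  rw [seg, ev_sum] at h
  obtain ⟨a, ha, h1⟩ := Finset.exists_ne_zero_of_sum_ne_zero h
  split_ifs at h1 with hc
  · rw [fl_univ] at h1
    exact ⟨a, mem_range.1 ha, hc.1, hc.2, exists_of_ev_ne h1⟩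
  · simp at h1

/-- Tails of partial sums of a sequence. -/
noncomputable def tl (ψ : ℕ → F I × ℕ) (B lo : ℕ) : F I :=
  ∑ a ∈ range B, if lo ≤ (ψ a).2 then (ψ a).1 else 0

omit [LinearOrder I] [Cod I] in
theorem tl_eq (ψ : ℕ → F I × ℕ) (B lo : ℕ) {hi : ℕ} (h : ∀ a < B, (ψ a).2 < hi) :
    tl ψ B lo = seg ψ B Set.univ lo hi :=
  Finset.sum_congr rfl fun a ha => by simp [h a (mem_range.1 ha), fl_univ]

theorem exists_bound (w : ℕ → ℕ) (B : ℕ) : ∃ hi, ∀ a < B, w a < hi :=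
  ⟨(range B).sup w + 1, fun _ ha => Nat.lt_succ_of_le (Finset.le_sup (mem_range.2 ha))⟩

theorem Spec.tl_K {ψ : ℕ → F I × ℕ} {B : ℕ} (h : Spec ψ B) (lo : ℕ) : K (tl ψ B lo) lo := by
  obtain ⟨hi, hh⟩ := exists_bound (fun a => (ψ a).2) B
  rw [tl_eq ψ B lo hh]; exact h.seg_K lo hi

theorem exists_xi (γ : Br I) :
    ∃ ξ : Z I →L[ℝ] ℝ, ∀ x, Tendsto (fun B => ev (tl γ.1 B 0) x) UU (𝓝 (ξ x)) :=
  exists_ulim (fun B => ev (tl γ.1 B 0)) 1 (fun B x => by
    simpa using ((γ.2 B).tl_K 0).abs_ev x)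

/-- The functional of an infinite special sequence. -/
noncomputable def xi (γ : Br I) : Z I →L[ℝ] ℝ := Classical.choose (exists_xi γ)

theorem xi_tendsto (γ : Br I) (x : Z I) :
    Tendsto (fun B => ev (tl γ.1 B 0) x) UU (𝓝 (xi γ x)) := Classical.choose_spec (exists_xi γ) x

theorem ev_tl_zero (ψ : ℕ → F I × ℕ) (B : ℕ) (x : Z I) :
    ev (tl ψ B 0) x = ∑ a ∈ range B, ev (ψ a).1 x := by simp [tl]

theorem succ_eventually {x : ℕ → Z I} (h : ∀ i i', i < i' → Succ (co (x i)) (co (x i')))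
    (g : F I) : ∀ᶠ i in atTop, ev g (x i) = 0 := by
  have h1 : ∀ α, ∀ᶠ i in atTop, co (x i) α = 0 := by
    intro α
    by_cases hex : ∃ i, co (x i) α ≠ 0
    · obtain ⟨i, hi⟩ := hex
      filter_upwards [eventually_gt_atTop i] with i' hi'
      by_contra hne
      exact lt_irrefl _ (h i i' hi' α α hi hne)
    · push Not at hex
      exact Eventually.of_forall hex
  filter_upwards [(eventually_all_finset g.support).2 fun α _ => h1 α] with i hi
  exact ev_eq_zero fun α hα => hi α (Finsupp.mem_support_iff.2 hα)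

/-- If a branch is large on infinitely many windows then it does not tend to zero. -/
theorem xi_big {x : ℕ → Z I} {J P : ℕ → ℕ} (hR : RS x J P)
    (hf : ∀ i f w, w < J i → T f w → |ev f (x i)| ≤ 2 / 2 ^ (w + 2))
    (hN : ∀ i, Negl (P i) (x i) (1 / (i + 1))) (γ : Br I) {η : ℝ} (hη : 0 < η) {M : Set ℕ}
    (hM : M.Infinite)
    (hb : ∀ i ∈ M, ∀ᶠ B in atTop, η < |ev (seg γ.1 B Set.univ (J i) (P i)) (x i)|) :
    ¬Tendsto (fun i => xi γ (x i)) atTop (𝓝 0) := by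
  intro ht
  obtain ⟨A, hA⟩ := pow_unbounded_of_one_lt (4 / η) (by norm_num : (1 : ℝ) < 2)
  obtain ⟨n, hn⟩ := exists_nat_gt (4 / η)
  have e1 : ∀ᶠ i in atTop, ∀ a ∈ range A, ev (γ.1 a).1 (x i) = 0 :=
    (eventually_all_finset _).2 fun a _ => succ_eventually hR.succ _
  have e2 : ∀ᶠ i in atTop, |xi γ (x i)| < η / 2 := by
    have := ht.abs
    rw [abs_zero] at this
    exact this.eventually (gt_mem_nhds (by positivity))
  obtain ⟨i0, hi0⟩ := eventually_atTop.1 (e1.and (e2.and (eventually_ge_atTop n)))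
  obtain ⟨i, hi, hii⟩ := hM.exists_gt i0
  obtain ⟨k1, k2, k3⟩ := hi0 i hii.le
  have key : ∀ᶠ B in atTop, η / 2 ≤ |ev (tl γ.1 B 0) (x i)| := by
    filter_upwards [hb i hi, eventually_ge_atTop A] with B hB hAB
    have hle := hR.le i
    have e : ev (tl γ.1 B 0) (x i) =
        ∑ a ∈ range B, (if (γ.1 a).2 < J i then ev (γ.1 a).1 (x i) else 0) +
        ev (seg γ.1 B Set.univ (J i) (P i)) (x i) + ev (tl γ.1 B (P i)) (x i) := by
      rw [ev_tl_zero, seg, tl, ev_sum, ev_sum, ← Finset.sum_add_distrib, ← Finset.sum_add_distrib]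
      refine Finset.sum_congr rfl fun a _ => ?_
      rw [fl_univ]
      split_ifs <;> first | omega | simp
    have b1 : |ev (tl γ.1 B (P i)) (x i)| ≤ η / 4 := by
      refine le_trans ((hN i).one ((γ.2 B).tl_K _)) ?_
      have : (n : ℝ) ≤ i := by exact_mod_cast k3
      rw [div_lt_iff₀ hη] at hn
      rw [div_le_iff₀ (by positivity)]
      nlinarith
    have b2 : |∑ a ∈ range B, (if (γ.1 a).2 < J i then ev (γ.1 a).1 (x i) else 0)| ≤ η / 4 := by
      rw [Finset.range_eq_Ico, ← Finset.sum_Ico_consecutive _ (Nat.zero_le A) hAB,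
        Finset.sum_eq_zero (s := Ico 0 A), zero_add]
      · refine le_trans (Finset.abs_sum_le_sum_abs _ _) (le_trans (Finset.sum_le_sum
          (g := fun a => 2 * (1 / (2 : ℝ) ^ (a + 2))) fun a ha => ?_) ?_)
        · split_ifs with hw
          · have ha' := (Finset.mem_Ico.1 ha).2
            refine le_trans (hf i _ _ hw ((γ.2 B).1 a ha')) ?_
            rw [mul_one_div]
            have := (γ.2 B).2.self_le ha'
            gcongr; norm_num
          · simp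
        · rw [← Finset.mul_sum]
          have := sum_inv_mm A B
          rw [div_lt_iff₀ hη] at hA
          have h3 : 2 * (1 / (2 : ℝ) ^ (A + 1)) ≤ η / 4 := by
            rw [mul_one_div, div_le_iff₀ (by positivity), pow_succ]; nlinarith
          linarith
      · intro a ha
        rw [k1 a (by simpa using ha)]; simp
    rw [e]
    have t1 := abs_le.1 b1
    have t2 := abs_le.1 b2
    rcases lt_abs.1 hB with h | h
    · exact le_abs.2 (Or.inl (by linarith))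
    · exact le_abs.2 (Or.inr (by linarith))
  have := ge_of_tendsto (xi_tendsto γ (x i)).abs (Nat.hyperfilter_le_atTop key)
  linarith

/-- Extraction of an infinite special sequence from finite ones with asymptotically equal
codes. -/
theorem extract {M : Set ℕ} (hM : M.Infinite) (ψ : ℕ → ℕ → ℕ → F I × ℕ) (p qs : ℕ → ℕ → ℕ)
    (a v : ℕ → ℕ) (β : ℕ → I)
    (h1 : ∀ i ∈ M, ∀ᶠ k in UU, Spec (ψ i k) (p i k) ∧ qs i k ≤ p i k ∧ a i < qs i k ∧
      (ψ i k (a i)).2 = v i ∧ (ψ i k (a i)).1 (β i) ≠ 0)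
    (h2 : ∀ i ∈ M, ∀ i' ∈ M, ∀ᶠ k in UU, qs i k = qs i' k ∧
      data (ψ i k) (qs i k) = data (ψ i' k) (qs i k))
    (h3 : ∀ i ∈ M, ∃ i' ∈ M, v i < v i') :
    ∃ γ : Br I, ∀ i ∈ M, (γ.1 (a i)).2 = v i ∧ ∀ᶠ k in UU, ∀ b < a i, γ.1 b = ψ i k b := by
  have mono : ∀ i ∈ M, ∀ i' ∈ M, v i < v i' → a i < a i' := by
    intro i hi i' hi' hv
    obtain ⟨k, ⟨k1, k2, k3, k4, -⟩, ⟨-, -, l3, l4, -⟩, m1, m2⟩ :=
      ((h1 i hi).and ((h1 i' hi').and (h2 i hi i' hi'))).exists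
    refine k1.2.lt_of_wt (by omega) ?_
    rw [k4, data_wt m2 (by omega : a i' < qs i k), l4]; exact hv
  have unb : ∀ n, ∃ i ∈ M, n ≤ a i := by
    intro n
    induction n with
    | zero => obtain ⟨i, hi⟩ := hM.nonempty; exact ⟨i, hi, Nat.zero_le _⟩
    | succ n ih =>
      obtain ⟨i, hi, hn⟩ := ih
      obtain ⟨i', hi', hv⟩ := h3 i hi
      exact ⟨i', hi', lt_of_le_of_lt hn (mono i hi i' hi' hv)⟩
  have st2 : ∀ i, ∃ φ : ℕ → F I × ℕ, i ∈ M → ∀ᶠ k in UU, ∀ b < a i, φ b = ψ i k b := by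
    intro i
    by_cases hi : i ∈ M
    swap
    · exact ⟨fun _ => (0, 0), fun h => absurd h hi⟩
    obtain ⟨i', hi', hv⟩ := h3 i hi
    have hlt := mono i hi i' hi' hv
    have hE : ∀ᶠ k in UU, Spec (ψ i k) (p i k) ∧ a i' < p i k ∧ (ψ i k (a i')).2 = v i' ∧
        (ψ i k (a i)).1 (β i) ≠ 0 := by
      filter_upwards [h1 i hi, h1 i' hi', h2 i hi i' hi'] with k k1 l1 m1
      obtain ⟨k1, k2, k3, k4, k5⟩ := k1
      obtain ⟨-, -, l3, l4, -⟩ := l1
      refine ⟨k1, by omega, ?_, k5⟩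
      rw [data_wt m1.2 (by omega : a i' < qs i k), l4]
    obtain ⟨k0, s1, s2, s3, s4⟩ := hE.exists
    refine ⟨ψ i k0, fun _ => ?_⟩
    filter_upwards [hE] with k hk b hb
    obtain ⟨t1, t2, t3, t4⟩ := hk
    obtain ⟨-, hd⟩ := s1.2.share t1.2 s2 t2 (by omega) (by omega) (by rw [s3, t3])
    refine Prod.ext ?_ (data_wt hd (by omega))
    ext α
    by_cases hα : α ≤ β i
    · exact data_below hd (mem_supp.2 ⟨_, hlt, s4⟩) (mem_supp.2 ⟨_, hlt, t4⟩) hα (by omega)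
    · have z1 : (ψ i k0 b).1 α = 0 := by
        by_contra hne
        exact hα (s1.2.1 b (a i) hb (by omega) α _ hne s4).le
      have z2 : (ψ i k b).1 α = 0 := by
        by_contra hne
        exact hα (t1.2.1 b (a i) hb (by omega) α _ hne t4).le
      rw [z1, z2]
  choose φ hφ using st2
  have st3 : ∀ i ∈ M, ∀ i' ∈ M, ∀ b, b < a i → b < a i' → φ i b = φ i' b := by
    intro i hi i' hi' b hb hb'
    refine Prod.ext (eq_of_data b fun n => ?_) ?_
    · obtain ⟨i'', hi'', hn⟩ := unb n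
      obtain ⟨k, k1, k2, k3, k4, k5⟩ := ((hφ i hi).and ((hφ i' hi').and ((h2 i hi i' hi').and
        ((h2 i hi i'' hi'').and (h1 i'' hi''))))).exists
      exact ⟨ψ i k, ψ i' k, qs i k, by omega, k3.2, by rw [k1 b hb], by rw [k2 b hb']⟩
    · obtain ⟨k, k1, k2, k3, k4⟩ := ((hφ i hi).and ((hφ i' hi').and ((h2 i hi i' hi').and
        (h1 i hi)))).exists
      rw [k1 b hb, k2 b hb']
      exact data_wt k3.2 (by omega)
  choose ι hι1 hι2 using unb
  have hγ : ∀ i ∈ M, ∀ b < a i, φ (ι (b + 1)) b = φ i b :=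
    fun i hi b hb => st3 _ (hι1 _) i hi b (hι2 _) hb
  refine ⟨⟨fun b => φ (ι (b + 1)) b, fun n => ?_⟩, fun i hi => ⟨?_, ?_⟩⟩
  · obtain ⟨k, k1, k2⟩ := ((hφ _ (hι1 n)).and (h1 _ (hι1 n))).exists
    have := hι2 n
    exact k2.1.congr (by omega) fun b hb => by
      rw [hγ _ (hι1 n) b (by omega), k1 b (by omega)]
  · obtain ⟨k, k1, k2, k3⟩ := ((hφ _ (hι1 (a i + 1))).and ((h1 i hi).and
      (h2 i hi _ (hι1 (a i + 1))))).exists
    change (φ (ι (a i + 1)) (a i)).2 = v i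
    rw [k1 _ (hι2 _), ← data_wt k3.2 k2.2.2.1, k2.2.2.2.1]
  · filter_upwards [hφ i hi] with k hk b hb
    rw [hγ i hi b hb, hk b hb]

end Vale.Agent.P129N
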