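import Vale.Agent.P129.NegSch

/-!
The coding of finite sequences of finitely supported functionals.
-/

open Finset

namespace Vale.Agent.P129N

/-- Coding data on a linear order whose initial segments are countable. -/
class Cod (I : Type) [LinearOrder I] where
  e : I → I → ℕ
  e_inj : ∀ {β α α' : I}, α < β → α' < β → e β α = e β α' → α = α'
  r : I → ℕ → Bool
  r_inj : Function.Injective r

/-- Finitely supported rational functionals. -/
abbrev F (I : Type) := I →₀ ℚ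

/-- `f` lies completely before `g`. -/
def Succ {I R S : Type} [LT I] [Zero R] [Zero S] (f : I → R) (g : I → S) : Prop :=
  ∀ α β, f α ≠ 0 → g β ≠ 0 → α < β

variable {I : Type} [LinearOrder I] [Cod I]

/-- Finite approximation of the real attached to a point. -/
def node (n : ℕ) (α : I) : Finset ℕ := (range n).filter (fun t => Cod.r α t = true)

theorem node_le {n n' : ℕ} {α β : I} (h : node n' α = node n' β) (hn : n ≤ n') :
    node n α = node n β := by
  ext t
  have := congrArg (fun s => t ∈ s) h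
  simp only [node, mem_filter, mem_range, eq_iff_iff] at this ⊢
  constructor
  · rintro ⟨h1, h2⟩; exact ⟨h1, (this.1 ⟨by omega, h2⟩).2⟩
  · rintro ⟨h1, h2⟩; exact ⟨h1, (this.2 ⟨by omega, h2⟩).2⟩

theorem exists_sep (S : Finset I) : ∃ n, Set.InjOn (node n) (S : Set I) := by
  classical
  have h : ∀ α β : I, ∃ n, α ≠ β → node n α ≠ node n β := by
    intro α β
    by_cases hab : α = β
    · exact ⟨0, fun h => absurd hab h⟩
    · obtain ⟨t, ht⟩ := Function.ne_iff.1 (fun h => hab (Cod.r_inj h))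
      refine ⟨t + 1, fun _ h => ht ?_⟩
      have := congrArg (fun s => t ∈ s) h
      simp only [node, mem_filter, mem_range, eq_iff_iff, Nat.lt_succ_self, true_and] at this
      exact Bool.eq_iff_iff.2 this
  choose g hg using h
  refine ⟨(S ×ˢ S).sup (fun p => g p.1 p.2), ?_⟩
  intro α hα β hβ he
  by_contra hne
  exact hg α β hne (node_le he (Finset.le_sup (f := fun p : I × I => g p.1 p.2)
    (b := (α, β)) (Finset.mem_product.2 ⟨hα, hβ⟩)))

theorem exists_prec (S : Finset I) (q : ℕ) : ∃ n, q ≤ n ∧ Set.InjOn (node n) (S : Set I) := by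
  obtain ⟨n, hn⟩ := exists_sep S
  exact ⟨max n q, le_max_right _ _, fun α hα β hβ he => hn hα hβ (node_le he (le_max_left _ _))⟩

/-- A precision separating the points of `S`. -/
noncomputable def prec (S : Finset I) (q : ℕ) : ℕ := Classical.choose (exists_prec S q)

theorem le_prec (S : Finset I) (q : ℕ) : q ≤ prec S q := (Classical.choose_spec (exists_prec S q)).1

theorem prec_inj (S : Finset I) (q : ℕ) : Set.InjOn (node (prec S q)) (S : Set I) :=
  (Classical.choose_spec (exists_prec S q)).2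

/-- The union of the supports of the first `q` functionals. -/
noncomputable def supp (ψ : ℕ → F I × ℕ) (q : ℕ) : Finset I :=
  (range q).biUnion (fun a => (ψ a).1.support)

omit [Cod I] in
theorem mem_supp {ψ : ℕ → F I × ℕ} {q : ℕ} {α : I} :
    α ∈ supp ψ q ↔ ∃ a < q, (ψ a).1 α ≠ 0 := by simp [supp]

/-- The type of codes. -/
abbrev Data := ℕ × ℕ × Finset (ℕ × ℕ) × Finset (ℕ × Finset ℕ × ℚ) × Finset (Finset ℕ × Finset ℕ × ℕ)

/-- An injection of codes into the naturals. -/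
noncomputable def enc : Data → ℕ := Classical.choose (exists_injective_nat Data)

theorem enc_inj : Function.Injective enc := Classical.choose_spec (exists_injective_nat Data)

/-- The code of the first `q` entries. -/
noncomputable def data (ψ : ℕ → F I × ℕ) (q : ℕ) : Data :=
  (q, prec (supp ψ q) q, (range q).image (fun a => (a, (ψ a).2)),
    (range q).biUnion (fun a => (ψ a).1.support.image
      (fun α => (a, node (prec (supp ψ q) q) α, (ψ a).1 α))),
    ((supp ψ q ×ˢ supp ψ q).filter (fun p => p.1 < p.2)).image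
      (fun p => (node (prec (supp ψ q) q) p.1, node (prec (supp ψ q) q) p.2, Cod.e p.2 p.1)))

/-- The weight that has to follow the first `q` entries. -/
noncomputable def sg (ψ : ℕ → F I × ℕ) (q : ℕ) : ℕ :=
  Nat.pair (enc (data ψ q)) ((ψ (q - 1)).2 + 1)

theorem data_congr {ψ ψ' : ℕ → F I × ℕ} {q : ℕ} (h : ∀ a < q, ψ a = ψ' a) :
    data ψ q = data ψ' q := by
  have hs : supp ψ q = supp ψ' q :=
    Finset.biUnion_congr rfl (fun a ha => by rw [h a (mem_range.1 ha)])
  unfold data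
  rw [hs]
  congr 3
  · exact Finset.image_congr (fun a ha => by rw [h a (mem_range.1 ha)])
  · congr 1
    exact Finset.biUnion_congr rfl (fun a ha => by rw [h a (mem_range.1 ha)])

theorem sg_congr {ψ ψ' : ℕ → F I × ℕ} {q : ℕ} (h : ∀ a < q + 1, ψ a = ψ' a) :
    sg ψ (q + 1) = sg ψ' (q + 1) := by
  unfold sg
  rw [data_congr h, Nat.add_sub_cancel, h q (by omega)]

theorem lt_sg (ψ : ℕ → F I × ℕ) (q : ℕ) : (ψ q).2 < sg ψ (q + 1) := by
  unfold sg
  exact lt_of_lt_of_le (by simp) (Nat.right_le_pair _ _)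

theorem data_of_sg {ψ ψ' : ℕ → F I × ℕ} {q q' : ℕ} (h : sg ψ q = sg ψ' q') :
    data ψ q = data ψ' q' := enc_inj (Nat.pair_eq_pair.1 h).1

theorem data_len {ψ ψ' : ℕ → F I × ℕ} {q q' : ℕ} (h : data ψ q = data ψ' q') : q = q' :=
  congrArg Prod.fst h

theorem data_prec {ψ ψ' : ℕ → F I × ℕ} {q : ℕ} (h : data ψ q = data ψ' q) :
    prec (supp ψ q) q = prec (supp ψ' q) q := congrArg (fun d : Data => d.2.1) h

theorem data_wt {ψ ψ' : ℕ → F I × ℕ} {q : ℕ} (h : data ψ q = data ψ' q) {a : ℕ} (ha : a < q) :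
    (ψ a).2 = (ψ' a).2 := by
  have h1 : (range q).image (fun a => (a, (ψ a).2)) = (range q).image (fun a => (a, (ψ' a).2)) :=
    congrArg (fun d : Data => d.2.2.1) h
  have : (a, (ψ a).2) ∈ (range q).image (fun a => (a, (ψ' a).2)) :=
    h1 ▸ Finset.mem_image_of_mem _ (mem_range.2 ha)
  obtain ⟨b, -, hb⟩ := Finset.mem_image.1 this
  obtain ⟨rfl, h2⟩ := Prod.mk.inj hb
  exact h2.symm

theorem data_val {ψ ψ' : ℕ → F I × ℕ} {q : ℕ} (h : data ψ q = data ψ' q) {a : ℕ} (ha : a < q)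
    {α : I} (hα : (ψ a).1 α ≠ 0) : ∃ α', (ψ' a).1 α' = (ψ a).1 α ∧
      node (prec (supp ψ' q) q) α' = node (prec (supp ψ' q) q) α := by
  have h1 : (range q).biUnion (fun a => (ψ a).1.support.image
      (fun α => (a, node (prec (supp ψ q) q) α, (ψ a).1 α))) =
      (range q).biUnion (fun a => (ψ' a).1.support.image
      (fun α => (a, node (prec (supp ψ' q) q) α, (ψ' a).1 α))) :=
    congrArg (fun d : Data => d.2.2.2.1) h
  have : (a, node (prec (supp ψ q) q) α, (ψ a).1 α) ∈ (range q).biUnion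
      (fun a => (ψ' a).1.support.image
      (fun α => (a, node (prec (supp ψ' q) q) α, (ψ' a).1 α))) :=
    h1 ▸ Finset.mem_biUnion.2 ⟨a, mem_range.2 ha,
      Finset.mem_image_of_mem _ (Finsupp.mem_support_iff.2 hα)⟩
  obtain ⟨b, -, hb⟩ := Finset.mem_biUnion.1 this
  obtain ⟨α', -, hα'⟩ := Finset.mem_image.1 hb
  obtain ⟨rfl, h2⟩ := Prod.mk.inj hα'
  obtain ⟨h3, h4⟩ := Prod.mk.inj h2
  exact ⟨α', h4, by rw [h3, data_prec h]⟩

theorem data_supp {ψ ψ' : ℕ → F I × ℕ} {q : ℕ} (h : data ψ q = data ψ' q) {α β : I}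
    (hβ : β ∈ supp ψ q) (hβ' : β ∈ supp ψ' q) (hα : α ∈ supp ψ q) (hle : α ≤ β) :
    α ∈ supp ψ' q := by
  rcases hle.eq_or_lt with rfl | hlt
  · exact hβ'
  have h1 : ((supp ψ q ×ˢ supp ψ q).filter (fun p => p.1 < p.2)).image
      (fun p => (node (prec (supp ψ q) q) p.1, node (prec (supp ψ q) q) p.2, Cod.e p.2 p.1)) =
      ((supp ψ' q ×ˢ supp ψ' q).filter (fun p => p.1 < p.2)).image
      (fun p => (node (prec (supp ψ' q) q) p.1, node (prec (supp ψ' q) q) p.2, Cod.e p.2 p.1)) :=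
    congrArg (fun d : Data => d.2.2.2.2) h
  have : (node (prec (supp ψ q) q) α, node (prec (supp ψ q) q) β, Cod.e β α) ∈
      ((supp ψ' q ×ˢ supp ψ' q).filter (fun p => p.1 < p.2)).image
      (fun p => (node (prec (supp ψ' q) q) p.1, node (prec (supp ψ' q) q) p.2, Cod.e p.2 p.1)) :=
    h1 ▸ Finset.mem_image_of_mem
      (fun p : I × I => (node (prec (supp ψ q) q) p.1, node (prec (supp ψ q) q) p.2,
        Cod.e p.2 p.1)) (a := (α, β))
      (Finset.mem_filter.2 ⟨Finset.mem_product.2 ⟨hα, hβ⟩, hlt⟩)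
  obtain ⟨⟨α', β'⟩, hm, he⟩ := Finset.mem_image.1 this
  obtain ⟨hm1, hm2⟩ := Finset.mem_filter.1 hm
  obtain ⟨hm3, hm4⟩ := Finset.mem_product.1 hm1
  obtain ⟨-, h2⟩ := Prod.mk.inj he
  obtain ⟨h3, h4⟩ := Prod.mk.inj h2
  rw [data_prec h] at h3
  have hb : β' = β := prec_inj _ _ hm4 hβ' h3
  subst hb
  have : α' = α := Cod.e_inj hm2 hlt h4
  exact this ▸ hm3

theorem data_below_aux {ψ ψ' : ℕ → F I × ℕ} {q : ℕ} (h : data ψ q = data ψ' q) {α β : I}
    (hβ : β ∈ supp ψ q) (hβ' : β ∈ supp ψ' q) (hle : α ≤ β) {a : ℕ} (ha : a < q)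
    (hα : (ψ a).1 α ≠ 0) : (ψ a).1 α = (ψ' a).1 α := by
  obtain ⟨α', h1, h2⟩ := data_val h ha hα
  have m1 : α ∈ supp ψ' q := data_supp h hβ hβ' (mem_supp.2 ⟨a, ha, hα⟩) hle
  have m2 : α' ∈ supp ψ' q := mem_supp.2 ⟨a, ha, by rw [h1]; exact hα⟩
  rw [← h1, prec_inj _ _ m2 m1 h2]

/-- Two sequences with the same code and a common point agree below that point. -/
theorem data_below {ψ ψ' : ℕ → F I × ℕ} {q : ℕ} (h : data ψ q = data ψ' q) {α β : I}
    (hβ : β ∈ supp ψ q) (hβ' : β ∈ supp ψ' q) (hle : α ≤ β) {a : ℕ} (ha : a < q) :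
    (ψ a).1 α = (ψ' a).1 α := by
  by_cases h1 : (ψ a).1 α = 0
  · by_cases h2 : (ψ' a).1 α = 0
    · rw [h1, h2]
    · exact (data_below_aux h.symm hβ' hβ hle ha h2).symm
  · exact data_below_aux h hβ hβ' hle ha h1

/-- Functionals that occur at the same place of sequences with equal long codes coincide. -/
theorem eq_of_data {f f' : F I} (a : ℕ) (h : ∀ n, ∃ (ψ ψ' : ℕ → F I × ℕ) (q : ℕ), n ≤ q ∧
    data ψ q = data ψ' q ∧ (ψ a).1 = f ∧ (ψ' a).1 = f') : f = f' := by
  classical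
  obtain ⟨n, hn⟩ := exists_sep (f.support ∪ f'.support)
  obtain ⟨ψ, ψ', q, hq, hd, rfl, rfl⟩ := h (max n (a + 1))
  have key : ∀ {ψ ψ' : ℕ → F I × ℕ}, data ψ q = data ψ' q →
      Set.InjOn (node n) (((ψ a).1.support ∪ (ψ' a).1.support : Finset I) : Set I) →
      ∀ α, (ψ a).1 α ≠ 0 → (ψ a).1 α = (ψ' a).1 α := by
    intro ψ ψ' hd hn α hα
    obtain ⟨α', h1, h2⟩ := data_val hd (by omega : a < q) hα
    have : α' = α := hn (by simp [h1, hα]) (by simp [hα])
      (node_le h2 (le_trans (by omega) (le_prec _ _)))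
    rw [← h1, this]
  ext α
  by_cases h1 : (ψ a).1 α = 0
  · by_cases h2 : (ψ' a).1 α = 0
    · rw [h1, h2]
    · exact (key hd.symm (by rwa [Finset.union_comm]) α h2).symm
  · exact key hd hn α h1

/-- The combinatorial part of being a special sequence of length `p`. -/
def Chain (ψ : ℕ → F I × ℕ) (p : ℕ) : Prop :=
  (∀ a a', a < a' → a' < p → Succ (ψ a).1 (ψ a').1) ∧
    ∀ a, a + 1 < p → (ψ (a + 1)).2 = sg ψ (a + 1)

theorem Chain.lt {ψ : ℕ → F I × ℕ} {p : ℕ} (h : Chain ψ p) {a a' : ℕ} (haa : a < a')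
    (ha : a' < p) : (ψ a).2 < (ψ a').2 := by
  induction haa with
  | refl => rw [h.2 a ha]; exact lt_sg ψ a
  | step _ ih =>
    rename_i m _
    have := ih (by omega)
    rw [h.2 m ha]; exact lt_trans this (lt_sg ψ m)

theorem Chain.le {ψ : ℕ → F I × ℕ} {p : ℕ} (h : Chain ψ p) {a a' : ℕ} (haa : a ≤ a')
    (ha : a' < p) : (ψ a).2 ≤ (ψ a').2 := by
  rcases haa.eq_or_lt with rfl | h'
  · exact le_rfl
  · exact (h.lt h' ha).le

theorem Chain.lt_of_wt {ψ : ℕ → F I × ℕ} {p : ℕ} (h : Chain ψ p) {a a' : ℕ} (ha : a < p)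
    (hw : (ψ a).2 < (ψ a').2) : a < a' := by
  by_contra hn
  exact absurd (h.le (not_lt.1 hn) ha) (not_le.2 hw)

theorem Chain.inj {ψ : ℕ → F I × ℕ} {p : ℕ} (h : Chain ψ p) {a a' : ℕ} (ha : a < p) (ha' : a' < p)
    (hw : (ψ a).2 = (ψ a').2) : a = a' := by
  rcases lt_trichotomy a a' with h1 | h1 | h1
  · exact absurd hw (h.lt h1 ha').ne
  · exact h1
  · exact absurd hw (h.lt h1 ha).ne'

theorem Chain.self_le {ψ : ℕ → F I × ℕ} {p : ℕ} (h : Chain ψ p) {a : ℕ} (ha : a < p) :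
    a ≤ (ψ a).2 := by
  induction a with
  | zero => exact Nat.zero_le _
  | succ a ih => exact lt_of_le_of_lt (ih (by omega)) (h.lt (Nat.lt_succ_self a) ha)

theorem Chain.congr {ψ ψ' : ℕ → F I × ℕ} {p p' : ℕ} (h : Chain ψ p) (hp : p' ≤ p)
    (he : ∀ a < p', ψ' a = ψ a) : Chain ψ' p' := by
  refine ⟨fun a a' h1 h2 => ?_, fun a ha => ?_⟩
  · rw [he a (by omega), he a' h2]; exact h.1 a a' h1 (by omega)
  · rw [he _ ha, h.2 a (by omega)]
    exact (sg_congr fun b hb => he b (by omega)).symm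

/-- A shared weight forces equal positions and equal codes. -/
theorem Chain.share {ψ ψ' : ℕ → F I × ℕ} {p p' q q' : ℕ} (h : Chain ψ p) (h' : Chain ψ' p')
    (hq : q < p) (hq' : q' < p') (h0 : 0 < q) (h0' : 0 < q') (hw : (ψ q).2 = (ψ' q').2) :
    q = q' ∧ data ψ q = data ψ' q := by
  obtain ⟨q, rfl⟩ := Nat.exists_eq_succ_of_ne_zero h0.ne'
  obtain ⟨q', rfl⟩ := Nat.exists_eq_succ_of_ne_zero h0'.ne'
  rw [h.2 q hq, h'.2 q' hq'] at hw
  have hd := data_of_sg hw
  have he := data_len hd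
  obtain rfl : q = q' := by omega
  exact ⟨rfl, hd⟩

end Vale.Agent.P129N
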