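import Vale.Agent.P129.NegWin

/-!
Exact pairs and the main theorem on block subspaces.
-/

open Finset Filter Topology

namespace Vale.Agent.P129N

variable {I : Type} [LinearOrder I] [Cod I]

theorem card_le_two {S : Finset ℕ} (h : ∀ a ∈ S, ∀ b ∈ S, ∀ c ∈ S, a < b → b < c → False) :
    S.card ≤ 2 := by
  by_contra hn
  obtain ⟨a, ha, b, hb, c, hc, h1, h2, h3⟩ := Finset.two_lt_card.1 (not_le.1 hn)
  rcases lt_or_gt_of_ne h1 with k1 | k1 <;> rcases lt_or_gt_of_ne h2 with k2 | k2 <;>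
    rcases lt_or_gt_of_ne h3 with k3 | k3
  · exact h a ha b hb c hc k1 k3
  · exact h a ha c hc b hb k2 k3
  · omega
  · exact h c hc a ha b hb k2 k1
  · exact h b hb a ha c hc k1 k2
  · omega
  · exact h b hb c hc a ha k3 k2
  · exact h c hc b hb a ha k3 k1

omit [LinearOrder I] [Cod I] in
theorem seg_empty (ψ : ℕ → F I × ℕ) (p : ℕ) (E : Set I) {lo hi : ℕ} (h : hi ≤ lo) :
    seg ψ p E lo hi = 0 :=
  Finset.sum_eq_zero fun a _ => if_neg (by omega)

theorem win_est {x : ℕ → Z I} {J P : ℕ → ℕ} (hR : RS x J P) {ε : ℝ} (hε : 0 < ε)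
    (hP : ∀ t, 7 ≤ P t)
    (hT : ∀ a b c e, a < b → b < c → c < e → ¬Tri x J P (ε / P a) b c e)
    {d : D2 I} {ω : ℕ} (hd : d.Ok ω) (Q : Finset ℕ) :
    ∃ U ⊆ Q, Sch 2 P U ∧ ∀ t ∈ Q, t ∉ U → |ev (d.cut (J t) (P t)).val (x t)| ≤ ε := by
  classical
  have hzero : ∀ t, ¬d.S.card ≤ P t → |ev (d.cut (J t) (P t)).val (x t)| ≤ ε := by
    intro t ht
    rw [D2.cut_def, Finset.sum_eq_zero]
    · simpa using hε.le
    · intro l hl
      have := hd.2.cd l hl
      rw [seg_empty _ _ _ (by omega), smul_zero]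
  rcases (Q.filter (fun t => d.S.card ≤ P t)).eq_empty_or_nonempty with he | hne
  · refine ⟨∅, by simp, Sch.empty _ _, fun t ht _ => hzero t fun h => ?_⟩
    have : t ∈ Q.filter (fun t => d.S.card ≤ P t) := Finset.mem_filter.2 ⟨ht, h⟩
    rw [he] at this; simp at this
  set t0 := (Q.filter (fun t => d.S.card ≤ P t)).min' hne with ht0
  have h0 := Finset.mem_filter.1 ((Q.filter (fun t => d.S.card ≤ P t)).min'_mem hne)
  rw [← ht0] at h0
  let XB : ℕ → Finset ℕ := fun l => Q.filter (fun t => t0 < t ∧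
    Big x J P (ε / P t0) (d.ψ l) (d.p l) t)
  let XC : ℕ → Finset ℕ := fun l => Q.filter (fun t => t0 < t ∧
    (∃ α, co (x t) α ≠ 0 ∧ α ∈ d.E l) ∧ ∃ α, co (x t) α ≠ 0 ∧ α ∉ d.E l)
  let XW : ℕ → Finset ℕ := fun v => Q.filter (fun t => t0 < t ∧ J t < v ∧ v < P t)
  let X : ℕ → Finset ℕ := fun l => {t0} ∪ XB l ∪ XC l ∪ XW (d.lo l) ∪ XW (d.hi l)
  have cW : ∀ v, (XW v).card ≤ 1 := by
    intro v
    refine Finset.card_le_one.2 fun a ha b hb => ?_
    obtain ⟨-, -, a1, a2⟩ := Finset.mem_filter.1 ha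
    obtain ⟨-, -, b1, b2⟩ := Finset.mem_filter.1 hb
    rcases lt_trichotomy a b with h | h | h
    · have := hR.lt' h; omega
    · exact h
    · have := hR.lt' h; omega
  have cX : ∀ l ∈ d.S, (X l).card ≤ 7 := by
    intro l hl
    have cB : (XB l).card ≤ 2 := card_le_two fun a ha b hb c hc h1 h2 =>
      hT t0 a b c (Finset.mem_filter.1 ha).2.1 h1 h2 ⟨_, _, ⟨hd.1 l hl, hd.2.ch l hl⟩,
        (Finset.mem_filter.1 ha).2.2, (Finset.mem_filter.1 hb).2.2, (Finset.mem_filter.1 hc).2.2⟩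
    have cC : (XC l).card ≤ 2 := by
      refine card_le_two fun a ha b hb c hc h1 h2 => ?_
      obtain ⟨-, -, ⟨α, a1, a2⟩, -⟩ := Finset.mem_filter.1 ha
      obtain ⟨-, -, -, β, b1, b2⟩ := Finset.mem_filter.1 hb
      obtain ⟨-, -, ⟨γ, c1, c2⟩, -⟩ := Finset.mem_filter.1 hc
      exact b2 ((hd.2.oc l hl).out a2 c2 ⟨(hR.succ _ _ h1 _ _ a1 b1).le,
        (hR.succ _ _ h2 _ _ b1 c1).le⟩)
    have e1 := Finset.card_union_le ({t0} ∪ XB l ∪ XC l ∪ XW (d.lo l)) (XW (d.hi l))
    have e2 := Finset.card_union_le ({t0} ∪ XB l ∪ XC l) (XW (d.lo l))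
    have e3 := Finset.card_union_le ({t0} ∪ XB l) (XC l)
    have e4 := Finset.card_union_le ({t0} : Finset ℕ) (XB l)
    have e5 := cW (d.lo l)
    have e6 := cW (d.hi l)
    rw [Finset.card_singleton] at e4
    change ({t0} ∪ XB l ∪ XC l ∪ XW (d.lo l) ∪ XW (d.hi l)).card ≤ 7
    omega
  have mX : ∀ l t, t ∈ X l → t ∈ Q ∧ t0 ≤ t := by
    intro l t ht
    simp only [X, XB, XC, XW, Finset.mem_union, Finset.mem_singleton, Finset.mem_filter] at ht
    rcases ht with (((rfl | h) | h) | h) | h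
    · exact ⟨h0.1, le_rfl⟩
    all_goals exact ⟨h.1, h.2.1.le⟩
  refine ⟨d.S.biUnion X, ?_, ?_, ?_⟩
  · intro t ht
    obtain ⟨l, -, h⟩ := Finset.mem_biUnion.1 ht
    exact (mX l t h).1
  · refine Sch.union d.S X (fun l hl => Sch.one fun t _ => le_trans (cX l hl) (hP t))
      (fun t ht => by simpa using ht) fun t ht => ?_
    obtain ⟨l, -, h⟩ := Finset.mem_biUnion.1 ht
    exact le_trans h0.2 (hR.smP.monotone (mX l t h).2)
  · intro t ht hn
    by_cases hc : d.S.card ≤ P t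
    swap
    · exact hzero t hc
    have hle : t0 ≤ t := Finset.min'_le _ _ (Finset.mem_filter.2 ⟨ht, hc⟩)
    have hP0 : (0 : ℝ) < P t0 := by have := hP t0; positivity
    have hη : 0 ≤ ε / P t0 := by positivity
    rw [D2.cut_def, ev_sum]
    refine le_trans (Finset.abs_sum_le_sum_abs _ _) (le_trans (Finset.sum_le_sum
      (g := fun _ => ε / P t0) fun l hl => ?_) ?_)
    · have hX : t ∉ X l := fun h => hn (Finset.mem_biUnion.2 ⟨l, hl, h⟩)
      simp only [X, XB, XC, XW, Finset.mem_union, Finset.mem_singleton, Finset.mem_filter, ht,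
        true_and, not_or] at hX
      obtain ⟨⟨⟨⟨x1, x2⟩, x3⟩, x4⟩, x5⟩ := hX
      have hlt : t0 < t := lt_of_le_of_ne hle (Ne.symm x1)
      have key : |ev (seg (d.ψ l) (d.p l) (d.E l) (max (d.lo l) (J t)) (min (d.hi l) (P t)))
          (x t)| ≤ ε / P t0 := by
        rw [← Set.univ_inter (d.E l), ← fl_seg]
        by_cases hin : ∃ α, co (x t) α ≠ 0 ∧ α ∈ d.E l
        · have hall : ∀ α, co (x t) α ≠ 0 → α ∈ d.E l := by
            intro α hα
            by_contra h'
            exact x3 ⟨hlt, hin, α, hα, h'⟩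
          rw [ev_fl_of_subset hall]
          by_cases hw : d.lo l ≤ J t ∧ P t ≤ d.hi l
          · rw [max_eq_right hw.1, min_eq_right hw.2]
            exact not_lt.1 fun h => x2 ⟨hlt, h⟩
          · have := hR.le t
            rw [seg_empty _ _ _ (by omega)]
            simpa using hη
        · rw [ev_fl_of_disj fun α hα h' => hin ⟨α, hα, h'⟩]
          simpa using hη
      rw [ev_smul, abs_mul]
      rcases hd.2.sg l hl with h | h <;> simpa [h] using key
    · rw [Finset.sum_const, nsmul_eq_mul, mul_div_assoc', div_le_iff₀ hP0]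
      have : (d.S.card : ℝ) ≤ P t0 := by exact_mod_cast h0.2
      nlinarith

theorem Sch.union2 {ι : Type} [DecidableEq ι] {n : ℕ} {P : ι → ℕ} {A B : Finset ι}
    (hA : Sch n P A) (hB : Sch n P B) (h : ∀ a, 2 ≤ P a) : Sch (n + 1) P (A ∪ B) := by
  refine Sch.union (Finset.univ : Finset Bool) (fun b => if b then A else B) ?_ ?_ ?_
  · intro b _; cases b <;> simpa
  · intro a ha
    rcases Finset.mem_union.1 ha with h | h
    · exact ⟨true, by simp, by simpa⟩
    · exact ⟨false, by simp, by simpa⟩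
  · intro a _; simpa using h a

theorem low_est {x : ℕ → Z I} {J P : ℕ → ℕ} (hR : RS x J P) {ε θ : ℝ} (hθ : 0 ≤ θ) {j lev : ℕ}
    (hP : ∀ t, bb j + 2 ≤ P t) (hN : ∀ t, Negl (P t) (x t) ε) {Q : Finset ℕ}
    (ih : ∀ g ω, K g ω → ∃ U ⊆ Q, Sch lev P U ∧ ∀ t ∈ Q, t ∉ U → |ev g (x t)| ≤ θ)
    {h : F I} {w : ℕ} (hh : T h w) (hw : w < j) :
    ∃ U ⊆ Q, Sch (lev + bb j + 1) P U ∧ ∀ t ∈ Q, t ∉ U → |ev h (x t)| ≤ (θ + ε) / 2 ^ (w + 2) := by
  classical
  obtain ⟨A, c, ω, h1, h2, h3, rfl⟩ := hh.cases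
  have hnb := nn_le_bb hw
  obtain ⟨U, u1, u2, u3⟩ := split (Q := Q) h2 h3 hR.succ (P := P)
    (fun q _ => by have := hP q; omega)
  have hV : ∀ r, ∃ V ⊆ Q, r ∈ A → Sch lev P V ∧ ∀ t ∈ Q, t ∉ V → |ev (c r) (x t)| ≤ θ := by
    intro r
    by_cases hr : r ∈ A
    · obtain ⟨V, v1, v2⟩ := ih _ _ (h1 r hr)
      exact ⟨V, v1, fun _ => v2⟩
    · exact ⟨∅, by simp, fun h => absurd h hr⟩
  choose V v1 v2 using hV
  refine ⟨U ∪ A.biUnion (fun r => (V r).filter (fun t => ω r < P t)), ?_, ?_, ?_⟩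
  · refine Finset.union_subset u1 fun t ht => ?_
    obtain ⟨r, -, h⟩ := Finset.mem_biUnion.1 ht
    exact v1 r (Finset.mem_filter.1 h).1
  · refine Sch.union2 (u2.mono (fun t _ => by have := hP t; omega) (by omega))
      ((Sch.comp (fun r => (V r).filter (fun t => ω r < P t)) h3 (k := lev) ?_ ?_ ?_).mono
        (fun t _ => by have := hP t; omega) (by omega)) (fun t => by have := hP t; omega)
    · exact fun r hr => (v2 r hr).1.sub (Finset.filter_subset _ _) fun _ _ => le_rfl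
    · intro r _ t ht
      have := hP t
      exact max_le (Finset.mem_filter.1 ht).2.le (by omega)
    · intro t ht; simpa using ht
  · intro t ht hn
    rw [Finset.mem_union, not_or] at hn
    rw [ev_smul, ev_sum, ← Finset.sum_filter_add_sum_filter_not A (fun r => ω r < P t)]
    push_cast
    rw [mm_cast, abs_mul, abs_of_pos (by positivity : (0 : ℝ) < 1 / 2 ^ (w + 2)), one_div,
      inv_mul_eq_div]
    gcongr
    refine le_trans (abs_add_le _ _) (add_le_add (abs_sum_le_of_unique hθ ?_ ?_) ?_)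
    · intro r hr r' hr' k1 k2
      exact u3 t ht hn.1 r (Finset.mem_filter.1 hr).1 r' (Finset.mem_filter.1 hr').1
        (Finset.mem_filter.1 hr).2 (Finset.mem_filter.1 hr').2 k1 k2
    · intro r hr
      obtain ⟨r1, r2⟩ := Finset.mem_filter.1 hr
      exact (v2 r r1).2 t ht fun h =>
        hn.2 (Finset.mem_biUnion.2 ⟨r, r1, Finset.mem_filter.2 ⟨h, r2⟩⟩)
    · refine le_trans (Finset.abs_sum_le_sum_abs _ _)
        ((hN t).fam (h2.sub (Finset.filter_subset _ _)) fun r hr α => ?_)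
      exact (h1 r (Finset.mem_filter.1 hr).1).sup' (not_lt.1 (Finset.mem_filter.1 hr).2) α

theorem claim {x : ℕ → Z I} {J P : ℕ → ℕ} (hR : RS x J P) {j : ℕ} (hn : ∀ t, ‖x t‖ ≤ 1)
    (hf : ∀ t f w, w < J t → T f w → |ev f (x t)| ≤ 2 / 2 ^ (w + 2))
    (hN : ∀ t, Negl (P t) (x t) (1 / 2 ^ (j + 2))) (hJ : ∀ t, j + bb j + 8 ≤ J t)
    (hT : ∀ a b c e, a < b → b < c → c < e → ¬Tri x J P (1 / 2 ^ (j + 2) / P a) b c e)
    (Q : Finset ℕ) (s : ℕ) : ∀ g ω, K g ω → ∃ U ⊆ Q, Sch (s * (bb j + 3)) P U ∧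
      ∀ t ∈ Q, t ∉ U → |ev g (x t)| ≤ 13 * (1 / 2 ^ (j + 2)) + 1 / 2 ^ s := by
  classical
  set ε : ℝ := 1 / 2 ^ (j + 2) with hε
  have hε0 : 0 < ε := by positivity
  have hP : ∀ t, j + bb j + 8 ≤ P t := fun t => le_trans (hJ t) (hR.le t)
  induction s with
  | zero =>
    intro g ω hg
    refine ⟨∅, by simp, Sch.empty _ _, fun t _ _ => le_trans (hg.abs_ev _) ?_⟩
    have := hn t
    simp only [pow_zero, div_one]; linarith
  | succ s ih =>
    intro g ω hg
    have hθ : (0 : ℝ) ≤ 13 * ε + 1 / 2 ^ s := by positivity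
    rcases hg.cases with ⟨α, σ, hs, rfl⟩ | ⟨d, hd, rfl⟩
    · refine ⟨Q.filter (fun t => co (x t) α ≠ 0), Finset.filter_subset _ _, ?_, ?_⟩
      · refine Sch.mono (n := 0) (Finset.card_le_one.2 fun a ha b hb => ?_)
          (fun t _ => by have := hP t; omega) (Nat.zero_le _)
        have a1 := (Finset.mem_filter.1 ha).2
        have b1 := (Finset.mem_filter.1 hb).2
        rcases lt_trichotomy a b with h | h | h
        · exact absurd (hR.succ _ _ h α α a1 b1) (lt_irrefl _)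
        · exact h
        · exact absurd (hR.succ _ _ h α α b1 a1) (lt_irrefl _)
      · intro t ht hnot
        have : co (x t) α = 0 := by
          by_contra h'; exact hnot (Finset.mem_filter.2 ⟨ht, h'⟩)
        rw [ev_single, this, mul_zero, abs_zero]; positivity
    · obtain ⟨U0, u1, u2, u3⟩ := win_est hR hε0 (fun t => by have := hP t; omega) hT hd Q
      have hV : ∀ w, ∃ V ⊆ Q, w < j → Sch (s * (bb j + 3) + bb j + 1) P V ∧ ∀ t ∈ Q, t ∉ V →
          |ev (d.h w) (x t)| ≤ (13 * ε + 1 / 2 ^ s + ε) / 2 ^ (w + 2) := by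
        intro w
        by_cases hw : w < j
        · obtain ⟨V, v1, v2⟩ := low_est hR hθ (fun t => by have := hP t; omega) hN ih
            (hd.h_T w) hw
          exact ⟨V, v1, fun _ => v2⟩
        · exact ⟨∅, by simp, fun h => absurd h hw⟩
      choose V v1 v2 using hV
      refine ⟨(range (j + 1)).biUnion (fun w => if w < j then V w else U0), ?_, ?_, ?_⟩
      · intro t ht
        obtain ⟨w, -, h⟩ := Finset.mem_biUnion.1 ht
        split_ifs at h
        · exact v1 w h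
        · exact u1 h
      · rw [show (s + 1) * (bb j + 3) = s * (bb j + 3) + bb j + 2 + 1 by ring]
        refine Sch.union (range (j + 1)) (fun w => if w < j then V w else U0) ?_
          (fun t ht => by simpa using ht) (fun t _ => by have := hP t; simp; omega)
        intro w _
        split_ifs with hw
        · exact (v2 w hw).1.mono (fun t _ => by have := hP t; omega) (by omega)
        · exact u2.mono (fun t _ => by have := hP t; omega) (by omega)
      · intro t ht hnot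
        have n1 : t ∉ U0 := fun h => hnot (Finset.mem_biUnion.2 ⟨j, by simp, by simpa using h⟩)
        have n2 : ∀ w < j, t ∉ V w := fun w hw h =>
          hnot (Finset.mem_biUnion.2 ⟨w, by simp; omega, by simpa [hw] using h⟩)
        obtain ⟨B, hB, he⟩ := d.val_eq (P t)
        have l1 := hJ t
        have l2 := hR.le t
        rw [he, ← Finset.sum_Ico_consecutive _ (Nat.zero_le (P t)) hB,
          ← Finset.sum_Ico_consecutive _ (Nat.zero_le (J t)) l2,
          ← Finset.sum_Ico_consecutive _ (Nat.zero_le j) (by omega : j ≤ J t)]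
        simp only [map_add, _root_.add_apply]
        have b1 := abs_low (h := d.h) (a := 0) (b := j) (x := x t) (by positivity)
          (fun w hw => (v2 w (Finset.mem_Ico.1 hw).2).2 t ht (n2 w (Finset.mem_Ico.1 hw).2))
        have b2 := abs_low (h := d.h) (a := j) (b := J t) (x := x t) (D := 2) (by positivity)
          (fun w hw => hf t _ w (Finset.mem_Ico.1 hw).2 (hd.h_T w))
        have b3 := u3 t ht n1
        have b4 := (hN t).one (hd.cut (P t) B).K
        rw [d.cut_val] at b3 b4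
        have e1 : (2 : ℝ) / 2 ^ (j + 1) = 4 * ε := by rw [hε]; field_simp; ring
        have e2 : (1 : ℝ) / 2 ^ (s + 1) = 1 / 2 ^ s / 2 := by field_simp; ring
        rw [zero_add, pow_one] at b1
        rw [e1] at b2
        rw [e2, abs_le] at *
        constructor <;> linarith [b1.1, b1.2, b2.1, b2.2, b3.1, b3.2, b4.1, b4.2]

theorem Negl.mono {P : ℕ} {z : Z I} {ε ε' : ℝ} (h : Negl P z ε) (hε : ε ≤ ε') : Negl P z ε' := by
  obtain ⟨S, h1, h2⟩ := h
  exact ⟨S, h1, le_trans h2 hε⟩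

theorem Blk.exact {W : ℕ → Submodule ℝ (Z I)} (hW : Blk W)
    (H : ∀ (γ : Br I) (δ : ℝ), 0 < δ → ∃ N, ∀ h ∈ W N, |xi γ h| ≤ δ * ‖h‖) (j N : ℕ) :
    ∃ x ∈ W N, ∃ f, T f j ∧ (∀ α, f α ≠ 0 → α ∈ ran x) ∧ ‖x‖ ≤ 15 ∧ 3 / 10 ≤ ev f x := by
  classical
  set ε : ℝ := 1 / 2 ^ (j + 2) with hε
  have hε0 : 0 < ε := by positivity
  obtain ⟨x, J, P, hR, x1, x2, x3, x4⟩ := hW.exists_seq Good hW.exists_good
    (fun i => min ε (1 / (i + 1))) (fun i => by positivity) (j + bb j + 8) N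
  have hx : ∀ γ : Br I, Tendsto (fun i => xi γ (x i)) atTop (𝓝 0) := by
    intro γ
    refine Metric.tendsto_atTop.2 fun δ hδ => ?_
    obtain ⟨N', hN'⟩ := H γ (δ / 2) (by positivity)
    refine ⟨N', fun i hi => ?_⟩
    have := hN' (x i) (hW.anti (by omega) (x1 i))
    have h2 := (x2 i).1
    rw [Real.dist_eq, sub_zero]
    nlinarith
  obtain ⟨t, ht, hQ⟩ := exists_sub (fun s i i' k => ¬Tri x J P (ε / P s) i i' k) fun s =>
    window hR (fun i => (x2 i).1) (fun i => hW.fs _ _ (x1 i)) (fun i => (x2 i).2.2)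
      (fun i => (x4 i).mono (min_le_right _ _)) hx (by
        have : 0 < P s := by have := x3 s; have := hR.le s; omega
        positivity)
  have hR' := hR.sub ht
  obtain ⟨A, a, -, a2, ha, hs, a5⟩ := exists_avg hR'.smJ.monotone
    (fun L => ⟨L, hR'.smJ.le_apply⟩) hR'.smP.monotone ((j + 2) * (bb j + 3)) ε hε0 0
  have hF := Fam.comp (L := 0) (Lq := J ∘ t) a2 hR'.succ (fun q => (x2 (t q)).2.1)
    (fun _ _ => le_max_left _ _) (fun _ _ => Nat.zero_le _) ha hs
  obtain ⟨f, f1, f2, f3⟩ := hF.exists_T (j := j) (by rw [nn_eq]; nlinarith) (Nat.zero_le _)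
  set y : Z I := ∑ q ∈ A, a q • (x ∘ t) q with hy
  have hny : ‖y‖ ≤ 15 * ε := by
    refine norm_le fun g ω hg => ?_
    obtain ⟨U, u1, u2, u3⟩ := claim hR' (j := j) (fun q => (x2 (t q)).1)
      (fun q => (x2 (t q)).2.2) (fun q => (x4 (t q)).mono (min_le_left _ _)) (fun q => x3 (t q))
      hQ A (j + 2) g ω hg
    rw [hy, map_sum]
    calc ∑ q ∈ A, ev g (a q • (x ∘ t) q) ≤ ∑ q ∈ A, (a q * (14 * ε) + if q ∈ U then a q else 0) := by
          refine Finset.sum_le_sum fun q hq => ?_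
          rw [map_smul, smul_eq_mul]
          have haq := ha q
          split_ifs with hU
          · have := le_trans (le_abs_self _) (le_trans (hg.abs_ev ((x ∘ t) q)) (x2 (t q)).1)
            nlinarith
          · have := le_trans (le_abs_self _) (u3 q hq hU)
            rw [← hε] at this
            nlinarith
      _ = 14 * ε + ∑ q ∈ U, a q := by
          rw [Finset.sum_add_distrib, ← Finset.sum_mul, hs, one_mul, Finset.sum_ite_mem,
            Finset.inter_eq_right.2 u1]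
      _ ≤ 15 * ε := by have := a5 U u1 u2; linarith
  have h2 : (0 : ℝ) < 2 ^ (j + 2) := by positivity
  refine ⟨(2 : ℝ) ^ (j + 2) • y, (W N).smul_mem _ (Submodule.sum_mem _ fun q _ =>
    (W N).smul_mem _ (hW.anti (Nat.le_add_right _ _) (x1 (t q)))), f, f1, ?_, ?_, ?_⟩
  · intro α hα
    obtain ⟨b, c, k1, k2, k3⟩ := f2 α hα
    exact ⟨b, c, by simp [k1], by simp [k2], k3⟩
  · rw [norm_smul, Real.norm_of_nonneg h2.le]
    calc _ ≤ (2 : ℝ) ^ (j + 2) * (15 * ε) := by gcongr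
      _ = 15 := by rw [hε]; field_simp
  · rw [map_smul, smul_eq_mul]
    rw [div_le_iff₀ h2] at f3
    linarith

/-- Some branch functional does not tend to zero on the chain of block subspaces. -/
theorem Blk.main {W : ℕ → Submodule ℝ (Z I)} (hW : Blk W) :
    ∃ (γ : Br I) (δ : ℝ), 0 < δ ∧ ∀ N, ∃ h ∈ W N, δ * ‖h‖ < |xi γ h| := by
  classical
  by_contra hcon
  push Not at hcon
  choose X hX1 Ff hF1 hF2 hF3 hF4 using hW.exact hcon
  choose Nf hN using fun j N => hW.later N _ (hX1 j N)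
  let nw : (ℕ → F I × ℕ) → ℕ → ℕ := fun φ k => if k = 0 then 0 else sg φ k
  let st : ℕ → (ℕ → F I × ℕ) × ℕ := fun k => Nat.rec (fun _ => (0, 0), 0)
    (fun k s => (Function.update s.1 k (Ff (nw s.1 k) s.2, nw s.1 k),
      max (s.2 + 1) (Nf (nw s.1 k) s.2))) k
  let wt : ℕ → ℕ := fun k => nw (st k).1 k
  let x : ℕ → Z I := fun k => X (wt k) (st k).2
  let ψ : ℕ → F I × ℕ := fun k => (Ff (wt k) (st k).2, wt k)
  have hst : ∀ k, st (k + 1) = (Function.update (st k).1 k (ψ k),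
      max ((st k).2 + 1) (Nf (wt k) (st k).2)) := fun k => rfl
  have hpre : ∀ k, ∀ a < k, (st k).1 a = ψ a := by
    intro k
    induction k with
    | zero => intro a ha; omega
    | succ k ih =>
      intro a ha
      rw [hst]
      by_cases h : a = k
      · subst h; simp
      · simp only [Function.update_of_ne h]; exact ih a (by omega)
  have hm : StrictMono fun k => (st k).2 :=
    strictMono_nat_of_lt_succ fun k => by rw [hst]; simp only; omega
  have hsucc : ∀ k k', k < k' → Succ (co (x k)) (co (x k')) := by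
    intro k k' hk
    refine hN _ _ _ (hW.anti (le_trans ?_ (hm.monotone (Nat.succ_le_of_lt hk))) (hX1 _ _))
    exact le_max_right _ _
  have hspec : ∀ p, Spec ψ p := by
    intro p
    refine ⟨fun a _ => hF1 _ _, fun a a' h _ α β k1 k2 =>
      ran_lt (hsucc a a' h) (hF2 _ _ α k1) (hF2 _ _ β k2), fun a _ => ?_⟩
    change nw (st (a + 1)).1 (a + 1) = _
    simp only [nw, Nat.succ_ne_zero, if_false]
    exact sg_congr (hpre (a + 1))
  obtain ⟨N, hN'⟩ := hcon ⟨ψ, hspec⟩ (1 / 100) (by norm_num)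
  have h1 := hN' (x N) (hW.anti hm.le_apply (hX1 _ _))
  have h2 : xi ⟨ψ, hspec⟩ (x N) = ev (ψ N).1 (x N) := by
    refine tendsto_nhds_unique (xi_tendsto ⟨ψ, hspec⟩ (x N)) (tendsto_const_nhds.congr' ?_)
    filter_upwards [UU_ge (N + 1)] with B hB
    rw [ev_tl_zero, Finset.sum_eq_single N]
    · intro a _ hne
      refine ev_eq_zero fun α hα => ?_
      by_contra h'
      rcases lt_or_gt_of_ne hne with h | h
      · exact lt_irrefl _ (ran_lt (hsucc _ _ h) (hF2 _ _ α hα) (mem_ran h'))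
      · exact lt_irrefl _ (ran_lt (hsucc _ _ h) (mem_ran h') (hF2 _ _ α hα))
    · intro hn; exact absurd (mem_range.2 hB) hn
  have h3 : 3 / 10 ≤ ev (ψ N).1 (x N) := hF4 _ _
  have h4 : ‖x N‖ ≤ 15 := hF3 _ _
  have := le_abs_self (xi ⟨ψ, hspec⟩ (x N))
  linarith

end Vale.Agent.P129N
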