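import Vale.Agent.P129.NegBr

/-!
Abstract construction of a second predual.
-/

open Finset Filter Topology

namespace Vale.Agent.P129N

section general
variable {Y D : Type} [NormedAddCommGroup Y] [NormedSpace ℝ Y] [NormedAddCommGroup D]
  [NormedSpace ℝ D]

theorem factor (B : Y →L[ℝ] D) {k : ℝ} (hk : 0 ≤ k) (hB : ∀ d, ∃ y, B y = d ∧ ‖y‖ ≤ k * ‖d‖)
    (G : Y →L[ℝ] ℝ) (hG : ∀ y, B y = 0 → G y = 0) :
    ∃ a : D →L[ℝ] ℝ, ‖a‖ ≤ ‖G‖ * k ∧ ∀ y, a (B y) = G y := by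
  choose σ h1 h2 using hB
  have key : ∀ y y', B y = B y' → G y = G y' := fun y y' h => by
    have := hG (y - y') (by rw [map_sub, h, sub_self])
    rwa [map_sub, sub_eq_zero] at this
  have hb : ∀ d, ‖G (σ d)‖ ≤ ‖G‖ * k * ‖d‖ := fun d => by
    refine le_trans (G.le_opNorm _) ?_
    rw [mul_assoc]; gcongr; exact h2 d
  refine ⟨LinearMap.mkContinuous
    { toFun := fun d => G (σ d)
      map_add' := fun d d' => by rw [← map_add]; exact key _ _ (by simp [h1])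
      map_smul' := fun c d => by
        rw [RingHom.id_apply, ← map_smul]; exact key _ _ (by simp [h1]) } (‖G‖ * k) hb,
    LinearMap.mkContinuous_norm_le _ (by positivity) _, fun y => key _ _ (h1 _)⟩

theorem perturb [CompleteSpace Y] (q τ : Y →L[ℝ] D) (hq : ∀ d, ∃ y, q y = d ∧ ‖y‖ ≤ 2 * ‖d‖)
    (hτ : ∀ y, ‖τ y‖ ≤ ‖y‖ / 4) (d : D) : ∃ y, (q - τ) y = d ∧ ‖y‖ ≤ 4 * ‖d‖ := by
  choose σ h1 h2 using hq
  let s : ℕ → D := fun n => (fun e => τ (σ e))^[n] d
  have hs : ∀ n, s (n + 1) = τ (σ (s n)) := fun n => Function.iterate_succ_apply' _ _ _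
  have hn : ∀ n, ‖s n‖ ≤ (1 / 2) ^ n * ‖d‖ := by
    intro n
    induction n with
    | zero => simp [s]
    | succ n ih =>
      rw [hs, pow_succ]
      linarith [hτ (σ (s n)), h2 (s n)]
  have hb : ∀ n, ‖σ (s n)‖ ≤ (1 / 2) ^ n * (2 * ‖d‖) := fun n => by linarith [h2 (s n), hn n]
  have hg : HasSum (fun n : ℕ => (1 / 2 : ℝ) ^ n * (2 * ‖d‖)) (2 * (2 * ‖d‖)) :=
    hasSum_geometric_two.mul_right _
  have hsum : Summable fun n => σ (s n) := Summable.of_norm_bounded hg.summable hb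
  refine ⟨∑' n, σ (s n), ?_, le_trans (tsum_of_norm_bounded hg hb) (by linarith)⟩
  have t1 := ((q - τ).hasSum hsum.hasSum).tendsto_sum_nat
  have t2 : Tendsto (fun n => ∑ i ∈ range n, (q - τ) (σ (s i))) atTop (𝓝 d) := by
    have e : ∀ n, ∑ i ∈ range n, (q - τ) (σ (s i)) = d - s n := by
      intro n
      induction n with
      | zero => simp [s]
      | succ n ih => rw [Finset.sum_range_succ, ih, hs, _root_.sub_apply, h1]; abel
    simp only [e]
    have : Tendsto s atTop (𝓝 0) := squeeze_zero_norm hn (by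
      simpa using (tendsto_pow_atTop_nhds_zero_of_lt_one (r := (1 / 2 : ℝ)) (by norm_num)
        (by norm_num)).mul_const ‖d‖)
    simpa using tendsto_const_nhds.sub this
  exact tendsto_nhds_unique t1 t2

end general

section core
variable {Z I Γ : Type} [NormedAddCommGroup Z] [NormedSpace ℝ Z]

/-- Functionals that tend to zero on the family `u`. -/
def Ys (u : I → Z) : Submodule ℝ (Z →L[ℝ] ℝ) where
  carrier := {y | Tendsto (fun α => y (u α)) cofinite (𝓝 0)}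
  zero_mem' := by simpa using tendsto_const_nhds
  add_mem' := by
    intro y y' h h'
    simpa using Tendsto.add h h'
  smul_mem' := by
    intro c y h
    simpa using Tendsto.const_mul c h

theorem Ys_closed {u : I → Z} (hu : ∀ α, ‖u α‖ ≤ 1) : IsClosed (Ys u : Set (Z →L[ℝ] ℝ)) := by
  refine isClosed_of_closure_subset fun y hy => Metric.tendsto_nhds.2 fun ε hε => ?_
  obtain ⟨y', h1, h2⟩ := Metric.mem_closure_iff.1 hy (ε / 2) (by positivity)
  filter_upwards [Metric.tendsto_nhds.1 h1 (ε / 2) (by positivity)] with α hα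
  rw [Real.dist_eq, sub_zero] at hα ⊢
  have k1 := (y - y').le_opNorm (u α)
  rw [dist_eq_norm] at h2
  rw [_root_.sub_apply, Real.norm_eq_abs] at k1
  have k2 := abs_sub_abs_le_abs_sub (y (u α)) (y' (u α))
  have := hu α
  have := norm_nonneg (y - y')
  nlinarith

theorem core0 [CompleteSpace Z] [DecidableEq I] {Y : Type} [NormedAddCommGroup Y] [NormedSpace ℝ Y]
    [CompleteSpace Y] (j : Y →ₗᵢ[ℝ] (Z →L[ℝ] ℝ)) (u : I → Z) (hu : ∀ α, ‖u α‖ ≤ 1)
    (hY : ∀ y, Tendsto (fun α => j y (u α)) cofinite (𝓝 0))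
    (cY : I → Y) (hcu : ∀ α β, j (cY α) (u β) = if β = α then 1 else 0)
    (ξY : Γ → Y) (emb : Γ → I) (hemb : Function.Injective emb)
    (hc0 : ∀ (A : Finset Γ) (b : Γ → ℝ) (β : ℝ), 0 ≤ β → (∀ γ ∈ A, |b γ| ≤ β) →
      ∃ p ∈ Submodule.span ℝ (Set.range cY), ‖∑ γ ∈ A, b γ • ξY γ - p‖ ≤ β)
    (hdual : ∀ (x : I → ℝ) (C : ℝ), (∀ (S : Finset I) (a : I → ℝ),
      |∑ α ∈ S, a α * x α| ≤ C * ‖∑ α ∈ S, a α • cY α‖) → ∃ z, ‖z‖ ≤ C ∧ ∀ α, j (cY α) z = x α)
    (hext : ∀ z, (∀ α, j (cY α) z = 0) → z = 0) :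
    ∃ (X : Type) (_ : NormedAddCommGroup X) (_ : NormedSpace ℝ X) (_ : CompleteSpace X)
      (E : Z ≃ₗ[ℝ] (X →L[ℝ] ℝ)), (∀ z, ‖E z‖ ≤ ‖z‖) ∧ (∀ z, ‖z‖ ≤ 2 * ‖E z‖) ∧
      ∀ (z : ℕ → Z) (C : ℝ), (∀ N, ‖z N‖ ≤ C) →
        (∀ α, Tendsto (fun N => j (cY α) (z N)) UU (𝓝 0)) →
        (∀ x, Tendsto (fun N => E (z N) x) UU (𝓝 0)) →
        ∀ γ, Tendsto (fun N => j (ξY γ) (z N)) UU (𝓝 0) := by
  classical
  let Zs : Submodule ℝ Y := (Submodule.span ℝ (Set.range cY)).topologicalClosure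
  have : IsClosed (Zs : Set Y) := Submodule.isClosed_topologicalClosure _
  let q : Y →L[ℝ] (Y ⧸ Zs) := Zs.mkQL
  have hq0 : ∀ y, q y = 0 ↔ y ∈ Zs := fun y => Submodule.Quotient.mk_eq_zero Zs
  have hqc : ∀ α, q (cY α) = 0 := fun α => (hq0 _).2
    (Submodule.le_topologicalClosure _ (Submodule.subset_span ⟨α, rfl⟩))
  have hq : ∀ d, ∃ y, q y = d ∧ ‖y‖ ≤ 2 * ‖d‖ := by
    intro d
    by_cases hd : d = 0
    · exact ⟨0, by simp [hd], by simp [hd]⟩
    · obtain ⟨y, h1, h2⟩ := Submodule.Quotient.norm_mk_lt d (norm_pos_iff.2 hd)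
      exact ⟨y, h1, by linarith⟩
  have hvan : ∀ G : Y →L[ℝ] ℝ, (∀ α, G (cY α) = 0) → ∀ y, q y = 0 → G y = 0 := by
    intro G hG y hy
    have : Zs ≤ LinearMap.ker G.toLinearMap := Submodule.topologicalClosure_minimal _
      (Submodule.span_le.2 (by rintro _ ⟨α, rfl⟩; exact hG α)) G.isClosed_ker
    exact this ((hq0 y).1 hy)
  have hest : ∀ (A : Finset Γ) (b : Γ → ℝ) (β : ℝ), 0 ≤ β → (∀ γ ∈ A, |b γ| ≤ β) →
      ‖∑ γ ∈ A, b γ • q (ξY γ)‖ ≤ β := by
    intro A b β hβ hb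
    obtain ⟨p, p1, p2⟩ := hc0 A b β hβ hb
    have e : ∑ γ ∈ A, b γ • q (ξY γ) = q (∑ γ ∈ A, b γ • ξY γ - p) := by
      rw [map_sub, (hq0 p).2 (Submodule.le_topologicalClosure _ p1), sub_zero, map_sum]
      simp only [map_smul]
    rw [e]
    exact le_trans (Submodule.Quotient.norm_mk_le _ _) p2
  have hsm : ∀ y : Y, Summable fun γ => j y (u (emb γ)) • q (ξY γ) := by
    intro y
    refine summable_iff_vanishing_norm.2 fun ε hε => ?_
    have h1 : ∀ᶠ γ in cofinite, dist (j y (u (emb γ))) 0 < ε / 2 :=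
      hemb.tendsto_cofinite (Metric.tendsto_nhds.1 (hY y) (ε / 2) (by positivity))
    refine ⟨(Filter.eventually_cofinite.1 h1).toFinset, fun t ht => lt_of_le_of_lt
      (hest t _ (ε / 2) (by positivity) fun γ hγ => ?_) (by linarith)⟩
    have := Finset.disjoint_left.1 ht hγ
    simp only [Set.Finite.mem_toFinset, Set.mem_ofPred_eq, not_not, Real.dist_eq, sub_zero] at this
    exact this.le
  have hτb : ∀ y : Y, ‖∑' γ, j y (u (emb γ)) • q (ξY γ)‖ ≤ 1 * ‖y‖ := by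
    intro y
    refine le_of_tendsto' (hsm y).hasSum.norm fun A => hest A _ _ (by positivity) fun γ _ => ?_
    have := (j y).le_opNorm (u (emb γ))
    have h2 := hu (emb γ)
    rw [Real.norm_eq_abs, j.norm_map] at this
    nlinarith [norm_nonneg y]
  let τ : Y →L[ℝ] (Y ⧸ Zs) := LinearMap.mkContinuous
    { toFun := fun y => ∑' γ, j y (u (emb γ)) • q (ξY γ)
      map_add' := fun y y' => by
        rw [← (hsm y).tsum_add (hsm y')]
        exact tsum_congr fun γ => by simp [add_smul]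
      map_smul' := fun r y => by
        rw [RingHom.id_apply, ← (hsm y).tsum_const_smul]
        exact tsum_congr fun γ => by simp [mul_smul] } 1 hτb
  have hτ : ∀ y, τ y = ∑' γ, j y (u (emb γ)) • q (ξY γ) := fun y => rfl
  have hτc : ∀ γ, τ (cY (emb γ)) = q (ξY γ) := by
    intro γ
    rw [hτ, tsum_eq_single γ]
    · simp [hcu]
    · intro γ' h
      simp [hcu, hemb.ne h]
  let A : Y →L[ℝ] (Y ⧸ Zs) := q - (1 / 4 : ℝ) • τ
  have hA : ∀ y, A y = q y - (1 / 4 : ℝ) • τ y := fun y => rfl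
  have hAs : ∀ d, ∃ y, A y = d ∧ ‖y‖ ≤ 4 * ‖d‖ := perturb q ((1 / 4 : ℝ) • τ) hq fun y => by
    rw [_root_.smul_apply, norm_smul, hτ]
    have := hτb y
    norm_num; linarith
  have hS : ∀ a : (Y ⧸ Zs) →L[ℝ] ℝ, ∃ s : Z, ‖s‖ ≤ ‖a‖ ∧ ∀ y : Y, j y s = a (τ y) := by
    intro a
    have h1 : ∀ B : Finset Γ, ∑ γ ∈ B, |a (q (ξY γ))| ≤ ‖a‖ := by
      intro B
      have k1 := hest B (fun γ => (sn (a (q (ξY γ))) : ℝ)) 1 zero_le_one (fun γ _ => by
        rcases sn_cases (a (q (ξY γ))) with h | h <;> simp [h])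
      have k2 := a.le_opNorm (∑ γ ∈ B, (sn (a (q (ξY γ))) : ℝ) • q (ξY γ))
      rw [map_sum] at k2
      simp only [map_smul, smul_eq_mul, sn_mul] at k2
      have := le_trans (le_abs_self _) k2
      nlinarith [norm_nonneg a]
    have h2 : Summable fun γ => |a (q (ξY γ))| := summable_of_sum_le (fun _ => abs_nonneg _) h1
    have h3 : ∀ γ, ‖a (q (ξY γ)) • u (emb γ)‖ ≤ |a (q (ξY γ))| := fun γ => by
      rw [norm_smul, Real.norm_eq_abs]
      exact mul_le_of_le_one_right (abs_nonneg _) (hu _)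
    have h4 : Summable fun γ => a (q (ξY γ)) • u (emb γ) := Summable.of_norm_bounded h2 h3
    refine ⟨∑' γ, a (q (ξY γ)) • u (emb γ), le_trans (tsum_of_norm_bounded h2.hasSum h3)
      (h2.tsum_le_of_sum_le h1), fun y => ?_⟩
    rw [hτ, (j y).map_tsum h4, a.map_tsum (hsm y)]
    exact tsum_congr fun γ => by simp [mul_comm]
  let X : Submodule ℝ Y := LinearMap.ker A.toLinearMap
  have : CompleteSpace X := A.isClosed_ker.completeSpace_coe
  let eY : Z → (Y →L[ℝ] ℝ) := fun z =>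
    (ContinuousLinearMap.apply ℝ ℝ z).comp j.toContinuousLinearMap
  have heY : ∀ z y, eY z y = j y z := fun _ _ => rfl
  have hnY : ∀ z, ‖eY z‖ ≤ ‖z‖ := fun z => ContinuousLinearMap.opNorm_le_bound _ (norm_nonneg _)
    fun y => by rw [heY, mul_comm, ← j.norm_map]; exact (j y).le_opNorm z
  let E0 : Z →ₗ[ℝ] (X →L[ℝ] ℝ) :=
    { toFun := fun z => (eY z).comp X.subtypeL
      map_add' := fun z z' => by ext x; simp [heY]
      map_smul' := fun r z => by ext x; simp [heY] }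
  have hE0 : ∀ z (x : X), E0 z x = j x.1 z := fun _ _ => rfl
  have hinj : Function.Injective E0 := by
    refine (injective_iff_map_eq_zero E0).2 fun z hz => ?_
    obtain ⟨a, -, ha⟩ := factor A (by norm_num) hAs (eY z) fun y hy => by
      have := hE0 z ⟨y, hy⟩
      rw [hz] at this; exact this.symm
    obtain ⟨s, -, hs⟩ := hS a
    have h1 : z + (1 / 4 : ℝ) • s = 0 := hext _ fun α => by
      have k1 := ha (cY α)
      rw [hA, hqc, map_sub, map_zero, map_smul, ← hs, heY] at k1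
      rw [map_add, map_smul]
      simp only [smul_eq_mul] at k1 ⊢
      linarith
    have h2 : ∀ y, a (q y) = 0 := fun y => by
      have k1 := ha y
      rw [hA, map_sub, map_smul, ← hs, heY] at k1
      have k2 := congrArg (j y) h1
      rw [map_add, map_smul, map_zero] at k2
      simp only [smul_eq_mul] at k1 k2
      linarith
    refine hext z fun α => ?_
    obtain ⟨y, hy, -⟩ := hq (A (cY α))
    have := ha (cY α)
    rw [← hy, h2, heY] at this
    exact this.symm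
  have hrep : ∀ G : X →L[ℝ] ℝ, ∃ z, ‖z‖ ≤ 2 * ‖G‖ ∧ E0 z = G := by
    intro G
    obtain ⟨G', g1, g2⟩ := exists_extension_norm_eq X G
    obtain ⟨z0, z1, z2⟩ := hdual (fun α => G' (cY α)) ‖G‖ fun S a => by
      have k1 := G'.le_opNorm (∑ α ∈ S, a α • cY α)
      rw [map_sum, g2] at k1
      simpa using k1
    obtain ⟨a, a1, a2⟩ := factor q (by norm_num) hq (G' - eY z0)
      (hvan _ fun α => by rw [_root_.sub_apply, heY]; simp [z2])
    obtain ⟨s, s1, s2⟩ := hS a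
    refine ⟨z0 + (1 / 4 : ℝ) • s, ?_, ?_⟩
    · have k1 := norm_add_le z0 ((1 / 4 : ℝ) • s)
      have k2 := norm_sub_le G' (eY z0)
      have k3 := hnY z0
      rw [norm_smul] at k1
      norm_num at k1
      linarith
    · ext x
      have k1 : q x.1 = (1 / 4 : ℝ) • τ x.1 := sub_eq_zero.1 ((hA _).symm.trans x.2)
      have k2 := a2 x.1
      rw [k1, map_smul, ← s2, _root_.sub_apply, heY, g1] at k2
      rw [hE0, map_add, map_smul]
      simp only [smul_eq_mul] at k2 ⊢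
      linarith
  refine ⟨X, inferInstance, inferInstance, inferInstance,
    LinearEquiv.ofBijective E0 ⟨hinj, fun G => (hrep G).imp fun _ h => h.2⟩, fun z => ?_,
    fun z => ?_, fun z C hz h1 h2 γ => ?_⟩
  · refine ContinuousLinearMap.opNorm_le_bound _ (norm_nonneg _) fun x => ?_
    rw [mul_comm, ← Submodule.norm_coe, ← j.norm_map]
    exact (j x.1).le_opNorm z
  · obtain ⟨z', k1, k2⟩ := hrep (E0 z)
    rw [hinj k2] at k1; exact k1
  · obtain ⟨G, hG⟩ := exists_ulim (fun N => eY (z N)) C fun N y => by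
      have := (eY (z N)).le_opNorm y
      rw [Real.norm_eq_abs] at this
      exact le_trans this (mul_le_mul_of_nonneg_right (le_trans (hnY _) (hz N)) (norm_nonneg _))
    obtain ⟨a, -, ha⟩ := factor A (by norm_num) hAs G fun y hy =>
      tendsto_nhds_unique (hG y) (h2 ⟨y, hy⟩)
    have k1 : ∀ γ, a (q (ξY γ)) = 0 := fun γ => by
      have := ha (cY (emb γ))
      rw [hA, hqc, hτc, tendsto_nhds_unique (hG (cY (emb γ))) (h1 _), map_sub, map_zero,
        map_smul, smul_eq_mul] at this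
      linarith
    have k2 : G (ξY γ) = 0 := by
      rw [← ha, hA, map_sub, k1, map_smul, hτ, a.map_tsum (hsm _)]
      simp [k1]
    exact k2 ▸ hG (ξY γ)

/-- The space of functionals tending to zero on `u`, as a type. -/
def YY (u : I → Z) : Type := Ys u

noncomputable instance (u : I → Z) : NormedAddCommGroup (YY u) :=
  inferInstanceAs (NormedAddCommGroup (Ys u))

noncomputable instance (u : I → Z) : NormedSpace ℝ (YY u) := inferInstanceAs (NormedSpace ℝ (Ys u))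

/-- The inclusion. -/
noncomputable def jY (u : I → Z) : YY u →ₗᵢ[ℝ] (Z →L[ℝ] ℝ) := (Ys u).subtypeₗᵢ

theorem core [CompleteSpace Z] [DecidableEq I] (u : I → Z) (hu : ∀ α, ‖u α‖ ≤ 1)
    (c : I → Z →L[ℝ] ℝ) (hcu : ∀ α β, c α (u β) = if β = α then 1 else 0)
    (ξ : Γ → Z →L[ℝ] ℝ) (emb : Γ → I) (hemb : Function.Injective emb)
    (hξ : ∀ γ, Tendsto (fun α => ξ γ (u α)) cofinite (𝓝 0))
    (hc0 : ∀ (A : Finset Γ) (b : Γ → ℝ) (β : ℝ), 0 ≤ β → (∀ γ ∈ A, |b γ| ≤ β) →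
      ∃ p ∈ Submodule.span ℝ (Set.range c), ‖∑ γ ∈ A, b γ • ξ γ - p‖ ≤ β)
    (hdual : ∀ (x : I → ℝ) (C : ℝ), (∀ (S : Finset I) (a : I → ℝ),
      |∑ α ∈ S, a α * x α| ≤ C * ‖∑ α ∈ S, a α • c α‖) → ∃ z, ‖z‖ ≤ C ∧ ∀ α, c α z = x α)
    (hext : ∀ z, (∀ α, c α z = 0) → z = 0) :
    ∃ (X : Type) (_ : NormedAddCommGroup X) (_ : NormedSpace ℝ X) (_ : CompleteSpace X)
      (E : Z ≃ₗ[ℝ] (X →L[ℝ] ℝ)), (∀ z, ‖E z‖ ≤ ‖z‖) ∧ (∀ z, ‖z‖ ≤ 2 * ‖E z‖) ∧
      ∀ (z : ℕ → Z) (C : ℝ), (∀ N, ‖z N‖ ≤ C) → (∀ α, Tendsto (fun N => c α (z N)) UU (𝓝 0)) →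
        (∀ x, Tendsto (fun N => E (z N) x) UU (𝓝 0)) →
        ∀ γ, Tendsto (fun N => ξ γ (z N)) UU (𝓝 0) := by
  have : CompleteSpace (YY u) := (Ys_closed hu).completeSpace_coe
  have hcY : ∀ α, c α ∈ Ys u := by
    intro α
    refine tendsto_const_nhds.congr' ?_
    filter_upwards [(Set.finite_singleton α).compl_mem_cofinite] with β hβ
    rw [hcu, if_neg (show ¬β = α from hβ)]
  let cY : I → YY u := fun α => (⟨c α, hcY α⟩ : Ys u)
  let ξY : Γ → YY u := fun γ => (⟨ξ γ, hξ γ⟩ : Ys u)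
  have e1 : ∀ α, jY u (cY α) = c α := fun _ => rfl
  have e2 : ∀ γ, jY u (ξY γ) = ξ γ := fun _ => rfl
  refine core0 (jY u) u hu (fun y => (show Ys u from y).2) cY hcu ξY emb hemb ?_ ?_ hext
  · intro A b β hβ hb
    obtain ⟨p, p1, p2⟩ := hc0 A b β hβ hb
    have p3 : p ∈ (Submodule.span ℝ (Set.range cY)).map (jY u).toLinearMap := by
      rw [Submodule.map_span, ← Set.range_comp]; exact p1
    obtain ⟨p', p4, rfl⟩ := p3
    refine ⟨p', p4, ?_⟩
    rw [← (jY u).norm_map, map_sub, map_sum]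
    simp only [map_smul, e2]
    exact p2
  · intro x C h
    refine hdual x C fun S a => ?_
    have := h S a
    rw [← (jY u).norm_map, map_sum] at this
    simpa only [map_smul, e1] using this

end core

end Vale.Agent.P129N
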