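import Vale.Agent.P129.NegZ

/-!
Block subspaces, norming families and averages.
-/

open Finset

namespace Vale.Agent.P129N

variable {I : Type} [LinearOrder I] [Cod I]

/-- A decreasing chain of block subspaces. -/
structure Blk (W : ℕ → Submodule ℝ (Z I)) : Prop where
  anti : Antitone W
  fs : ∀ N, ∀ z ∈ W N, Fs z
  ne : ∀ N, ∃ z ∈ W N, z ≠ 0
  later : ∀ N, ∀ z ∈ W N, ∃ N', ∀ z' ∈ W N', Succ (co z) (co z')

/-- A norming family of level `k`, floor `b` and labels at least `L`. -/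
def Fam (k b L : ℕ) (z : Z I) (c : ℝ) : Prop :=
  ∃ (A : Finset ℕ) (f : ℕ → F I) (ω : ℕ → ℕ), (∀ r ∈ A, K (f r) (ω r)) ∧ Pw A (fun r => ⇑(f r)) ∧
    (∀ r ∈ A, L ≤ ω r) ∧ Sch k (fun r => max (ω r) b) A ∧ c ≤ ∑ r ∈ A, ev (f r) z

theorem Fam.of {ι : Type} {k b L : ℕ} {z : Z I} {c : ℝ} (A : Finset ι) (f : ι → F I) (ω : ι → ℕ)
    (h1 : ∀ r ∈ A, K (f r) (ω r)) (h2 : Pw A (fun r => ⇑(f r))) (h3 : ∀ r ∈ A, L ≤ ω r)
    (h4 : Sch k (fun r => max (ω r) b) A) (h5 : c ≤ ∑ r ∈ A, ev (f r) z) : Fam k b L z c := by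
  classical
  rcases A.eq_empty_or_nonempty with rfl | ⟨l0, hl0⟩
  · exact ⟨∅, 0, 0, by simp, by simp [Pw], by simp, Sch.empty _ _, by simpa using h5⟩
  let e : ℕ → ι := fun n => if h : n < A.card then (A.equivFin.symm ⟨n, h⟩ : ι) else l0
  have he : ∀ n ∈ range A.card, e n ∈ A := by
    intro n hn; simp only [e, dif_pos (mem_range.1 hn)]; exact Subtype.property _
  have hi' : ∀ n ∈ range A.card, ∀ n' ∈ range A.card, e n = e n' → n = n' := by
    intro n hn n' hn' h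
    simp only [e, dif_pos (mem_range.1 hn), dif_pos (mem_range.1 hn')] at h
    simpa using A.equivFin.symm.injective (Subtype.ext h)
  have hsurj : ∀ l ∈ A, ∃ n ∈ range A.card, e n = l := by
    intro l hl
    refine ⟨A.equivFin ⟨l, hl⟩, mem_range.2 (Fin.is_lt _), ?_⟩
    simp [e]
  refine ⟨range A.card, fun n => f (e n), fun n => ω (e n), fun n hn => h1 _ (he n hn), ?_,
    fun n hn => h3 _ (he n hn),
    Sch.pull e h4 (fun n hn n' hn' h => hi' n hn n' hn' h) he (fun _ _ => le_rfl), ?_⟩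
  · intro n hn n' hn' hne
    exact h2 _ (he n hn) _ (he n' hn') (fun h => hne (hi' n hn n' hn' h))
  · refine le_trans h5 (le_of_eq ?_)
    symm
    exact Finset.sum_bij (fun n _ => e n) he hi' (fun l hl => by
      obtain ⟨n, hn, h⟩ := hsurj l hl; exact ⟨n, hn, h⟩) (fun _ _ => rfl)

theorem Fam.scale {k b L : ℕ} {z : Z I} {c t : ℝ} (h : Fam k b L z c) (ht : 0 ≤ t) :
    Fam k b L (t • z) (t * c) := by
  obtain ⟨A, f, ω, h1, h2, h3, h4, h5⟩ := h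
  refine ⟨A, f, ω, h1, h2, h3, h4, ?_⟩
  simp only [map_smul, smul_eq_mul, ← Finset.mul_sum]
  exact mul_le_mul_of_nonneg_left h5 ht

theorem Fam.mono {k b L L' : ℕ} {z : Z I} {c c' : ℝ} (h : Fam k b L z c) (hL : L' ≤ L)
    (hc : c' ≤ c) : Fam k b L' z c' := by
  obtain ⟨A, f, ω, h1, h2, h3, h4, h5⟩ := h
  exact ⟨A, f, ω, h1, h2, fun r hr => le_trans hL (h3 r hr), h4, le_trans hc h5⟩

theorem Fam.single {b L ω : ℕ} {z : Z I} {g : F I} (h : K g ω) (hL : L ≤ ω) :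
    Fam 0 b L z (ev g z) :=
  ⟨{0}, fun _ => g, fun _ => ω, by simpa using h, by simp [Pw], by simpa using hL, by simp [Sch],
    by simp⟩

theorem Fam.abs {k b L : ℕ} (z : Z I) (A : Finset ℕ) (f : ℕ → F I) (ω : ℕ → ℕ)
    (h1 : ∀ r ∈ A, K (f r) (ω r)) (h2 : Pw A (fun r => ⇑(f r))) (h3 : ∀ r ∈ A, L ≤ ω r)
    (h4 : Sch k (fun r => max (ω r) b) A) : Fam k b L z (∑ r ∈ A, |ev (f r) z|) :=
  ⟨A, fun r => sn (ev (f r) z) • f r, ω, fun r hr => (h1 r hr).sign (sn_cases _), h2.smul _, h3,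
    h4, by simp only [ev_smul, sn_mul]; exact le_rfl⟩

theorem Fam.ran {k b L : ℕ} {z : Z I} {c : ℝ} (h : Fam k b L z c) :
    ∃ (A : Finset ℕ) (f : ℕ → F I) (ω : ℕ → ℕ), (∀ r ∈ A, K (f r) (ω r)) ∧
    Pw A (fun r => ⇑(f r)) ∧ (∀ r ∈ A, L ≤ ω r) ∧ Sch k (fun r => max (ω r) b) A ∧
    c ≤ ∑ r ∈ A, ev (f r) z ∧ ∀ r α, f r α ≠ 0 → α ∈ ran z := by
  obtain ⟨A, f, ω, h1, h2, h3, h4, h5⟩ := h
  refine ⟨A, fun r => fl (P129N.ran z) (f r), ω, fun r hr => N.fl (h1 r hr) (ran_oc z), ?_, h3, h4,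
    by simpa only [ev_fl_ran] using h5, fun r α h => (fl_ne h).1⟩
  intro r hr r' hr' hne
  rcases h2 r hr r' hr' hne with h | h
  · exact Or.inl fun α β h1 h2 => h α β (fl_ne h1).2 (fl_ne h2).2
  · exact Or.inr fun α β h1 h2 => h α β (fl_ne h1).2 (fl_ne h2).2

theorem Fam.exists_T {k b L j : ℕ} {z : Z I} {c : ℝ} (h : Fam k b L z c) (hk : k ≤ nn j)
    (hb : b ≤ nn j) : ∃ f, T f j ∧ (∀ α, f α ≠ 0 → α ∈ P129N.ran z) ∧ c / 2 ^ (j + 2) ≤ ev f z := by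
  obtain ⟨A, f, ω, h1, h2, -, h4, h5, h6⟩ := h.ran
  refine ⟨_, T.of_family j A f ω h1 h2 ((h4.sub subset_rfl fun r _ => max_le_max le_rfl hb).mono
    (fun r _ => le_trans (one_le_nn j) (le_max_right _ _)) hk), ?_, ?_⟩
  · intro α hα
    by_contra hn
    apply hα
    rw [Finsupp.smul_apply, Finset.sum_apply', Finset.sum_eq_zero, smul_zero]
    intro r _
    by_contra h'
    exact hn (h6 r α h')
  · rw [ev_smul, ev_sum]
    push_cast
    rw [mm_cast, one_div, inv_mul_eq_div]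
    gcongr

theorem Fam.comp {n k b L : ℕ} {p : ℕ → ℕ} {A : Finset ℕ} {y : ℕ → Z I} {a : ℕ → ℝ} {c : ℝ}
    {Lq : ℕ → ℕ} (hA : Sch n p A) (hy : ∀ q q', q < q' → Succ (co (y q)) (co (y q')))
    (hF : ∀ q, Fam k b (Lq q) (y q) c) (hp : ∀ q ∈ A, p q ≤ max (Lq q) b)
    (hL : ∀ q ∈ A, L ≤ Lq q) (ha : ∀ q, 0 ≤ a q) (hs : ∑ q ∈ A, a q = 1) :
    Fam (k + n) b L (∑ q ∈ A, a q • y q) c := by
  classical
  choose B f ω h1 h2 h3 h4 h5 h6 using fun q => (hF q).ran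
  have hz : ∀ q q' r, q ≠ q' → ev (f q r) (y q') = 0 := by
    intro q q' r hne
    refine ev_eq_zero fun α hα => ?_
    by_contra h'
    rcases lt_or_gt_of_ne hne with h | h
    · exact lt_irrefl _ (ran_lt (hy _ _ h) (h6 q r α hα) (mem_ran h'))
    · exact lt_irrefl _ (ran_lt (hy _ _ h) (mem_ran h') (h6 q r α hα))
  refine Fam.of (A.sigma B) (fun x => f x.1 x.2) (fun x => ω x.1 x.2) ?_ ?_ ?_ ?_ ?_
  · intro x hx; exact h1 _ _ (Finset.mem_sigma.1 hx).2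
  · rintro ⟨q, r⟩ hx ⟨q', r'⟩ hx' hne
    rcases lt_trichotomy q q' with h | rfl | h
    · exact Or.inl fun α β k1 k2 => ran_lt (hy _ _ h) (h6 _ _ _ k1) (h6 _ _ _ k2)
    · exact h2 q r (Finset.mem_sigma.1 hx).2 r' (Finset.mem_sigma.1 hx').2
        (fun h => hne (by rw [h]))
    · exact Or.inr fun α β k1 k2 => ran_lt (hy _ _ h) (h6 _ _ _ k1) (h6 _ _ _ k2)
  · intro x hx
    exact le_trans (hL _ (Finset.mem_sigma.1 hx).1) (h3 _ _ (Finset.mem_sigma.1 hx).2)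
  · refine Sch.comp (fun q => (A.sigma B).filter (fun x => x.1 = q)) hA ?_ ?_ ?_
    · intro q _
      refine Sch.pull (fun x : (Σ _ : ℕ, ℕ) => x.2) (h4 q) ?_ ?_ ?_
      · rintro ⟨q1, r1⟩ k1 ⟨q2, r2⟩ k2 h
        obtain rfl : q1 = q := (Finset.mem_filter.1 k1).2
        obtain rfl : q2 = q1 := (Finset.mem_filter.1 k2).2
        simp only at h
        rw [h]
      · rintro ⟨q1, r1⟩ k1
        obtain rfl : q1 = q := (Finset.mem_filter.1 k1).2
        exact (Finset.mem_sigma.1 (Finset.mem_filter.1 k1).1).2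
      · rintro ⟨q1, r1⟩ k1
        obtain rfl : q1 = q := (Finset.mem_filter.1 k1).2
        exact le_rfl
    · rintro q hq ⟨q1, r1⟩ k1
      obtain rfl : q1 = q := (Finset.mem_filter.1 k1).2
      exact le_trans (hp _ hq) (max_le_max
        (h3 _ _ (Finset.mem_sigma.1 (Finset.mem_filter.1 k1).1).2) le_rfl)
    · intro x hx
      exact ⟨x.1, (Finset.mem_sigma.1 hx).1, Finset.mem_filter.2 ⟨hx, rfl⟩⟩
  · rw [Finset.sum_sigma]
    calc c = ∑ q ∈ A, a q * c := by rw [← Finset.sum_mul, hs, one_mul]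
      _ ≤ ∑ q ∈ A, a q * ∑ r ∈ B q, ev (f q r) (y q) :=
          Finset.sum_le_sum fun q _ => mul_le_mul_of_nonneg_left (h5 q) (ha q)
      _ = _ := by
          refine Finset.sum_congr rfl fun q hq => ?_
          rw [Finset.mul_sum]
          refine Finset.sum_congr rfl fun r _ => ?_
          rw [map_sum, Finset.sum_eq_single q]
          · simp
          · intro q' _ hne; simp [hz q q' r hne.symm]
          · intro hn; exact absurd hq hn

theorem no_decay {k0 n' b : ℕ} {c : ℝ} (hc : 0 < c)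
    (h : ∀ t : ℕ, ∃ y : Z I, ‖y‖ ≤ (9 / 10) ^ t ∧ Fam (k0 + t * n') b 0 y c) : False := by
  obtain ⟨v, hv⟩ := pow_unbounded_of_one_lt (1 / c) (by norm_num : (1 : ℝ) < 2)
  set j := 14 * n' + k0 + v + b with hj
  obtain ⟨y, h1, h2⟩ := h (7 * (j + 2 + v))
  have hb := le_bb j
  obtain ⟨f, f1, -, f3⟩ := h2.exists_T (j := j) (by rw [nn_eq]; nlinarith)
    (by rw [nn_eq]; nlinarith)
  have h3 := le_trans f3 (le_trans (le_abs_self _) (le_trans (f1.abs_ev y) h1))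
  have h4 : ((9 : ℝ) / 10) ^ (7 * (j + 2 + v)) ≤ (1 / 2) ^ (j + 2 + v) := by
    rw [pow_mul]; gcongr; norm_num
  have h5 := le_trans h3 h4
  rw [div_lt_iff₀ hc] at hv
  rw [one_div_pow, div_le_div_iff₀ (by positivity) (by positivity), pow_add _ (j + 2)] at h5
  have : (0 : ℝ) < 2 ^ (j + 2) := by positivity
  nlinarith

/-- Rapidly increasing block sequences. -/
structure RS (x : ℕ → Z I) (J P : ℕ → ℕ) : Prop where
  le : ∀ i, J i ≤ P i
  lt : ∀ i, P i < J (i + 1)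
  succ : ∀ i i', i < i' → Succ (co (x i)) (co (x i'))

theorem RS.lt' {x : ℕ → Z I} {J P : ℕ → ℕ} (h : RS x J P) {i i' : ℕ} (hi : i < i') :
    P i < J i' := by
  induction hi with
  | refl => exact h.lt i
  | step _ ih => exact lt_trans ih (lt_of_le_of_lt (h.le _) (h.lt _))

theorem RS.smJ {x : ℕ → Z I} {J P : ℕ → ℕ} (h : RS x J P) : StrictMono J :=
  fun _ _ hi => lt_of_le_of_lt (h.le _) (h.lt' hi)

theorem RS.smP {x : ℕ → Z I} {J P : ℕ → ℕ} (h : RS x J P) : StrictMono P :=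
  fun _ _ hi => lt_of_lt_of_le (h.lt' hi) (h.le _)

theorem RS.sub {x : ℕ → Z I} {J P : ℕ → ℕ} (h : RS x J P) {t : ℕ → ℕ} (ht : StrictMono t) :
    RS (x ∘ t) (J ∘ t) (P ∘ t) :=
  ⟨fun _ => h.le _, fun i => h.lt' (ht (Nat.lt_succ_self i)), fun _ _ hi => h.succ _ _ (ht hi)⟩

theorem Blk.exists_seq {W : ℕ → Submodule ℝ (Z I)} (hW : Blk W) (G : ℕ → Z I → Prop)
    (hG : ∀ J N, ∃ x ∈ W N, G J x) (ε : ℕ → ℝ) (hε : ∀ i, 0 < ε i) (J0 N0 : ℕ) :
    ∃ (x : ℕ → Z I) (J P : ℕ → ℕ), RS x J P ∧ (∀ i, x i ∈ W (N0 + i)) ∧ (∀ i, G (J i) (x i)) ∧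
      (∀ i, J0 ≤ J i) ∧ ∀ i, Negl (P i) (x i) (ε i) := by
  choose X hX1 hX2 using hG
  choose Pf hP1 hP2 using fun J N i => (hW.fs N _ (hX1 J N)).negl (hε i) J
  choose Nf hN using fun J N => hW.later N _ (hX1 J N)
  let st : ℕ → ℕ × ℕ := fun i => Nat.rec (J0, N0)
    (fun i s => (Pf s.1 s.2 i + 1, max (s.2 + 1) (Nf s.1 s.2))) i
  have hst : ∀ i, st (i + 1) = (Pf (st i).1 (st i).2 i + 1,
      max ((st i).2 + 1) (Nf (st i).1 (st i).2)) := fun i => rfl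
  have hm : Monotone fun i => (st i).2 :=
    monotone_nat_of_le_succ fun i => by rw [hst]; simp only; omega
  have hN0 : ∀ i, N0 + i ≤ (st i).2 := by
    intro i
    induction i with
    | zero => exact le_rfl
    | succ i ih => rw [hst]; simp only; omega
  have hRS : RS (fun i => X (st i).1 (st i).2) (fun i => (st i).1)
      (fun i => Pf (st i).1 (st i).2 i) := by
    refine ⟨fun i => hP1 _ _ _, fun i => by rw [hst]; simp, fun i i' hi => hN _ _ _ ?_⟩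
    refine hW.anti (le_trans ?_ (hm (Nat.succ_le_of_lt hi))) (hX1 _ _)
    exact le_max_right _ _
  exact ⟨_, _, _, hRS, fun i => hW.anti (hN0 i) (hX1 _ _), fun i => hX2 _ _,
    fun i => hRS.smJ.monotone (Nat.zero_le i), fun i => hP2 _ _ _⟩

theorem split {w : ℕ} {A : Finset ℕ} {c : ℕ → F I} {ω : ℕ → ℕ} (hp : Pw A (fun r => ⇑(c r)))
    (hs : Sch (nn w) (fun r => max (ω r) (nn w)) A) {Q : Finset ℕ} {y : ℕ → Z I}
    (hy : ∀ q q', q < q' → Succ (co (y q)) (co (y q'))) {P : ℕ → ℕ} (hP : ∀ q ∈ Q, nn w ≤ P q) :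
    ∃ U ⊆ Q, Sch (nn w) P U ∧ ∀ q ∈ Q, q ∉ U → ∀ r ∈ A, ∀ r' ∈ A, ω r < P q → ω r' < P q →
      ev (c r) (y q) ≠ 0 → ev (c r') (y q) ≠ 0 → r = r' := by
  classical
  let R : ℕ → ℕ → Prop := fun q r => r ∈ A ∧ ω r < P q ∧ ev (c r) (y q) ≠ 0 ∧
    ∃ r', ev (c r') (y q) ≠ 0 ∧ Succ (c r') (c r)
  let φ : ℕ → ℕ := fun q => if h : ∃ r, R q r then Classical.choose h else 0
  have hφ : ∀ q, (∃ r, R q r) → R q (φ q) := by
    intro q h; simp only [φ, dif_pos h]; exact Classical.choose_spec h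
  have key : ∀ q q', q < q' → R q (φ q) → R q' (φ q') → φ q ≠ φ q' := by
    intro q q' hqq h1 h2 he
    obtain ⟨β, b1, b2⟩ := exists_of_ev_ne h1.2.2.1
    obtain ⟨r', k1, k2⟩ := h2.2.2.2
    obtain ⟨β', b3, b4⟩ := exists_of_ev_ne k1
    exact lt_asymm (hy _ _ hqq β β' b2 b4) (k2 β' β b3 (he ▸ b1))
  refine ⟨Q.filter (fun q => ∃ r, R q r), Finset.filter_subset _ _, Sch.pull φ hs ?_ ?_ ?_, ?_⟩
  · intro q hq q' hq' he
    have h1 := hφ q (Finset.mem_filter.1 hq).2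
    have h2 := hφ q' (Finset.mem_filter.1 hq').2
    rcases lt_trichotomy q q' with h | h | h
    · exact absurd he (key _ _ h h1 h2)
    · exact h
    · exact absurd he.symm (key _ _ h h2 h1)
  · intro q hq; exact (hφ q (Finset.mem_filter.1 hq).2).1
  · intro q hq
    exact max_le (hφ q (Finset.mem_filter.1 hq).2).2.1.le (hP q (Finset.mem_filter.1 hq).1)
  · intro q hq hn r hr r' hr' h1 h2 h3 h4
    by_contra hne
    apply hn
    refine Finset.mem_filter.2 ⟨hq, ?_⟩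
    rcases hp r hr r' hr' hne with h | h
    · exact ⟨r', hr', h2, h4, r, h3, h⟩
    · exact ⟨r, hr, h1, h3, r', h4, h⟩

theorem abs_sum_le_of_unique {A : Finset ℕ} {v : ℕ → ℝ} {θ : ℝ} (hθ : 0 ≤ θ)
    (h1 : ∀ r ∈ A, ∀ r' ∈ A, v r ≠ 0 → v r' ≠ 0 → r = r') (h2 : ∀ r ∈ A, |v r| ≤ θ) :
    |∑ r ∈ A, v r| ≤ θ := by
  by_cases hex : ∃ r ∈ A, v r ≠ 0
  · obtain ⟨r, hr, hne⟩ := hex
    rw [Finset.sum_eq_single r]
    · exact h2 r hr
    · intro r' hr' hrr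
      by_contra h'
      exact hrr (h1 r' hr' r hr h' hne)
    · intro hn; exact absurd hr hn
  · push Not at hex
    rw [Finset.sum_eq_zero hex, abs_zero]; exact hθ

theorem flat {f : F I} {w : ℕ} (hf : T f w) {Q : Finset ℕ} {y : ℕ → Z I}
    (hy : ∀ q q', q < q' → Succ (co (y q)) (co (y q'))) {P : ℕ → ℕ} (hP : ∀ q ∈ Q, nn w ≤ P q)
    {a : ℕ → ℝ} (ha : ∀ q, 0 ≤ a q) (hs : ∑ q ∈ Q, a q = 1) {ν μ β : ℝ} (hν : 0 ≤ ν)
    (hn : ∀ q, ‖y q‖ ≤ ν) (hm : ∀ B ⊆ Q, Sch (nn w) P B → ∑ q ∈ B, a q ≤ μ)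
    (hb : ∀ (A : Finset ℕ) (c : ℕ → F I) (ω : ℕ → ℕ), (∀ r ∈ A, K (c r) (ω r)) →
      Pw A (fun r => ⇑(c r)) → Sch (nn w) (fun r => max (ω r) (nn w)) A →
      |∑ q ∈ Q, a q * ∑ r ∈ A.filter (fun r => ¬ω r < P q), ev (c r) (y q)| ≤ β) :
    |ev f (∑ q ∈ Q, a q • y q)| ≤ (ν + 2 ^ (w + 2) * ν * μ + β) / 2 ^ (w + 2) := by
  classical
  obtain ⟨A, c, ω, h1, h2, h3, rfl⟩ := hf.cases
  obtain ⟨U, u1, u2, u3⟩ := split h2 h3 hy hP
  have e1 : ∑ r ∈ A, ev (c r) (∑ q ∈ Q, a q • y q) =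
      ∑ q ∈ Q, a q * ∑ r ∈ A.filter (fun r => ω r < P q), ev (c r) (y q) +
      ∑ q ∈ Q, a q * ∑ r ∈ A.filter (fun r => ¬ω r < P q), ev (c r) (y q) := by
    simp only [map_sum, map_smul, smul_eq_mul]
    rw [Finset.sum_comm, ← Finset.sum_add_distrib]
    refine Finset.sum_congr rfl fun q _ => ?_
    rw [← mul_add, Finset.sum_filter_add_sum_filter_not, Finset.mul_sum]
  have e2 : |∑ q ∈ Q, a q * ∑ r ∈ A.filter (fun r => ω r < P q), ev (c r) (y q)| ≤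
      ν + 2 ^ (w + 2) * ν * μ := by
    refine le_trans (Finset.abs_sum_le_sum_abs _ _) ?_
    have : ∀ q ∈ Q, |a q * ∑ r ∈ A.filter (fun r => ω r < P q), ev (c r) (y q)| ≤
        a q * ν + if q ∈ U then a q * (2 ^ (w + 2) * ν) else 0 := by
      intro q hq
      rw [abs_mul, abs_of_nonneg (ha q)]
      split_ifs with hU
      · have k1 := fam_abs_le h1 h2 h3 (y q)
        have k2 : |∑ r ∈ A.filter (fun r => ω r < P q), ev (c r) (y q)| ≤ 2 ^ (w + 2) * ν := by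
          refine le_trans (Finset.abs_sum_le_sum_abs _ _) (le_trans
            (Finset.sum_le_sum_of_subset_of_nonneg (Finset.filter_subset _ _)
              (fun _ _ _ => abs_nonneg _)) (le_trans k1 ?_))
          gcongr; exact hn q
        have := mul_le_mul_of_nonneg_left k2 (ha q)
        have := mul_nonneg (ha q) hν
        linarith
      · rw [add_zero]
        refine mul_le_mul_of_nonneg_left (abs_sum_le_of_unique hν ?_ ?_) (ha q)
        · intro r hr r' hr' k1 k2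
          exact u3 q hq hU r (Finset.mem_filter.1 hr).1 r' (Finset.mem_filter.1 hr').1
            (Finset.mem_filter.1 hr).2 (Finset.mem_filter.1 hr').2 k1 k2
        · intro r hr
          exact le_trans ((h1 r (Finset.mem_filter.1 hr).1).abs_ev _) (hn q)
    refine le_trans (Finset.sum_le_sum this) ?_
    rw [Finset.sum_add_distrib, ← Finset.sum_mul, hs, one_mul, Finset.sum_ite_mem,
      Finset.inter_eq_right.2 u1, ← Finset.sum_mul]
    have k := hm U u1 u2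
    have : (0 : ℝ) ≤ 2 ^ (w + 2) * ν := by positivity
    nlinarith
  rw [ev_smul, ev_sum, e1]
  push_cast
  rw [mm_cast, abs_mul, abs_of_pos (by positivity : (0 : ℝ) < 1 / 2 ^ (w + 2)), one_div,
    inv_mul_eq_div]
  gcongr
  exact le_trans (abs_add_le _ _) (add_le_add e2 (hb A c ω h1 h2 h3))

theorem co_avg {Q : Finset ℕ} {y : ℕ → Z I}
    (hy : ∀ q q', q < q' → Succ (co (y q)) (co (y q'))) {a : ℕ → ℝ} (ha : ∀ q, 0 ≤ a q)
    {ν μ : ℝ} (hμ : 0 ≤ μ) (hn : ∀ q, ‖y q‖ ≤ ν) (hm : ∀ q ∈ Q, a q ≤ μ) (α : I) :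
    |co (∑ q ∈ Q, a q • y q) α| ≤ μ * ν := by
  have hν : 0 ≤ ν := le_trans (norm_nonneg _) (hn 0)
  rw [co_sum]
  refine abs_sum_le_of_unique (by positivity) ?_ ?_
  · intro q _ q' _ h1 h2
    rw [co_smul] at h1 h2
    rcases lt_trichotomy q q' with h | h | h
    · exact absurd (hy _ _ h α α (right_ne_zero_of_mul h1) (right_ne_zero_of_mul h2)) (lt_irrefl _)
    · exact h
    · exact absurd (hy _ _ h α α (right_ne_zero_of_mul h2) (right_ne_zero_of_mul h1)) (lt_irrefl _)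
  · intro q hq
    rw [co_smul, abs_mul, abs_of_nonneg (ha q)]
    exact mul_le_mul (hm q hq) (le_trans (abs_co _ _) (hn q)) (abs_nonneg _) hμ

theorem norm_avg {Q : Finset ℕ} {y : ℕ → Z I} {a : ℕ → ℝ} (ha : ∀ q, 0 ≤ a q)
    (hs : ∑ q ∈ Q, a q = 1) {ν : ℝ} (hn : ∀ q, ‖y q‖ ≤ ν) : ‖∑ q ∈ Q, a q • y q‖ ≤ ν := by
  refine le_trans (norm_sum_le _ _) ?_
  calc ∑ q ∈ Q, ‖a q • y q‖ ≤ ∑ q ∈ Q, a q * ν := by
        refine Finset.sum_le_sum fun q _ => ?_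
        rw [norm_smul, Real.norm_of_nonneg (ha q)]
        exact mul_le_mul_of_nonneg_left (hn q) (ha q)
    _ = ν := by rw [← Finset.sum_mul, hs, one_mul]

theorem abs_low {h : ℕ → F I} {a b : ℕ} {x : Z I} {D : ℝ} (hD : 0 ≤ D)
    (hh : ∀ w ∈ Ico a b, |ev (h w) x| ≤ D / 2 ^ (w + 2)) :
    |ev (∑ w ∈ Ico a b, h w) x| ≤ D / 2 ^ (a + 1) := by
  rw [ev_sum]
  refine le_trans (Finset.abs_sum_le_sum_abs _ _) (le_trans (Finset.sum_le_sum hh) ?_)
  have := mul_le_mul_of_nonneg_left (sum_inv_mm a b) hD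
  rw [Finset.mul_sum] at this
  simpa only [mul_one_div] using this

theorem norm_le_of_parts {x : Z I} {J : ℕ} {C D β : ℝ} (hD : 0 ≤ D) (h1 : ∀ α, |co x α| ≤ C)
    (h2 : ∀ f w, w < J → T f w → |ev f x| ≤ D / 2 ^ (w + 2))
    (h3 : ∀ g, K g J → ev g x ≤ β) (h4 : D / 2 + β ≤ C) : ‖x‖ ≤ C := by
  refine norm_le fun g ω hg => ?_
  rcases hg.cases with ⟨α, s, hs, rfl⟩ | ⟨d, hd, rfl⟩
  · rw [ev_single]
    have := abs_le.1 (h1 α)
    rcases hs with rfl | rfl <;> push_cast <;> linarith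
  · obtain ⟨B, hB, he⟩ := d.val_eq J
    rw [he, ← Finset.sum_Ico_consecutive _ (Nat.zero_le J) hB, map_add, _root_.add_apply]
    have k1 := abs_low (h := d.h) (a := 0) (b := J) (x := x) hD
      (fun w hw => h2 _ w (Finset.mem_Ico.1 hw).2 (hd.h_T w))
    have k2 := h3 _ (hd.cut J B).K
    rw [d.cut_val] at k2
    have := le_abs_self (ev (∑ w ∈ Ico 0 J, d.h w) x)
    rw [zero_add, pow_one] at k1
    linarith

end Vale.Agent.P129N
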