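import Vale.Agent.P129.NegMain

/-!
The continuum hypothesis gives real and complex Banach spaces without separable quotient.
-/

open Cardinal

namespace Vale.Agent.P129N

theorem exists_space_CH (hCH : Cardinal.continuum.{0} = Cardinal.aleph 1) :
    ∃ (X : Type) (_ : NormedAddCommGroup X) (_ : NormedSpace ℝ X) (_ : CompleteSpace X),
      ¬FiniteDimensional ℝ X ∧ ∀ (Q : Type) [NormedAddCommGroup Q] [NormedSpace ℝ Q]
        [CompleteSpace Q] [TopologicalSpace.SeparableSpace Q] (T : X × X →L[ℝ] Q),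
        Function.Surjective T → FiniteDimensional ℝ Q := by
  let I : Type := (Cardinal.aleph 1).ord.ToType
  have hI : #I = 𝔠 := by rw [hCH]; exact Cardinal.mk_ord_toType _
  have hc : ∀ β : I, ∃ e : I → ℕ, Set.InjOn e (Set.Iio β) := fun β =>
    Set.countable_iff_exists_injOn.1
      (Cardinal.countable_iff_lt_aleph_one _ |>.2 (Cardinal.mk_Iio_toType_ord_lt β))
  choose e he using hc
  obtain ⟨r⟩ : Nonempty (I ↪ (ℕ → Bool)) := by
    rw [← Cardinal.le_def, hI]; simp
  let _ : Cod I := ⟨e, fun h1 h2 h3 => he _ h1 h2 h3, r, r.injective⟩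
  have : Infinite I := Cardinal.infinite_iff.2 (hI ▸ Cardinal.aleph0_le_continuum)
  obtain ⟨emb⟩ : Nonempty ((ℕ → F I × ℕ) ↪ I) := by
    rw [← Cardinal.le_def]
    simp [hI, max_eq_left Cardinal.aleph0_le_continuum]
  exact exists_space (fun γ : Br I => emb γ.1) (emb.injective.comp Subtype.val_injective)

section complexify
variable {X V : Type} [NormedAddCommGroup X] [NormedSpace ℝ X] [NormedAddCommGroup V]
  [NormedSpace ℝ V] (j : X →ₗᵢ[ℝ] (V →L[ℝ] ℝ))

/-- The real linear map `(x, y) ↦ x + i y` into complex valued functionals. -/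
noncomputable def cx : X × X →L[ℝ] (V →L[ℝ] ℂ) :=
  (ContinuousLinearMap.compL ℝ V ℝ ℂ Complex.ofRealCLM).comp
    (j.toContinuousLinearMap.comp (ContinuousLinearMap.fst ℝ X X)) +
  (ContinuousLinearMap.compL ℝ V ℝ ℂ (Complex.I • Complex.ofRealCLM)).comp
    (j.toContinuousLinearMap.comp (ContinuousLinearMap.snd ℝ X X))

theorem cx_apply (p : X × X) (f : V) :
    cx j p f = (j p.1 f : ℂ) + Complex.I * (j p.2 f : ℂ) := by
  simp [cx]

theorem cx_norm (p : X × X) : ‖p‖ ≤ ‖cx j p‖ := by
  rw [Prod.norm_def, ← j.norm_map, ← j.norm_map]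
  refine max_le (ContinuousLinearMap.opNorm_le_bound _ (norm_nonneg _) fun f => ?_)
    (ContinuousLinearMap.opNorm_le_bound _ (norm_nonneg _) fun f => ?_)
  · refine le_trans ?_ ((cx j p).le_opNorm f)
    refine le_trans (le_of_eq ?_) (Complex.abs_re_le_norm _)
    simp [cx_apply]
  · refine le_trans ?_ ((cx j p).le_opNorm f)
    refine le_trans (le_of_eq ?_) (Complex.abs_im_le_norm _)
    simp [cx_apply]

/-- The complexification as a complex subspace. -/
noncomputable def cxs : Submodule ℂ (V →L[ℝ] ℂ) where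
  carrier := Set.range (cx j)
  zero_mem' := ⟨0, map_zero _⟩
  add_mem' := by rintro _ _ ⟨p, rfl⟩ ⟨p', rfl⟩; exact ⟨p + p', map_add _ _ _⟩
  smul_mem' := by
    rintro c _ ⟨p, rfl⟩
    refine ⟨(c.re • p.1 - c.im • p.2, c.im • p.1 + c.re • p.2), ?_⟩
    ext f
    rw [_root_.smul_apply, cx_apply, cx_apply]
    apply Complex.ext
    · simp
    · simp; ring

/-- The complexification. -/
def CX : Type := cxs j

noncomputable instance : NormedAddCommGroup (CX j) := inferInstanceAs (NormedAddCommGroup (cxs j))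

noncomputable instance : NormedSpace ℂ (CX j) := inferInstanceAs (NormedSpace ℂ (cxs j))

theorem cxs_complete [CompleteSpace X] : CompleteSpace (cxs j) := by
  refine IsClosed.completeSpace_coe (hs := ?_)
  exact (AntilipschitzWith.isClosed_range ((cx j).antilipschitz_of_bound (K := 1)
    (fun p => by rw [NNReal.coe_one, one_mul]; exact cx_norm j p)) (cx j).uniformContinuous)

instance [CompleteSpace X] : CompleteSpace (CX j) := cxs_complete j

theorem exists_cx_equiv : ∃ J : X × X →L[ℝ] CX j, Function.Bijective J := by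
  refine ⟨LinearMap.mkContinuous
    { toFun := fun p => (⟨cx j p, p, rfl⟩ : cxs j)
      map_add' := fun p p' => Subtype.ext (map_add _ _ _)
      map_smul' := fun r p => Subtype.ext ?_ } ‖cx j‖ fun p => (cx j).le_opNorm p, ?_, ?_⟩
  · change cx j (r • p) = (r : ℂ) • cx j p
    rw [map_smul]
    ext f
    simp
  · intro p p' h
    have h1 : cx j p = cx j p' := congrArg Subtype.val h
    have := cx_norm j (p - p')
    rw [map_sub, h1, sub_self, norm_zero] at this
    exact sub_eq_zero.1 (norm_le_zero_iff.1 this)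
  · rintro ⟨_, p, rfl⟩
    exact ⟨p, rfl⟩

end complexify

theorem exists_complexification (X : Type) [NormedAddCommGroup X] [NormedSpace ℝ X]
    [CompleteSpace X] : ∃ (Y : Type) (_ : NormedAddCommGroup Y) (_ : NormedSpace ℂ Y)
      (_ : CompleteSpace Y) (J : X × X →L[ℝ] Y), Function.Bijective J :=
  ⟨CX (V := X →L[ℝ] ℝ) (NormedSpace.inclusionInDoubleDualLi ℝ), inferInstance, inferInstance,
    inferInstance, exists_cx_equiv _⟩

theorem neg (hCH : Cardinal.continuum.{0} = Cardinal.aleph 1) :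
    (∃ (X : Type) (_ : NormedAddCommGroup X) (_ : NormedSpace ℝ X) (_ : CompleteSpace X),
      ¬FiniteDimensional ℝ X ∧ ∀ M : Submodule ℝ X, IsClosed (M : Set X) →
        TopologicalSpace.SeparableSpace (X ⧸ M) → FiniteDimensional ℝ (X ⧸ M)) ∧
    (∃ (X : Type) (_ : NormedAddCommGroup X) (_ : NormedSpace ℂ X) (_ : CompleteSpace X),
      ¬FiniteDimensional ℂ X ∧ ∀ M : Submodule ℂ X, IsClosed (M : Set X) →
        TopologicalSpace.SeparableSpace (X ⧸ M) → FiniteDimensional ℂ (X ⧸ M)) := by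
  obtain ⟨X, i1, i2, i3, h1, h2⟩ := exists_space_CH hCH
  obtain ⟨Y, j1, j2, j3, J, hJ⟩ := exists_complexification X
  refine ⟨⟨X, i1, i2, i3, h1, fun M hM hs => ?_⟩,
    ⟨Y, j1, j2, j3, fun hf => ?_, fun M hM hs => ?_⟩⟩
  · exact h2 (X ⧸ M) (M.mkQL.comp (ContinuousLinearMap.fst ℝ X X))
      (M.mkQ_surjective.comp Prod.fst_surjective)
  · have : FiniteDimensional ℝ Y := Module.Finite.trans ℂ Y
    exact h1 (Module.Finite.of_injective (J.toLinearMap.comp (LinearMap.inl ℝ X X))
      (hJ.1.comp LinearMap.inl_injective))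
  · have := h2 (Y ⧸ M) ((M.mkQL.restrictScalars ℝ).comp J) (M.mkQ_surjective.comp hJ.2)
    exact Module.Finite.of_restrictScalars_finite ℝ ℂ _

end Vale.Agent.P129N
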