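import Vale.Agent.P129.NegEP

/-!
Density of finitely supported vectors and the gliding hump.
-/

open Finset Filter Topology

namespace Vale.Agent.P129N

variable {I : Type} [LinearOrder I] [Cod I]

/-- Points below `β`. -/
def Lb (β : WithTop I) : Set I := {α | (α : WithTop I) < β}

/-- Points between `a` and `β`. -/
def Mb (a : I) (β : WithTop I) : Set I := {α | a < α ∧ (α : WithTop I) < β}

omit [Cod I] in
theorem Lb_oc (β : WithTop I) : (Lb β).OrdConnected :=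
  ⟨fun _ _ _ hy _ ht => lt_of_le_of_lt (WithTop.coe_le_coe.2 ht.2) hy⟩

omit [Cod I] in
theorem Mb_oc (a : I) (β : WithTop I) : (Mb a β).OrdConnected :=
  ⟨fun _ hx _ hy _ ht => ⟨lt_of_lt_of_le hx.1 ht.1,
    lt_of_le_of_lt (WithTop.coe_le_coe.2 ht.2) hy.2⟩⟩

/-- Projection on an initial segment. -/
noncomputable def Pb (β : WithTop I) : Z I →L[ℝ] Z I := res (Lb β) (Lb_oc β)

/-- Projection on an interval. -/
noncomputable def Rb (a : I) (β : WithTop I) : Z I →L[ℝ] Z I := res (Mb a β) (Mb_oc a β)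

theorem Pb_split (a : I) (β : WithTop I) (h : (a : WithTop I) < β) (z : Z I) :
    Pb β z = Pb a z + co z a • u a + Rb a β z := by
  apply Z.ext
  ext α
  simp only [co_add, co_smul, Pb, Rb, co_res, co_u, Set.indicator, Lb, Mb, Set.mem_ofPred_eq,
    WithTop.coe_lt_coe]
  rcases lt_trichotomy α a with k | rfl | k
  · have : (α : WithTop I) < β := lt_trans (WithTop.coe_lt_coe.2 k) h
    simp [k, this, k.ne, not_lt.2 k.le]
  · simp [h]
  · simp [k, k.ne', not_lt.2 k.le]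

theorem Pb_top (z : Z I) : Pb ⊤ z = z := by
  apply Z.ext
  ext α
  simp [Pb, co_res, Lb]

theorem Fs.add {y y' : Z I} (h : Fs y) (h' : Fs y') : Fs (y + y') := by
  refine (h.union h').subset fun α hα => ?_
  by_contra hn
  simp only [Set.mem_union, Function.mem_support, not_or, not_not] at hn
  simp [hn.1, hn.2] at hα

theorem Fs.smul_u (c : ℝ) (a : I) : Fs (c • u a) := by
  refine (Set.finite_singleton a).subset fun α hα => ?_
  by_contra hn
  simp [co_u, Pi.single_eq_of_ne hn] at hα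

theorem Fs.res {y : Z I} (h : Fs y) (E : Set I) (hE : E.OrdConnected) : Fs (res E hE y) := by
  refine h.subset fun α hα => ?_
  rw [Function.mem_support, co_res] at hα
  exact fun h0 => hα (by simp [Set.indicator, h0])

theorem approx [WellFoundedLT I] (z : Z I) {ε : ℝ} (hε : 0 < ε) : ∃ y, Fs y ∧ ‖z - y‖ ≤ ε := by
  have key : ∀ β : WithTop I, ∀ ε : ℝ, 0 < ε → ∃ y, Fs y ∧ ‖Pb β z - y‖ ≤ ε := by
    intro β
    induction β using WellFoundedLT.induction with
    | ind β ih =>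
    intro ε hε
    by_cases h1 : ‖Pb β z‖ ≤ ε
    · exact ⟨0, by simp [Fs, Function.support], by simpa using h1⟩
    by_cases h2 : ∃ a : I, (a : WithTop I) < β ∧ ‖Rb a β z‖ ≤ ε / 2
    · obtain ⟨a, a1, a2⟩ := h2
      obtain ⟨y, y1, y2⟩ := ih a a1 (ε / 2) (by positivity)
      refine ⟨y + co z a • u a, y1.add (Fs.smul_u _ _), ?_⟩
      rw [Pb_split a β a1]
      calc _ = ‖(Pb a z - y) + Rb a β z‖ := by congr 1; abel
        _ ≤ _ := norm_add_le _ _
        _ ≤ ε := by linarith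
    exfalso
    push Not at h1 h2
    have h3 : ∀ a : {a : I // (a : WithTop I) < β}, ∃ (g : F I) (ω : ℕ)
        (b : {a : I // (a : WithTop I) < β}), K g ω ∧ ε / 2 ≤ |ev g z| ∧ a.1 < b.1 ∧
        ∀ α, g α ≠ 0 → a.1 < α ∧ α ≤ b.1 := by
      intro a
      obtain ⟨g, ω, g1, g2⟩ := exists_ev (h2 a.1 a.2)
      rw [Rb, ev_res] at g2
      have hne : (fl (Mb a.1 β) g).support.Nonempty := by
        obtain ⟨α, k, -⟩ := exists_of_ev_ne (g := fl (Mb a.1 β) g) (z := z) (by linarith)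
        exact ⟨α, Finsupp.mem_support_iff.2 k⟩
      have hm := fl_ne (Finsupp.mem_support_iff.1 (Finset.max'_mem _ hne))
      exact ⟨_, ω, ⟨_, hm.1.2⟩, N.fl g1 (Mb_oc _ _), le_trans g2.le (le_abs_self _), hm.1.1,
        fun α hα => ⟨(fl_ne hα).1.1, Finset.le_max' _ _ (Finsupp.mem_support_iff.2 hα)⟩⟩
    choose G ω nx g1 g2 g3 g4 using h3
    obtain ⟨a0, ha0⟩ : ∃ a : I, (a : WithTop I) < β := by
      by_contra hn
      push Not at hn
      have : Pb β z = 0 := by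
        apply Z.ext; ext α
        simp [Pb, co_res, Lb, not_lt.2 (hn α)]
      rw [this, norm_zero] at h1; linarith
    let s : ℕ → {a : I // (a : WithTop I) < β} := fun n => Nat.rec ⟨a0, ha0⟩ (fun _ a => nx a) n
    have hs : Monotone fun n => (s n).1 := monotone_nat_of_le_succ fun n => (g3 (s n)).le
    refine no_seq (z := z) (ε := ε / 2) (by positivity) (fun n => G (s n)) (fun n => ω (s n))
      (fun n => g1 _) (fun n n' h α α' k1 k2 => ?_) (fun n => g2 _)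
    exact lt_of_le_of_lt (le_trans (g4 _ α k1).2 (hs (Nat.succ_le_of_lt h))) (g4 _ α' k2).1
  simpa [Pb_top] using key ⊤ ε hε

theorem countable_supp [WellFoundedLT I] (z : Z I) : (Function.support (co z)).Countable := by
  choose y y1 y2 using fun n : ℕ => approx z (ε := 1 / ((n : ℝ) + 1)) (by positivity)
  refine (Set.countable_iUnion fun n => (y1 n).countable).mono fun α hα => ?_
  by_contra hn
  simp only [Set.mem_iUnion, Function.mem_support, not_exists, not_not] at hn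
  apply hα
  have h : ∀ n : ℕ, |co z α| ≤ 1 / ((n : ℝ) + 1) := fun n => by
    have := le_trans (abs_co (z - y n) α) (y2 n)
    rwa [co_sub, hn n, sub_zero] at this
  exact abs_nonpos_iff.1 (ge_of_tendsto' tendsto_one_div_add_atTop_nhds_zero_nat h)

theorem abs_xi (γ : Br I) (z : Z I) : |xi γ z| ≤ ‖z‖ :=
  le_of_tendsto' (xi_tendsto γ z).abs fun B => ((γ.2 B).tl_K 0).abs_ev z

/-- The tail subspaces of a block sequence. -/
noncomputable def Wy (y : ℕ → Z I) (N : ℕ) : Submodule ℝ (Z I) :=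
  (Finsupp.supported ℝ ℝ (Set.Ici N)).map (Finsupp.linearCombination ℝ y)

theorem mem_Wy {y : ℕ → Z I} {N : ℕ} {h : Z I} : h ∈ Wy y N ↔
    ∃ a : ℕ →₀ ℝ, (∀ n ∈ a.support, N ≤ n) ∧ h = ∑ n ∈ a.support, a n • y n := by
  constructor
  · rintro ⟨a, h1, rfl⟩
    exact ⟨a, fun n hn => h1 hn, rfl⟩
  · rintro ⟨a, h1, rfl⟩
    exact ⟨a, fun n hn => h1 n hn, rfl⟩

theorem co_comb {y : ℕ → Z I} {A : Finset ℕ} {a : ℕ → ℝ} {α : I}
    (h : co (∑ n ∈ A, a n • y n) α ≠ 0) : ∃ n ∈ A, co (y n) α ≠ 0 := by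
  rw [co_sum] at h
  obtain ⟨n, hn, h1⟩ := Finset.exists_ne_zero_of_sum_ne_zero h
  rw [co_smul] at h1
  exact ⟨n, hn, right_ne_zero_of_mul h1⟩

theorem blk_Wy {y : ℕ → Z I} (h1 : ∀ n, Fs (y n)) (h2 : ∀ n, y n ≠ 0)
    (h3 : ∀ n n', n < n' → Succ (co (y n)) (co (y n'))) : Blk (Wy y) := by
  refine ⟨fun N N' h => Submodule.map_mono (Finsupp.supported_mono (Set.Ici_subset_Ici.2 h)),
    ?_, fun N => ⟨y N, mem_Wy.2 ⟨Finsupp.single N 1, by simp, by simp⟩, h2 N⟩, ?_⟩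
  · intro N z hz
    obtain ⟨a, -, rfl⟩ := mem_Wy.1 hz
    refine (Set.Finite.biUnion a.support.finite_toSet fun n _ => h1 n).subset fun α hα => ?_
    obtain ⟨n, k1, k2⟩ := co_comb hα
    exact Set.mem_biUnion k1 k2
  · intro N z hz
    obtain ⟨a, -, rfl⟩ := mem_Wy.1 hz
    refine ⟨a.support.sup id + 1, fun z' hz' α β k1 k2 => ?_⟩
    obtain ⟨a', a1, rfl⟩ := mem_Wy.1 hz'
    obtain ⟨n, n1, n2⟩ := co_comb k1
    obtain ⟨n', m1, m2⟩ := co_comb k2
    exact h3 n n' (lt_of_le_of_lt (Finset.le_sup (f := id) n1) (a1 n' m1)) α β n2 m2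

theorem coef_le {y : ℕ → Z I} (h3 : ∀ n n', n < n' → Succ (co (y n)) (co (y n')))
    (A : Finset ℕ) (a : ℕ → ℝ) {n : ℕ} (hn : n ∈ A) :
    |a n| * ‖y n‖ ≤ ‖∑ m ∈ A, a m • y m‖ := by
  refine le_trans (le_of_eq ?_) (norm_res (ran (y n)) (ran_oc _) _)
  rw [← Real.norm_eq_abs, ← norm_smul]
  congr 1
  apply Z.ext
  ext α
  rw [co_res]
  by_cases hα : α ∈ ran (y n)
  · rw [Set.indicator_of_mem hα, co_sum, Finset.sum_eq_single n]
    · intro m _ hne
      have : co (y m) α = 0 := by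
        by_contra h'
        rcases lt_or_gt_of_ne hne with h | h
        · exact lt_irrefl _ (ran_lt (h3 _ _ h) (mem_ran h') hα)
        · exact lt_irrefl _ (ran_lt (h3 _ _ h) hα (mem_ran h'))
      simp [this]
    · intro h; exact absurd hn h
  · have : co (y n) α = 0 := by by_contra h'; exact hα (mem_ran h')
    simp [Set.indicator_of_notMem hα, this]

theorem xi_Pb {y : ℕ → Z I} (h3 : ∀ n n', n < n' → Succ (co (y n)) (co (y n'))) {β : WithTop I}
    (h4 : ∀ n α, co (y n) α ≠ 0 → (α : WithTop I) < β) (γ : Br I)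
    (h5 : ∀ N, ∃ h ∈ Wy y N, xi γ h ≠ 0) (z : Z I) : xi γ (Pb β z) = xi γ z := by
  have key : ∀ q α, (γ.1 q).1 α ≠ 0 → (α : WithTop I) < β := by
    intro q α hα
    obtain ⟨N, hN⟩ := eventually_atTop.1 ((eventually_all_finset (range (q + 1))).2
      fun a _ => succ_eventually h3 (γ.1 a).1)
    obtain ⟨h, k1, k2⟩ := h5 N
    obtain ⟨b, b1, rfl⟩ := mem_Wy.1 k1
    obtain ⟨B, hB⟩ := ((xi_tendsto γ _).eventually_ne k2).exists
    rw [ev_tl_zero] at hB
    obtain ⟨a, a1, a2⟩ := Finset.exists_ne_zero_of_sum_ne_zero hB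
    have hq : q < a := by
      by_contra hn
      apply a2
      rw [map_sum]
      exact Finset.sum_eq_zero fun n hn' => by
        rw [map_smul, hN n (b1 n hn') a (mem_range.2 (by omega)), smul_zero]
    obtain ⟨α', c1, c2⟩ := exists_of_ev_ne a2
    obtain ⟨n, -, c3⟩ := co_comb c2
    exact lt_trans (WithTop.coe_lt_coe.2 ((γ.2 (a + 1)).2.1 q a hq (by omega) α α' hα c1))
      (h4 n α' c3)
  refine tendsto_nhds_unique (xi_tendsto γ _) ((xi_tendsto γ z).congr fun B => ?_)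
  rw [ev_tl_zero, ev_tl_zero]
  refine Finset.sum_congr rfl fun a _ => ?_
  rw [Pb, ev_res]
  congr 2
  ext α
  by_cases h : (γ.1 a).1 α = 0
  · simp [fl_apply, h]
  · exact (fl_of_mem (E := Lb β) _ (key a α h)).symm

theorem inf_ker {V V2 : Type} [AddCommGroup V] [Module ℝ V] [AddCommGroup V2] [Module ℝ V2]
    [FiniteDimensional ℝ V2] {U : Submodule ℝ V} (hU : ¬FiniteDimensional ℝ U) (Φ : V →ₗ[ℝ] V2) :
    ¬FiniteDimensional ℝ (U ⊓ LinearMap.ker Φ : Submodule ℝ V) := fun h =>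
  hU (Module.Finite.iff_fg.2 (Submodule.fg_of_fg_map_of_fg_inf_ker Φ
    (Module.Finite.iff_fg.1 inferInstance) (Module.Finite.iff_fg.1 h)))

theorem hump [WellFoundedLT I] {V : Type} [NormedAddCommGroup V] [NormedSpace ℝ V]
    (S ι : V →ₗ[ℝ] Z I) (V' : Submodule ℝ V) (hV' : ¬FiniteDimensional ℝ V') {c : ℝ} (hc0 : 0 < c)
    (hc : ∀ v ∈ V', c * ‖v‖ ≤ ‖S v‖ + ‖ι v‖)
    (hS : ∀ U ≤ V', ¬FiniteDimensional ℝ U → ∀ c' : ℝ, 0 < c' → ∃ v ∈ U, ‖S v‖ < c' * ‖v‖)
    (lam : ℕ → V →ₗ[ℝ] ℝ) :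
    ∃ (γ : Br I) (δ C : ℝ) (h : ℕ → V), 0 < δ ∧ (∀ N, ‖h N‖ ≤ C) ∧ (∀ N, ∀ m < N, lam m (h N) = 0) ∧
      (∀ α, ∀ᶠ N in atTop, co (ι (h N)) α = 0) ∧ ∀ᶠ N in atTop, δ ≤ |xi γ (ι (h N))| := by
  classical
  let BB : Set (WithTop I) := {β | ∃ U ≤ V', ¬FiniteDimensional ℝ U ∧ ∃ c' : ℝ, 0 < c' ∧
    ∀ v ∈ U, c' * ‖v‖ ≤ ‖S v‖ + ‖Pb β (ι v)‖}
  have hBB : BB.Nonempty := ⟨⊤, V', le_rfl, hV', c, hc0, by simpa only [Pb_top] using hc⟩
  set β := (wellFounded_lt (α := WithTop I)).min BB hBB with hβ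
  obtain ⟨U, u1, u2, c2, u3, u4⟩ : β ∈ BB := WellFounded.min_mem _ _ _
  have hmin : ∀ a : I, (a : WithTop I) < β → (a : WithTop I) ∉ BB :=
    fun a ha hm => WellFounded.not_lt_min _ BB hm ha
  obtain ⟨a0, ha0⟩ : ∃ a : I, (a : WithTop I) < β := by
    by_contra hn
    push Not at hn
    obtain ⟨v, v1, v2⟩ := hS U u1 u2 c2 u3
    have : Pb β (ι v) = 0 := by
      apply Z.ext; ext α
      simp [Pb, co_res, Lb, not_lt.2 (hn α)]
    have h2 := u4 v v1
    rw [this, norm_zero] at h2; linarith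
  let ε : ℕ → ℝ := fun n => c2 / 12 / 2 ^ n
  have hε : ∀ n, 0 < ε n := fun n => by positivity
  have hen : ∀ v : V, ∃ en : ℕ → I, ∀ α, co (ι v) α ≠ 0 → ∃ k, en k = α := by
    intro v
    obtain ⟨f, hf⟩ := ((countable_supp (ι v)).insert a0).exists_eq_range ⟨a0, by simp⟩
    refine ⟨f, fun α hα => ?_⟩
    have : α ∈ Set.range f := hf ▸ Set.mem_insert_of_mem _ hα
    exact this
  choose en hen using hen
  have step : ∀ (n : ℕ) (B : Finset V) (a : {a : I // (a : WithTop I) < β}),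
      ∃ (v : V) (y : Z I) (b : {a : I // (a : WithTop I) < β}), v ∈ U ∧ ‖v‖ = 1 ∧
      (∀ m < n, lam m v = 0) ∧ (∀ w ∈ B, ∀ k < n, co (ι v) (en w k) = 0) ∧ ‖S v‖ ≤ ε n ∧ Fs y ∧
      ‖Pb β (ι v) - y‖ ≤ 2 * ε n ∧ a.1 ≤ b.1 ∧ ∀ α, co y α ≠ 0 → a.1 < α ∧ α ≤ b.1 := by
    intro n B a
    let Φ : V →ₗ[ℝ] (Fin n → ℝ) × (B → Fin n → ℝ) × ℝ :=
      (LinearMap.pi fun m : Fin n => lam m).prod ((LinearMap.pi fun w : B =>
        LinearMap.pi fun k : Fin n => (coL (en w k)).toLinearMap.comp ι).prod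
        ((coL a.1).toLinearMap.comp ι))
    have h1 := hmin a.1 a.2
    simp only [BB, Set.mem_ofPred_eq, not_exists, not_and, not_forall, not_le] at h1
    obtain ⟨v, ⟨v1, v2⟩, v3⟩ := h1 _ (le_trans inf_le_left u1) (inf_ker u2 Φ) (ε n) (hε n)
    have hv : 0 < ‖v‖ := by
      by_contra h0
      have := mul_nonpos_of_nonneg_of_nonpos (hε n).le (not_lt.1 h0)
      have := norm_nonneg (S v)
      have := norm_nonneg (Pb a.1 (ι v))
      linarith
    set v' := ‖v‖⁻¹ • v with hv'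
    have hΦ : Φ v' = 0 := by rw [hv', map_smul, LinearMap.mem_ker.1 v2, smul_zero]
    have e1 : ‖S v'‖ + ‖Pb a.1 (ι v')‖ ≤ ε n := by
      simp only [hv', map_smul, norm_smul, norm_inv, norm_norm]
      rw [← mul_add, inv_mul_le_iff₀ hv]; linarith
    obtain ⟨y0, y1, y2⟩ := approx (Rb a.1 β (ι v')) (hε n)
    have hy : Fs (Rb a.1 β y0) := y1.res _ _
    have hyM : ∀ α, co (Rb a.1 β y0) α ≠ 0 → α ∈ Mb a.1 β := by
      intro α hα
      rw [Rb, co_res] at hα
      exact Set.mem_of_indicator_ne_zero hα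
    have hb : ((insert a.1 hy.toFinset).max' (by simp) : I) < β := by
      rcases Finset.mem_insert.1 ((insert a.1 hy.toFinset).max'_mem (by simp)) with h | h
      · rw [h]; exact a.2
      · exact (hyM _ (hy.mem_toFinset.1 h)).2
    refine ⟨v', Rb a.1 β y0, ⟨_, hb⟩, U.smul_mem _ v1, ?_, fun m hm => ?_, fun w hw k hk => ?_,
      by linarith [norm_nonneg (Pb a.1 (ι v'))], hy, ?_,
      Finset.le_max' _ _ (Finset.mem_insert_self _ _), fun α hα => ⟨(hyM α hα).1,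
        Finset.le_max' _ _ (Finset.mem_insert_of_mem (hy.mem_toFinset.2 hα))⟩⟩
    · rw [hv', norm_smul, norm_inv, norm_norm, inv_mul_cancel₀ hv.ne']
    · exact congrFun (congrArg Prod.fst hΦ) ⟨m, hm⟩
    · exact congrFun (congrFun (congrArg (fun p => p.2.1) hΦ) ⟨w, hw⟩) ⟨k, hk⟩
    · have e2 : co (ι v') a.1 = 0 := congrArg (fun p => p.2.2) hΦ
      have e3 : Rb a.1 β (Rb a.1 β (ι v')) = Rb a.1 β (ι v') := by
        apply Z.ext; simp [Rb, co_res]
      have e4 : ‖Rb a.1 β (ι v') - Rb a.1 β y0‖ ≤ ε n := by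
        rw [← e3, ← map_sub]; exact le_trans (norm_res _ _ _) y2
      rw [Pb_split a.1 β a.2, e2, zero_smul, add_zero, add_sub_assoc]
      linarith [norm_add_le (Pb a.1 (ι v')) (Rb a.1 β (ι v') - Rb a.1 β y0), norm_nonneg (S v')]
  choose vf yf bf s1 s2 s3 s4 s5 s6 s7 s8 s9 using step
  let st : ℕ → Finset V × {a : I // (a : WithTop I) < β} := fun n => Nat.rec (∅, ⟨a0, ha0⟩)
    (fun n s => (insert (vf n s.1 s.2) s.1, bf n s.1 s.2)) n
  let v : ℕ → V := fun n => vf n (st n).1 (st n).2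
  let y : ℕ → Z I := fun n => yf n (st n).1 (st n).2
  have hmem : ∀ m n, m < n → v m ∈ (st n).1 := by
    intro m n h
    induction h with
    | refl => exact Finset.mem_insert_self _ _
    | step _ ih => exact Finset.mem_insert_of_mem ih
  have hm : Monotone fun n => (st n).2.1 := monotone_nat_of_le_succ fun n => s8 _ _ _
  have hsucc : ∀ n n', n < n' → Succ (co (y n)) (co (y n')) := fun n n' h α α' k1 k2 =>
    lt_of_le_of_lt (le_trans (s9 _ _ _ α k1).2 (hm (Nat.succ_le_of_lt h))) (s9 _ _ _ α' k2).1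
  have hεle : ∀ n, ε n ≤ c2 / 12 := fun n =>
    div_le_self (by positivity) (one_le_pow₀ (by norm_num))
  have hyn : ∀ n, c2 / 2 ≤ ‖y n‖ := by
    intro n
    have k1 := u4 (v n) (s1 _ _ _)
    have k2 : ‖v n‖ = 1 := s2 _ _ _
    have k3 : ‖S (v n)‖ ≤ ε n := s5 _ _ _
    have k4 : ‖Pb β (ι (v n)) - y n‖ ≤ 2 * ε n := s7 _ _ _
    have k5 := norm_le_insert' (Pb β (ι (v n))) (y n)
    have := hεle n
    rw [k2] at k1
    linarith
  obtain ⟨γ, δ, hδ, hγ⟩ := (blk_Wy (y := y) (fun n => s6 _ _ _) (fun n h0 => by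
    have := hyn n; rw [h0, norm_zero] at this; linarith) hsucc).main
  have hxi := xi_Pb hsucc (β := β) (fun n α hα => lt_of_le_of_lt
    (WithTop.coe_le_coe.2 (s9 _ _ _ α hα).2) (bf _ _ _).2) γ (fun N => by
      obtain ⟨h, h1, h2⟩ := hγ N
      refine ⟨h, h1, fun h0 => ?_⟩
      rw [h0, abs_zero] at h2
      have := norm_nonneg h
      nlinarith)
  have hN : ∀ N, ∃ a : ℕ →₀ ℝ, (∀ n ∈ a.support, N ≤ n) ∧ ‖∑ n ∈ a.support, a n • y n‖ = 1 ∧
      δ < |xi γ (∑ n ∈ a.support, a n • y n)| := by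
    intro N
    obtain ⟨h, h1, h2⟩ := hγ N
    have hp : 0 < ‖h‖ := by
      refine norm_pos_iff.2 fun h0 => ?_
      simp [h0] at h2
    obtain ⟨a, a1, a2⟩ := mem_Wy.1 ((Wy y N).smul_mem ‖h‖⁻¹ h1)
    refine ⟨a, a1, ?_, ?_⟩
    · rw [← a2, norm_smul, norm_inv, norm_norm, inv_mul_cancel₀ hp.ne']
    · rw [← a2, map_smul, smul_eq_mul, abs_mul, abs_inv, abs_norm, inv_mul_eq_div, lt_div_iff₀ hp]
      exact h2
  choose a a1 a2 a3 using hN
  have hsum : ∀ N, ∑ n ∈ (a N).support, |a N n| * ε n ≤ 1 / 3 / 2 ^ N := by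
    intro N
    have k1 : ∀ n ∈ (a N).support, |a N n| * ε n ≤ 2 / 3 * (1 / 2 ^ (n + 2)) := by
      intro n hn
      have k2 := coef_le hsucc _ (a N) hn
      rw [a2] at k2
      have k3 := hyn n
      have k4 : |a N n| * c2 ≤ 2 := by nlinarith [abs_nonneg (a N n)]
      have : |a N n| * ε n = |a N n| * c2 * (1 / 3 * (1 / 2 ^ (n + 2))) := by
        simp only [ε]; field_simp; ring
      rw [this]
      have : (0 : ℝ) < 1 / 2 ^ (n + 2) := by positivity
      nlinarith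
    refine le_trans (Finset.sum_le_sum k1) ?_
    rw [← Finset.mul_sum]
    have k2 : ∑ n ∈ (a N).support, 1 / (2 : ℝ) ^ (n + 2) ≤
        ∑ n ∈ Ico N ((a N).support.sup id + 1), 1 / (2 : ℝ) ^ (n + 2) :=
      Finset.sum_le_sum_of_subset_of_nonneg (fun n hn => Finset.mem_Ico.2 ⟨a1 N n hn,
        Nat.lt_succ_of_le (Finset.le_sup (f := id) hn)⟩) (fun _ _ _ => by positivity)
    have k3 := le_trans k2 (sum_inv_mm _ _)
    calc _ ≤ 2 / 3 * (1 / (2 : ℝ) ^ (N + 1)) := by gcongr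
      _ = _ := by field_simp; ring
  let h : ℕ → V := fun N => ∑ n ∈ (a N).support, a N n • v n
  have hS' : ∀ N, ‖S (h N)‖ ≤ 1 / 3 / 2 ^ N := by
    intro N
    refine le_trans ?_ (hsum N)
    simp only [h, map_sum, map_smul]
    refine le_trans (norm_sum_le _ _) (Finset.sum_le_sum fun n _ => ?_)
    rw [norm_smul, Real.norm_eq_abs]
    exact mul_le_mul_of_nonneg_left (s5 _ _ _) (abs_nonneg _)
  have hP' : ∀ N, ‖Pb β (ι (h N)) - ∑ n ∈ (a N).support, a N n • y n‖ ≤ 2 * (1 / 3 / 2 ^ N) := by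
    intro N
    refine le_trans ?_ (mul_le_mul_of_nonneg_left (hsum N) zero_le_two)
    simp only [h, map_sum, map_smul]
    rw [← Finset.sum_sub_distrib, Finset.mul_sum]
    refine le_trans (norm_sum_le _ _) (Finset.sum_le_sum fun n _ => ?_)
    rw [← smul_sub, norm_smul, Real.norm_eq_abs]
    have := mul_le_mul_of_nonneg_left (s7 n (st n).1 (st n).2) (abs_nonneg (a N n))
    linarith
  refine ⟨γ, δ / 2, 2 / c2, h, by positivity, fun N => ?_, fun N m hm => ?_, fun α => ?_, ?_⟩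
  · have k1 := u4 (h N) (U.sum_mem fun n _ => U.smul_mem _ (s1 _ _ _))
    have k2 := norm_le_insert' (Pb β (ι (h N))) (∑ n ∈ (a N).support, a N n • y n)
    have k3 : (1 : ℝ) / 3 / 2 ^ N ≤ 1 / 3 := div_le_self (by norm_num) (one_le_pow₀ (by norm_num))
    have k4 := hS' N
    have k5 := hP' N
    rw [a2] at k2
    rw [le_div_iff₀ u3]; linarith
  · simp only [h, map_sum, map_smul]
    exact Finset.sum_eq_zero fun n hn => by
      rw [s3 _ _ _ m (lt_of_lt_of_le hm (a1 N n hn)), smul_zero]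
  · have hev : ∀ᶠ n in atTop, co (ι (v n)) α = 0 := by
      by_cases hex : ∃ m, co (ι (v m)) α ≠ 0
      · obtain ⟨m, hm⟩ := hex
        obtain ⟨k, rfl⟩ := hen _ _ hm
        filter_upwards [eventually_gt_atTop m, eventually_gt_atTop k] with n h1 h2
        exact s4 _ _ _ _ (hmem m n h1) k h2
      · push Not at hex
        exact Eventually.of_forall hex
    obtain ⟨N0, hN0⟩ := eventually_atTop.1 hev
    filter_upwards [eventually_ge_atTop N0] with N hN
    simp only [h, map_sum, map_smul, co_sum, co_smul]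
    exact Finset.sum_eq_zero fun n hn => by rw [hN0 n (le_trans hN (a1 N n hn)), mul_zero]
  · obtain ⟨N0, hN0⟩ := pow_unbounded_of_one_lt (2 / δ) (by norm_num : (1 : ℝ) < 2)
    filter_upwards [eventually_ge_atTop N0] with N hN
    have k1 := le_trans (abs_xi γ _) (hP' N)
    rw [map_sub, hxi] at k1
    have k2 : (2 : ℝ) ^ N0 ≤ 2 ^ N := pow_le_pow_right₀ (by norm_num) hN
    have k3 : 2 * (1 / 3 / (2 : ℝ) ^ N) ≤ δ / 2 := by
      rw [div_lt_iff₀ hδ] at hN0
      rw [mul_div_assoc', div_le_iff₀ (by positivity)]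
      nlinarith
    have k4 := a3 N
    have k5 := abs_sub_abs_le_abs_sub (xi γ (∑ n ∈ (a N).support, a N n • y n)) (xi γ (ι (h N)))
    rw [abs_sub_comm] at k5
    linarith

end Vale.Agent.P129N
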