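import Vale.Agent.P129.NegCode

/-!
The norming set.
-/

open Finset

namespace Vale.Agent.P129N

variable {I : Type} [LinearOrder I] [Cod I]

open Classical in
/-- Restriction of a functional to a set. -/
noncomputable def fl (E : Set I) (f : F I) : F I := f.filter (· ∈ E)

section
omit [LinearOrder I] [Cod I]

open Classical in
theorem fl_apply (E : Set I) (f : F I) (α : I) : fl E f α = if α ∈ E then f α else 0 := by
  simp [fl, Finsupp.filter_apply]

theorem fl_of_mem {E : Set I} (f : F I) {α : I} (h : α ∈ E) : fl E f α = f α := by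
  simp [fl_apply, h]

theorem fl_of_not_mem {E : Set I} (f : F I) {α : I} (h : α ∉ E) : fl E f α = 0 := by
  simp [fl_apply, h]

theorem fl_ne {E : Set I} {f : F I} {α : I} (h : fl E f α ≠ 0) : α ∈ E ∧ f α ≠ 0 := by
  by_cases hα : α ∈ E
  · exact ⟨hα, by rwa [fl_of_mem f hα] at h⟩
  · exact absurd (fl_of_not_mem f hα) h

theorem fl_sum {ι : Type} (E : Set I) (A : Finset ι) (c : ι → F I) :
    fl E (∑ r ∈ A, c r) = ∑ r ∈ A, fl E (c r) := by
  ext α
  by_cases h : α ∈ E <;> simp [fl_apply, h, Finset.sum_apply']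

theorem fl_smul (E : Set I) (s : ℚ) (f : F I) : fl E (s • f) = s • fl E f := by
  ext α
  by_cases h : α ∈ E <;> simp [fl_apply, h]

theorem fl_fl (E E' : Set I) (f : F I) : fl E (fl E' f) = fl (E' ∩ E) f := by
  ext α
  by_cases h : α ∈ E <;> by_cases h' : α ∈ E' <;> simp [fl_apply, h, h']

theorem fl_univ (f : F I) : fl Set.univ f = f := by
  ext α; simp [fl_apply]

end

/-- Pairwise successive families. -/
def Pw {ι R : Type} [Zero R] (A : Finset ι) (c : ι → I → R) : Prop :=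
  ∀ r ∈ A, ∀ r' ∈ A, r ≠ r' → Succ (c r) (c r') ∨ Succ (c r') (c r)

/-- A segment of a special sequence. -/
noncomputable def seg (ψ : ℕ → F I × ℕ) (p : ℕ) (E : Set I) (lo hi : ℕ) : F I :=
  ∑ a ∈ range p, if lo ≤ (ψ a).2 ∧ (ψ a).2 < hi then fl E (ψ a).1 else 0

/-- Data of a sum of segments. -/
structure D2 (I : Type) where
  S : Finset ℕ
  ψ : ℕ → ℕ → F I × ℕ
  p : ℕ → ℕ
  lo : ℕ → ℕ
  hi : ℕ → ℕ
  E : ℕ → Set I
  s : ℕ → ℚ

/-- The functional described by the data. -/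
noncomputable def D2.val (d : D2 I) : F I :=
  ∑ l ∈ d.S, d.s l • seg (d.ψ l) (d.p l) (d.E l) (d.lo l) (d.hi l)

/-- Combinatorial admissibility of the data. -/
structure D2.Ok0 (d : D2 I) (ω : ℕ) : Prop where
  ch : ∀ l ∈ d.S, Chain (d.ψ l) (d.p l)
  oc : ∀ l ∈ d.S, (d.E l).OrdConnected
  sg : ∀ l ∈ d.S, d.s l = 1 ∨ d.s l = -1
  cd : ∀ l ∈ d.S, d.S.card ≤ d.lo l + 1
  lb : ∀ l ∈ d.S, ω ≤ d.lo l
  dj : ∀ l ∈ d.S, ∀ l' ∈ d.S, ∀ a < d.p l, ∀ a' < d.p l', d.lo l ≤ (d.ψ l a).2 →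
    (d.ψ l a).2 < d.hi l → d.lo l' ≤ (d.ψ l' a').2 → (d.ψ l' a').2 < d.hi l' →
    (d.ψ l a).2 = (d.ψ l' a').2 → l = l'

/-- `N true f w`: weighted functional of weight `w`; `N false g ω`: norming functional
with label `ω`. -/
inductive N : Bool → F I → ℕ → Prop
  | base (α : I) (s : ℚ) (hs : s = 1 ∨ s = -1) (g : F I) (hg : g = Finsupp.single α s) :
      N false g 0
  | one (w : ℕ) (A : Finset ℕ) (c : ℕ → F I) (ω : ℕ → ℕ) (hc : ∀ r ∈ A, N false (c r) (ω r))
      (hp : Pw A (fun r => ⇑(c r))) (hs : Sch (nn w) (fun r => max (ω r) (nn w)) A) (f : F I)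
      (hf : f = (1 / mm w) • ∑ r ∈ A, c r) : N true f w
  | two (ω : ℕ) (d : D2 I) (hT : ∀ l ∈ d.S, ∀ a < d.p l, N true (d.ψ l a).1 (d.ψ l a).2)
      (h0 : d.Ok0 ω) (g : F I) (hg : g = d.val) : N false g ω

/-- Weighted functionals. -/
abbrev T (f : F I) (w : ℕ) : Prop := N true f w

/-- Norming functionals. -/
abbrev K (g : F I) (ω : ℕ) : Prop := N false g ω

/-- Full admissibility of the data. -/
def D2.Ok (d : D2 I) (ω : ℕ) : Prop :=
  (∀ l ∈ d.S, ∀ a < d.p l, T (d.ψ l a).1 (d.ψ l a).2) ∧ d.Ok0 ω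

theorem D2.Ok.K {d : D2 I} {ω : ℕ} (h : d.Ok ω) : K d.val ω := N.two ω d h.1 h.2 _ rfl

theorem K.cases {g : F I} {ω : ℕ} (h : K g ω) :
    (∃ α s, (s = 1 ∨ s = -1) ∧ g = Finsupp.single α s) ∨ ∃ d : D2 I, d.Ok ω ∧ g = d.val := by
  cases h with
  | base α s hs g hg => exact Or.inl ⟨α, s, hs, hg⟩
  | two ω d hT h0 g hg => exact Or.inr ⟨d, ⟨hT, h0⟩, hg⟩

theorem T.cases {f : F I} {w : ℕ} (h : T f w) : ∃ (A : Finset ℕ) (c : ℕ → F I) (ω : ℕ → ℕ),
    (∀ r ∈ A, K (c r) (ω r)) ∧ Pw A (fun r => ⇑(c r)) ∧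
    Sch (nn w) (fun r => max (ω r) (nn w)) A ∧ f = (1 / mm w) • ∑ r ∈ A, c r := by
  cases h with
  | one w A c ω hc hp hs f hf => exact ⟨A, c, ω, hc, hp, hs, hf⟩

theorem K.zero (ω : ℕ) : K (0 : F I) ω := by
  refine N.two ω ⟨∅, fun _ _ => (0, 0), 0, 0, 0, fun _ => ∅, 0⟩ (by simp) ?_ _ (by simp [D2.val])
  constructor <;> simp

theorem T.zero (w : ℕ) : T (0 : F I) w :=
  N.one w ∅ 0 0 (by simp) (by simp [Pw]) (Sch.empty _ _) _ (by simp)

theorem K.single (α : I) : K (Finsupp.single α (1 : ℚ)) 0 := N.base α 1 (Or.inl rfl) _ rfl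

theorem K.down {g : F I} {ω ω' : ℕ} (h : K g ω) (hω : ω' ≤ ω) : K g ω' := by
  cases h with
  | base α s hs g hg =>
    obtain rfl : ω' = 0 := by omega
    exact N.base α s hs g hg
  | two ω d hT h0 g hg =>
    exact N.two ω' d hT ⟨h0.ch, h0.oc, h0.sg, h0.cd, fun l hl => le_trans hω (h0.lb l hl), h0.dj⟩
      g hg

omit [LinearOrder I] [Cod I] in
theorem fl_seg (E' : Set I) (ψ : ℕ → F I × ℕ) (p : ℕ) (E : Set I) (lo hi : ℕ) :
    fl E' (seg ψ p E lo hi) = seg ψ p (E ∩ E') lo hi := by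
  unfold seg
  rw [fl_sum]
  refine Finset.sum_congr rfl fun a _ => ?_
  split_ifs
  · exact fl_fl _ _ _
  · ext α; simp [fl_apply]

theorem N.fl {b : Bool} {g : F I} {ω : ℕ} (h : N b g ω) {E : Set I} (hE : E.OrdConnected) :
    N b (fl E g) ω := by
  induction h with
  | base α s hs g hg =>
    subst hg
    by_cases hα : α ∈ E
    · refine N.base α s hs _ ?_
      ext β
      rw [fl_apply]
      split_ifs with hβ
      · rfl
      · rw [Finsupp.single_eq_of_ne]; rintro rfl; exact hβ hα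
    · have : P129N.fl E (Finsupp.single α s) = 0 := by
        ext β
        rw [fl_apply]
        split_ifs with hβ
        · rw [Finsupp.single_eq_of_ne]; · rfl
          rintro rfl; exact hα hβ
        · rfl
      rw [this]; exact K.zero 0
  | one w A c ω hc hp hs f hf ih =>
    refine N.one w A (fun r => P129N.fl E (c r)) ω ih ?_ hs _ (by rw [hf, fl_smul, fl_sum])
    intro r hr r' hr' hne
    rcases hp r hr r' hr' hne with h | h
    · exact Or.inl fun α β h1 h2 => h α β (fl_ne h1).2 (fl_ne h2).2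
    · exact Or.inr fun α β h1 h2 => h α β (fl_ne h1).2 (fl_ne h2).2
  | two ω d hT h0 g hg _ =>
    refine N.two ω ⟨d.S, d.ψ, d.p, d.lo, d.hi, fun l => d.E l ∩ E, d.s⟩ hT
      ⟨h0.ch, fun l hl => (h0.oc l hl).inter hE, h0.sg, h0.cd, h0.lb, h0.dj⟩ _ ?_
    rw [hg, D2.val, D2.val, fl_sum]
    exact Finset.sum_congr rfl fun l _ => by rw [fl_smul, fl_seg]

theorem N.neg {b : Bool} {g : F I} {ω : ℕ} (h : N b g ω) : N b (-g) ω := by
  induction h with
  | base α s hs g hg =>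
    refine N.base α (-s) ?_ _ (by rw [hg, Finsupp.single_neg])
    rcases hs with rfl | rfl <;> simp
  | one w A c ω hc hp hs f hf ih =>
    refine N.one w A (fun r => -(c r)) ω ih ?_ hs _ (by rw [hf, Finset.sum_neg_distrib, smul_neg])
    intro r hr r' hr' hne
    rcases hp r hr r' hr' hne with h | h
    · exact Or.inl fun α β h1 h2 => h α β (by simpa using h1) (by simpa using h2)
    · exact Or.inr fun α β h1 h2 => h α β (by simpa using h1) (by simpa using h2)
  | two ω d hT h0 g hg _ =>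
    refine N.two ω ⟨d.S, d.ψ, d.p, d.lo, d.hi, d.E, fun l => -d.s l⟩ hT
      ⟨h0.ch, h0.oc, ?_, h0.cd, h0.lb, h0.dj⟩ _ ?_
    · intro l hl
      rcases h0.sg l hl with h | h <;> simp [h]
    · rw [hg, D2.val, D2.val, ← Finset.sum_neg_distrib]
      exact Finset.sum_congr rfl fun l _ => by simp

theorem N.sign {b : Bool} {g : F I} {ω : ℕ} (h : N b g ω) {s : ℚ} (hs : s = 1 ∨ s = -1) :
    N b (s • g) ω := by
  rcases hs with rfl | rfl
  · simpa using h
  · simpa using h.neg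

/-- Cutting the data to the weights in `[a, b)`. -/
def D2.cut (d : D2 I) (a b : ℕ) : D2 I :=
  ⟨d.S, d.ψ, d.p, fun l => max (d.lo l) a, fun l => min (d.hi l) b, d.E, d.s⟩

/-- The part of weight `w`. -/
noncomputable def D2.h (d : D2 I) (w : ℕ) : F I := (d.cut w (w + 1)).val

omit [LinearOrder I] [Cod I] in
theorem D2.cut_def (d : D2 I) (a b : ℕ) : (d.cut a b).val = ∑ l ∈ d.S, d.s l •
    seg (d.ψ l) (d.p l) (d.E l) (max (d.lo l) a) (min (d.hi l) b) := rfl

omit [LinearOrder I] [Cod I] in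
theorem D2.h_def (d : D2 I) (w : ℕ) : d.h w = ∑ l ∈ d.S, d.s l •
    seg (d.ψ l) (d.p l) (d.E l) (max (d.lo l) w) (min (d.hi l) (w + 1)) := rfl

theorem D2.Ok0.cut {d : D2 I} {ω : ℕ} (h : d.Ok0 ω) (a b : ℕ) : (d.cut a b).Ok0 a := by
  refine ⟨h.ch, h.oc, h.sg, fun l hl => ?_, fun l _ => le_max_right _ _, ?_⟩
  · have := h.cd l hl
    simp only [D2.cut]; omega
  · intro l hl l' hl' x hx x' hx' h1 h2 h3 h4 h5
    simp only [D2.cut] at *
    exact h.dj l hl l' hl' x hx x' hx' (by omega) (by omega) (by omega) (by omega) h5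

theorem D2.Ok.cut {d : D2 I} {ω : ℕ} (h : d.Ok ω) (a b : ℕ) : (d.cut a b).Ok a :=
  ⟨h.1, h.2.cut a b⟩

omit [LinearOrder I] [Cod I] in
theorem D2.cut_val (d : D2 I) (a b : ℕ) : (d.cut a b).val = ∑ w ∈ Ico a b, d.h w := by
  simp only [D2.h_def, D2.cut_def]
  rw [Finset.sum_comm]
  refine Finset.sum_congr rfl fun l _ => ?_
  rw [← Finset.smul_sum]
  congr 1
  simp only [seg]
  rw [Finset.sum_comm]
  refine Finset.sum_congr rfl fun x _ => ?_
  split_ifs with h1
  · rw [Finset.sum_eq_single (d.ψ l x).2]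
    · rw [if_pos (by omega)]
    · intro w _ hw; rw [if_neg (by omega)]
    · intro hw; exact absurd (Finset.mem_Ico.2 (by omega)) hw
  · symm
    refine Finset.sum_eq_zero fun w hw => ?_
    have := Finset.mem_Ico.1 hw
    rw [if_neg (by omega)]

omit [LinearOrder I] [Cod I] in
theorem D2.val_eq (d : D2 I) (b : ℕ) : ∃ B, b ≤ B ∧ d.val = ∑ w ∈ Ico 0 B, d.h w := by
  refine ⟨max b (d.S.sup d.hi), le_max_left _ _, ?_⟩
  rw [← d.cut_val, D2.cut_def, D2.val]
  refine Finset.sum_congr rfl fun l hl => ?_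
  have : d.hi l ≤ d.S.sup d.hi := Finset.le_sup hl
  rw [max_eq_left (Nat.zero_le _), min_eq_left (by omega)]

theorem D2.Ok0.h_cases {d : D2 I} {ω : ℕ} (h : d.Ok0 ω) (w : ℕ) : d.h w = 0 ∨
    ∃ l ∈ d.S, ∃ a < d.p l, (d.ψ l a).2 = w ∧ ω ≤ w ∧ d.h w = d.s l • fl (d.E l) (d.ψ l a).1 := by
  by_cases hex : ∃ l ∈ d.S, ∃ a < d.p l, (d.ψ l a).2 = w ∧ d.lo l ≤ w ∧ w < d.hi l
  · obtain ⟨l, hl, a, ha, h1, h2, h3⟩ := hex
    refine Or.inr ⟨l, hl, a, ha, h1, le_trans (h.lb l hl) h2, ?_⟩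
    rw [D2.h_def]; simp only [seg]
    rw [Finset.sum_eq_single l]
    · congr 1
      rw [Finset.sum_eq_single a]
      · rw [if_pos (by omega)]
      · intro a' ha' hne
        rw [if_neg]
        intro hc
        exact hne ((h.ch l hl).inj (mem_range.1 ha') ha (by omega))
      · intro hn; exact absurd (mem_range.2 ha) hn
    · intro l' hl' hne
      rw [Finset.sum_eq_zero, smul_zero]
      intro a' ha'
      rw [if_neg]
      intro hc
      exact hne (h.dj l' hl' l hl a' (mem_range.1 ha') a ha (by omega) (by omega) (by omega)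
        (by omega) (by omega))
    · intro hn; exact absurd hl hn
  · left
    rw [D2.h_def]; simp only [seg]
    refine Finset.sum_eq_zero fun l hl => ?_
    rw [Finset.sum_eq_zero, smul_zero]
    intro a ha
    rw [if_neg]
    intro hc
    exact hex ⟨l, hl, a, mem_range.1 ha, by omega, by omega, by omega⟩

theorem D2.Ok.h_T {d : D2 I} {ω : ℕ} (h : d.Ok ω) (w : ℕ) : T (d.h w) w := by
  rcases h.2.h_cases w with h0 | ⟨l, hl, a, ha, rfl, -, h2⟩
  · rw [h0]; exact T.zero w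
  · rw [h2]; exact ((h.1 l hl a ha).fl (h.2.oc l hl)).sign (h.2.sg l hl)

omit [Cod I] in
theorem Pw.abs_sum_le {ι : Type} {A : Finset ι} {c : ι → F I} (hp : Pw A (fun r => ⇑(c r)))
    (α : I) {κ : ℝ} (hκ : 0 ≤ κ) (hc : ∀ r ∈ A, |((c r α : ℚ) : ℝ)| ≤ κ) :
    ∑ r ∈ A, |((c r α : ℚ) : ℝ)| ≤ κ := by
  by_cases hex : ∃ r ∈ A, c r α ≠ 0
  · obtain ⟨r, hr, hne⟩ := hex
    rw [Finset.sum_eq_single r]
    · exact hc r hr
    · intro r' hr' hrr
      have : c r' α = 0 := by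
        by_contra h'
        rcases hp r' hr' r hr hrr with h | h
        · exact lt_irrefl _ (h α α h' hne)
        · exact lt_irrefl _ (h α α hne h')
      simp [this]
    · intro hn; exact absurd hr hn
  · push Not at hex
    rw [Finset.sum_eq_zero fun r hr => by simp [hex r hr]]
    exact hκ

theorem N.sup {b : Bool} {g : F I} {ω : ℕ} (h : N b g ω) (α : I) :
    |((g α : ℚ) : ℝ)| ≤ if b then 1 / 2 ^ (ω + 2) else 1 / 2 ^ ω := by
  induction h with
  | base β s hs g hg =>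
    subst hg
    simp only [Bool.false_eq_true, if_false, pow_zero, div_one, Finsupp.single_apply]
    split_ifs
    · rcases hs with rfl | rfl <;> simp
    · simp
  | one w A c ω hc hp hs f hf ih =>
    subst hf
    simp only [if_true, Finsupp.smul_apply, smul_eq_mul, Finset.sum_apply']
    push_cast
    rw [mm_cast, abs_mul, abs_of_pos (by positivity : (0 : ℝ) < 1 / 2 ^ (w + 2))]
    have h1 : ∑ r ∈ A, |((c r α : ℚ) : ℝ)| ≤ 1 := by
      refine hp.abs_sum_le α zero_le_one fun r hr => le_trans (by simpa using ih r hr) ?_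
      exact inv_le_one_of_one_le₀ (one_le_pow₀ (by norm_num))
    have h2 := Finset.abs_sum_le_sum_abs (fun r => ((c r α : ℚ) : ℝ)) A
    have h3 : (0 : ℝ) < 1 / 2 ^ (w + 2) := by positivity
    nlinarith
  | two ω d hT h0 g hg ih =>
    subst hg
    obtain ⟨B, hB, he⟩ := d.val_eq ω
    have hw : ∀ w, |((d.h w α : ℚ) : ℝ)| ≤ if ω ≤ w then 1 / 2 ^ (w + 2) else 0 := by
      intro w
      rcases h0.h_cases w with h1 | ⟨l, hl, a, ha, rfl, h1, h2⟩
      · rw [h1]; split_ifs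
        · simp
        · simp
      · rw [h2, if_pos h1]
        have := ih l hl a ha
        simp only [if_true] at this
        have h3 : |((P129N.fl (d.E l) (d.ψ l a).1 α : ℚ) : ℝ)| ≤ 1 / 2 ^ ((d.ψ l a).2 + 2) := by
          rw [fl_apply]; split_ifs
          · exact this
          · simp
        rcases h0.sg l hl with h4 | h4 <;> simpa [h4] using h3
    rw [he, ← Finset.sum_Ico_consecutive _ (Nat.zero_le ω) hB]
    simp only [Bool.false_eq_true, if_false, Finsupp.add_apply, Finset.sum_apply']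
    push_cast
    have e1 : ∑ w ∈ Ico 0 ω, ((d.h w α : ℚ) : ℝ) = 0 := by
      refine Finset.sum_eq_zero fun w hw' => ?_
      have := hw w
      rw [if_neg (by have := Finset.mem_Ico.1 hw'; omega)] at this
      exact abs_nonpos_iff.1 this
    rw [e1, zero_add]
    refine le_trans (Finset.abs_sum_le_sum_abs _ _) ?_
    refine le_trans (Finset.sum_le_sum (g := fun w => 1 / (2 : ℝ) ^ (w + 2)) fun w hw' => ?_) ?_
    · have := hw w
      rwa [if_pos (Finset.mem_Ico.1 hw').1] at this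
    · refine le_trans (sum_inv_mm ω B) ?_
      gcongr
      · norm_num
      · omega

theorem K.sup {g : F I} {ω : ℕ} (h : K g ω) (α : I) : |((g α : ℚ) : ℝ)| ≤ 1 / 2 ^ ω := by
  simpa using N.sup h α

theorem T.sup {g : F I} {w : ℕ} (h : T g w) (α : I) : |((g α : ℚ) : ℝ)| ≤ 1 / 2 ^ (w + 2) := by
  simpa using N.sup h α

/-- Special sequences of length `p`. -/
def Spec (ψ : ℕ → F I × ℕ) (p : ℕ) : Prop := (∀ a < p, T (ψ a).1 (ψ a).2) ∧ Chain ψ p

theorem Spec.congr {ψ ψ' : ℕ → F I × ℕ} {p p' : ℕ} (h : Spec ψ p) (hp : p' ≤ p)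
    (he : ∀ a < p', ψ' a = ψ a) : Spec ψ' p' :=
  ⟨fun a ha => by rw [he a ha]; exact h.1 a (by omega), h.2.congr hp he⟩

/-- Sums of full segments with a common window, indexed by any finite set. -/
theorem K.segs {ι : Type} (S : Finset ι) (ψ : ι → ℕ → F I × ℕ) (p : ι → ℕ) (lo hi : ℕ)
    (s : ι → ℚ) (h1 : ∀ l ∈ S, Spec (ψ l) (p l)) (h2 : ∀ l ∈ S, s l = 1 ∨ s l = -1)
    (h3 : S.card ≤ lo + 1)
    (h4 : ∀ l ∈ S, ∀ l' ∈ S, ∀ a < p l, ∀ a' < p l', lo ≤ (ψ l a).2 → (ψ l a).2 < hi →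
      (ψ l a).2 = (ψ l' a').2 → l = l') :
    K (∑ l ∈ S, s l • seg (ψ l) (p l) Set.univ lo hi) lo := by
  classical
  rcases S.eq_empty_or_nonempty with rfl | ⟨l0, hl0⟩
  · simpa using K.zero lo
  let e : ℕ → ι := fun n => if h : n < S.card then (S.equivFin.symm ⟨n, h⟩ : ι) else l0
  have he : ∀ n ∈ range S.card, e n ∈ S := by
    intro n hn; simp only [e, dif_pos (mem_range.1 hn)]; exact Subtype.property _
  have hi' : ∀ n ∈ range S.card, ∀ n' ∈ range S.card, e n = e n' → n = n' := by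
    intro n hn n' hn' h
    simp only [e, dif_pos (mem_range.1 hn), dif_pos (mem_range.1 hn')] at h
    simpa using S.equivFin.symm.injective (Subtype.ext h)
  have hsurj : ∀ l ∈ S, ∃ n ∈ range S.card, e n = l := by
    intro l hl
    refine ⟨S.equivFin ⟨l, hl⟩, mem_range.2 (Fin.is_lt _), ?_⟩
    simp [e]
  refine N.two lo ⟨range S.card, fun n => ψ (e n), fun n => p (e n), fun _ => lo, fun _ => hi,
    fun _ => Set.univ, fun n => s (e n)⟩ (fun n hn => (h1 _ (he n hn)).1)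
    ⟨fun n hn => (h1 _ (he n hn)).2, fun _ _ => Set.ordConnected_univ,
      fun n hn => h2 _ (he n hn), fun n _ => by simpa using h3, fun _ _ => le_rfl, ?_⟩ _ ?_
  · intro n hn n' hn' a ha a' ha' k1 k2 _ _ k5
    exact hi' n hn n' hn' (h4 _ (he n hn) _ (he n' hn') a ha a' ha' k1 k2 k5)
  · simp only [D2.val]
    symm
    exact Finset.sum_bij (fun n _ => e n) he hi' (fun l hl => by
      obtain ⟨n, hn, h⟩ := hsurj l hl; exact ⟨n, hn, h⟩) (fun _ _ => rfl)

theorem Spec.seg_K {ψ : ℕ → F I × ℕ} {p : ℕ} (h : Spec ψ p) (lo hi : ℕ) :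
    K (seg ψ p Set.univ lo hi) lo := by
  have := K.segs ({()} : Finset Unit) (fun _ => ψ) (fun _ => p) lo hi (fun _ => 1)
    (fun _ _ => h) (by simp) (by simp) (by simp)
  simpa using this

theorem T.toK {f : F I} {w : ℕ} (h : T f w) : K f w := by
  have h1 : Spec (fun _ => (f, w)) 1 := by
    refine ⟨fun _ _ => h, fun a a' h1 h2 => by omega, fun a ha => by omega⟩
  have := h1.seg_K w (w + 1)
  simpa [seg, fl_univ] using this

/-- Weighted functionals from families with any index type. -/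
theorem T.of_family {ι : Type} (w : ℕ) (A : Finset ι) (c : ι → F I) (ω : ι → ℕ)
    (hc : ∀ r ∈ A, K (c r) (ω r)) (hp : Pw A (fun r => ⇑(c r)))
    (hs : Sch (nn w) (fun r => max (ω r) (nn w)) A) : T ((1 / mm w) • ∑ r ∈ A, c r) w := by
  classical
  rcases A.eq_empty_or_nonempty with rfl | ⟨l0, hl0⟩
  · simpa using T.zero w
  let e : ℕ → ι := fun n => if h : n < A.card then (A.equivFin.symm ⟨n, h⟩ : ι) else l0
  have he : ∀ n ∈ range A.card, e n ∈ A := by
    intro n hn; simp only [e, dif_pos (mem_range.1 hn)]; exact Subtype.property _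
  have hi' : ∀ n ∈ range A.card, ∀ n' ∈ range A.card, e n = e n' → n = n' := by
    intro n hn n' hn' h
    simp only [e, dif_pos (mem_range.1 hn), dif_pos (mem_range.1 hn')] at h
    simpa using A.equivFin.symm.injective (Subtype.ext h)
  have hsurj : ∀ l ∈ A, ∃ n ∈ range A.card, e n = l := by
    intro l hl
    refine ⟨A.equivFin ⟨l, hl⟩, mem_range.2 (Fin.is_lt _), ?_⟩
    simp [e]
  refine N.one w (range A.card) (fun n => c (e n)) (fun n => ω (e n)) (fun n hn => hc _ (he n hn))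
    ?_ (Sch.pull e hs (fun n hn n' hn' h => hi' n hn n' hn' h) he (fun _ _ => le_rfl)) _ ?_
  · intro n hn n' hn' hne
    exact hp _ (he n hn) _ (he n' hn') (fun h => hne (hi' n hn n' hn' h))
  · congr 1
    symm
    exact Finset.sum_bij (fun n _ => e n) he hi' (fun l hl => by
      obtain ⟨n, hn, h⟩ := hsurj l hl; exact ⟨n, hn, h⟩) (fun _ _ => rfl)

end Vale.Agent.P129N
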