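import Vale.Agent.P129.NegFam

/-!
Every block subspace contains flat vectors normed by functionals of large label.
-/

open Finset

namespace Vale.Agent.P129N

variable {I : Type} [LinearOrder I] [Cod I]

theorem Blk.star {W : ℕ → Submodule ℝ (Z I)} (hW : Blk W) :
    ∃ (k : ℕ) (c : ℝ), 0 < c ∧ ∀ L N, ∃ z ∈ W N, ‖z‖ ≤ 1 ∧ Fam k 0 L z c := by
  by_contra hcon
  push Not at hcon
  have H : ∀ k, ∃ L N, ∀ z ∈ W N, ∀ c', Fam k 0 L z c' → c' ≤ ‖z‖ / 10 := by
    intro k
    obtain ⟨L, N, h⟩ := hcon k (1 / 10) (by norm_num)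
    refine ⟨L, N, fun z hz c' hc => ?_⟩
    by_cases h0 : z = 0
    · obtain ⟨A, f, ω, -, -, -, -, h5⟩ := hc
      simpa [h0] using h5
    · have hp : 0 < ‖z‖ := norm_pos_iff.2 h0
      by_contra hlt
      refine h (‖z‖⁻¹ • z) ((W N).smul_mem _ hz) ?_
        ((hc.scale (inv_nonneg.2 hp.le)).mono le_rfl ?_)
      · rw [norm_smul, norm_inv, norm_norm, inv_mul_cancel₀ hp.ne']
      · rw [inv_mul_eq_div, le_div_iff₀ hp]; linarith
  obtain ⟨J, N1, H1⟩ := H 0
  obtain ⟨J', N2, H2⟩ := H (bb J)
  set P : ℕ := max J' (bb J) + 1 with hP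
  set B : ℕ := P ^ bb J with hB
  set Λ : ℕ := 10 * 2 ^ (J + 2) * B + 10 with hΛ
  have hΛ0 : (0 : ℝ) < Λ := by rw [hΛ]; positivity
  have hΛ1 : (10 : ℝ) ≤ Λ := by exact_mod_cast (by omega : 10 ≤ Λ)
  have inv : ∀ t : ℕ, ∀ N', ∃ y ∈ W N', ‖y‖ ≤ (9 / 10) ^ t ∧ Fam t Λ 0 y (1 / 2) := by
    intro t
    induction t with
    | zero =>
      intro N'
      obtain ⟨z, hz, h0⟩ := hW.ne N'
      have hp : 0 < ‖z‖ := norm_pos_iff.2 h0
      have hn : ‖‖z‖⁻¹ • z‖ = 1 := by rw [norm_smul, norm_inv, norm_norm, inv_mul_cancel₀ hp.ne']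
      obtain ⟨g, ω, hg, h1⟩ := exists_ev (z := ‖z‖⁻¹ • z) (c := 1 / 2) (by rw [hn]; norm_num)
      exact ⟨_, (W N').smul_mem _ hz, by rw [hn]; simp,
        (Fam.single hg (Nat.zero_le _)).mono le_rfl h1.le⟩
    | succ t ih =>
      intro N'
      set ν : ℝ := (9 / 10) ^ t with hν
      have hν0 : 0 < ν := by positivity
      obtain ⟨y, Jq, Pq, hRS, y1, y2, -, -⟩ := hW.exists_seq
        (fun _ x => ‖x‖ ≤ ν ∧ Fam t Λ 0 x (1 / 2)) (fun _ N => ih N) (fun _ => 1)
        (fun _ => one_pos) 0 (max N' (max N1 N2))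
      have ha : ∀ _q : ℕ, (0 : ℝ) ≤ 1 / Λ := fun _ => by positivity
      have hs : ∑ _q ∈ range Λ, (1 / Λ : ℝ) = 1 := by simp [hΛ0.ne']
      set x : Z I := ∑ q ∈ range Λ, (1 / Λ : ℝ) • y q with hx
      have hxW : ∀ M, M ≤ max N' (max N1 N2) → x ∈ W M := fun M hM =>
        Submodule.sum_mem _ fun q _ => (W M).smul_mem _ (hW.anti (by omega) (y1 q))
      refine ⟨x, hxW _ (by omega), ?_, ?_⟩
      · have key : ‖x‖ ≤ 15 / 100 * ‖x‖ + 55 / 100 * ν := by
          refine norm_le_of_parts (J := J) (D := ν + ν / 10 + ‖x‖ / 10) (β := ‖x‖ / 10)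
            (by positivity) (fun α => ?_) (fun f w hw hf => ?_) (fun g hg => ?_) (by linarith)
          · refine le_trans (co_avg hRS.succ ha (μ := 1 / 10) (by norm_num) (fun q => (y2 q).1)
              (fun _ _ => ?_) α) ?_
            · exact one_div_le_one_div_of_le (by norm_num) hΛ1
            · have := norm_nonneg x; linarith
          · have hnb := nn_le_bb hw
            refine le_trans (flat hf hRS.succ (P := fun _ => P) (fun _ _ => by omega) ha hs
              (μ := B / Λ) (β := ‖x‖ / 10) hν0.le (fun q => (y2 q).1) ?_ ?_) ?_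
            · intro U _ hU
              have h1 : U.card ≤ B := le_trans (hU.card_le (J := P) fun _ _ => le_rfl)
                (Nat.pow_le_pow_right (by omega) hnb)
              have h2 : (U.card : ℝ) ≤ B := by exact_mod_cast h1
              simp only [Finset.sum_const, nsmul_eq_mul, mul_one_div]
              gcongr
            · intro A c ω h1 h2 h3
              have e : ∑ q ∈ range Λ, (1 / Λ : ℝ) *
                  ∑ r ∈ A.filter (fun r => ¬ω r < P), ev (c r) (y q) =
                  ∑ r ∈ A.filter (fun r => ¬ω r < P), ev (c r) x := by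
                simp only [hx, map_sum, map_smul, smul_eq_mul, Finset.mul_sum]
                rw [Finset.sum_comm]
              rw [e]
              refine le_trans (Finset.abs_sum_le_sum_abs _ _) (H2 x (hxW _ (by omega)) _ ?_)
              refine Fam.abs x _ c ω (fun r hr => h1 r (Finset.mem_filter.1 hr).1)
                (h2.sub (Finset.filter_subset _ _))
                (fun r hr => by have := (Finset.mem_filter.1 hr).2; omega) ?_
              refine (h3.sub (Finset.filter_subset _ _) fun r hr => ?_).mono (fun r hr => ?_) hnb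
              · have := (Finset.mem_filter.1 hr).2; omega
              · have := (Finset.mem_filter.1 hr).2; omega
            · have h1 : (2 : ℝ) ^ (w + 2) * (B / Λ) ≤ 1 / 10 := by
                have h2 : (2 : ℝ) ^ (w + 2) ≤ 2 ^ (J + 2) :=
                  pow_le_pow_right₀ (by norm_num) (by omega)
                have h3 : (Λ : ℝ) = 10 * 2 ^ (J + 2) * B + 10 := by rw [hΛ]; push_cast; ring
                have h4 : (0 : ℝ) ≤ B := by positivity
                rw [← mul_div_assoc, div_le_iff₀ hΛ0]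
                nlinarith
              gcongr
              nlinarith
          · exact H1 x (hxW _ (by omega)) _ (Fam.single hg le_rfl)
        rw [pow_succ]
        linarith
      · refine Fam.comp (n := 1) (p := fun _ => Λ) (Lq := fun _ => 0)
          (Sch.one fun _ _ => by simp) hRS.succ (fun q => (y2 q).2) (fun _ _ => by simp)
          (fun _ _ => le_rfl) ha hs
  refine no_decay (I := I) (k0 := 0) (n' := 1) (b := Λ) (c := 1 / 2) (by norm_num) fun t => ?_
  obtain ⟨y, -, h1, h2⟩ := inv t 0
  exact ⟨y, h1, by simpa using h2⟩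

/-- Flat vectors normed by a functional of label at least `J`. -/
def Good (J : ℕ) (x : Z I) : Prop :=
  ‖x‖ ≤ 1 ∧ Fam 0 0 J x (3 / 10) ∧ ∀ f w, w < J → T f w → |ev f x| ≤ 2 / 2 ^ (w + 2)

theorem Blk.exists_good {W : ℕ → Submodule ℝ (Z I)} (hW : Blk W) (J N : ℕ) :
    ∃ x ∈ W N, Good J x := by
  by_contra hcon
  push Not at hcon
  obtain ⟨k, c, hc, hstar⟩ := hW.star
  have inv : ∀ t : ℕ, ∀ L N', ∃ y ∈ W N', ‖y‖ ≤ (9 / 10) ^ t ∧
      Fam (k + t * (bb J + 1)) 0 L y c := by
    intro t
    induction t with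
    | zero => intro L N'; simpa using hstar L N'
    | succ t ih =>
      intro L N'
      set ν : ℝ := (9 / 10) ^ t with hν
      have hν0 : 0 < ν := by positivity
      obtain ⟨y, Jq, Pq, hRS, y1, y2, y3, y4⟩ := hW.exists_seq
        (fun L x => ‖x‖ ≤ ν ∧ Fam (k + t * (bb J + 1)) 0 L x c) ih (fun _ => ν / 20)
        (fun _ => by positivity) (max L (bb J + 1)) (max N N')
      obtain ⟨A, a, -, a2, ha, hs, a5⟩ := exists_avg hRS.smJ.monotone
        (fun L => ⟨L, hRS.smJ.le_apply⟩) hRS.smP.monotone (bb J) (1 / (20 * 2 ^ (J + 2)))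
        (by positivity) 0
      set x : Z I := ∑ q ∈ A, a q • y q with hx
      have hxW : ∀ M, M ≤ max N N' → x ∈ W M := fun M hM =>
        Submodule.sum_mem _ fun q _ => (W M).smul_mem _ (hW.anti (by omega) (y1 q))
      have hPq : ∀ q, bb J + 1 ≤ Pq q := fun q => le_trans (le_trans (le_max_right _ _) (y3 q))
        (hRS.le q)
      have hfl : ∀ f w, w < J → T f w → |ev f x| ≤ (11 / 10 * ν) / 2 ^ (w + 2) := by
        intro f w hw hf
        have hnb := nn_le_bb hw
        refine le_trans (flat hf hRS.succ (P := Pq) (fun q _ => by have := hPq q; omega) ha hs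
          (μ := 1 / (20 * 2 ^ (J + 2))) (β := ν / 20) hν0.le (fun q => (y2 q).1) ?_ ?_) ?_
        · intro U hU hS
          exact a5 U hU (hS.mono (fun q _ => by have := hPq q; omega) hnb)
        · intro A' c' ω h1 h2 _
          refine le_trans (Finset.abs_sum_le_sum_abs _ _) ?_
          calc _ ≤ ∑ q ∈ A, a q * (ν / 20) := by
                refine Finset.sum_le_sum fun q _ => ?_
                rw [abs_mul, abs_of_nonneg (ha q)]
                refine mul_le_mul_of_nonneg_left (le_trans (Finset.abs_sum_le_sum_abs _ _)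
                  ((y4 q).fam (h2.sub (Finset.filter_subset _ _)) fun r hr α => ?_)) (ha q)
                exact (h1 r (Finset.mem_filter.1 hr).1).sup'
                  (not_lt.1 (Finset.mem_filter.1 hr).2) α
            _ = ν / 20 := by rw [← Finset.sum_mul, hs, one_mul]
        · have h2 : (2 : ℝ) ^ (w + 2) ≤ 2 ^ (J + 2) := pow_le_pow_right₀ (by norm_num) (by omega)
          have h1 : (2 : ℝ) ^ (w + 2) * (1 / (20 * 2 ^ (J + 2))) ≤ 1 / 20 := by
            rw [mul_one_div, div_le_iff₀ (by positivity)]; linarith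
          gcongr
          nlinarith
      refine ⟨x, hxW _ (by omega), ?_, ?_⟩
      · by_contra hbig
        have hex : ∃ g, K g J ∧ 3 / 10 * ν < ev g x := by
          by_contra hn
          push Not at hn
          apply hbig
          rw [pow_succ]
          refine norm_le_of_parts (J := J) (D := 11 / 10 * ν) (β := 3 / 10 * ν) (by positivity)
            (fun α => ?_) hfl hn (by linarith)
          refine le_trans (co_avg hRS.succ ha (μ := 1 / 2) (by norm_num) (fun q => (y2 q).1)
            (fun q hq => ?_) α) (by linarith)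
          have h1 := a5 {q} (by simpa using hq) (Sch.mono (n := 0) (by simp [Sch])
            (fun q _ => by have := hPq q; omega) (Nat.zero_le _))
          rw [Finset.sum_singleton] at h1
          refine le_trans h1 (one_div_le_one_div_of_le (by norm_num) ?_)
          have : (1 : ℝ) ≤ 2 ^ (J + 2) := one_le_pow₀ (by norm_num)
          linarith
        obtain ⟨g, hg, hgx⟩ := hex
        have hi : 0 ≤ ν⁻¹ := inv_nonneg.2 hν0.le
        refine hcon (ν⁻¹ • x) ((W N).smul_mem _ (hxW _ (by omega))) ⟨?_, ?_, ?_⟩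
        · rw [norm_smul, Real.norm_of_nonneg hi, inv_mul_le_iff₀ hν0, mul_one]
          exact norm_avg ha hs fun q => (y2 q).1
        · refine ((Fam.single hg le_rfl).scale hi).mono le_rfl ?_
          rw [inv_mul_eq_div, le_div_iff₀ hν0]; exact hgx.le
        · intro f w hw hf
          rw [map_smul, smul_eq_mul, abs_mul, abs_of_nonneg hi, inv_mul_le_iff₀ hν0]
          refine le_trans (hfl f w hw hf) ?_
          rw [← mul_div_assoc]
          exact div_le_div_of_nonneg_right (by linarith) (by positivity)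
      · have := Fam.comp (L := L) (Lq := Jq) a2 hRS.succ (fun q => (y2 q).2)
          (fun _ _ => le_max_left _ _) (fun q _ => le_trans (le_max_left _ _) (y3 q)) ha hs
        rwa [add_assoc, ← Nat.succ_mul] at this
  refine no_decay (I := I) (k0 := k) (n' := bb J + 1) (b := 0) hc fun t => ?_
  obtain ⟨y, -, h1, h2⟩ := inv t 0 0
  exact ⟨y, h1, h2⟩

end Vale.Agent.P129N
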