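import Vale.Agent.P129.NegHump
import Vale.Agent.P129.NegFA

/-!
The counterexample under the continuum hypothesis.
-/

open Finset Filter Topology

namespace Vale.Agent.P129N

section concrete
variable {I : Type} [LinearOrder I] [Cod I]

theorem xi_u (γ : Br I) : Tendsto (fun α => xi γ (u α)) cofinite (𝓝 0) := by
  refine Metric.tendsto_nhds.2 fun ε hε => ?_
  obtain ⟨A, hA⟩ := pow_unbounded_of_one_lt (1 / ε) (by norm_num : (1 : ℝ) < 2)
  filter_upwards [(supp γ.1 A).finite_toSet.compl_mem_cofinite] with α hα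
  rw [Real.dist_eq, sub_zero]
  have h1 : (1 : ℝ) / 2 ^ A < ε := by
    rw [div_lt_iff₀ hε] at hA
    rw [div_lt_iff₀ (by positivity)]; linarith
  refine lt_of_le_of_lt (le_of_tendsto' (xi_tendsto γ (u α)).abs fun B => ?_) h1
  rw [ev_tl_zero]
  simp only [ev_u]
  refine le_trans (Finset.abs_sum_le_sum_abs _ _) (Pw.abs_sum_le (c := fun a => (γ.1 a).1) ?_ α
    (by positivity) fun a ha => ?_)
  · intro a ha a' ha' hne
    rcases lt_or_gt_of_ne hne with h | h
    · exact Or.inl ((γ.2 B).2.1 a a' h (mem_range.1 ha'))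
    · exact Or.inr ((γ.2 B).2.1 a' a h (mem_range.1 ha))
  · by_cases h : a < A
    · have : (γ.1 a).1 α = 0 := by
        by_contra h'; exact hα (mem_supp.2 ⟨a, h, h'⟩)
      simp [this]
    · have := (γ.2 B).2.self_le (mem_range.1 ha)
      exact ((γ.2 B).1 a (mem_range.1 ha)).toK.sup' (by omega) α

theorem br_disj {γ γ' : Br I} (h : γ ≠ γ') :
    ∃ lo, ∀ a a', lo ≤ (γ.1 a).2 → (γ.1 a).2 ≠ (γ'.1 a').2 := by
  by_contra hn
  push Not at hn
  have key : ∀ n, ∃ q, n ≤ q ∧ data γ.1 q = data γ'.1 q := by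
    intro n
    obtain ⟨a, a', h1, h2⟩ := hn (max (γ.1 n).2 (γ'.1 n).2 + 1)
    have k1 : n < a := (γ.2 (n + 1)).2.lt_of_wt (Nat.lt_succ_self n) (by omega)
    have k2 : n < a' := (γ'.2 (n + 1)).2.lt_of_wt (Nat.lt_succ_self n) (by omega)
    exact ⟨a, k1.le, ((γ.2 (a + 1)).2.share (γ'.2 (a' + 1)).2 (Nat.lt_succ_self a)
      (Nat.lt_succ_self a') (by omega) (by omega) h2).2⟩
  refine h (Subtype.ext (funext fun b => Prod.ext (eq_of_data b fun n => ?_) ?_))
  · obtain ⟨q, h1, h2⟩ := key n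
    exact ⟨_, _, q, h1, h2, rfl, rfl⟩
  · obtain ⟨q, h1, h2⟩ := key (b + 1)
    exact data_wt h2 h1

theorem ev_mem_span (g : F I) : ev g ∈ Submodule.span ℝ (Set.range (coL (I := I))) := by
  have : ev g = ∑ α ∈ g.support, (g α : ℝ) • coL α := by
    ext z; rw [ev_apply]; simp [co]
  rw [this]
  exact Submodule.sum_mem _ fun α _ => Submodule.smul_mem _ _ (Submodule.subset_span ⟨α, rfl⟩)

theorem xi_c0 (A : Finset (Br I)) (b : Br I → ℝ) (β : ℝ) (hβ : 0 ≤ β) (hb : ∀ γ ∈ A, |b γ| ≤ β) :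
    ∃ p ∈ Submodule.span ℝ (Set.range (coL (I := I))), ‖∑ γ ∈ A, b γ • xi γ - p‖ ≤ β := by
  classical
  have hd : ∀ γ γ' : Br I, ∃ lo, γ ≠ γ' → ∀ a a', lo ≤ (γ.1 a).2 → (γ.1 a).2 ≠ (γ'.1 a').2 := by
    intro γ γ'
    by_cases h : γ = γ'
    · exact ⟨0, fun h' => absurd h h'⟩
    · obtain ⟨lo, hlo⟩ := br_disj h
      exact ⟨lo, fun _ => hlo⟩
  choose L hL using hd
  set lo := max A.card ((A ×ˢ A).sup fun p => L p.1 p.2) with hlo
  refine ⟨∑ γ ∈ A, b γ • ev (tl γ.1 lo 0 - tl γ.1 lo lo),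
    Submodule.sum_mem _ fun γ _ => Submodule.smul_mem _ _ (ev_mem_span _), ?_⟩
  refine ContinuousLinearMap.opNorm_le_bound _ hβ fun z => ?_
  have ht : Tendsto (fun B => ∑ γ ∈ A, b γ * (ev (tl γ.1 B 0) z -
      ev (tl γ.1 lo 0 - tl γ.1 lo lo) z)) UU
      (𝓝 ((∑ γ ∈ A, b γ • xi γ - ∑ γ ∈ A, b γ • ev (tl γ.1 lo 0 - tl γ.1 lo lo)) z)) := by
    have := tendsto_finsetSum A fun γ _ =>
      ((xi_tendsto γ z).sub_const (ev (tl γ.1 lo 0 - tl γ.1 lo lo) z)).const_mul (b γ)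
    convert this using 2
    simp only [_root_.sub_apply, _root_.sum_apply, _root_.smul_apply, smul_eq_mul, mul_sub,
      Finset.sum_sub_distrib]
  rw [Real.norm_eq_abs]
  refine le_of_tendsto ht.abs ?_
  filter_upwards [UU_ge lo] with B hB
  obtain ⟨hi, hhi⟩ : ∃ hi, ∀ γ ∈ A, ∀ a < B, (γ.1 a).2 < hi :=
    ⟨(A ×ˢ range B).sup (fun p => (p.1.1 p.2).2) + 1, fun γ hγ a ha => Nat.lt_succ_of_le
      (Finset.le_sup (f := fun p : Br I × ℕ => (p.1.1 p.2).2) (b := (γ, a))
        (Finset.mem_product.2 ⟨hγ, mem_range.2 ha⟩))⟩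
  have e : ∀ γ ∈ A, ev (tl γ.1 B 0) z - ev (tl γ.1 lo 0 - tl γ.1 lo lo) z =
      ev (seg γ.1 B Set.univ lo hi) z := by
    intro γ hγ
    rw [← tl_eq _ _ _ (hhi γ hγ), ← _root_.sub_apply, ← map_sub]
    congr 2
    simp only [tl, Nat.zero_le, if_true]
    rw [← Finset.sum_range_add_sum_Ico _ hB, ← Finset.sum_range_add_sum_Ico _ hB,
      Finset.sum_congr rfl (s₂ := Ico lo B) (f := fun a => if lo ≤ (γ.1 a).2 then (γ.1 a).1 else 0)
        (g := fun a => (γ.1 a).1) fun a ha => if_pos (le_trans (Finset.mem_Ico.1 ha).1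
          ((γ.2 B).2.self_le (Finset.mem_Ico.1 ha).2))]
    abel
  have hK := (K.segs A (fun γ => γ.1) (fun _ => B) lo hi
    (fun γ => sn (ev (seg γ.1 B Set.univ lo hi) z)) (fun γ _ => γ.2 B) (fun _ _ => sn_cases _)
    (by omega) (fun γ hγ γ' hγ' a _ a' _ k1 _ k3 => by
      by_contra hne
      have : L γ γ' ≤ lo := le_trans (Finset.le_sup (f := fun p : Br I × Br I => L p.1 p.2)
        (b := (γ, γ')) (Finset.mem_product.2 ⟨hγ, hγ'⟩)) (le_max_right _ _)
      exact hL γ γ' hne a a' (le_trans this k1) k3)).abs_ev z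
  rw [ev_sum] at hK
  simp only [ev_smul, sn_mul] at hK
  refine le_trans (Finset.abs_sum_le_sum_abs _ _) (le_trans (Finset.sum_le_sum
    (g := fun γ => β * |ev (seg γ.1 B Set.univ lo hi) z|) fun γ hγ => ?_) ?_)
  · rw [e γ hγ, abs_mul]
    exact mul_le_mul_of_nonneg_right (hb γ hγ) (abs_nonneg _)
  · rw [← Finset.mul_sum]
    exact mul_le_mul_of_nonneg_left (le_trans (le_abs_self _) hK) hβ

theorem co_dual (x : I → ℝ) (C : ℝ) (h : ∀ (S : Finset I) (a : I → ℝ),
    |∑ α ∈ S, a α * x α| ≤ C * ‖∑ α ∈ S, a α • coL α‖) (α0 : I) :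
    ∃ z : Z I, ‖z‖ ≤ C ∧ ∀ α, coL α z = x α := by
  have hC : 0 ≤ C := by
    have h1 := h {α0} (fun _ => 1)
    simp only [Finset.sum_singleton, one_smul, one_mul] at h1
    have h2 : 0 < ‖coL α0‖ := norm_pos_iff.2 fun h0 => by
      have : co (u α0) α0 = 1 := by simp [co_u]
      rw [co, h0] at this; simp at this
    exact nonneg_of_mul_nonneg_left (le_trans (abs_nonneg _) h1) h2
  have hb : ∀ g ω, K g ω → |∑ α ∈ g.support, (g α : ℝ) * x α| ≤ C := by
    intro g ω hg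
    refine le_trans (h _ _) (mul_le_of_le_one_right hC ?_)
    refine ContinuousLinearMap.opNorm_le_bound _ zero_le_one fun z => ?_
    have := hg.abs_ev z
    rw [ev_apply] at this
    simpa [co] using this
  refine ⟨mk x C hb, norm_le fun g ω hg => ?_, fun α => congrFun (co_mk x C hb) α⟩
  rw [ev_apply, co_mk]
  exact le_trans (le_abs_self _) (hb g ω hg)

end concrete

theorem dual_inf {Q : Type} [NormedAddCommGroup Q] [NormedSpace ℝ Q]
    (h : ¬FiniteDimensional ℝ Q) : ¬FiniteDimensional ℝ (Q →L[ℝ] ℝ) := fun _ =>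
  h (Module.Finite.of_injective (NormedSpace.inclusionInDoubleDualLi ℝ (E := Q)).toLinearMap
    (NormedSpace.inclusionInDoubleDualLi ℝ (E := Q)).injective)

theorem exists_space {I : Type} [LinearOrder I] [Cod I] [WellFoundedLT I] [Infinite I]
    (emb : Br I → I) (hemb : Function.Injective emb) :
    ∃ (X : Type) (_ : NormedAddCommGroup X) (_ : NormedSpace ℝ X) (_ : CompleteSpace X),
      ¬FiniteDimensional ℝ X ∧ ∀ (Q : Type) [NormedAddCommGroup Q] [NormedSpace ℝ Q]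
        [CompleteSpace Q] [TopologicalSpace.SeparableSpace Q] (T : X × X →L[ℝ] Q),
        Function.Surjective T → FiniteDimensional ℝ Q := by
  classical
  obtain ⟨α0⟩ : Nonempty I := inferInstance
  obtain ⟨X, i1, i2, i3, E, e1, e2, e3⟩ := core (u (I := I)) norm_u coL
    (fun α β => by
      have := congrFun (co_u β) α
      rw [co] at this
      rw [this, Pi.single_apply]; simp only [eq_comm])
    xi emb hemb xi_u xi_c0 (fun x C h => co_dual x C h α0)
    (fun z h => Z.ext (funext fun α => by rw [co_zero]; exact h α))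
  refine ⟨X, i1, i2, i3, fun hX => ?_, fun Q _ _ _ _ T hT => ?_⟩
  · have : FiniteDimensional ℝ (Z I) := Module.Finite.equiv E.symm
    have hli : LinearIndependent ℝ (u (I := I)) := by
      refine linearIndependent_iff'.2 fun S a h α hα => ?_
      have := congrArg (fun z => co z α) h
      simp only [co_sum, co_smul, co_u, co_zero] at this
      rw [Finset.sum_eq_single α] at this
      · simpa using this
      · intro β _ hβ; simp [Pi.single_eq_of_ne hβ.symm]
      · intro hn; exact absurd hα hn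
    exact Module.Finite.not_linearIndependent_of_infinite _ hli
  by_contra hQ
  have : Nonempty Q := ⟨0⟩
  obtain ⟨C, hC, hTC⟩ := T.exists_preimage_norm_le hT
  let ι : (X →L[ℝ] X × X) → (Q →L[ℝ] ℝ) →ₗ[ℝ] Z I := fun j =>
    E.symm.toLinearMap.comp
      ({ toFun := fun g => g.comp (T.comp j)
         map_add' := fun g g' => by ext x; simp
         map_smul' := fun r g => by ext x; simp } : (Q →L[ℝ] ℝ) →ₗ[ℝ] (X →L[ℝ] ℝ))
  have hι : ∀ j g x, E (ι j g) x = g (T (j x)) := fun j g x => by simp [ι]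
  let lam : ℕ → (Q →L[ℝ] ℝ) →ₗ[ℝ] ℝ := fun n =>
    (ContinuousLinearMap.apply ℝ ℝ (TopologicalSpace.denseSeq Q n)).toLinearMap
  have fin : ∀ j, ¬∃ (γ : Br I) (δ C : ℝ) (h : ℕ → Q →L[ℝ] ℝ), 0 < δ ∧ (∀ N, ‖h N‖ ≤ C) ∧
      (∀ N, ∀ m < N, lam m (h N) = 0) ∧ (∀ α, ∀ᶠ N in atTop, co (ι j (h N)) α = 0) ∧
      ∀ᶠ N in atTop, δ ≤ |xi γ (ι j (h N))| := by
    rintro j ⟨γ, δ, C', h, h1, h2, h3, h4, h5⟩
    have hC' : 0 ≤ C' := le_trans (norm_nonneg _) (h2 0)
    have w0 : ∀ q, Tendsto (fun N => h N q) atTop (𝓝 0) := by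
      intro q
      refine Metric.tendsto_atTop.2 fun ε hε => ?_
      obtain ⟨m, hm⟩ := (TopologicalSpace.denseRange_denseSeq Q).exists_dist_lt q
        (ε := ε / (C' + 1)) (by positivity)
      refine ⟨m + 1, fun N hN => ?_⟩
      have k1 : h N (TopologicalSpace.denseSeq Q m) = 0 := h3 N m hN
      have k2 := (h N).le_opNorm (q - TopologicalSpace.denseSeq Q m)
      rw [map_sub, k1, sub_zero] at k2
      rw [dist_eq_norm, lt_div_iff₀ (by positivity)] at hm
      rw [dist_zero_right]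
      have := h2 N
      have := norm_nonneg (q - TopologicalSpace.denseSeq Q m)
      nlinarith
    have := e3 (fun N => ι j (h N)) (2 * (C' * ‖T.comp j‖)) (fun N => ?_)
      (fun α => (tendsto_const_nhds.congr' ((h4 α).mono fun N hN => hN.symm)).mono_left
        Nat.hyperfilter_le_atTop)
      (fun x => by simpa only [hι] using (w0 _).mono_left Nat.hyperfilter_le_atTop) γ
    · have h6 := ge_of_tendsto this.abs (Nat.hyperfilter_le_atTop h5)
      rw [abs_zero] at h6; linarith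
    · refine le_trans (e2 _) (mul_le_mul_of_nonneg_left ?_ zero_le_two)
      refine ContinuousLinearMap.opNorm_le_bound _ (by positivity) fun x => ?_
      rw [hι]
      refine le_trans ((h N).le_opNorm _) ?_
      rw [mul_assoc]
      exact mul_le_mul (h2 N) ((T.comp j).le_opNorm x) (norm_nonneg _) hC'
  let j1 := ContinuousLinearMap.inl ℝ X X
  let j2 := ContinuousLinearMap.inr ℝ X X
  by_cases hA : ∃ U : Submodule ℝ (Q →L[ℝ] ℝ), ¬FiniteDimensional ℝ U ∧ ∃ c' : ℝ, 0 < c' ∧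
      ∀ v ∈ U, c' * ‖v‖ ≤ ‖ι j1 v‖
  · obtain ⟨U, u1, c', u2, u3⟩ := hA
    refine fin j1 (hump 0 (ι j1) U u1 u2 (by simpa using u3) (fun U' _ k2 c'' k3 => ?_) lam)
    have : U' ≠ ⊥ := by rintro rfl; exact k2 inferInstance
    obtain ⟨v, v1, v2⟩ := Submodule.exists_mem_ne_zero_of_ne_bot this
    exact ⟨v, v1, by simpa using mul_pos k3 (norm_pos_iff.2 v2)⟩
  · push Not at hA
    refine fin j2 (hump (ι j1) (ι j2) ⊤ (fun h => dual_inf hQ (Module.Finite.equiv
      Submodule.topEquiv)) (c := C⁻¹) (by positivity) (fun g _ => ?_)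
      (fun U' _ k2 c'' k3 => hA U' k2 c'' k3) lam)
    rw [inv_mul_le_iff₀ hC]
    refine ContinuousLinearMap.opNorm_le_bound _ (by positivity) fun q => ?_
    obtain ⟨⟨x, x'⟩, k1, k2⟩ := hTC q
    have k3 : g q = E (ι j1 g) x + E (ι j2 g) x' := by
      rw [hι, hι, ← map_add, ← map_add, ← k1]; simp [j1, j2]
    have k4 := le_trans ((E (ι j1 g)).le_opNorm x) (mul_le_mul (e1 _)
      (le_trans (norm_fst_le (x, x')) k2) (norm_nonneg _) (norm_nonneg _))
    have k5 := le_trans ((E (ι j2 g)).le_opNorm x') (mul_le_mul (e1 _)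
      (le_trans (norm_snd_le (x, x')) k2) (norm_nonneg _) (norm_nonneg _))
    rw [k3]
    refine le_trans (norm_add_le _ _) ?_
    linarith

end Vale.Agent.P129N
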