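import Mathlib

/-!
Label based Schreier hierarchy and repeated averages.
-/

open Finset

namespace Vale.Agent.P129N

/-- Label based Schreier hierarchy. -/
def Sch {ι : Type} : ℕ → (ι → ℕ) → Finset ι → Prop
  | 0, _, A => A.card ≤ 1
  | n + 1, P, A => ∃ C : Finset (Finset ι), (∀ B ∈ C, Sch n P B) ∧ (∀ a ∈ A, ∃ B ∈ C, a ∈ B) ∧
      ∀ a ∈ A, C.card ≤ P a

theorem Sch.empty {ι : Type} (n : ℕ) (P : ι → ℕ) : Sch n P ∅ := by
  cases n with
  | zero => simp [Sch]
  | succ n => exact ⟨∅, by simp, by simp, by simp⟩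

theorem Sch.pull {ι κ : Type} {n : ℕ} {P : ι → ℕ} {P' : κ → ℕ} (φ : κ → ι) :
    ∀ {A : Finset ι} {A' : Finset κ}, Sch n P A → Set.InjOn φ A' → (∀ a ∈ A', φ a ∈ A) →
      (∀ a ∈ A', P (φ a) ≤ P' a) → Sch n P' A' := by
  classical
  induction n with
  | zero =>
    intro A A' h hi hm _
    exact le_trans (Finset.card_le_card_of_injOn φ (fun a ha => hm a ha) hi) h
  | succ n ih =>
    rintro A A' ⟨C, h1, h2, h3⟩ hi hm hP
    refine ⟨C.image (fun B => A'.filter (fun a => φ a ∈ B)), ?_, ?_, ?_⟩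
    · intro B' hB'
      obtain ⟨B, hB, rfl⟩ := Finset.mem_image.1 hB'
      refine ih (h1 B hB) (hi.mono (by intro a ha; exact (Finset.mem_filter.1 ha).1)) ?_ ?_
      · intro a ha; exact (Finset.mem_filter.1 ha).2
      · intro a ha; exact hP a (Finset.mem_filter.1 ha).1
    · intro a ha
      obtain ⟨B, hB, haB⟩ := h2 _ (hm a ha)
      exact ⟨_, Finset.mem_image_of_mem _ hB, Finset.mem_filter.2 ⟨ha, haB⟩⟩
    · intro a ha
      exact le_trans Finset.card_image_le (le_trans (h3 _ (hm a ha)) (hP a ha))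

theorem Sch.sub {ι : Type} {n : ℕ} {P P' : ι → ℕ} {A A' : Finset ι} (h : Sch n P A)
    (hs : A' ⊆ A) (hP : ∀ a ∈ A', P a ≤ P' a) : Sch n P' A' :=
  Sch.pull id h (Set.injOn_id _) (fun _ ha => hs ha) hP

theorem Sch.succ {ι : Type} {n : ℕ} {P : ι → ℕ} {A : Finset ι} (h : Sch n P A)
    (h1 : ∀ a ∈ A, 1 ≤ P a) : Sch (n + 1) P A :=
  ⟨{A}, by simpa using h, by simp, by simpa using h1⟩

theorem Sch.mono {ι : Type} {n n' : ℕ} {P : ι → ℕ} {A : Finset ι} (h : Sch n P A)
    (h1 : ∀ a ∈ A, 1 ≤ P a) (hn : n ≤ n') : Sch n' P A := by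
  induction hn with
  | refl => exact h
  | step _ ih => exact ih.succ h1

theorem Sch.union {ι κ : Type} {n : ℕ} {P : ι → ℕ} {A : Finset ι} (S : Finset κ)
    (B : κ → Finset ι) (h1 : ∀ k ∈ S, Sch n P (B k)) (h2 : ∀ a ∈ A, ∃ k ∈ S, a ∈ B k)
    (h3 : ∀ a ∈ A, S.card ≤ P a) : Sch (n + 1) P A := by
  classical
  refine ⟨S.image B, ?_, ?_, fun a ha => le_trans Finset.card_image_le (h3 a ha)⟩
  · intro B' hB'
    obtain ⟨k, hk, rfl⟩ := Finset.mem_image.1 hB'
    exact h1 k hk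
  · intro a ha
    obtain ⟨k, hk, hak⟩ := h2 a ha
    exact ⟨_, Finset.mem_image_of_mem _ hk, hak⟩

theorem Sch.one {ι : Type} {P : ι → ℕ} {A : Finset ι} (h : ∀ a ∈ A, A.card ≤ P a) :
    Sch 1 P A :=
  Sch.union A (fun a => {a}) (fun k _ => by simp [Sch]) (fun a ha => ⟨a, ha, by simp⟩) h

theorem Sch.comp {ι κ : Type} {n k : ℕ} {p : κ → ℕ} {P : ι → ℕ} (B : κ → Finset ι) :
    ∀ {A : Finset κ} {A' : Finset ι}, Sch n p A → (∀ a ∈ A, Sch k P (B a)) →
      (∀ a ∈ A, ∀ b ∈ B a, p a ≤ P b) → (∀ b ∈ A', ∃ a ∈ A, b ∈ B a) → Sch (k + n) P A' := by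
  classical
  induction n with
  | zero =>
    intro A A' h h1 _ h3
    rcases A'.eq_empty_or_nonempty with rfl | ⟨b, hb⟩
    · exact Sch.empty _ _
    · obtain ⟨a, ha, -⟩ := h3 b hb
      refine (h1 a ha).sub ?_ (fun _ _ => le_rfl)
      intro b' hb'
      obtain ⟨a', ha', hb''⟩ := h3 b' hb'
      rwa [Finset.card_le_one.1 h a ha a' ha']
  | succ n ih =>
    rintro A A' ⟨C, c1, c2, c3⟩ h1 h2 h3
    refine Sch.union C (fun D => (A.filter (· ∈ D)).biUnion B) ?_ ?_ ?_
    · intro D hD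
      refine ih ((c1 D hD).sub (A' := A.filter (· ∈ D)) ?_ (fun _ _ => le_rfl)) ?_ ?_ ?_
      · intro a ha; exact (Finset.mem_filter.1 ha).2
      · intro a ha; exact h1 a (Finset.mem_filter.1 ha).1
      · intro a ha; exact h2 a (Finset.mem_filter.1 ha).1
      · intro b hb; simpa using hb
    · intro b hb
      obtain ⟨a, ha, hba⟩ := h3 b hb
      obtain ⟨D, hD, haD⟩ := c2 a ha
      exact ⟨D, hD, Finset.mem_biUnion.2 ⟨a, Finset.mem_filter.2 ⟨ha, haD⟩, hba⟩⟩
    · intro b hb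
      obtain ⟨a, ha, hba⟩ := h3 b hb
      exact le_trans (c3 a ha) (h2 a ha b hba)

theorem Sch.card_le {ι : Type} {n J : ℕ} {P : ι → ℕ} :
    ∀ {A : Finset ι}, Sch n P A → (∀ a ∈ A, P a ≤ J) → A.card ≤ J ^ n := by
  classical
  induction n with
  | zero => intro A h _; simpa [Sch] using h
  | succ n ih =>
    rintro A ⟨C, c1, c2, c3⟩ hJ
    rcases A.eq_empty_or_nonempty with rfl | ⟨a, ha⟩
    · simp
    have hs : A ⊆ C.biUnion (fun D => A.filter (· ∈ D)) := by
      intro x hx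
      obtain ⟨D, hD, hxD⟩ := c2 x hx
      exact Finset.mem_biUnion.2 ⟨D, hD, Finset.mem_filter.2 ⟨hx, hxD⟩⟩
    calc A.card ≤ _ := Finset.card_le_card hs
      _ ≤ ∑ D ∈ C, (A.filter (· ∈ D)).card := Finset.card_biUnion_le
      _ ≤ ∑ _D ∈ C, J ^ n := by
          refine Finset.sum_le_sum fun D hD => ih ((c1 D hD).sub ?_ (fun _ _ => le_rfl)) ?_
          · intro x hx; exact (Finset.mem_filter.1 hx).2
          · intro x hx; exact hJ x (Finset.mem_filter.1 hx).1
      _ = C.card * J ^ n := by simp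
      _ ≤ J * J ^ n := Nat.mul_le_mul_right _ (le_trans (c3 a ha) (hJ a ha))
      _ = J ^ (n + 1) := by ring

theorem sum_biUnion_le {ι κ : Type} [DecidableEq ι] (S : Finset κ) (B : κ → Finset ι)
    (a : ι → ℝ) (ha : ∀ q, 0 ≤ a q) :
    ∑ q ∈ S.biUnion B, a q ≤ ∑ k ∈ S, ∑ q ∈ B k, a q := by
  classical
  induction S using Finset.induction_on with
  | empty => simp
  | insert k S hk ih =>
    rw [Finset.biUnion_insert, Finset.sum_insert hk]
    have := Finset.sum_union_inter (s₁ := B k) (s₂ := S.biUnion B) (f := a)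
    have h0 : 0 ≤ ∑ q ∈ B k ∩ S.biUnion B, a q := Finset.sum_nonneg fun q _ => ha q
    linarith

/-- An averaging scheme of level `n`. -/
def Avg (p P : ℕ → ℕ) (n : ℕ) (ε : ℝ) (q0 : ℕ) (A : Finset ℕ) (a : ℕ → ℝ) : Prop :=
  (∀ q ∈ A, q0 ≤ q) ∧ Sch (n + 1) p A ∧ (∀ q, 0 ≤ a q) ∧ ∑ q ∈ A, a q = 1 ∧
    ∀ B ⊆ A, Sch n P B → ∑ q ∈ B, a q ≤ ε

theorem avg_blocks {p P : ℕ → ℕ} (hP : Monotone P) {n : ℕ}
    (ih : ∀ ε : ℝ, 0 < ε → ∀ q0, ∃ A a, Avg p P n ε q0 A a) (ε : ℝ) (hε : 0 < ε) (q0 i : ℕ) :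
    ∃ (A : Finset ℕ) (a : ℕ → ℝ) (C : Finset (Finset ℕ)), (∀ q ∈ A, q0 ≤ q) ∧ C.card ≤ i ∧
      (∀ B ∈ C, Sch (n + 1) p B) ∧ (∀ q ∈ A, ∃ B ∈ C, q ∈ B) ∧ (∀ q, 0 ≤ a q) ∧
      ∑ q ∈ A, a q = i ∧ ∀ B ⊆ A, Sch (n + 1) P B → ∑ q ∈ B, a q ≤ 1 + i * ε := by
  classical
  induction i with
  | zero =>
    refine ⟨∅, fun _ => 0, ∅, by simp, by simp, by simp, by simp, by simp, by simp, ?_⟩
    intro B _ _; simp
  | succ i ihi =>
    obtain ⟨A, a, C, h1, h2, h3, h4, h5, h6, h7⟩ := ihi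
    set M := A.sup id with hM
    have hpos : (0 : ℝ) < (P M : ℝ) + 1 := by positivity
    obtain ⟨A', a', g1, g2, g3, g4, g5⟩ := ih (ε / ((P M : ℝ) + 1)) (by positivity)
      (max q0 (M + 1))
    have hdis : ∀ q ∈ A, q ∉ A' := by
      intro q hq hq'
      have := g1 q hq'
      have h' : q ≤ M := Finset.le_sup (f := id) hq
      omega
    have hsplit : ∀ B : Finset ℕ, ∑ q ∈ B, (if q ∈ A' then a' q else a q) =
        ∑ q ∈ B.filter (· ∈ A'), a' q + ∑ q ∈ B.filter (· ∉ A'), a q := by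
      intro B; rw [Finset.sum_ite]
    refine ⟨A ∪ A', fun q => if q ∈ A' then a' q else a q, insert A' C, ?_, ?_, ?_, ?_, ?_, ?_,
      ?_⟩
    · intro q hq
      rcases Finset.mem_union.1 hq with h | h
      · exact h1 q h
      · exact le_trans (le_max_left _ _) (g1 q h)
    · exact le_trans (Finset.card_insert_le _ _) (by omega)
    · intro B hB
      rcases Finset.mem_insert.1 hB with rfl | h
      · exact g2
      · exact h3 B h
    · intro q hq
      rcases Finset.mem_union.1 hq with h | h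
      · obtain ⟨B, hB, hqB⟩ := h4 q h
        exact ⟨B, Finset.mem_insert_of_mem hB, hqB⟩
      · exact ⟨A', Finset.mem_insert_self _ _, h⟩
    · intro q; dsimp only; split_ifs
      · exact g3 q
      · exact h5 q
    · rw [hsplit]
      have e1 : (A ∪ A').filter (· ∈ A') = A' := by ext q; simp
      have e2 : (A ∪ A').filter (· ∉ A') = A := by
        ext q; simp only [Finset.mem_filter, Finset.mem_union]
        constructor
        · tauto
        · intro h; exact ⟨Or.inl h, hdis q h⟩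
      rw [e1, e2, g4, h6]; push_cast; ring
    · intro B hB hS
      rw [hsplit]
      have hBA : B.filter (· ∉ A') ⊆ A := by
        intro q hq
        obtain ⟨hq1, hq2⟩ := Finset.mem_filter.1 hq
        rcases Finset.mem_union.1 (hB hq1) with h | h
        · exact h
        · exact absurd h hq2
      rcases (B.filter (· ∉ A')).eq_empty_or_nonempty with he | ⟨b, hb⟩
      · rw [he, Finset.sum_empty]
        have : ∑ q ∈ B.filter (· ∈ A'), a' q ≤ ∑ q ∈ A', a' q :=
          Finset.sum_le_sum_of_subset_of_nonneg (fun q hq => (Finset.mem_filter.1 hq).2)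
            (fun q _ _ => g3 q)
        have : (0 : ℝ) ≤ ((i + 1 : ℕ) : ℝ) * ε := by positivity
        linarith
      · have k1 := h7 _ hBA (hS.sub (Finset.filter_subset _ _) (fun _ _ => le_rfl))
        obtain ⟨D, d1, d2, d3⟩ := hS
        have hD : D.card ≤ P M :=
          le_trans (d3 b (Finset.mem_filter.1 hb).1) (hP (Finset.le_sup (f := id) (hBA hb)))
        have k2 : ∑ q ∈ B.filter (· ∈ A'), a' q ≤ ε := by
          calc ∑ q ∈ B.filter (· ∈ A'), a' q
              ≤ ∑ q ∈ D.biUnion (fun G => A'.filter (· ∈ G)), a' q := by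
                refine Finset.sum_le_sum_of_subset_of_nonneg ?_ (fun q _ _ => g3 q)
                intro q hq
                obtain ⟨hq1, hq2⟩ := Finset.mem_filter.1 hq
                obtain ⟨G, hG, hqG⟩ := d2 q hq1
                exact Finset.mem_biUnion.2 ⟨G, hG, Finset.mem_filter.2 ⟨hq2, hqG⟩⟩
            _ ≤ ∑ G ∈ D, ∑ q ∈ A'.filter (· ∈ G), a' q :=
                sum_biUnion_le _ _ _ g3
            _ ≤ ∑ _G ∈ D, ε / ((P M : ℝ) + 1) := by
                refine Finset.sum_le_sum fun G hG => g5 _ (Finset.filter_subset _ _) ?_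
                exact (d1 G hG).sub (fun q hq => (Finset.mem_filter.1 hq).2) (fun _ _ => le_rfl)
            _ = D.card * (ε / ((P M : ℝ) + 1)) := by simp
            _ ≤ ((P M : ℝ) + 1) * (ε / ((P M : ℝ) + 1)) := by
                have : (D.card : ℝ) ≤ P M := by exact_mod_cast hD
                gcongr; linarith
            _ = ε := by field_simp
        push_cast; linarith

theorem exists_avg {p P : ℕ → ℕ} (hp : Monotone p) (hp' : ∀ L, ∃ q, L ≤ p q) (hP : Monotone P)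
    (n : ℕ) : ∀ ε : ℝ, 0 < ε → ∀ q0, ∃ A a, Avg p P n ε q0 A a := by
  induction n with
  | zero =>
    intro ε hε q0
    obtain ⟨L, hL⟩ := exists_nat_gt (1 / ε)
    have hL0 : (0 : ℝ) < L := lt_trans (by positivity) hL
    obtain ⟨q1, hq1⟩ := hp' L
    refine ⟨Finset.Ico (max q0 q1) (max q0 q1 + L), fun _ => 1 / (L : ℝ), ?_, ?_, ?_, ?_, ?_⟩
    · intro q hq; have := (Finset.mem_Ico.1 hq).1; omega
    · refine Sch.one fun q hq => ?_
      have := (Finset.mem_Ico.1 hq).1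
      simpa using le_trans hq1 (hp (by omega))
    · intro q; positivity
    · simp; field_simp
    · intro B _ hB
      have : (B.card : ℝ) ≤ 1 := by exact_mod_cast hB
      have h2 : 1 / (L : ℝ) ≤ ε := by
        rw [div_le_iff₀ hL0]; rw [div_lt_iff₀ hε] at hL; linarith
      simp only [Finset.sum_const, nsmul_eq_mul]
      have : (0 : ℝ) ≤ 1 / (L : ℝ) := by positivity
      nlinarith
  | succ n ih =>
    intro ε hε q0
    obtain ⟨L, hL⟩ := exists_nat_gt (2 / ε)
    have hL0 : (0 : ℝ) < L := lt_trans (by positivity) hL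
    obtain ⟨q1, hq1⟩ := hp' L
    obtain ⟨A, a, C, h1, h2, h3, h4, h5, h6, h7⟩ := avg_blocks hP ih (ε / 2) (by positivity)
      (max q0 q1) L
    refine ⟨A, fun q => a q / L, ?_, ⟨C, h3, h4, ?_⟩, ?_, ?_, ?_⟩
    · intro q hq; have := h1 q hq; omega
    · intro q hq
      have := h1 q hq
      exact le_trans h2 (le_trans hq1 (hp (by omega)))
    · intro q; have := h5 q; positivity
    · rw [← Finset.sum_div, h6]; field_simp
    · intro B hB hS
      rw [← Finset.sum_div, div_le_iff₀ hL0]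
      have := h7 B hB hS
      rw [div_lt_iff₀ hε] at hL
      linarith

/-- The auxiliary growth sequence. -/
def bb : ℕ → ℕ
  | 0 => 0
  | j + 1 => (j + 4) * (bb j + 5)

/-- Levels. -/
def nn (j : ℕ) : ℕ := bb (j + 1)

/-- Weights. -/
def mm (j : ℕ) : ℚ := 2 ^ (j + 2)

theorem bb_mono : Monotone bb := by
  refine monotone_nat_of_le_succ fun j => ?_
  simp only [bb]; nlinarith

theorem le_bb (j : ℕ) : j ≤ bb j := by
  induction j with
  | zero => simp
  | succ j ih => simp only [bb]; nlinarith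

theorem nn_le_bb {w j : ℕ} (h : w < j) : nn w ≤ bb j := bb_mono h

theorem nn_eq (j : ℕ) : nn j = (j + 4) * (bb j + 5) := rfl

theorem one_le_nn (j : ℕ) : 1 ≤ nn j := by rw [nn_eq]; nlinarith

theorem pow_le_nn (j : ℕ) : 4 ^ j ≤ nn j := by
  induction j with
  | zero => exact one_le_nn 0
  | succ j ih =>
    rw [nn_eq]
    have : bb (j + 1) = nn j := rfl
    rw [this, pow_succ]; nlinarith

theorem mm_pos (j : ℕ) : 0 < mm j := by unfold mm; positivity

theorem mm_cast (j : ℕ) : ((mm j : ℚ) : ℝ) = 2 ^ (j + 2) := by simp [mm]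

theorem sum_inv_mm (a b : ℕ) : ∑ w ∈ Finset.Ico a b, (1 / (2 : ℝ) ^ (w + 2)) ≤ 1 / 2 ^ (a + 1) := by
  have key : ∀ k : ℕ, ∑ w ∈ Finset.Ico a (a + k), (1 / (2 : ℝ) ^ (w + 2)) =
      1 / 2 ^ (a + 1) - 1 / 2 ^ (a + k + 1) := by
    intro k
    induction k with
    | zero => simp
    | succ k ih =>
      rw [← add_assoc, Finset.sum_Ico_succ_top (by omega), ih]
      field_simp; ring
  rcases le_total a b with h | h
  · obtain ⟨k, rfl⟩ := Nat.exists_eq_add_of_le h
    rw [key]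
    have : (0 : ℝ) ≤ 1 / 2 ^ (a + k + 1) := by positivity
    linarith
  · rw [Finset.Ico_eq_empty_of_le h]; simp

end Vale.Agent.P129N
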