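import Vale.Agent.P129.NegBr

/-!
If all branches tend to zero then special sequences are rarely large on three windows.
-/

open Finset Filter Topology

namespace Vale.Agent.P129N

variable {I : Type} [LinearOrder I] [Cod I]

/-- The part of `ψ` in the window `i` is large. -/
def Big (x : ℕ → Z I) (J P : ℕ → ℕ) (η : ℝ) (ψ : ℕ → F I × ℕ) (p i : ℕ) : Prop :=
  η < |ev (seg ψ p Set.univ (J i) (P i)) (x i)|

/-- Some special sequence is large on three given windows. -/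
def Tri (x : ℕ → Z I) (J P : ℕ → ℕ) (η : ℝ) (i i' k : ℕ) : Prop :=
  ∃ ψ p, Spec ψ p ∧ Big x J P η ψ p i ∧ Big x J P η ψ p i' ∧ Big x J P η ψ p k

theorem Big.ex {x : ℕ → Z I} {J P : ℕ → ℕ} {η : ℝ} (hη : 0 < η) {ψ : ℕ → F I × ℕ} {p i : ℕ}
    (h : Big x J P η ψ p i) :
    ∃ a < p, J i ≤ (ψ a).2 ∧ (ψ a).2 < P i ∧ ∃ α, (ψ a).1 α ≠ 0 ∧ co (x i) α ≠ 0 :=
  seg_ne (by intro h0; rw [Big, h0, abs_zero] at h; linarith)

theorem window {x : ℕ → Z I} {J P : ℕ → ℕ} (hR : RS x J P) (hn : ∀ i, ‖x i‖ ≤ 1)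
    (hfs : ∀ i, Fs (x i)) (hf : ∀ i f w, w < J i → T f w → |ev f (x i)| ≤ 2 / 2 ^ (w + 2))
    (hN : ∀ i, Negl (P i) (x i) (1 / (i + 1)))
    (hx : ∀ γ : Br I, Tendsto (fun i => xi γ (x i)) atTop (𝓝 0)) {η : ℝ} (hη : 0 < η) :
    ∀ᶠ i in UU, ∀ᶠ i' in UU, ∀ᶠ k in UU, ¬Tri x J P η i i' k := by
  classical
  by_contra hcon
  have hG : ∀ᶠ i in UU, ∀ᶠ i' in UU, ∀ᶠ k in UU, Tri x J P η i i' k := by
    filter_upwards [Ultrafilter.eventually_not.2 hcon] with i hi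
    filter_upwards [Ultrafilter.eventually_not.2 hi] with i' hi'
    filter_upwards [Ultrafilter.eventually_not.2 hi'] with k hk
    exact not_not.1 hk
  set G : Set ℕ := {i | ∀ᶠ i' in UU, ∀ᶠ k in UU, Tri x J P η i i' k} with hGdef
  have hGi : G.Infinite := fun h => h.notMem_hyperfilter hG
  have hnx : ∀ i, ∃ i', i ∈ G → i < i' ∧ ∀ᶠ k in UU, Tri x J P η i i' k := by
    intro i
    by_cases hi : i ∈ G
    · obtain ⟨i', h1, h2⟩ := ((UU_ge (i + 1)).and hi).exists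
      exact ⟨i', fun _ => ⟨h1, h2⟩⟩
    · exact ⟨0, fun h => absurd h hi⟩
  choose nx hnx using hnx
  have hψ : ∀ i k, ∃ ψ p, Tri x J P η i (nx i) k → Spec ψ p ∧ Big x J P η ψ p i ∧
      Big x J P η ψ p (nx i) ∧ Big x J P η ψ p k := by
    intro i k
    by_cases h : Tri x J P η i (nx i) k
    · obtain ⟨ψ, p, h'⟩ := h
      exact ⟨ψ, p, fun _ => h'⟩
    · exact ⟨fun _ => (0, 0), 0, fun h' => absurd h' h⟩
  choose ψ p hψ using hψ
  let Ok : ℕ → ℕ → Prop := fun i k => Tri x J P η i (nx i) k ∧ nx i < k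
  have hOk : ∀ i ∈ G, ∀ᶠ k in UU, Ok i k := fun i hi => (hnx i hi).2.and (UU_ge (nx i + 1))
  let qs : ℕ → ℕ → ℕ := fun i k => sInf {a | a < p i k ∧ J k ≤ (ψ i k a).2}
  let ws : ℕ → ℕ → ℕ := fun i k => (ψ i k (qs i k)).2
  have q0 : ∀ i k a, a < p i k → J k ≤ (ψ i k a).2 → qs i k ≤ a :=
    fun i k a h1 h2 => Nat.sInf_le ⟨h1, h2⟩
  have q1 : ∀ i k, Ok i k → qs i k < p i k ∧ J k ≤ ws i k := by
    intro i k h
    obtain ⟨a, h1, h2, -⟩ := (hψ i k h.1).2.2.2.ex hη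
    exact Nat.sInf_mem (s := {a | a < p i k ∧ J k ≤ (ψ i k a).2}) ⟨a, h1, h2⟩
  have q2 : ∀ i k a, Ok i k → a < p i k → (ψ i k a).2 < J k → a < qs i k := by
    intro i k a h h1 h2
    exact (hψ i k h.1).1.2.lt_of_wt h1 (lt_of_lt_of_le h2 (q1 i k h).2)
  have q3 : ∀ i k, Ok i k → 0 < qs i k := by
    intro i k h
    obtain ⟨a, h1, -, h2, -⟩ := (hψ i k h.1).2.2.1.ex hη
    exact lt_of_le_of_lt (Nat.zero_le _) (q2 i k a h h1 (lt_trans h2 (hR.lt' h.2)))
  have sh1 : ∀ i i' k a a', Ok i k → Ok i' k → a < p i k → a' < p i' k → J k ≤ (ψ i k a).2 →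
      (ψ i k a).2 = (ψ i' k a').2 → ws i k = ws i' k := by
    intro i i' k a a' h h' h1 h2 h3 h4
    have k1 := q0 i k a h1 h3
    have k2 := q0 i' k a' h2 (h4 ▸ h3)
    obtain ⟨rfl, hd⟩ := (hψ i k h.1).1.2.share (hψ i' k h'.1).1.2 h1 h2
      (lt_of_lt_of_le (q3 i k h) k1) (lt_of_lt_of_le (q3 i' k h') k2) h4
    have hw : ∀ b ≤ a, (ψ i k b).2 = (ψ i' k b).2 := by
      intro b hb
      rcases hb.eq_or_lt with rfl | hb
      · exact h4
      · exact data_wt hd hb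
    have e1 : qs i' k ≤ qs i k := q0 i' k _ (by omega) (by rw [← hw _ k1]; exact (q1 i k h).2)
    have e2 : qs i k ≤ qs i' k := q0 i k _ (by omega) (by rw [hw _ k2]; exact (q1 i' k h').2)
    have e3 : qs i k = qs i' k := le_antisymm e2 e1
    change (ψ i k (qs i k)).2 = (ψ i' k (qs i' k)).2
    rw [← e3]; exact hw _ k1
  have sh2 : ∀ i i' k, Ok i k → Ok i' k → ws i k = ws i' k → qs i k = qs i' k ∧
      data (ψ i k) (qs i k) = data (ψ i' k) (qs i k) := fun i i' k h h' he =>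
    (hψ i k h.1).1.2.share (hψ i' k h'.1).1.2 (q1 i k h).1 (q1 i' k h').1 (q3 i k h)
      (q3 i' k h') he
  obtain ⟨L, hL⟩ := exists_nat_gt (1 / η)
  have count : ∀ k (R : Finset ℕ), R.card = L → L ≤ k → (∀ i ∈ R, Ok i k) →
      (∀ i ∈ R, ∀ i' ∈ R, ws i k = ws i' k → i = i') → False := by
    intro k R h1 h2 h3 h4
    have hJ : k ≤ J k := hR.smJ.le_apply
    have hK := (K.segs R (fun i => ψ i k) (fun i => p i k) (J k) (P k)
      (fun i => sn (ev (seg (ψ i k) (p i k) Set.univ (J k) (P k)) (x k)))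
      (fun i hi => (hψ i k (h3 i hi).1).1) (fun _ _ => sn_cases _) (by omega)
      (fun i hi i' hi' a ha a' ha' k1 _ k3 =>
        h4 i hi i' hi' (sh1 i i' k a a' (h3 i hi) (h3 i' hi') ha ha' k1 k3))).abs_ev (x k)
    rw [ev_sum] at hK
    simp only [ev_smul, sn_mul] at hK
    have h5 : ∑ _i ∈ R, η ≤ ∑ i ∈ R, |ev (seg (ψ i k) (p i k) Set.univ (J k) (P k)) (x k)| :=
      Finset.sum_le_sum fun i hi => (hψ i k (h3 i hi).1).2.2.2.le
    rw [Finset.sum_const, h1, nsmul_eq_mul] at h5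
    rw [div_lt_iff₀ hη] at hL
    have := le_trans (le_abs_self _) hK
    have := hn k
    linarith
  let gm : ℕ → Germ UU ℕ := fun i => (fun k => ws i k : ℕ → ℕ)
  have hfin : (gm '' G).Finite := by
    by_contra hinf
    obtain ⟨t, ht1, ht2⟩ := Set.Infinite.exists_subset_card_eq hinf L
    obtain ⟨R, r1, r2, r3⟩ := Finset.exists_subset_injOn_image_eq_of_surjOn (f := gm) G t ht1
    have r4 : R.card = L := by rw [← ht2, ← r3, Finset.card_image_of_injOn r2]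
    have e1 : ∀ᶠ k in UU, ∀ i ∈ R, Ok i k := (eventually_all_finset R).2 fun i hi => hOk i (r1 hi)
    have e2 : ∀ᶠ k in UU, ∀ i ∈ R, ∀ i' ∈ R, ws i k = ws i' k → i = i' := by
      refine (eventually_all_finset R).2 fun i hi => (eventually_all_finset R).2 fun i' hi' => ?_
      by_cases he : i = i'
      · exact Eventually.of_forall fun _ _ => he
      · have : ¬∀ᶠ k in UU, ws i k = ws i' k := fun h => he (r2 hi hi' (Germ.coe_eq.2 h))
        filter_upwards [Ultrafilter.eventually_not.2 this] with k hk h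
        exact absurd h hk
    obtain ⟨k, k1, k2, k3⟩ := (e1.and (e2.and (UU_ge L))).exists
    exact count k R r4 k3 k1 k2
  obtain ⟨c, hc⟩ : ∃ c, (G ∩ gm ⁻¹' {c}).Infinite := by
    by_contra hno
    push Not at hno
    exact hGi (Set.Finite.of_finite_fibers gm hfin fun c _ => hno c)
  set M := G ∩ gm ⁻¹' {c} with hM
  have s1 : ∀ i, ∃ t : ℕ × ℕ × I, i ∈ G → J (nx i) ≤ t.2.1 ∧ t.2.1 < P (nx i) ∧
      ∀ᶠ k in UU, t.1 < p i k ∧ (ψ i k t.1).2 = t.2.1 ∧ (ψ i k t.1).1 t.2.2 ≠ 0 := by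
    intro i
    by_cases hi : i ∈ G
    swap
    · obtain ⟨i0, hi0⟩ := hGi.nonempty
      obtain ⟨k, hk⟩ := (hOk i0 hi0).exists
      obtain ⟨a, -, -, -, α, -⟩ := (hψ i0 k hk.1).2.2.1.ex hη
      exact ⟨(0, 0, α), fun h => absurd h hi⟩
    have hfin2 : ((Set.Iio (P (nx i))) ×ˢ (Set.Ico (J (nx i)) (P (nx i))) ×ˢ
        Function.support (co (x (nx i)))).Finite :=
      (Set.finite_Iio _).prod ((Set.finite_Ico _ _).prod (hfs _))
    have := (Ultrafilter.eventually_exists_mem_iff (f := hyperfilter ℕ) (P := fun t k =>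
      t.1 < p i k ∧ (ψ i k t.1).2 = t.2.1 ∧ (ψ i k t.1).1 t.2.2 ≠ 0) hfin2).1 (by
        filter_upwards [hOk i hi] with k hk
        obtain ⟨a, a1, a2, a3, α, a4, a5⟩ := (hψ i k hk.1).2.2.1.ex hη
        exact ⟨(a, (ψ i k a).2, α), ⟨lt_of_le_of_lt ((hψ i k hk.1).1.2.self_le a1) a3,
          ⟨a2, a3⟩, a5⟩, a1, rfl, a4⟩)
    obtain ⟨t, t1, t2⟩ := this
    exact ⟨t, fun _ => ⟨t1.2.1.1, t1.2.1.2, t2⟩⟩
  choose t ht using s1
  obtain ⟨γ, hγ⟩ := extract hc ψ p qs (fun i => (t i).1) (fun i => (t i).2.1) (fun i => (t i).2.2)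
    (fun i hi => by
      filter_upwards [hOk i hi.1, (ht i hi.1).2.2] with k k1 k2
      refine ⟨(hψ i k k1.1).1, (q1 i k k1).1.le, q2 i k _ k1 k2.1 ?_, k2.2.1, k2.2.2⟩
      rw [k2.2.1]; exact lt_trans (ht i hi.1).2.1 (hR.lt' k1.2))
    (fun i hi i' hi' => by
      have he : gm i = gm i' := hi.2.trans hi'.2.symm
      filter_upwards [hOk i hi.1, hOk i' hi'.1, Germ.coe_eq.1 he] with k k1 k2 k3
      exact sh2 i i' k k1 k2 k3)
    (fun i hi => by
      obtain ⟨i', hi', hlt⟩ := hc.exists_gt (nx i)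
      exact ⟨i', hi', lt_trans (ht i hi.1).2.1 (lt_of_lt_of_le
        (hR.lt' (lt_trans hlt (hnx i' hi'.1).1)) (ht i' hi'.1).1)⟩)
  refine xi_big hR hf hN γ hη hc (fun i hi => ?_) (hx γ)
  obtain ⟨g1, g2⟩ := hγ i hi
  obtain ⟨k, k1, k2, k3⟩ := ((hOk i hi.1).and (g2.and (ht i hi.1).2.2)).exists
  have hv : P i ≤ (t i).2.1 := le_trans (hR.lt' (hnx i hi.1).1).le (ht i hi.1).1
  filter_upwards [eventually_ge_atTop (t i).1] with B hB
  rw [seg_trunc (γ.2 B).2 hB _ _ (fun _ => by rw [g1]; exact hv), seg_congr k2,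
    ← seg_trunc (hψ i k k1.1).1.2 k3.1.le _ _ (fun _ => by rw [k3.2.1]; exact hv)]
  exact (hψ i k k1.1).2.1

/-- A subsequence on which no special sequence is large on three late windows. -/
theorem exists_sub (Q : ℕ → ℕ → ℕ → ℕ → Prop)
    (h : ∀ s, ∀ᶠ i in UU, ∀ᶠ i' in UU, ∀ᶠ k in UU, Q s i i' k) :
    ∃ t : ℕ → ℕ, StrictMono t ∧ ∀ a b c e, a < b → b < c → c < e → Q (t a) (t b) (t c) (t e) := by
  have step : ∀ S : Finset ℕ, ∃ n, (∀ s ∈ S, s < n) ∧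
      (∀ s ∈ S, ∀ᶠ i' in UU, ∀ᶠ k in UU, Q s n i' k) ∧
      (∀ s ∈ S, ∀ i ∈ S, (∀ᶠ i' in UU, ∀ᶠ k in UU, Q s i i' k) → ∀ᶠ k in UU, Q s i n k) ∧
      (∀ s ∈ S, ∀ i ∈ S, ∀ i' ∈ S, (∀ᶠ k in UU, Q s i i' k) → Q s i i' n) := by
    intro S
    refine Eventually.exists (f := UU) (Eventually.and ?_ (Eventually.and ?_
      (Eventually.and ?_ ?_)))
    · exact (eventually_all_finset S).2 fun s _ => UU_ge (s + 1)
    · exact (eventually_all_finset S).2 fun s _ => h s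
    · refine (eventually_all_finset S).2 fun s _ => (eventually_all_finset S).2 fun i _ => ?_
      by_cases hq : ∀ᶠ i' in UU, ∀ᶠ k in UU, Q s i i' k
      · exact hq.mono fun _ h _ => h
      · exact Eventually.of_forall fun _ h => absurd h hq
    · refine (eventually_all_finset S).2 fun s _ => (eventually_all_finset S).2 fun i _ =>
        (eventually_all_finset S).2 fun i' _ => ?_
      by_cases hq : ∀ᶠ k in UU, Q s i i' k
      · exact hq.mono fun _ h _ => h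
      · exact Eventually.of_forall fun _ h => absurd h hq
  choose nxt h1 h2 h3 h4 using step
  let S : ℕ → Finset ℕ := fun n => Nat.rec ∅ (fun _ s => insert (nxt s) s) n
  have hS : ∀ a b, a < b → nxt (S a) ∈ S b := by
    intro a b hab
    induction hab with
    | refl => exact Finset.mem_insert_self _ _
    | step _ ih => exact Finset.mem_insert_of_mem ih
  refine ⟨fun n => nxt (S n), fun a b hab => h1 _ _ (hS a b hab), fun a b c e k1 k2 k3 => ?_⟩
  exact h4 _ _ (hS a e (by omega)) _ (hS b e (by omega)) _ (hS c e k3)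
    (h3 _ _ (hS a c (by omega)) _ (hS b c k2) (h2 _ _ (hS a b k1)))

end Vale.Agent.P129N
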