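import Vale.Agent.P129.NegK

/-!
The space normed by the norming set.
-/

open Finset BoundedContinuousFunction

namespace Vale.Agent.P129N

/-- The norming set as a type. -/
structure KK (I : Type) [LinearOrder I] [Cod I] where
  g : F I
  h : ∃ ω, K g ω

variable {I : Type} [LinearOrder I] [Cod I]

instance : TopologicalSpace (KK I) := ⊥
instance : DiscreteTopology (KK I) := ⟨rfl⟩

/-- The coordinate functionals as members of the norming set. -/
noncomputable def eK (α : I) : KK I := ⟨Finsupp.single α 1, 0, K.single α⟩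

/-- The space, as a subspace of the bounded functions on the norming set. -/
noncomputable def Zs (I : Type) [LinearOrder I] [Cod I] : Submodule ℝ (KK I →ᵇ ℝ) where
  carrier := {φ | ∀ k : KK I, φ k = ∑ α ∈ k.g.support, (k.g α : ℝ) * φ (eK α)}
  zero_mem' := by intro k; simp
  add_mem' := by
    intro φ ψ h1 h2 k
    simp only [BoundedContinuousFunction.add_apply, mul_add, Finset.sum_add_distrib]
    rw [← h1 k, ← h2 k]
  smul_mem' := by
    intro c φ h k
    simp only [BoundedContinuousFunction.smul_apply, smul_eq_mul]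
    rw [h k, Finset.mul_sum]
    exact Finset.sum_congr rfl fun _ _ => by ring

/-- The space. -/
def Z (I : Type) [LinearOrder I] [Cod I] : Type := Zs I

noncomputable instance : NormedAddCommGroup (Z I) := inferInstanceAs (NormedAddCommGroup (Zs I))

noncomputable instance : NormedSpace ℝ (Z I) := inferInstanceAs (NormedSpace ℝ (Zs I))

theorem Zs_complete : CompleteSpace (Zs I) := by
  refine IsClosed.completeSpace_coe (hs := ?_)
  have : (Zs I : Set (KK I →ᵇ ℝ)) =
      ⋂ k : KK I, {φ | φ k = ∑ α ∈ k.g.support, (k.g α : ℝ) * φ (eK α)} := by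
    ext φ; simp only [Set.mem_iInter]; rfl
  rw [this]
  refine isClosed_iInter fun k => isClosed_eq ?_ ?_
  · exact continuous_eval_const k
  · exact continuous_finsetSum _ fun α _ => continuous_const.mul (continuous_eval_const _)

instance : CompleteSpace (Z I) := Zs_complete

/-- Coordinate functionals. -/
noncomputable def coL (α : I) : Z I →L[ℝ] ℝ :=
  ((BoundedContinuousFunction.evalCLM ℝ (eK α)).comp (Zs I).subtypeL : Zs I →L[ℝ] ℝ)

/-- Coordinates of a vector. -/
noncomputable def co (z : Z I) (α : I) : ℝ := coL α z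

/-- The action of finitely supported functionals. -/
noncomputable def ev : F I →ₗ[ℚ] (Z I →L[ℝ] ℝ) := Finsupp.linearCombination ℚ coL

theorem ev_apply (g : F I) (z : Z I) : ev g z = ∑ α ∈ g.support, (g α : ℝ) * co z α := by
  simp only [ev, Finsupp.linearCombination_apply, Finsupp.sum, _root_.sum_apply,
    _root_.smul_apply, co, Rat.smul_def]

theorem ev_apply' (g : F I) (z : Z I) {S : Finset I} (h : ∀ α, g α ≠ 0 → co z α ≠ 0 → α ∈ S) :
    ev g z = ∑ α ∈ S, (g α : ℝ) * co z α := by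
  classical
  rw [ev_apply]
  have e1 : ∑ α ∈ g.support, (g α : ℝ) * co z α = ∑ α ∈ g.support ∪ S, (g α : ℝ) * co z α := by
    refine Finset.sum_subset Finset.subset_union_left fun α _ h2 => ?_
    simp [Finsupp.notMem_support_iff.1 h2]
  rw [e1]
  symm
  refine Finset.sum_subset Finset.subset_union_right fun α _ h2 => ?_
  by_contra hne
  rw [mul_eq_zero, not_or] at hne
  exact h2 (h α (by simpa using hne.1) hne.2)

theorem ev_single (α : I) (s : ℚ) (z : Z I) : ev (Finsupp.single α s) z = s * co z α := by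
  simp [ev, co, Rat.smul_def]

theorem ev_smul (s : ℚ) (g : F I) (z : Z I) : ev (s • g) z = s * ev g z := by
  rw [map_smul, _root_.smul_apply, Rat.smul_def]

theorem ev_sum {ι : Type} (A : Finset ι) (c : ι → F I) (z : Z I) :
    ev (∑ r ∈ A, c r) z = ∑ r ∈ A, ev (c r) z := by
  rw [map_sum, _root_.sum_apply]

theorem ev_neg (g : F I) (z : Z I) : ev (-g) z = -ev g z := by rw [map_neg]; rfl

theorem ev_K (k : KK I) (z : Z I) : ev k.g z = z.1 k := by
  rw [ev_apply, z.2 k]; rfl

theorem K.abs_ev {g : F I} {ω : ℕ} (h : K g ω) (z : Z I) : |ev g z| ≤ ‖z‖ := by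
  have := ev_K ⟨g, ω, h⟩ z
  simp only at this
  rw [this]
  exact z.1.norm_coe_le_norm _

theorem T.abs_ev {g : F I} {ω : ℕ} (h : T g ω) (z : Z I) : |ev g z| ≤ ‖z‖ := h.toK.abs_ev z

theorem norm_le {z : Z I} {C : ℝ} (h : ∀ g ω, K g ω → ev g z ≤ C) : ‖z‖ ≤ C := by
  have hC : 0 ≤ C := by simpa using h 0 0 (K.zero 0)
  refine (BoundedContinuousFunction.norm_le hC).2 fun k => ?_
  obtain ⟨ω, hω⟩ := k.h
  change ‖z.1 k‖ ≤ C
  rw [← ev_K, Real.norm_eq_abs, abs_le]
  have := h _ _ hω.neg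
  rw [ev_neg] at this
  exact ⟨by linarith, h _ _ hω⟩

theorem exists_ev {z : Z I} {c : ℝ} (h : c < ‖z‖) : ∃ g ω, K g ω ∧ c < ev g z := by
  by_contra hn
  push Not at hn
  exact absurd (norm_le hn) (not_le.2 h)

theorem abs_co (z : Z I) (α : I) : |co z α| ≤ ‖z‖ := by
  simpa [ev_single] using (K.single α).abs_ev z

theorem Z.ext {z z' : Z I} (h : co z = co z') : z = z' := by
  apply Subtype.ext
  ext k
  rw [← ev_K, ← ev_K, ev_apply, ev_apply, h]

@[simp] theorem co_add (z z' : Z I) (α : I) : co (z + z') α = co z α + co z' α := by simp [co]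
@[simp] theorem co_sub (z z' : Z I) (α : I) : co (z - z') α = co z α - co z' α := by simp [co]
@[simp] theorem co_smul (c : ℝ) (z : Z I) (α : I) : co (c • z) α = c * co z α := by simp [co]
@[simp] theorem co_zero (α : I) : co (0 : Z I) α = 0 := by simp [co]
theorem co_sum {ι : Type} (A : Finset ι) (y : ι → Z I) (α : I) :
    co (∑ q ∈ A, y q) α = ∑ q ∈ A, co (y q) α := by simp [co]

/-- A vector from its coordinates. -/
noncomputable def mk (x : I → ℝ) (C : ℝ)
    (h : ∀ g ω, K g ω → |∑ α ∈ g.support, (g α : ℝ) * x α| ≤ C) : Z I :=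
  ⟨BoundedContinuousFunction.ofNormedAddCommGroupDiscrete
    (fun k : KK I => ∑ α ∈ k.g.support, (k.g α : ℝ) * x α) C
    (fun k => by obtain ⟨ω, hω⟩ := k.h; exact h _ _ hω), by
    intro k
    change ∑ α ∈ k.g.support, (k.g α : ℝ) * x α = ∑ α ∈ k.g.support, (k.g α : ℝ) *
      ∑ β ∈ (eK α).g.support, ((eK α).g β : ℝ) * x β
    refine Finset.sum_congr rfl fun α _ => ?_
    simp [eK]⟩

theorem co_mk (x : I → ℝ) (C : ℝ) (h) : co (mk x C h) = x := by
  ext α
  change ∑ β ∈ (eK α).g.support, ((eK α).g β : ℝ) * x β = x α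
  simp [eK]

theorem sum_fl (g : F I) (z : Z I) (E : Set I) :
    ∑ α ∈ g.support, (g α : ℝ) * E.indicator (co z) α = ev (fl E g) z := by
  rw [ev_apply' (fl E g) z (S := g.support)
    (fun α h _ => Finsupp.mem_support_iff.2 (fl_ne h).2)]
  refine Finset.sum_congr rfl fun α _ => ?_
  by_cases h : α ∈ E
  · simp [fl_of_mem _ h, h]
  · simp [fl_of_not_mem _ h, h]

/-- Restriction of a vector to a convex set. -/
noncomputable def res0 (E : Set I) (hE : E.OrdConnected) (z : Z I) : Z I :=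
  mk (E.indicator (co z)) ‖z‖ (fun g ω h => by
    rw [sum_fl]; exact K.abs_ev (N.fl h hE) z)

theorem co_res0 (E : Set I) (hE : E.OrdConnected) (z : Z I) :
    co (res0 E hE z) = E.indicator (co z) := co_mk _ _ _

theorem ev_res0 (E : Set I) (hE : E.OrdConnected) (z : Z I) (g : F I) :
    ev g (res0 E hE z) = ev (fl E g) z := by rw [ev_apply, co_res0, sum_fl]

/-- Restriction of a vector to a convex set, as an operator. -/
noncomputable def res (E : Set I) (hE : E.OrdConnected) : Z I →L[ℝ] Z I :=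
  LinearMap.mkContinuous
    { toFun := res0 E hE
      map_add' := fun z z' => Z.ext (by
        ext α; by_cases h : α ∈ E <;> simp [co_res0, h])
      map_smul' := fun c z => Z.ext (by
        ext α; by_cases h : α ∈ E <;> simp [co_res0, h]) } 1
    (fun z => by
      rw [one_mul]
      refine norm_le fun g ω h => ?_
      change ev g (res0 E hE z) ≤ _
      rw [ev_res0]
      exact le_trans (le_abs_self _) (K.abs_ev (N.fl h hE) z))

theorem co_res (E : Set I) (hE : E.OrdConnected) (z : Z I) :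
    co (res E hE z) = E.indicator (co z) := co_res0 E hE z

theorem ev_res (E : Set I) (hE : E.OrdConnected) (z : Z I) (g : F I) :
    ev g (res E hE z) = ev (fl E g) z := ev_res0 E hE z g

theorem norm_res (E : Set I) (hE : E.OrdConnected) (z : Z I) : ‖res E hE z‖ ≤ ‖z‖ := by
  refine norm_le fun g ω h => ?_
  rw [ev_res]
  exact le_trans (le_abs_self _) (K.abs_ev (N.fl h hE) z)

/-- Basis vectors. -/
noncomputable def u (α : I) : Z I :=
  mk (Pi.single α 1) 1 (fun g ω h => by
    rw [Finset.sum_eq_single α]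
    · simp only [Pi.single_eq_same, mul_one]
      refine le_trans (h.sup α) ?_
      rw [one_div]; exact inv_le_one_of_one_le₀ (one_le_pow₀ (by norm_num))
    · intro β _ hβ; simp [hβ]
    · intro hα; simp [Finsupp.notMem_support_iff.1 hα])

theorem co_u (α : I) : co (u α) = Pi.single α 1 := co_mk _ _ _

theorem ev_u (g : F I) (α : I) : ev g (u α) = g α := by
  rw [ev_apply' g (u α) (S := {α})]
  · simp [co_u]
  · intro β _ h
    rw [co_u] at h
    by_contra hne
    exact h (Pi.single_eq_of_ne (by simpa using hne) _)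

theorem norm_u (α : I) : ‖u α‖ ≤ 1 := by
  refine norm_le fun g ω h => ?_
  rw [ev_u]
  refine le_trans (le_abs_self _) (le_trans (h.sup α) ?_)
  rw [one_div]; exact inv_le_one_of_one_le₀ (one_le_pow₀ (by norm_num))

theorem ev_eq_zero {g : F I} {z : Z I} (h : ∀ α, g α ≠ 0 → co z α = 0) : ev g z = 0 := by
  rw [ev_apply' g z (S := ∅) (fun α h1 h2 => absurd (h α h1) h2)]; simp

theorem exists_of_ev_ne {g : F I} {z : Z I} (h : ev g z ≠ 0) : ∃ α, g α ≠ 0 ∧ co z α ≠ 0 := by
  by_contra hn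
  push Not at hn
  exact h (ev_eq_zero hn)

theorem ev_fl_of_subset {g : F I} {z : Z I} {E : Set I} (h : ∀ α, co z α ≠ 0 → α ∈ E) :
    ev (fl E g) z = ev g z := by
  rw [← sum_fl, ev_apply]
  refine Finset.sum_congr rfl fun α _ => ?_
  by_cases hα : α ∈ E
  · simp [hα]
  · have : co z α = 0 := by by_contra h'; exact hα (h α h')
    simp [hα, this]

theorem ev_fl_of_disj {g : F I} {z : Z I} {E : Set I} (h : ∀ α, co z α ≠ 0 → α ∉ E) :
    ev (fl E g) z = 0 :=
  ev_eq_zero fun α hα => by by_contra h'; exact h α h' (fl_ne hα).1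

/-- The convex hull of the support. -/
def ran (z : Z I) : Set I := {α | ∃ a b, co z a ≠ 0 ∧ co z b ≠ 0 ∧ a ≤ α ∧ α ≤ b}

theorem ran_oc (z : Z I) : (ran z).OrdConnected := by
  constructor
  rintro x ⟨a, -, ha, -, hax, -⟩ y ⟨-, b, -, hb, -, hyb⟩ t ht
  exact ⟨a, b, ha, hb, le_trans hax ht.1, le_trans ht.2 hyb⟩

theorem mem_ran {z : Z I} {α : I} (h : co z α ≠ 0) : α ∈ ran z := ⟨α, α, h, h, le_rfl, le_rfl⟩

theorem ev_fl_ran (g : F I) (z : Z I) : ev (fl (ran z) g) z = ev g z :=
  ev_fl_of_subset fun _ h => mem_ran h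

theorem ran_lt {z z' : Z I} (h : Succ (co z) (co z')) {α β : I} (hα : α ∈ ran z)
    (hβ : β ∈ ran z') : α < β := by
  obtain ⟨-, b, -, hb, -, h1⟩ := hα
  obtain ⟨a, -, ha, -, h2, -⟩ := hβ
  exact lt_of_le_of_lt h1 (lt_of_lt_of_le (h b a hb ha) h2)

/-- Finitely supported vectors. -/
def Fs (z : Z I) : Prop := (Function.support (co z)).Finite

/-- Functionals of label at least `P` are negligible on `z`. -/
def Negl (P : ℕ) (z : Z I) (ε : ℝ) : Prop :=
  ∃ S : Finset I, (∀ α, co z α ≠ 0 → α ∈ S) ∧ (∑ α ∈ S, |co z α|) / 2 ^ P ≤ ε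

theorem Fs.negl {z : Z I} (h : Fs z) {ε : ℝ} (hε : 0 < ε) (J : ℕ) : ∃ P, J ≤ P ∧ Negl P z ε := by
  obtain ⟨P, hP⟩ := pow_unbounded_of_one_lt ((∑ α ∈ h.toFinset, |co z α|) / ε)
    (by norm_num : (1 : ℝ) < 2)
  refine ⟨max J P, le_max_left _ _, h.toFinset, fun α hα => h.mem_toFinset.2 hα, ?_⟩
  rw [div_lt_iff₀ hε] at hP
  rw [div_le_iff₀ (by positivity)]
  have : (2 : ℝ) ^ P ≤ 2 ^ max J P := pow_le_pow_right₀ (by norm_num) (le_max_right _ _)
  nlinarith

theorem Negl.fam {P : ℕ} {z : Z I} {ε : ℝ} (h : Negl P z ε) {ι : Type} {A : Finset ι}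
    {c : ι → F I} (hp : Pw A (fun r => ⇑(c r)))
    (hc : ∀ r ∈ A, ∀ α, |((c r α : ℚ) : ℝ)| ≤ 1 / 2 ^ P) : ∑ r ∈ A, |ev (c r) z| ≤ ε := by
  obtain ⟨S, h1, h2⟩ := h
  calc ∑ r ∈ A, |ev (c r) z| ≤ ∑ r ∈ A, ∑ α ∈ S, |((c r α : ℚ) : ℝ)| * |co z α| := by
        refine Finset.sum_le_sum fun r _ => ?_
        rw [ev_apply' _ _ (S := S) (fun α _ h => h1 α h)]
        refine le_trans (Finset.abs_sum_le_sum_abs _ _) (le_of_eq ?_)
        exact Finset.sum_congr rfl fun α _ => abs_mul _ _
    _ = ∑ α ∈ S, (∑ r ∈ A, |((c r α : ℚ) : ℝ)|) * |co z α| := by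
        rw [Finset.sum_comm]
        exact Finset.sum_congr rfl fun α _ => (Finset.sum_mul _ _ _).symm
    _ ≤ ∑ α ∈ S, (1 / 2 ^ P) * |co z α| := by
        refine Finset.sum_le_sum fun α _ => mul_le_mul_of_nonneg_right ?_ (abs_nonneg _)
        exact hp.abs_sum_le α (by positivity) fun r hr => hc r hr α
    _ = (∑ α ∈ S, |co z α|) / 2 ^ P := by rw [← Finset.mul_sum]; ring
    _ ≤ ε := h2

theorem K.sup' {g : F I} {ω P : ℕ} (h : K g ω) (hP : P ≤ ω) (α : I) :
    |((g α : ℚ) : ℝ)| ≤ 1 / 2 ^ P := (h.down hP).sup α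

theorem Negl.one {P : ℕ} {z : Z I} {ε : ℝ} (h : Negl P z ε) {g : F I} (hg : K g P) :
    |ev g z| ≤ ε := by
  have := h.fam (A := ({()} : Finset Unit)) (c := fun _ => g) (by simp [Pw])
    (fun _ _ α => hg.sup α)
  simpa using this

/-- A sign making a real number nonnegative. -/
noncomputable def sn (x : ℝ) : ℚ := if 0 ≤ x then 1 else -1

theorem sn_cases (x : ℝ) : sn x = 1 ∨ sn x = -1 := by unfold sn; split_ifs <;> simp

theorem sn_mul (x : ℝ) : (sn x : ℝ) * x = |x| := by
  unfold sn; split_ifs with h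
  · simp [abs_of_nonneg h]
  · simp [abs_of_neg (not_le.1 h)]

omit [Cod I] in
theorem Pw.smul {ι : Type} {A : Finset ι} {c : ι → F I} (hp : Pw A (fun r => ⇑(c r)))
    (s : ι → ℚ) : Pw A (fun r => ⇑(s r • c r)) := by
  intro r hr r' hr' hne
  have key : ∀ r α, (s r • c r) α ≠ 0 → c r α ≠ 0 := by
    intro r α h h'; simp [h'] at h
  rcases hp r hr r' hr' hne with h | h
  · exact Or.inl fun α β h1 h2 => h α β (key _ _ h1) (key _ _ h2)
  · exact Or.inr fun α β h1 h2 => h α β (key _ _ h1) (key _ _ h2)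

omit [Cod I] in
theorem Pw.sub {ι R : Type} [Zero R] {A A' : Finset ι} {c : ι → I → R} (hp : Pw A c)
    (h : A' ⊆ A) : Pw A' c := fun r hr r' hr' hne => hp r (h hr) r' (h hr') hne

/-- The lower estimate given by admissible families. -/
theorem fam_abs_le {ι : Type} {w : ℕ} {A : Finset ι} {c : ι → F I} {ω : ι → ℕ}
    (hc : ∀ r ∈ A, K (c r) (ω r)) (hp : Pw A (fun r => ⇑(c r)))
    (hs : Sch (nn w) (fun r => max (ω r) (nn w)) A) (z : Z I) :
    ∑ r ∈ A, |ev (c r) z| ≤ 2 ^ (w + 2) * ‖z‖ := by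
  have h := (T.of_family w A (fun r => sn (ev (c r) z) • c r) ω
    (fun r hr => (hc r hr).sign (sn_cases _)) (hp.smul _) hs).abs_ev z
  rw [ev_smul, ev_sum] at h
  simp only [ev_smul, sn_mul] at h
  push_cast at h
  rw [mm_cast] at h
  have h2 := le_trans (le_abs_self _) h
  rw [one_div, inv_mul_le_iff₀ (by positivity)] at h2
  exact h2

/-- No vector is large on infinitely many successive norming functionals. -/
theorem no_seq {z : Z I} {ε : ℝ} (hε : 0 < ε) (g : ℕ → F I) (ω : ℕ → ℕ) (hg : ∀ n, K (g n) (ω n))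
    (hs : ∀ n n', n < n' → Succ (g n) (g n')) (hz : ∀ n, ε ≤ |ev (g n) z|) : False := by
  obtain ⟨j, hj⟩ := pow_unbounded_of_one_lt (4 * ‖z‖ / ε) (by norm_num : (1 : ℝ) < 2)
  have h := fam_abs_le (w := j) (A := range (nn j)) (c := g) (ω := ω) (fun r _ => hg r) ?_ ?_ z
  · have h2 : ∑ _r ∈ range (nn j), ε ≤ ∑ r ∈ range (nn j), |ev (g r) z| :=
      Finset.sum_le_sum fun r _ => hz r
    simp only [Finset.sum_const, Finset.card_range, nsmul_eq_mul] at h2
    have h3 : (4 : ℝ) ^ j ≤ nn j := by exact_mod_cast pow_le_nn j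
    have h4 : (4 : ℝ) ^ j = 2 ^ j * 2 ^ j := by rw [← mul_pow]; norm_num
    rw [div_lt_iff₀ hε] at hj
    have h5 : (0 : ℝ) < 2 ^ j := by positivity
    rw [pow_add] at h
    nlinarith
  · intro r _ r' _ hne
    rcases lt_or_gt_of_ne hne with h | h
    · exact Or.inl (hs _ _ h)
    · exact Or.inr (hs _ _ h)
  · refine (Sch.one fun a _ => ?_).mono (fun a _ => ?_) (one_le_nn j)
    · simp
    · exact le_trans (one_le_nn j) (le_max_right _ _)

end Vale.Agent.P129N
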