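import Mathlib

open Filter Topology

namespace Vale.Agent.P129

/-- `X` has a separable infinite-dimensional quotient. -/
def SQ (K X : Type*) [RCLike K] [NormedAddCommGroup X] [NormedSpace K X] : Prop :=
  ∃ M : Submodule K X, IsClosed (M : Set X) ∧ TopologicalSpace.SeparableSpace (X ⧸ M) ∧
    ¬FiniteDimensional K (X ⧸ M)

section SN

variable {K X : Type*} [RCLike K] [NormedAddCommGroup X] [NormedSpace K X]

theorem unif_on_compact (f : ℕ → X →L[K] K) (h1 : ∀ n, ‖f n‖ ≤ 1)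
    (h0 : ∀ x, Tendsto (fun n => f n x) atTop (𝓝 0)) {C : Set X} (hC : IsCompact C) {ε : ℝ}
    (hε : 0 < ε) : ∀ᶠ k in atTop, ∀ z ∈ C, ‖f k z‖ ≤ ε := by
  obtain ⟨t, -, ht, hcov⟩ := hC.finite_cover_balls (half_pos hε)
  have : ∀ᶠ k in atTop, ∀ y ∈ t, ‖f k y‖ ≤ ε / 2 := by
    rw [eventually_all_finite ht]
    intro y _
    have := (h0 y).norm
    rw [norm_zero] at this
    exact this.eventually (ge_mem_nhds (half_pos hε))
  filter_upwards [this] with k hk z hz
  obtain ⟨y, hy, hzy⟩ := Set.mem_iUnion₂.1 (hcov hz)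
  have h2 : ‖f k (z - y)‖ ≤ ε / 2 := by
    refine ((f k).le_opNorm _).trans ?_
    rw [Metric.mem_ball, dist_eq_norm] at hzy
    nlinarith [h1 k, norm_nonneg (z - y), norm_nonneg (f k)]
  have h3 : f k z = f k (z - y) + f k y := by rw [map_sub]; ring
  rw [h3]
  linarith [norm_add_le (f k (z - y)) (f k y), hk y hy]

theorem tendsto_zero_of_dense (f : ℕ → X →L[K] K) (h1 : ∀ n, ‖f n‖ ≤ 1)
    (hd : Dense {x | Summable fun n => ‖f n x‖}) (x : X) :
    Tendsto (fun n => f n x) atTop (𝓝 0) := by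
  rw [NormedAddGroup.tendsto_nhds_zero]
  intro ε hε
  obtain ⟨y, hy, hxy⟩ := hd.exists_dist_lt x (half_pos hε)
  have h2 := (hy.tendsto_atTop_zero).eventually (gt_mem_nhds (half_pos hε))
  filter_upwards [h2] with k hk
  have h3 : ‖f k (x - y)‖ < ε / 2 := by
    refine ((f k).le_opNorm _).trans_lt ?_
    rw [dist_eq_norm] at hxy
    nlinarith [h1 k, norm_nonneg (x - y), norm_nonneg (f k)]
  have h4 : f k x = f k (x - y) + f k y := by rw [map_sub]; ring
  rw [h4]
  linarith [norm_add_le (f k (x - y)) (f k y)]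

theorem sn_step (f : ℕ → X →L[K] K) (h1 : ∀ n, ‖f n‖ = 1)
    (h0 : ∀ x, Tendsto (fun n => f n x) atTop (𝓝 0)) (Q : X →L[K] X)
    (hQ : IsCompactOperator Q) (hQQ : ∀ x, Q (Q x) = Q x) (k0 : ℕ) {ε : ℝ} (hε : 0 < ε) :
    ∃ k, k0 ≤ k ∧ ∃ x, Q x = 0 ∧ f k x = 1 ∧ ‖x‖ ≤ 3 ∧ ∀ z, ‖f k (Q z)‖ ≤ ε * ‖z‖ := by
  obtain ⟨C, hC, hCs⟩ := hQ.image_closedBall_subset_compact (f := Q.toLinearMap) 1
  have hy : ∀ k, ∃ y, ‖y‖ ≤ 1 ∧ 9 / 10 ≤ ‖f k y‖ := by
    intro k
    obtain ⟨y, hy1, hy2⟩ := (f k).exists_lt_apply_of_lt_opNorm (r := 9 / 10)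
      (by rw [h1 k]; norm_num)
    exact ⟨y, hy1.le, hy2.le⟩
  choose y hy1 hy2 using hy
  have hmem : ∀ k, Q (y k) ∈ C := fun k =>
    hCs ⟨y k, by simpa using hy1 k, rfl⟩
  obtain ⟨c, -, φ, hφ, hlim⟩ := hC.tendsto_subseq hmem
  have hcau := Metric.cauchySeq_iff'.1 hlim.cauchySeq (1 / 10) (by norm_num)
  obtain ⟨l, hl⟩ := hcau
  have e1 := hφ.tendsto_atTop.eventually
    (unif_on_compact f (fun n => (h1 n).le) h0 hC hε)
  have e2 : ∀ᶠ j in atTop, ‖f (φ j) (y (φ l))‖ ≤ 1 / 10 := by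
    have := ((h0 (y (φ l))).comp hφ.tendsto_atTop).norm
    rw [norm_zero] at this
    exact this.eventually (ge_mem_nhds (by norm_num))
  obtain ⟨j, ⟨⟨hj1, hj2⟩, hj3⟩, hj4⟩ := (((e1.and e2).and (eventually_ge_atTop l)).and
    (hφ.tendsto_atTop.eventually (eventually_ge_atTop k0))).exists
  have hd := hl j hj3
  simp only [Function.comp, dist_eq_norm] at hd
  set z := y (φ j) - y (φ l) with hz
  have hQz : ‖Q z‖ < 1 / 10 := by rw [hz, map_sub]; exact hd
  have hzn : ‖z‖ ≤ 2 := by linarith [norm_sub_le (y (φ j)) (y (φ l)), hy1 (φ j), hy1 (φ l)]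
  have hfz : 8 / 10 ≤ ‖f (φ j) z‖ := by
    rw [hz, map_sub]
    linarith [norm_sub_norm_le (f (φ j) (y (φ j))) (f (φ j) (y (φ l))), hy2 (φ j)]
  have hfQ : ‖f (φ j) (Q z)‖ ≤ 1 / 10 := by
    refine ((f (φ j)).le_opNorm _).trans ?_
    rw [h1]; linarith
  have hfw : 7 / 10 ≤ ‖f (φ j) (z - Q z)‖ := by
    rw [map_sub]
    linarith [norm_sub_norm_le (f (φ j) z) (f (φ j) (Q z))]
  have hne : f (φ j) (z - Q z) ≠ 0 := by
    intro h; rw [h, norm_zero] at hfw; linarith
  refine ⟨φ j, hj4, (f (φ j) (z - Q z))⁻¹ • (z - Q z), ?_, ?_, ?_, fun w => ?_⟩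
  · rw [map_smul, map_sub Q z (Q z), hQQ, sub_self, smul_zero]
  · rw [map_smul, smul_eq_mul, inv_mul_cancel₀ hne]
  · rw [norm_smul, norm_inv, inv_mul_le_iff₀ (by linarith)]
    linarith [norm_sub_le z (Q z)]
  · by_cases hw : w = 0
    · simp [hw]
    have hw' : 0 < ‖w‖ := norm_pos_iff.2 hw
    have h2 := hj1 (Q (((‖w‖⁻¹ : ℝ) : K) • w)) (hCs ⟨((‖w‖⁻¹ : ℝ) : K) • w, by
      simp [norm_smul, inv_mul_cancel₀ hw'.ne'], rfl⟩)
    rw [map_smul, map_smul, norm_smul, RCLike.norm_ofReal, abs_of_pos (inv_pos.2 hw'),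
      inv_mul_le_iff₀ hw'] at h2
    linarith

theorem exists_biorth (f : ℕ → X →L[K] K) (h1 : ∀ n, ‖f n‖ = 1)
    (h0 : ∀ x, Tendsto (fun n => f n x) atTop (𝓝 0)) :
    ∃ (k : ℕ → ℕ) (g : ℕ → X →L[K] K) (x : ℕ → X), StrictMono k ∧ (∀ n, ‖x n‖ ≤ 3) ∧
      (∀ n m, g n (x m) = if n = m then 1 else 0) ∧
      ∀ n z, ‖g n z‖ ≤ ‖f (k n) z‖ + (1 / 2) ^ n * ‖z‖ := by
  classical
  let S := {p : (X →L[K] X) × ℕ // IsCompactOperator p.1 ∧ ∀ x, p.1 (p.1 x) = p.1 x}
  have step : ∀ (n : ℕ) (s : S), ∃ k, s.1.2 ≤ k ∧ ∃ x, s.1.1 x = 0 ∧ f k x = 1 ∧ ‖x‖ ≤ 3 ∧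
      ∀ z, ‖f k (s.1.1 z)‖ ≤ (1 / 2) ^ n * ‖z‖ := fun n s =>
    sn_step f h1 h0 s.1.1 s.2.1 s.2.2 s.1.2 (by positivity)
  choose kk hk xx hx1 hx2 hx3 hx4 using step
  let gg : ℕ → S → X →L[K] K := fun n s => f (kk n s) - (f (kk n s)).comp s.1.1
  have hgg : ∀ n s z, gg n s z = f (kk n s) z - f (kk n s) (s.1.1 z) := fun _ _ _ => rfl
  have hggQ : ∀ n s z, gg n s (s.1.1 z) = 0 := fun n s z => by rw [hgg, s.2.2, sub_self]
  have hggx : ∀ n s, gg n s (xx n s) = 1 := fun n s => by rw [hgg, hx1, hx2, map_zero, sub_zero]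
  let nxt : ℕ → S → S := fun n s =>
    ⟨(s.1.1 + (gg n s).smulRight (xx n s), kk n s + 1), by
      refine IsCompactOperator.add s.2.1 ?_
      have : IsCompactOperator (gg n s) := isCompactOperator_of_locallyCompactSpace_dom _
      exact this.clm_comp ((ContinuousLinearMap.id K K).smulRight (xx n s)), by
      intro z
      simp only [add_apply, ContinuousLinearMap.smulRight_apply, map_add,
        map_smul, s.2.2, hx1, hggQ, hggx]
      simp⟩
  let st : ℕ → S := fun n => Nat.rec ⟨(0, 0), isCompactOperator_zero, fun _ => rfl⟩ nxt n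
  have hst : ∀ n z, (st (n + 1)).1.1 z = (st n).1.1 z + gg n (st n) z • xx n (st n) :=
    fun _ _ => rfl
  have hst2 : ∀ n, (st (n + 1)).1.2 = kk n (st n) + 1 := fun _ => rfl
  have hA : ∀ m n, m < n → (st n).1.1 (xx m (st m)) = xx m (st m) := by
    intro m n hmn
    induction n, hmn using Nat.le_induction with
    | base => rw [hst, hx1, hggx, one_smul, zero_add]
    | succ n _ ih => rw [hst, hgg, ih, sub_self, zero_smul, add_zero]
  have hB : ∀ m n, m < n → ∀ z, gg m (st m) ((st n).1.1 z) = gg m (st m) z := by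
    intro m n hmn
    induction n, hmn using Nat.le_induction with
    | base => intro z; rw [hst, map_add, hggQ, map_smul, hggx, zero_add, smul_eq_mul, mul_one]
    | succ n _ ih =>
      intro z
      rw [hst, map_add, ih, map_smul, ← ih (xx n (st n)), hx1, map_zero, smul_zero, add_zero]
  refine ⟨fun n => kk n (st n), fun n => gg n (st n), fun n => xx n (st n), ?_,
    fun n => hx3 _ _, fun n m => ?_, fun n z => ?_⟩
  · refine strictMono_nat_of_lt_succ fun n => ?_
    have := hk (n + 1) (st (n + 1))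
    rw [hst2] at this
    exact this
  · rcases lt_trichotomy n m with h | h | h
    · rw [if_neg h.ne, ← hB n m h, hx1, map_zero]
    · subst h; rw [if_pos rfl, hggx]
    · rw [if_neg h.ne', hgg, hA m n h, sub_self]
  · rw [hgg]
    exact (norm_sub_le _ _).trans (add_le_add_right (hx4 _ _ _) _)

/-- A normalized sequence of functionals that is absolutely summable on a dense set gives a
separable quotient. -/
theorem sq_of_summable [CompleteSpace X] (f : ℕ → X →L[K] K) (h1 : ∀ n, ‖f n‖ = 1)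
    (hd : Dense {x | Summable fun n => ‖f n x‖}) : SQ K X := by
  classical
  obtain ⟨k, g, x, hk, hx, hgx, hg⟩ :=
    exists_biorth f h1 (tendsto_zero_of_dense f (fun n => (h1 n).le) hd)
  let M : Submodule K X := ⨅ n, LinearMap.ker (g n).toLinearMap
  have hM : ∀ z, z ∈ M ↔ ∀ n, g n z = 0 := fun z => by simp [M]
  have hMc : IsClosed (M : Set X) := by
    have : (M : Set X) = ⋂ n, (g n) ⁻¹' {0} := by ext z; simp [hM]
    rw [this]
    exact isClosed_iInter fun n => isClosed_singleton.preimage (g n).continuous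
  refine ⟨M, hMc, ?_, fun hf => ?_⟩
  · have hsep : TopologicalSpace.IsSeparable
        (Submodule.span K (Set.range fun n => M.mkQL (x n)) : Set (X ⧸ M)) :=
      (Set.countable_range _).isSeparable.span
    rw [← TopologicalSpace.isSeparable_univ_iff]
    refine hsep.closure.mono ?_
    have hsub : ∀ z ∈ {x | Summable fun n => ‖f n x‖}, M.mkQL z ∈ closure
        (Submodule.span K (Set.range fun n => M.mkQL (x n)) : Set (X ⧸ M)) := by
      intro z hz
      have hs : Summable fun n => ‖g n z‖ :=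
        Summable.of_nonneg_of_le (fun n => norm_nonneg _) (fun n => hg n z)
          ((hz.comp_injective hk.injective).add (summable_geometric_two.mul_right _))
      have hs2 : Summable fun n => g n z • x n := by
        refine Summable.of_norm_bounded (hs.mul_right 3) fun n => ?_
        rw [norm_smul]
        exact mul_le_mul_of_nonneg_left (hx n) (norm_nonneg _)
      have he : M.mkQL z = M.mkQL (∑' n, g n z • x n) := by
        refine (Submodule.Quotient.eq M).2 ((hM _).2 fun n => ?_)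
        rw [map_sub, (g n).map_tsum hs2]
        simp only [map_smul, hgx, smul_eq_mul, mul_ite, mul_one, mul_zero]
        rw [tsum_eq_single n (fun b hb => if_neg hb.symm), if_pos rfl, sub_self]
      rw [he]
      refine mem_closure_of_tendsto ((hs2.hasSum.mapL M.mkQL).tendsto_sum_nat)
        (Eventually.of_forall fun N => ?_)
      refine Submodule.sum_mem _ fun n _ => ?_
      rw [map_smul]
      exact Submodule.smul_mem _ _ (Submodule.subset_span ⟨n, rfl⟩)
    intro q _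
    obtain ⟨z, rfl⟩ := M.mkQ_surjective q
    exact closure_minimal (s := M.mkQL '' {x | Summable fun n => ‖f n x‖})
      (by rintro _ ⟨w, hw, rfl⟩; exact hsub w hw) isClosed_closure
      (image_closure_subset_closure_image M.mkQL.continuous ⟨z, hd z, rfl⟩)
  · have hli : LinearIndependent K fun n => M.mkQ (x n) := by
      rw [linearIndependent_iff']
      intro s a ha i hi
      have h2 : M.mkQ (∑ n ∈ s, a n • x n) = 0 := by rw [map_sum]; simpa using ha
      have h3 := (hM _).1 ((Submodule.Quotient.mk_eq_zero M).1 h2) i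
      simpa [map_sum, hgx, hi] using h3
    exact Module.Finite.not_linearIndependent_of_infinite _ hli

end SN

end Vale.Agent.P129
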