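import Vale.Agent.P129.PosB0

open Filter Topology

namespace Vale.Agent.P129

section CR

variable {X W : Type*} [NormedAddCommGroup X] [NormedSpace ℝ X] [NormedAddCommGroup W]
  [NormedSpace ℝ W]

theorem cr_approx (T : X →L[ℝ] W) (C : ℝ) (hC : 0 ≤ C) (y : W)
    (h : ∀ q : W →L[ℝ] ℝ, q y ≤ C * ‖q.comp T‖ * ‖y‖) {ε : ℝ} (hε : 0 < ε) :
    ∃ x, ‖x‖ ≤ C * ‖y‖ ∧ ‖y - T x‖ < ε := by
  have hcl : y ∈ closure (T '' Metric.closedBall 0 (C * ‖y‖)) := by
    by_contra hn
    obtain ⟨q, u, h1, h2⟩ := geometric_hahn_banach_closed_point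
      (((convex_closedBall (0 : X) (C * ‖y‖)).linear_image T.toLinearMap).closure)
      isClosed_closure hn
    have h3 : ∀ x, ‖x‖ ≤ C * ‖y‖ → q (T x) < u := fun x hx =>
      h1 _ (subset_closure ⟨x, by simpa using hx, rfl⟩)
    have hr : 0 ≤ C * ‖y‖ := by positivity
    have hu : 0 < u := by simpa using h3 0 (by simpa using hr)
    have h4 : C * ‖y‖ * ‖q.comp T‖ ≤ u := by
      rcases hr.eq_or_lt with h0 | h0
      · rw [← h0, zero_mul]; exact hu.le
      · rw [← le_div_iff₀' h0]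
        refine ContinuousLinearMap.opNorm_le_of_unit_norm (by positivity) fun x hx => ?_
        rw [le_div_iff₀' h0, Real.norm_eq_abs, ← abs_of_pos h0, ← abs_mul, abs_le]
        have a1 := h3 ((C * ‖y‖) • x) (by rw [norm_smul, hx, mul_one, Real.norm_of_nonneg hr])
        have a2 := h3 (-((C * ‖y‖) • x))
          (by rw [norm_neg, norm_smul, hx, mul_one, Real.norm_of_nonneg hr])
        simp only [map_neg, map_smul, smul_eq_mul] at a1 a2
        simp only [ContinuousLinearMap.comp_apply]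
        constructor <;> linarith
    have := h q
    nlinarith
  obtain ⟨_, ⟨x, hx, rfl⟩, hd⟩ := Metric.mem_closure_iff.1 hcl ε hε
  exact ⟨x, by simpa using hx, by rwa [← dist_eq_norm]⟩

/-- Closed range type lemma. -/
theorem cr_exact [CompleteSpace X] (T : X →L[ℝ] W) (Y : Submodule ℝ W) (hY : ∀ x, T x ∈ Y)
    (C : ℝ) (hC : 0 ≤ C) (h : ∀ y ∈ Y, ∀ q : W →L[ℝ] ℝ, q y ≤ C * ‖q.comp T‖ * ‖y‖) (y : W)
    (hy : y ∈ Y) : ∃ x, T x = y ∧ ‖x‖ ≤ 2 * C * ‖y‖ := by
  have hap : ∀ y : Y, ∃ x, ‖x‖ ≤ C * ‖y‖ ∧ ‖(y : W) - T x‖ ≤ 1 / 2 * ‖y‖ := by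
    intro y
    by_cases h0 : y = 0
    · exact ⟨0, by simp [h0], by simp [h0]⟩
    · obtain ⟨x, h1, h2⟩ := cr_approx T C hC y (h y y.2) (ε := 1 / 2 * ‖y‖)
        (by have := norm_pos_iff.2 h0; positivity)
      exact ⟨x, h1, h2.le⟩
  choose g hg1 hg2 using hap
  let r : Y → Y := fun y => ⟨y - T (g y), Y.sub_mem y.2 (hY _)⟩
  have hr : ∀ y, ‖r y‖ ≤ 1 / 2 * ‖y‖ := hg2
  have hnle : ∀ n : ℕ, ‖r^[n] ⟨y, hy⟩‖ ≤ (1 / 2) ^ n * ‖y‖ := by
    intro n
    induction n with
    | zero => simp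
    | succ n IH =>
      rw [Function.iterate_succ_apply']
      refine le_trans (hr _) ?_
      rw [pow_succ', mul_assoc]
      gcongr
  let u n := g (r^[n] ⟨y, hy⟩)
  have ule : ∀ n, ‖u n‖ ≤ (1 / 2) ^ n * (C * ‖y‖) := fun n => by
    refine le_trans (hg1 _) ?_
    calc
      C * ‖r^[n] ⟨y, hy⟩‖ ≤ C * ((1 / 2) ^ n * ‖y‖) := by gcongr; exact hnle n
      _ = (1 / 2) ^ n * (C * ‖y‖) := by ring
  have sNu : Summable fun n => ‖u n‖ :=
    .of_nonneg_of_le (fun n => norm_nonneg _) ule (summable_geometric_two.mul_right _)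
  have su : Summable u := sNu.of_norm
  refine ⟨tsum u, ?_, ?_⟩
  · have fsumeq : ∀ n : ℕ, T (∑ i ∈ Finset.range n, u i) = y - (r^[n] ⟨y, hy⟩ : Y) := by
      intro n
      induction n with
      | zero => simp
      | succ n IH =>
        rw [Finset.sum_range_succ, T.map_add, IH, Function.iterate_succ_apply']
        change _ = y - ((r^[n] ⟨y, hy⟩ : Y) - T (u n))
        abel
    have L₁ : Tendsto (fun n => T (∑ i ∈ Finset.range n, u i)) atTop (𝓝 (T (tsum u))) :=
      (T.continuous.tendsto _).comp su.hasSum.tendsto_sum_nat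
    simp only [fsumeq] at L₁
    have L₂ : Tendsto (fun n => y - (r^[n] ⟨y, hy⟩ : Y)) atTop (𝓝 (y - 0)) := by
      refine tendsto_const_nhds.sub ?_
      rw [tendsto_zero_iff_norm_tendsto_zero]
      refine squeeze_zero (fun _ => norm_nonneg _) hnle ?_
      rw [← zero_mul ‖y‖]
      refine (tendsto_pow_atTop_nhds_zero_of_lt_one ?_ ?_).mul tendsto_const_nhds <;> norm_num
    simpa using tendsto_nhds_unique L₁ L₂
  · calc
      ‖tsum u‖ ≤ ∑' n, ‖u n‖ := norm_tsum_le_tsum_norm sNu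
      _ ≤ ∑' n, (1 / 2) ^ n * (C * ‖y‖) :=
        sNu.tsum_le_tsum ule <| Summable.mul_right _ summable_geometric_two
      _ = (∑' n, (1 / 2) ^ n) * (C * ‖y‖) := tsum_mul_right
      _ = 2 * C * ‖y‖ := by rw [tsum_geometric_two, mul_assoc]

theorem small_functional [CompleteSpace X] (T : X →L[ℝ] W) (hT : ¬Function.Surjective T)
    {ε : ℝ} (hε : 0 < ε) : ∃ q : W →L[ℝ] ℝ, ‖q‖ = 1 ∧ ∀ x, |q (T x)| ≤ ε * ‖x‖ := by
  by_contra hn
  refine hT fun y => ?_
  obtain ⟨x, hx, -⟩ := cr_exact T ⊤ (fun _ => trivial) ε⁻¹ (by positivity) (fun y _ q => by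
    by_contra hlt
    push Not at hlt
    have h1 : q y ≤ ‖q‖ * ‖y‖ := (le_abs_self _).trans (q.le_opNorm y)
    have h2 : ε⁻¹ * ‖q.comp T‖ < ‖q‖ := lt_of_mul_lt_mul_right (hlt.trans_le h1) (norm_nonneg _)
    have h3 : 0 < ‖q‖ := lt_of_le_of_lt (by positivity) h2
    refine hn ⟨‖q‖⁻¹ • q, by rw [norm_smul, norm_inv, norm_norm, inv_mul_cancel₀ h3.ne'],
      fun x => ?_⟩
    rw [inv_mul_lt_iff₀ hε] at h2
    have h4 : |q (T x)| ≤ ‖q.comp T‖ * ‖x‖ := (q.comp T).le_opNorm x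
    rw [smul_apply, smul_eq_mul, abs_mul, abs_of_pos (inv_pos.2 h3), inv_mul_le_iff₀ h3]
    nlinarith [norm_nonneg x]) y trivial
  exact ⟨x, hx⟩

end CR

section RC

variable {X : Type*} [NormedAddCommGroup X]

theorem chain_of_sq {K : Type*} [RCLike K] [NormedSpace K X] (h : SQ K X) :
    ∃ M : ℕ → Submodule K X, Monotone M ∧ (∀ n, IsClosed (M n : Set X)) ∧ (∀ n, M n ≠ ⊤) ∧
      Dense {x | ∃ n, x ∈ M n} := by
  obtain ⟨M, hc, hs, hf⟩ := h
  let d := TopologicalSpace.denseSeq (X ⧸ M)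
  have hd : DenseRange d := TopologicalSpace.denseRange_denseSeq _
  let S : ℕ → Submodule K (X ⧸ M) := fun n => Submodule.span K (d '' Set.Iio n)
  have hS : ∀ n, FiniteDimensional K (S n) := fun n =>
    FiniteDimensional.span_of_finite K ((Set.finite_Iio n).image d)
  refine ⟨fun n => (S n).comap M.mkQ, fun m n hmn => Submodule.comap_mono
    (Submodule.span_mono (Set.image_mono (Set.Iio_subset_Iio hmn))), fun n => ?_, fun n hn => ?_,
    ?_⟩
  · exact (S n).closed_of_finiteDimensional.preimage M.mkQL.continuous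
  · have : S n = ⊤ := by
      rw [eq_top_iff]
      intro q _
      obtain ⟨z, rfl⟩ := M.mkQ_surjective q
      have : z ∈ (S n).comap M.mkQ := (eq_top_iff.1 hn) trivial
      exact this
    have h2 := hS n
    rw [this] at h2
    exact hf (Module.Finite.equiv Submodule.topEquiv)
  · refine (hd.preimage M.isOpenMap_mkQ).mono ?_
    rintro x ⟨n, hn⟩
    exact ⟨n + 1, Submodule.subset_span ⟨n, Nat.lt_succ_self n, hn⟩⟩

/-- A real separable quotient gives a separable quotient over the scalar field. -/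
theorem sq_rclike_of_real (K : Type*) [RCLike K] [NormedSpace K X] [NormedSpace ℝ X]
    [IsScalarTower ℝ K X] [CompleteSpace X] (h : SQ ℝ X) : SQ K X := by
  obtain ⟨M, hm, hc, hne, hd⟩ := chain_of_sq h
  have hcs : ∀ n, CompleteSpace (M n) := fun n => (hc n).completeSpace_coe
  suffices H : ∃ (g : ℕ → X →L[ℝ] ℝ) (D : Set X), (∀ n, ‖g n‖ = 1) ∧ Dense D ∧
      ∀ x ∈ D, ∃ N, ∀ n, N ≤ n → |g n x| ≤ (1 / 2) ^ n * ‖x‖ ∧
        |g n ((RCLike.I : K) • x)| ≤ (1 / 2) ^ n * ‖x‖ by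
    obtain ⟨g, D, hg, hD, hs⟩ := H
    refine sq_of_summable (fun n => StrongDual.extendRCLike (𝕜 := K) (g n))
      (fun n => by rw [StrongDual.norm_extendRCLike, hg]) (hD.mono fun x hx => ?_)
    obtain ⟨N, hN⟩ := hs x hx
    refine Summable.of_norm_bounded_eventually_nat (g := fun n => (1 / 2) ^ n * (2 * ‖x‖))
      (summable_geometric_two.mul_right _) ?_
    filter_upwards [eventually_ge_atTop N] with n hn
    rw [norm_norm, StrongDual.extendRCLike_apply]
    refine (norm_sub_le _ _).trans ?_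
    rw [norm_mul, RCLike.norm_ofReal, RCLike.norm_ofReal]
    have hI : ‖(RCLike.I : K)‖ ≤ 1 := by
      rcases RCLike.I_eq_zero_or_im_I_eq_one (K := K) with h | h
      · simp [h]
      · exact (RCLike.norm_I_of_ne_zero (fun h0 => by simp [h0] at h)).le
    nlinarith [(hN n hn).1, (hN n hn).2, abs_nonneg (g n ((RCLike.I : K) • x))]
  let J : X →L[ℝ] X := ((RCLike.I : K) • ContinuousLinearMap.id K X).restrictScalars ℝ
  have hJ : ∀ x, J x = (RCLike.I : K) • x := fun _ => rfl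
  let T : ∀ n, (M n × M n) →L[ℝ] X := fun n =>
    (M n).subtypeL.coprod (J.comp (M n).subtypeL)
  have hT : ∀ n (a b : M n), T n (a, b) = a + (RCLike.I : K) • (b : X) := fun _ _ _ => rfl
  by_cases hs : ∃ N, Function.Surjective (T N)
  · obtain ⟨N, hN⟩ := hs
    obtain ⟨C, hC, hpre⟩ := (T N).exists_preimage_norm_le hN
    have hII : (RCLike.I : K) * RCLike.I = -1 := by
      rcases RCLike.I_mul_I_ax (K := K) with h | h
      · exfalso
        refine hne N (eq_top_iff.2 fun x _ => ?_)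
        obtain ⟨⟨a, b⟩, rfl⟩ := hN x
        rw [hT, h, zero_smul, add_zero]
        exact a.2
      · exact h
    have hI1 : ‖(RCLike.I : K)‖ = 1 :=
      RCLike.norm_I_of_ne_zero (fun h0 => by simp [h0] at hII)
    have hg : ∀ n, ∃ q : X →L[ℝ] ℝ, ‖q‖ = 1 ∧ ∀ x : M n, |q x| ≤ (1 / 2) ^ n * ‖x‖ := fun n =>
      small_functional (M n).subtypeL (fun h => hne n (eq_top_iff.2 fun x _ => by
        obtain ⟨a, rfl⟩ := h x
        exact a.2)) (by positivity)
    choose g hg1 hg2 using hg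
    refine ⟨g, {x | ∃ n, x ∈ M n ∧ (RCLike.I : K) • x ∈ M n}, hg1, ?_, ?_⟩
    · rw [Metric.dense_iff]
      intro x r hr
      have hε : 0 < r / (1 + 2 * C) := by positivity
      obtain ⟨u, ⟨n1, hu⟩, hxu⟩ := hd.exists_dist_lt x hε
      obtain ⟨v, ⟨n2, hv⟩, hxv⟩ := hd.exists_dist_lt ((RCLike.I : K) • x) hε
      obtain ⟨⟨a, b⟩, hab, hn⟩ := hpre (u + (RCLike.I : K) • v)
      rw [hT] at hab
      rw [dist_eq_norm] at hxu hxv
      have e1 : u + (RCLike.I : K) • v =
          -(x - u) - (RCLike.I : K) • ((RCLike.I : K) • x - v) := by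
        rw [smul_sub, smul_smul, hII, neg_one_smul]; abel
      have e2 : ‖u + (RCLike.I : K) • v‖ ≤ 2 * (r / (1 + 2 * C)) := by
        rw [e1]
        refine (norm_sub_le _ _).trans ?_
        rw [norm_neg, norm_smul, hI1]
        linarith
      have e3 : ‖(a : X)‖ ≤ C * (2 * (r / (1 + 2 * C))) :=
        (norm_fst_le (a, b)).trans (hn.trans (by gcongr))
      refine ⟨u - a, ?_, max N (max n1 n2), ?_, ?_⟩
      · rw [Metric.mem_ball, dist_eq_norm]
        have e4 : u - a - x = -(x - u) - a := by abel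
        rw [e4]
        refine (norm_sub_le _ _).trans_lt ?_
        rw [norm_neg]
        have e5 : r / (1 + 2 * C) * (1 + 2 * C) = r := div_mul_cancel₀ _ (by positivity)
        nlinarith
      · exact Submodule.sub_mem _ (hm (by omega) hu) (hm (by omega) a.2)
      · have e6 : u - a = (RCLike.I : K) • ((b : X) - v) := by
          rw [smul_sub, sub_eq_sub_iff_add_eq_add, ← hab, add_comm]
        rw [e6, smul_smul, hII, neg_one_smul]
        exact Submodule.neg_mem _ (Submodule.sub_mem _ (hm (by omega) b.2) (hm (by omega) hv))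
    · rintro x ⟨N, h1, h2⟩
      refine ⟨N, fun n hn => ⟨hg2 n ⟨x, hm hn h1⟩, ?_⟩⟩
      have := hg2 n ⟨_, hm hn h2⟩
      simpa [norm_smul, hI1] using this
  · push Not at hs
    have hg : ∀ n, ∃ q : X →L[ℝ] ℝ, ‖q‖ = 1 ∧ ∀ p, |q (T n p)| ≤ (1 / 2) ^ n * ‖p‖ := fun n =>
      small_functional (T n) (hs n) (by positivity)
    choose g hg1 hg2 using hg
    refine ⟨g, _, hg1, hd, ?_⟩
    rintro x ⟨N, h1⟩
    refine ⟨N, fun n hn => ⟨?_, ?_⟩⟩
    · have := hg2 n (⟨x, hm hn h1⟩, 0)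
      rw [hT] at this
      simpa using this
    · have := hg2 n (0, ⟨x, hm hn h1⟩)
      rw [hT] at this
      simpa using this

end RC

end Vale.Agent.P129
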