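import Vale.Agent.P129.PosB1

open Filter Topology

namespace Vale.Agent.P129

theorem exists_disj (P : Finset ℕ → Prop) (h : ∀ s, ∃ t, Disjoint t s ∧ P t) :
    ∃ t : ℕ → Finset ℕ, Pairwise (Function.onFun Disjoint t) ∧ ∀ j, P (t j) := by
  classical
  choose T hT1 hT2 using h
  let s : ℕ → Finset ℕ := fun n => Nat.rec ∅ (fun _ s => s ∪ T s) n
  have hs : ∀ n, s (n + 1) = s n ∪ T (s n) := fun _ => rfl
  have hm : Monotone s := monotone_nat_of_le_succ fun n => by
    rw [hs]; exact Finset.subset_union_left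
  refine ⟨fun j => T (s j), (pairwise_disjoint_on (fun j => T (s j))).2 fun m n hmn => ?_,
    fun j => hT2 _⟩
  refine ((hT1 (s n)).mono_right (le_trans ?_ (hm hmn))).symm
  rw [hs]; exact Finset.subset_union_right

theorem sum_abs_le_of_sums (c : ℕ → ℝ) (B : ℝ) (h : ∀ F : Finset ℕ, |∑ i ∈ F, c i| ≤ B)
    (F : Finset ℕ) : ∑ i ∈ F, |c i| ≤ 2 * B := by
  rw [← Finset.sum_filter_add_sum_filter_not F (fun i => 0 ≤ c i)]
  have h1 : ∑ i ∈ F.filter (fun i => 0 ≤ c i), |c i| = ∑ i ∈ F.filter (fun i => 0 ≤ c i), c i :=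
    Finset.sum_congr rfl fun i hi => abs_of_nonneg (Finset.mem_filter.1 hi).2
  have h2 : ∑ i ∈ F.filter (fun i => ¬0 ≤ c i), |c i| =
      -∑ i ∈ F.filter (fun i => ¬0 ≤ c i), c i := by
    rw [← Finset.sum_neg_distrib]
    exact Finset.sum_congr rfl fun i hi => abs_of_neg (not_le.1 (Finset.mem_filter.1 hi).2)
  rw [h1, h2]
  linarith [(abs_le.1 (h (F.filter (fun i => 0 ≤ c i)))).2,
    (abs_le.1 (h (F.filter (fun i => ¬0 ≤ c i)))).1]

variable {X : Type*} [NormedAddCommGroup X] [NormedSpace ℝ X]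

/-- A weak-star unconditionally bounded series of functionals converges unless `SQ`. -/
theorem summable_of_not_sq [CompleteSpace X] (hn : ¬SQ ℝ X) (u : ℕ → X →L[ℝ] ℝ)
    (hb : ∀ x, ∃ B, ∀ F : Finset ℕ, |∑ i ∈ F, u i x| ≤ B) : Summable u := by
  classical
  by_contra hs
  rw [summable_iff_vanishing_norm] at hs
  push Not at hs
  obtain ⟨ε, hε, hs⟩ := hs
  obtain ⟨t, ht1, ht2⟩ := exists_disj (fun t => ε ≤ ‖∑ i ∈ t, u i‖) hs
  have hpos : ∀ j, 0 < ‖∑ i ∈ t j, u i‖ := fun j => hε.trans_le (ht2 j)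
  refine hn (sq_of_summable (fun j => ‖∑ i ∈ t j, u i‖⁻¹ • ∑ i ∈ t j, u i)
    (fun j => by rw [norm_smul, norm_inv, norm_norm, inv_mul_cancel₀ (hpos j).ne']) ?_)
  refine (dense_univ).mono fun x _ => ?_
  obtain ⟨B, hB⟩ := hb x
  refine summable_of_sum_le (c := ε⁻¹ * (2 * B)) (fun _ => norm_nonneg _) fun J => ?_
  calc ∑ j ∈ J, ‖(‖∑ i ∈ t j, u i‖⁻¹ • ∑ i ∈ t j, u i) x‖
      ≤ ∑ j ∈ J, ε⁻¹ * ∑ i ∈ t j, |u i x| := by
        refine Finset.sum_le_sum fun j _ => ?_
        rw [smul_apply, norm_smul, norm_inv, norm_norm, sum_apply,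
          Real.norm_eq_abs]
        exact mul_le_mul (inv_anti₀ hε (ht2 j)) (Finset.abs_sum_le_sum_abs _ _) (abs_nonneg _)
          (by positivity)
    _ = ε⁻¹ * ∑ i ∈ J.biUnion t, |u i x| := by
        rw [← Finset.mul_sum, Finset.sum_biUnion (fun a _ b _ hab => ht1 hab)]
    _ ≤ ε⁻¹ * (2 * B) := by
        gcongr
        exact sum_abs_le_of_sums _ B hB _

section TV

variable (f : ℕ → X →L[ℝ] ℝ)

/-- Index set: normalized finite combinations. -/
def TVI : Type := {p : Finset ℕ × (ℕ → ℝ) // ‖∑ i ∈ p.1, p.2 i • f i‖ ≤ 1}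

theorem tv_eval (p : TVI f) (x : X) : |∑ i ∈ p.1.1, p.1.2 i * f i x| ≤ ‖x‖ := by
  have := (∑ i ∈ p.1.1, p.1.2 i • f i).le_opNorm x
  rw [sum_apply] at this
  refine le_trans (le_of_eq ?_) (this.trans ?_)
  · simp
  · nlinarith [p.2, norm_nonneg x]

theorem mem_linf {I : Type} (y : I → ℝ) (B : ℝ) (h : ∀ p, |y p| ≤ B) :
    Memℓp (E := fun _ : I => ℝ) y ⊤ :=
  memℓp_infty ⟨B, by rintro _ ⟨p, rfl⟩; exact h p⟩

/-- Restriction operator. -/
noncomputable def tvR : X →L[ℝ] lp (fun _ : TVI f => ℝ) ⊤ :=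
  LinearMap.mkContinuous
    { toFun := fun x => ⟨fun p => ∑ i ∈ p.1.1, p.1.2 i * f i x,
        mem_linf _ ‖x‖ fun p => tv_eval f p x⟩
      map_add' := fun x y => by
        ext p
        simp only [map_add, mul_add, Finset.sum_add_distrib]
        rfl
      map_smul' := fun c x => by
        ext p
        simp [Finset.mul_sum, mul_left_comm] } 1
    fun x => by
      rw [one_mul]
      exact lp.norm_le_of_forall_le (norm_nonneg _) fun p => tv_eval f p x

theorem tvR_apply (x : X) (p : TVI f) : tvR f x p = ∑ i ∈ p.1.1, p.1.2 i * f i x := rfl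

theorem sq_of_tv [CompleteSpace X] (C : ℝ) (h1 : ∀ n, 1 ≤ ‖f n‖)
    (hC : ∀ (s t : Finset ℕ) (a : ℕ → ℝ), s ⊆ t →
      ‖∑ i ∈ s, a i • f i‖ ≤ C * ‖∑ i ∈ t, a i • f i‖)
    (htail : ∀ x, ∀ ε > 0, ∃ N, ∀ (s : Finset ℕ) (a : ℕ → ℝ), (∀ i ∈ s, N ≤ i) →
      |∑ i ∈ s, a i * f i x| ≤ ε * ‖∑ i ∈ s, a i • f i‖) : SQ ℝ X := by
  classical
  by_contra hn
  have hC1 : 1 ≤ C := by
    have := hC {0} {0} (fun _ => 1) subset_rfl
    simp only [Finset.sum_singleton, one_smul] at this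
    nlinarith [h1 0]
  have hsub : ∀ (p : TVI f) (s : Finset ℕ), s ⊆ p.1.1 → ‖∑ i ∈ s, p.1.2 i • f i‖ ≤ C :=
    fun p s hs => (hC s _ _ hs).trans (by nlinarith [p.2])
  let e : ℕ → lp (fun _ : TVI f => ℝ) ⊤ := fun n =>
    ⟨fun p => if n ∈ p.1.1 then p.1.2 n else 0, mem_linf _ C fun p => by
      split_ifs with h
      · have := hsub p {n} (Finset.singleton_subset_iff.2 h)
        rw [Finset.sum_singleton, norm_smul, Real.norm_eq_abs] at this
        nlinarith [h1 n, abs_nonneg (p.1.2 n)]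
      · simp; linarith⟩
  have he : ∀ (F : Finset ℕ) (c : ℕ → ℝ) (p : TVI f), (∑ n ∈ F, c n • e n) p =
      ∑ n ∈ p.1.1.filter (· ∈ F), p.1.2 n * c n := by
    intro F c p
    rw [lp.coeFn_sum, Finset.sum_apply]
    simp only [lp.coeFn_smul, Pi.smul_apply, smul_eq_mul, e, mul_ite, mul_zero]
    rw [← Finset.sum_filter, Finset.filter_mem_eq_inter, Finset.filter_mem_eq_inter,
      Finset.inter_comm]
    exact Finset.sum_congr rfl fun _ _ => mul_comm _ _
  have hbd : ∀ (s : Finset ℕ) (a : ℕ → ℝ) (x : X),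
      |∑ i ∈ s, a i * f i x| ≤ ‖∑ i ∈ s, a i • f i‖ * ‖x‖ := by
    intro s a x
    have := (∑ i ∈ s, a i • f i).le_opNorm x
    rw [sum_apply] at this
    simpa using this
  have hlim : ∀ x, Tendsto (fun N => ∑ n ∈ Finset.range N, f n x • e n) atTop (𝓝 (tvR f x)) := by
    intro x
    rw [Metric.tendsto_atTop]
    intro ε hε
    obtain ⟨N, hN⟩ := htail x (ε / 2 / C) (by positivity)
    refine ⟨N, fun n hn => ?_⟩
    rw [dist_eq_norm']
    refine lt_of_le_of_lt (lp.norm_le_of_forall_le (C := ε / 2) (by positivity) fun p => ?_)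
      (half_lt_self hε)
    rw [lp.coeFn_sub, Pi.sub_apply, he, tvR_apply,
      ← Finset.sum_filter_add_sum_filter_not p.1.1 (· ∈ Finset.range n), add_sub_cancel_left,
      Real.norm_eq_abs]
    refine (hN _ _ fun i hi => ?_).trans ?_
    · have := (Finset.mem_filter.1 hi).2
      rw [Finset.mem_range] at this
      omega
    · have := hsub p _ (Finset.filter_subset (fun i => ¬i ∈ Finset.range n) _)
      calc ε / 2 / C * _ ≤ ε / 2 / C * C := by gcongr
        _ = ε / 2 := by field_simp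
  let Y := (Submodule.span ℝ (Set.range e)).topologicalClosure
  have hspan : ∀ (F : Finset ℕ) (c : ℕ → ℝ),
      ∑ n ∈ F, c n • e n ∈ Submodule.span ℝ (Set.range e) := fun F c =>
    Submodule.sum_mem _ fun n _ => Submodule.smul_mem _ _ (Submodule.subset_span ⟨n, rfl⟩)
  have hY : ∀ x, tvR f x ∈ Y := fun x =>
    mem_closure_of_tendsto (hlim x) (Eventually.of_forall fun N => hspan _ _)
  have hq : ∀ y ∈ Y, ∀ q : lp (fun _ : TVI f => ℝ) ⊤ →L[ℝ] ℝ,
      q y ≤ C * ‖q.comp (tvR f)‖ * ‖y‖ := by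
    intro y hy q
    have hs : Summable fun n => q (e n) • f n := by
      refine summable_of_not_sq hn _ fun x => ⟨‖q‖ * (C * ‖x‖), fun F => ?_⟩
      have e1 : ∑ i ∈ F, (q (e i) • f i) x = q (∑ n ∈ F, f n x • e n) := by
        simp [map_sum, mul_comm]
      rw [e1]
      refine (q.le_opNorm _).trans ?_
      gcongr
      refine lp.norm_le_of_forall_le (by positivity) fun p => ?_
      rw [he]
      refine (hbd _ _ _).trans ?_
      gcongr
      exact hsub p _ (Finset.filter_subset _ _)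
    have hg : ∑' n, q (e n) • f n = q.comp (tvR f) := by
      ext x
      have l1 := ((hs.hasSum.mapL (ContinuousLinearMap.apply ℝ ℝ x))).tendsto_sum_nat
      have l2 := (q.continuous.tendsto _).comp (hlim x)
      refine tendsto_nhds_unique l1 (l2.congr fun N => ?_)
      simp [map_sum, mul_comm]
    have hF : ∀ F : Finset ℕ, ‖∑ n ∈ F, q (e n) • f n‖ ≤ C * ‖q.comp (tvR f)‖ := by
      intro F
      rw [← hg]
      refine ge_of_tendsto ((hs.hasSum.norm).const_mul C) ?_
      filter_upwards [eventually_ge_atTop F] with t ht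
      exact hC F t _ ht
    have hy' : y ∈ closure (Submodule.span ℝ (Set.range e) : Set (lp (fun _ : TVI f => ℝ) ⊤)) :=
      hy
    refine closure_minimal (t := {y | q y ≤ C * ‖q.comp (tvR f)‖ * ‖y‖}) (fun y hy => ?_)
      (isClosed_le q.continuous (by fun_prop)) hy'
    obtain ⟨c, rfl⟩ := Finsupp.mem_span_range_iff_exists_finsupp.1 hy
    rw [Set.mem_ofPred_eq]
    refine le_of_forall_pos_le_add fun η hη => ?_
    set y := c.sum fun i a => a • e i with hy
    have hl : 0 < C * ‖q.comp (tvR f)‖ + η / (‖y‖ + 1) := by positivity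
    set l := C * ‖q.comp (tvR f)‖ + η / (‖y‖ + 1) with hl'
    let p : TVI f := ⟨(c.support, fun n => l⁻¹ * q (e n)), by
      simp only [mul_smul]
      rw [← Finset.smul_sum, norm_smul, norm_inv, Real.norm_of_nonneg hl.le, inv_mul_le_iff₀ hl]
      have : 0 < η / (‖y‖ + 1) := by positivity
      linarith [hF c.support]⟩
    have e1 : y p = l⁻¹ * q y := by
      rw [hy, Finsupp.sum, he, map_sum, Finset.mul_sum, Finset.filter_true_of_mem (fun _ h => h)]
      refine Finset.sum_congr rfl fun n _ => ?_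
      simp only [p, map_smul, smul_eq_mul]
      ring
    have e2 : y p ≤ ‖y‖ := (le_abs_self _).trans (lp.norm_apply_le_norm (by simp) y p)
    rw [e1, inv_mul_le_iff₀ hl, hl'] at e2
    have e3 : η / (‖y‖ + 1) * ‖y‖ ≤ η := by
      rw [div_mul_eq_mul_div, div_le_iff₀ (by positivity)]
      nlinarith
    nlinarith
  refine hn (sq_of_summable (fun n => ‖f n‖⁻¹ • f n) (fun n => by
    rw [norm_smul, norm_inv, norm_norm, inv_mul_cancel₀ (by linarith [h1 n])]) ?_)
  rw [Metric.dense_iff]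
  intro x r hr
  obtain ⟨N, hN⟩ := Metric.tendsto_atTop.1 (hlim x) (r / (2 * C)) (by positivity)
  have hN := hN N le_rfl
  rw [dist_eq_norm'] at hN
  obtain ⟨x', hx1, hx2⟩ := cr_exact (tvR f) Y hY C (by linarith) hq
    (tvR f x - ∑ n ∈ Finset.range N, f n x • e n)
    (Y.sub_mem (hY x) (Submodule.le_topologicalClosure _ (hspan _ _)))
  refine ⟨x - x', ?_, ?_⟩
  · rw [Metric.mem_ball, dist_eq_norm, sub_sub_cancel_left, norm_neg]
    refine hx2.trans_lt ?_
    rw [lt_div_iff₀' (by positivity)] at hN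
    exact hN
  · refine summable_of_ne_finset_zero (s := Finset.range N) fun m hm => ?_
    let p : TVI f := ⟨({m}, fun _ => ‖f m‖⁻¹), by
      rw [Finset.sum_singleton, norm_smul, norm_inv, norm_norm,
        inv_mul_cancel₀ (by linarith [h1 m])]⟩
    have := congrArg (fun y : lp (fun _ : TVI f => ℝ) ⊤ => y p) hx1
    simp only [lp.coeFn_sub, Pi.sub_apply] at this
    rw [he, tvR_apply, tvR_apply] at this
    simp only [p, Finset.sum_singleton, Finset.filter_singleton, if_neg hm, Finset.sum_empty,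
      sub_zero] at this
    simp [map_sub, this]

end TV

end Vale.Agent.P129
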