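import Vale.Agent.P129.PosB2

open Filter Topology

namespace Vale.Agent.P129

variable {X : Type*} [NormedAddCommGroup X] [NormedSpace ℝ X]

theorem sq_of_tv' [CompleteSpace X] (f : ℕ → X →L[ℝ] ℝ) (C c : ℝ) (hc : 0 < c)
    (h1 : ∀ n, c ≤ ‖f n‖)
    (hC : ∀ (s t : Finset ℕ) (a : ℕ → ℝ), s ⊆ t →
      ‖∑ i ∈ s, a i • f i‖ ≤ C * ‖∑ i ∈ t, a i • f i‖)
    (htail : ∀ x, ∀ ε > 0, ∃ N, ∀ (s : Finset ℕ) (a : ℕ → ℝ), (∀ i ∈ s, N ≤ i) →
      |∑ i ∈ s, a i * f i x| ≤ ε * ‖∑ i ∈ s, a i • f i‖) : SQ ℝ X := by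
  refine sq_of_tv (fun n => c⁻¹ • f n) C (fun n => ?_) (fun s t a hst => ?_) fun x ε hε => ?_
  · rw [norm_smul, norm_inv, Real.norm_of_nonneg hc.le, le_inv_mul_iff₀ hc, mul_one]
    exact h1 n
  · simp only [smul_smul]
    exact hC s t _ hst
  · obtain ⟨N, hN⟩ := htail x ε hε
    refine ⟨N, fun s a hs => ?_⟩
    simp only [smul_smul, smul_apply, smul_eq_mul, ← mul_assoc]
    exact hN s _ hs

/-- An `ℓ¹`-sequence in the unit ball with lower constant `c`. -/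
def Good (c : ℝ) (w : ℕ → X →L[ℝ] ℝ) : Prop :=
  (∀ k, ‖w k‖ ≤ 1) ∧ ∀ (s : Finset ℕ) (a : ℕ → ℝ), c * ∑ i ∈ s, |a i| ≤ ‖∑ i ∈ s, a i • w i‖

theorem Good.inj {c : ℝ} {w : ℕ → X →L[ℝ] ℝ} (h : Good c w) {σ : Type*} (S : Finset σ)
    (e : σ → ℕ) (he : Set.InjOn e S) (a : σ → ℝ) :
    c * ∑ i ∈ S, |a i| ≤ ‖∑ i ∈ S, a i • w (e i)‖ := by
  classical
  have h1 : ∀ j ∈ S, ∑ i ∈ S.filter (fun i => e i = e j), a i = a j := by
    intro j hj
    rw [Finset.sum_eq_single j]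
    · intro i hi hij
      exact absurd (he (Finset.mem_filter.1 hi).1 hj (Finset.mem_filter.1 hi).2) hij
    · intro hn
      exact absurd (Finset.mem_filter.2 ⟨hj, by rfl⟩) hn
  have h2 := h.2 (S.image e) fun k => ∑ i ∈ S.filter (fun i => e i = k), a i
  rw [Finset.sum_image he, Finset.sum_image he] at h2
  convert h2 using 2
  · exact Finset.sum_congr rfl fun j hj => by rw [h1 j hj]
  · exact Finset.sum_congr rfl fun j hj => by rw [h1 j hj]

theorem norm_sum_le_l1 {σ : Type*} (S : Finset σ) (w : σ → X →L[ℝ] ℝ) (hw : ∀ k, ‖w k‖ ≤ 1)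
    (a : σ → ℝ) : ‖∑ i ∈ S, a i • w i‖ ≤ ∑ i ∈ S, |a i| := by
  refine (norm_sum_le _ _).trans (Finset.sum_le_sum fun i _ => ?_)
  rw [norm_smul, Real.norm_eq_abs]
  nlinarith [hw i, abs_nonneg (a i)]

theorem abs_sum_le_l1 {σ : Type*} (S : Finset σ) (v a : σ → ℝ) (r : ℝ)
    (hv : ∀ k ∈ S, |v k| ≤ r) : |∑ i ∈ S, a i * v i| ≤ (∑ i ∈ S, |a i|) * r := by
  rw [Finset.sum_mul]
  refine (Finset.abs_sum_le_sum_abs _ _).trans (Finset.sum_le_sum fun i hi => ?_)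
  rw [abs_mul]
  exact mul_le_mul_of_nonneg_left (hv i hi) (abs_nonneg _)

theorem sq_of_good_null [CompleteSpace X] {c : ℝ} (hc : 0 < c) {w : ℕ → X →L[ℝ] ℝ}
    (h : Good c w) (h0 : ∀ x, ∀ ε > 0, ∃ N, ∀ k, N ≤ k → |w k x| ≤ ε) : SQ ℝ X := by
  refine sq_of_tv' w c⁻¹ c hc (fun n => ?_) (fun s t a hst => ?_) fun x ε hε => ?_
  · simpa using h.2 {n} fun _ => 1
  · rw [le_inv_mul_iff₀ hc]
    refine le_trans ?_ (h.2 t a)
    gcongr
    exact (norm_sum_le_l1 s w h.1 a).trans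
      (Finset.sum_le_sum_of_subset_of_nonneg hst fun _ _ _ => abs_nonneg _)
  · obtain ⟨N, hN⟩ := h0 x (ε * c) (by positivity)
    refine ⟨N, fun s a hs => (abs_sum_le_l1 s _ a _ fun k hk => hN k (hs k hk)).trans ?_⟩
    have := h.2 s a
    nlinarith

theorem sq_of_l2 [CompleteSpace X] {c : ℝ} (hc : 0 < c) (g : ℕ → X →L[ℝ] ℝ)
    (hl : ∀ (s : Finset ℕ) (a : ℕ → ℝ), c * √(∑ i ∈ s, a i ^ 2) ≤ ‖∑ i ∈ s, a i • g i‖)
    (hu : ∀ (s : Finset ℕ) (a : ℕ → ℝ) (x : X),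
      |∑ i ∈ s, a i * g i x| ≤ √(∑ i ∈ s, a i ^ 2) * ‖x‖) : SQ ℝ X := by
  refine sq_of_tv' g c⁻¹ c hc (fun n => ?_) (fun s t a hst => ?_) fun x ε hε => ?_
  · simpa using hl {n} fun _ => 1
  · rw [le_inv_mul_iff₀ hc]
    refine le_trans ?_ (hl t a)
    gcongr
    refine ContinuousLinearMap.opNorm_le_bound _ (Real.sqrt_nonneg _) fun x => ?_
    rw [sum_apply]
    refine le_trans (hu s a x) ?_
    gcongr
  · have hs : Summable fun i => g i x ^ 2 := by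
      refine summable_of_sum_le (c := ‖x‖ ^ 2) (fun _ => sq_nonneg _) fun s => ?_
      have h1 := hu s (fun i => g i x) x
      simp only [← sq] at h1
      have h2 : 0 ≤ ∑ i ∈ s, g i x ^ 2 := Finset.sum_nonneg fun _ _ => sq_nonneg _
      rw [abs_of_nonneg h2] at h1
      have h3 := Real.sq_sqrt h2
      nlinarith [sq_nonneg (√(∑ i ∈ s, g i x ^ 2) - ‖x‖)]
    obtain ⟨F, hF⟩ := summable_iff_vanishing_norm.1 hs ((ε * c) ^ 2) (by positivity)
    refine ⟨F.sup id + 1, fun s a hs => ?_⟩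
    have h1 := hF s (Finset.disjoint_left.2 fun i hi hiF => by
      have := Finset.le_sup (f := id) hiF
      have := hs i hi
      simp only [id] at *
      omega)
    have h2 : √(∑ i ∈ s, g i x ^ 2) ≤ ε * c :=
      Real.sqrt_le_iff.2 ⟨by positivity, (le_abs_self _).trans h1.le⟩
    have h3 : |∑ i ∈ s, a i * g i x| ≤ √(∑ i ∈ s, a i ^ 2) * √(∑ i ∈ s, g i x ^ 2) := by
      rw [← Real.sqrt_mul (Finset.sum_nonneg fun _ _ => sq_nonneg _)]
      exact Real.abs_le_sqrt (Finset.sum_mul_sq_le_sq_mul_sq s _ _)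
    have h4 := hl s a
    have h5 := Real.sqrt_nonneg (∑ i ∈ s, a i ^ 2)
    nlinarith [mul_le_mul_of_nonneg_left h2 h5, mul_le_mul_of_nonneg_left h4 hε.le]

/-- No normalized block family is almost weak-star null. -/
def HA (w : ℕ → X →L[ℝ] ℝ) (δ : ℝ) : Prop :=
  ∀ (ι : Type) [Fintype ι] (α : ι → ℝ) (κ : ℕ → ι → ℕ),
    Function.Injective (Function.uncurry κ) → (∀ j s, j ≤ κ j s) →
      ∃ x, ‖x‖ ≤ 1 ∧ ∃ᶠ j in atTop, δ * ∑ s, |α s| ≤ ∑ s, α s * w (κ j s) x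

theorem hb_step {c δ : ℝ} {w : ℕ → X →L[ℝ] ℝ} (h : Good c w) (hn : ¬HA w δ) (n : ℕ) :
    ∃ w', Good c w' ∧ (∀ j ≤ n, w' j = w j) ∧
      (∀ x N r, (∀ k, N ≤ k → |w k x| ≤ r) → ∀ j, N ≤ j → |w' j x| ≤ r) ∧
      ∀ x, ∀ᶠ j in atTop, |w' j x| ≤ δ * ‖x‖ := by
  classical
  unfold HA at hn
  push Not at hn
  obtain ⟨ι, _, α, κ, hinj, hge, hx⟩ := hn
  have hA : 0 < ∑ s, |α s| := by
    obtain ⟨j, hj⟩ := (hx 0 (by simp)).exists
    simp only [map_zero, mul_zero, Finset.sum_const_zero] at hj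
    rcases (Finset.sum_nonneg fun s (_ : s ∈ Finset.univ) => abs_nonneg (α s)).eq_or_lt with h | h
    · rw [← h] at hj; simp at hj
    · exact h
  set A := ∑ s, |α s| with hAd
  let β : ι → ℝ := fun s => A⁻¹ * α s
  have hβ : ∑ s, |β s| = 1 := by
    simp only [β, abs_mul, abs_of_pos (inv_pos.2 hA), ← Finset.mul_sum]
    exact inv_mul_cancel₀ hA.ne'
  let w' : ℕ → X →L[ℝ] ℝ := fun j => if j ≤ n then w j else ∑ s, β s • w (κ j s)
  have hw' : ∀ j x, ¬j ≤ n → w' j x = ∑ s, β s * w (κ j s) x := fun j x hj => by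
    simp [w', hj]
  refine ⟨w', ⟨fun k => ?_, fun s a => ?_⟩, fun j hj => if_pos hj, fun x N r hr j hj => ?_,
    fun x => ?_⟩
  · simp only [w']
    split_ifs
    · exact h.1 k
    · exact (norm_sum_le_l1 _ _ (fun s => h.1 _) β).trans hβ.le
  · have := h.inj ((s.filter (· ≤ n)).disjSum ((s.filter (fun j => ¬j ≤ n)) ×ˢ Finset.univ))
      (Sum.elim id (Function.uncurry κ)) (by
        rintro (i | ⟨i, t⟩) hi (j | ⟨j, t'⟩) hj hij
        · exact congrArg _ hij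
        · simp only [Finset.mem_coe, Finset.inl_mem_disjSum, Finset.inr_mem_disjSum,
            Finset.mem_filter, Finset.mem_product] at hi hj
          have := hge j t'
          simp only [Sum.elim_inl, Sum.elim_inr, id, Function.uncurry] at hij
          omega
        · simp only [Finset.mem_coe, Finset.inl_mem_disjSum, Finset.inr_mem_disjSum,
            Finset.mem_filter, Finset.mem_product] at hi hj
          have := hge i t
          simp only [Sum.elim_inl, Sum.elim_inr, id, Function.uncurry] at hij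
          omega
        · exact congrArg _ (hinj hij)) (Sum.elim a fun p => a p.1 * β p.2)
    rw [Finset.sum_disjSum, Finset.sum_disjSum, Finset.sum_product, Finset.sum_product] at this
    simp only [Sum.elim_inl, Sum.elim_inr, id, Function.uncurry, abs_mul, ← Finset.mul_sum, hβ,
      mul_one, Finset.sum_filter_add_sum_filter_not] at this
    convert this using 2
    rw [← Finset.sum_filter_add_sum_filter_not s (· ≤ n)]
    congr 1
    · exact Finset.sum_congr rfl fun i hi => by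
        simp only [w', if_pos (Finset.mem_filter.1 hi).2]
    · exact Finset.sum_congr rfl fun i hi => by
        simp only [w', if_neg (Finset.mem_filter.1 hi).2, Finset.smul_sum, smul_smul]
  · by_cases hjn : j ≤ n
    · simp only [w', if_pos hjn]; exact hr j hj
    · rw [hw' j x hjn]
      refine (abs_sum_le_l1 _ _ β r fun s _ => hr _ (hj.trans (hge j s))).trans ?_
      rw [hβ, one_mul]
  · by_cases h0 : x = 0
    · simp [h0]
    have hp : 0 < ‖x‖ := norm_pos_iff.2 h0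
    have hn1 : ‖‖x‖⁻¹ • x‖ ≤ 1 := by
      rw [norm_smul, norm_inv, norm_norm, inv_mul_cancel₀ hp.ne']
    filter_upwards [hx _ hn1, hx (-(‖x‖⁻¹ • x)) (by rwa [norm_neg]), eventually_gt_atTop n]
      with j h1 h2 h3
    rw [hw' j x (not_le.2 h3)]
    have e1 : ∑ s, β s * w (κ j s) x = A⁻¹ * ‖x‖ * ∑ s, α s * w (κ j s) (‖x‖⁻¹ • x) := by
      rw [Finset.mul_sum]
      refine Finset.sum_congr rfl fun s _ => ?_
      simp only [β, map_smul, smul_eq_mul]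
      field_simp
    simp only [map_neg, mul_neg, Finset.sum_neg_distrib] at h2
    rw [e1, abs_mul, abs_of_pos (by positivity)]
    have h4 : |∑ s, α s * w (κ j s) (‖x‖⁻¹ • x)| ≤ δ * A := abs_le.2 ⟨by linarith, h1.le⟩
    calc A⁻¹ * ‖x‖ * _ ≤ A⁻¹ * ‖x‖ * (δ * A) := by gcongr
      _ = δ * ‖x‖ := by field_simp

theorem sq_of_caseB [CompleteSpace X] {c : ℝ} (hc : 0 < c) {w : ℕ → X →L[ℝ] ℝ} (h : Good c w)
    (hB : ∀ (w : ℕ → X →L[ℝ] ℝ) (δ : ℝ), Good c w → 0 < δ → ¬HA w δ) : SQ ℝ X := by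
  have step : ∀ (n : ℕ) (v : {v : ℕ → X →L[ℝ] ℝ // Good c v}),
      ∃ v' : {v : ℕ → X →L[ℝ] ℝ // Good c v}, (∀ j ≤ n, v'.1 j = v.1 j) ∧
      (∀ x N r, (∀ k, N ≤ k → |v.1 k x| ≤ r) → ∀ j, N ≤ j → |v'.1 j x| ≤ r) ∧
      ∀ x, ∀ᶠ j in atTop, |v'.1 j x| ≤ 1 / ((n : ℝ) + 1) * ‖x‖ := fun n v => by
    obtain ⟨w', h1, h2⟩ := hb_step v.2 (hB v.1 (1 / ((n : ℝ) + 1)) v.2 (by positivity)) n
    exact ⟨⟨w', h1⟩, h2⟩
  choose nx h1 h2 h3 using step
  let v : ℕ → {v : ℕ → X →L[ℝ] ℝ // Good c v} := fun n => Nat.rec ⟨w, h⟩ nx n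
  have hv : ∀ n, v (n + 1) = nx n (v n) := fun _ => rfl
  have hst : ∀ j m, j ≤ m → (v m).1 j = (v j).1 j := by
    intro j m hjm
    induction m, hjm using Nat.le_induction with
    | base => rfl
    | succ m hm ih => rw [hv, h1 m _ j hm, ih]
  have hdom : ∀ n x N r, (∀ k, N ≤ k → |(v n).1 k x| ≤ r) → ∀ m, n ≤ m →
      ∀ k, N ≤ k → |(v m).1 k x| ≤ r := by
    intro n x N r hr m hm
    induction m, hm using Nat.le_induction with
    | base => exact hr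
    | succ m _ ih => rw [hv]; exact h2 m _ x N r ih
  refine sq_of_good_null hc (w := fun j => (v j).1 j) ⟨fun k => (v k).2.1 k, fun s a => ?_⟩
    fun x ε hε => ?_
  · have := (v (s.sup id)).2.2 s a
    convert this using 2
    exact Finset.sum_congr rfl fun i hi => by rw [hst i _ (Finset.le_sup (f := id) hi)]
  · have : Tendsto (fun n : ℕ => 1 / ((n : ℝ) + 1) * ‖x‖) atTop (𝓝 (0 * ‖x‖)) :=
      tendsto_one_div_add_atTop_nhds_zero_nat.mul_const _
    rw [zero_mul] at this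
    obtain ⟨n, hn⟩ := (this.eventually (ge_mem_nhds hε)).exists
    obtain ⟨N, hN⟩ := eventually_atTop.1 (h3 n (v n) x)
    refine ⟨max N (n + 1), fun k hk => ?_⟩
    exact (hdom (n + 1) x N _ hN k (by omega) k (by omega)).trans hn

end Vale.Agent.P129
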