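import Vale.Agent.P129.PosB3

open Filter Topology

namespace Vale.Agent.P129

/-- Binary strings of length `n`. -/
def BT : ℕ → Type
  | 0 => Unit
  | n + 1 => BT n × Bool

instance fintypeBT : ∀ n, Fintype (BT n)
  | 0 => inferInstanceAs (Fintype Unit)
  | n + 1 => letI := fintypeBT n; inferInstanceAs (Fintype (BT n × Bool))

theorem sum_BT_zero (F : BT 0 → ℝ) : ∑ s, F s = F () := Fintype.sum_unique (ι := Unit) F

/-- Appending a bit. -/
def BT.mk {n : ℕ} (t : BT n) (b : Bool) : BT (n + 1) := (t, b)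

theorem sum_BT_succ (n : ℕ) (F : BT (n + 1) → ℝ) :
    ∑ s, F s = ∑ t : BT n, (F (t.mk true) + F (t.mk false)) :=
  (Fintype.sum_prod_type (fun s : BT n × Bool => F s)).trans
    (Finset.sum_congr rfl fun _ _ => Fintype.sum_bool _)

/-- Rademacher functions. -/
def rad : ∀ n, ℕ → BT n → ℝ
  | 0, _, _ => 0
  | n + 1, i, p => if i = n then (if p.2 then 1 else -1) else rad n i p.1

theorem abs_rad_le : ∀ n i s, |rad n i s| ≤ 1
  | 0, _, _ => by simp [rad]
  | n + 1, i, p => by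
    unfold rad
    split_ifs
    · simp
    · simp
    · exact abs_rad_le n i p.1

/-- Rademacher sums. -/
def rsum (n : ℕ) (a : ℕ → ℝ) (s : BT n) : ℝ := ∑ i ∈ Finset.range n, a i * rad n i s

theorem rsum_succ (n : ℕ) (a : ℕ → ℝ) (t : BT n) (b : Bool) :
    rsum (n + 1) a (t.mk b) = rsum n a t + a n * (if b then 1 else -1) := by
  have hr : ∀ i, rad (n + 1) i (t.mk b) = if i = n then (if b then 1 else -1) else rad n i t :=
    fun _ => rfl
  unfold rsum
  rw [Finset.sum_range_succ]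
  congr 1
  · refine Finset.sum_congr rfl fun i hi => ?_
    rw [hr, if_neg (Finset.mem_range.1 hi).ne]
  · rw [hr, if_pos rfl]

theorem sum_one_BT : ∀ n, ∑ _s : BT n, (1 : ℝ) = 2 ^ n
  | 0 => by rw [sum_BT_zero]; simp
  | n + 1 => by
    rw [sum_BT_succ, Finset.sum_add_distrib, sum_one_BT n]; ring

theorem rsum_sq (a : ℕ → ℝ) : ∀ n, ∑ s, rsum n a s ^ 2 = 2 ^ n * ∑ i ∈ Finset.range n, a i ^ 2
  | 0 => by rw [sum_BT_zero]; simp [rsum]
  | n + 1 => by
    rw [sum_BT_succ, Finset.sum_range_succ]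
    simp only [rsum_succ]
    rw [Finset.sum_congr (g := fun t => 2 * rsum n a t ^ 2 + 2 * a n ^ 2 * 1) rfl
      (fun t _ => by simp; ring), Finset.sum_add_distrib, ← Finset.mul_sum, ← Finset.mul_sum, rsum_sq a n, sum_one_BT]
    ring

theorem rsum_four (a : ℕ → ℝ) :
    ∀ n, ∑ s, rsum n a s ^ 4 ≤ 3 * 2 ^ n * (∑ i ∈ Finset.range n, a i ^ 2) ^ 2
  | 0 => by rw [sum_BT_zero]; simp [rsum]
  | n + 1 => by
    rw [sum_BT_succ, Finset.sum_range_succ]
    simp only [rsum_succ]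
    rw [Finset.sum_congr (g := fun t =>
      2 * rsum n a t ^ 4 + (12 * a n ^ 2 * rsum n a t ^ 2 + 2 * a n ^ 4 * 1)) rfl
      (fun t _ => by simp; ring), Finset.sum_add_distrib, Finset.sum_add_distrib, ← Finset.mul_sum, ← Finset.mul_sum,
      ← Finset.mul_sum, rsum_sq a n, sum_one_BT]
    have h1 := rsum_four a n
    have h2 : (0 : ℝ) ≤ 2 ^ n * a n ^ 4 := by positivity
    rw [pow_succ 2 n]
    nlinarith

theorem khintchine (a : ℕ → ℝ) (n : ℕ) :
    2 ^ n * √(∑ i ∈ Finset.range n, a i ^ 2) / 2 ≤ ∑ s, |rsum n a s| ∧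
      ∑ s, |rsum n a s| ≤ 2 ^ n * √(∑ i ∈ Finset.range n, a i ^ 2) := by
  have h0 : 0 ≤ ∑ i ∈ Finset.range n, a i ^ 2 := Finset.sum_nonneg fun _ _ => sq_nonneg _
  have h2 := rsum_sq a n
  have h4 := rsum_four a n
  rw [← Real.sq_sqrt h0] at h2 h4
  set σ := √(∑ i ∈ Finset.range n, a i ^ 2)
  have hσ : 0 ≤ σ := Real.sqrt_nonneg _
  constructor
  · rcases hσ.eq_or_lt with h | h
    · rw [← h]
      simpa using Finset.sum_nonneg fun s _ => abs_nonneg (rsum n a s)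
    have key : ∀ s, σ ^ 2 * rsum n a s ^ 2 - 1 / 6 * rsum n a s ^ 4 ≤ σ ^ 3 * |rsum n a s| := by
      intro s
      have e2 : rsum n a s ^ 2 = |rsum n a s| ^ 2 := (sq_abs _).symm
      have e4 : rsum n a s ^ 4 = |rsum n a s| ^ 4 := by
        rw [show (4 : ℕ) = 2 * 2 from rfl, pow_mul, pow_mul, e2]
      rw [e2, e4]
      have ht := abs_nonneg (rsum n a s)
      generalize |rsum n a s| = t at ht
      have : 0 ≤ σ ^ 3 - σ ^ 2 * t + 1 / 6 * t ^ 3 := by
        nlinarith [mul_nonneg ht (sq_nonneg (t - 3 / 2 * σ)), mul_nonneg hσ (sq_nonneg (t - 3 / 2 * σ)),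
          mul_nonneg hσ (sq_nonneg (t - σ)), pow_pos h 3]
      nlinarith [mul_nonneg ht this]
    have h5 := Finset.sum_le_sum fun s (_ : s ∈ Finset.univ) => key s
    rw [Finset.sum_sub_distrib, ← Finset.mul_sum, ← Finset.mul_sum, ← Finset.mul_sum, h2] at h5
    refine le_of_mul_le_mul_left ?_ (pow_pos h 3)
    nlinarith
  · have h5 := Finset.sum_mul_sq_le_sq_mul_sq Finset.univ (fun s => |rsum n a s|) fun _ => 1
    simp only [mul_one, sq_abs, one_pow] at h5
    rw [h2, sum_one_BT] at h5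
    refine le_trans (le_abs_self _) (abs_le_of_sq_le_sq' ?_ (by positivity)).2
    rw [sq_abs]
    nlinarith

variable {X : Type*} [NormedAddCommGroup X] [NormedSpace ℝ X]

theorem exists_ulim (U : Ultrafilter ℕ) (u : ℕ → X →L[ℝ] ℝ) (hu : ∀ n, ‖u n‖ ≤ 1) :
    ∃ g : X →L[ℝ] ℝ, ∀ x, Tendsto (fun n => u n x) U (𝓝 (g x)) := by
  have hb : ∀ n x, |u n x| ≤ ‖x‖ := fun n x =>
    ((u n).le_opNorm x).trans (by nlinarith [hu n, norm_nonneg x])
  have : ∀ x, ∃ l ∈ Set.Icc (-‖x‖) ‖x‖, Tendsto (fun n => u n x) U (𝓝 l) := fun x =>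
    isCompact_Icc.ultrafilter_le_nhds (U.map fun n => u n x) (by
      rw [le_principal_iff, Ultrafilter.mem_coe, Ultrafilter.mem_map]
      exact univ_mem' fun n => abs_le.1 (hb n x))
  choose l hl1 hl2 using this
  refine ⟨LinearMap.mkContinuous
    { toFun := l
      map_add' := fun x y => tendsto_nhds_unique (hl2 (x + y)) (by
        simpa using (hl2 x).add (hl2 y))
      map_smul' := fun c x => tendsto_nhds_unique (hl2 (c • x)) (by
        simpa using (hl2 x).const_mul c) } 1 fun x => ?_, hl2⟩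
  rw [one_mul]
  exact abs_le.2 (hl1 x)

/-- Arrays of indices. -/
def St (n : ℕ) : Type :=
  {κ : ℕ → BT n → ℕ // Function.Injective (Function.uncurry κ) ∧ ∀ j s, j ≤ κ j s}

theorem ha_step {w : ℕ → X →L[ℝ] ℝ} {δ : ℝ} (hw : ∀ k, ‖w k‖ ≤ 1) (h : HA w δ) (n : ℕ)
    (α : BT n → ℝ) (κ : St n) : ∃ (x : X) (φ : ℕ → ℕ) (L : BT n → ℝ), ‖x‖ ≤ 1 ∧ StrictMono φ ∧
      (∀ s, Tendsto (fun j => w (κ.1 (φ j) s) x) atTop (𝓝 (L s))) ∧
      δ * ∑ s, |α s| ≤ ∑ s, α s * L s := by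
  obtain ⟨x, hx, hf⟩ := h (BT n) α κ.1 κ.2.1 κ.2.2
  obtain ⟨ψ, hψ, hψ2⟩ := extraction_of_frequently_atTop hf
  obtain ⟨L, -, φ, hφ, hl⟩ := (isCompact_closedBall (0 : BT n → ℝ) 1).tendsto_subseq
    (x := fun j s => w (κ.1 (ψ j) s) x) (fun j => by
      rw [mem_closedBall_zero_iff, pi_norm_le_iff_of_nonneg zero_le_one]
      intro s
      exact ((w _).le_opNorm x).trans (by nlinarith [hw (κ.1 (ψ j) s), norm_nonneg x]))
  have hl' := tendsto_pi_nhds.1 hl
  refine ⟨x, ψ ∘ φ, L, hx, hψ.comp hφ, hl', ?_⟩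
  exact ge_of_tendsto' (tendsto_finsetSum _ fun s _ => (hl' s).const_mul (α s))
    fun j => hψ2 (φ j)

/-- Splitting an array along a subsequence. -/
def St.next {n : ℕ} (κ : St n) (φ : ℕ → ℕ) (hφ : StrictMono φ) : St (n + 1) :=
  ⟨fun j p => κ.1 (φ (2 * j + p.2.toNat)) p.1, by
    rintro ⟨j, s, b⟩ ⟨j', s', b'⟩ h
    have h1 := κ.2.1 (a₁ := (φ (2 * j + b.toNat), s)) (a₂ := (φ (2 * j' + b'.toNat), s')) h
    obtain ⟨h2, h3⟩ := Prod.mk.inj h1
    have h4 := hφ.injective h2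
    subst h3
    cases b <;> cases b' <;> simp only [Bool.toNat_false, Bool.toNat_true] at h4
    · rw [show j = j' by omega]
    · omega
    · omega
    · rw [show j = j' by omega], fun j p => by
    refine le_trans ?_ (κ.2.2 _ _)
    exact le_trans (show j ≤ 2 * j + p.2.toNat by omega) (hφ.id_le _)⟩

theorem sum_trunc (s : Finset ℕ) (a : ℕ → ℝ) {M : Type*} [AddCommMonoid M] (F : ℝ → ℕ → M)
    (hF : ∀ i, F 0 i = 0) :
    ∑ i ∈ Finset.range (s.sup id + 1), F (if i ∈ s then a i else 0) i = ∑ i ∈ s, F (a i) i := by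
  rw [← Finset.sum_subset (s₁ := s) (fun i hi => Finset.mem_range.2
    (Nat.lt_succ_of_le (Finset.le_sup (f := id) hi))) (fun i _ hi => by rw [if_neg hi, hF])]
  exact Finset.sum_congr rfl fun i hi => by rw [if_pos hi]

theorem sq_of_caseA [CompleteSpace X] {w : ℕ → X →L[ℝ] ℝ} {δ : ℝ} (hδ : 0 < δ)
    (hw : ∀ k, ‖w k‖ ≤ 1) (h : HA w δ) : SQ ℝ X := by
  classical
  let D := TopologicalSpace.denseSeq (ℕ → ℝ)
  have hD : DenseRange D := TopologicalSpace.denseRange_denseSeq _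
  let a : ℕ → ℕ → ℝ := fun n i => if i < n.unpair.1 then D n.unpair.2 i else 0
  choose xx φ L hx hφ hL hlow using fun n κ => ha_step hw h n (rsum n (a n)) κ
  let κ : ∀ n, St n := fun n => Nat.rec (motive := St)
    ⟨fun j _ => j, fun p q hpq => Prod.ext hpq rfl, fun _ _ => le_rfl⟩
    (fun n κ => κ.next (φ n κ) (hφ n κ)) n
  have hκ : ∀ n j p, (κ (n + 1)).1 j p = (κ n).1 (φ n (κ n) (2 * j + p.2.toNat)) p.1 :=
    fun _ _ _ => rfl
  have hρ : ∀ m n, m < n → ∃ ρ : BT n → BT m,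
      (∀ F : BT m → ℝ, 2 ^ m * ∑ s, F (ρ s) = 2 ^ n * ∑ t, F t) ∧
      (∀ b : ℕ → ℝ, (∀ i, m ≤ i → b i = 0) → ∀ s, rsum n b s = rsum m b (ρ s)) ∧
      ∀ j s, ∃ j', j ≤ j' ∧ (κ n).1 j s = (κ m).1 (φ m (κ m) j') (ρ s) := by
    intro m n hmn
    induction n, hmn using Nat.le_induction with
    | base =>
      refine ⟨Prod.fst, fun F => ?_, fun b hb s => ?_, fun j s => ⟨2 * j + s.2.toNat, by omega,
        hκ _ _ _⟩⟩
      · rw [sum_BT_succ, Finset.sum_add_distrib, pow_succ]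
        change 2 ^ m * (∑ t, F t + ∑ t, F t) = _
        ring
      · obtain ⟨t, c⟩ := s
        refine (rsum_succ m b t c).trans ?_
        rw [hb m le_rfl, zero_mul, add_zero]
    | succ n hn ih =>
      obtain ⟨ρ, h1, h2, h3⟩ := ih
      refine ⟨fun s => ρ s.1, fun F => ?_, fun b hb s => ?_, fun j s => ?_⟩
      · rw [sum_BT_succ, Finset.sum_add_distrib, pow_succ]
        change 2 ^ m * (∑ t, F (ρ t) + ∑ t, F (ρ t)) = _
        rw [mul_add, h1]
        ring
      · obtain ⟨t, c⟩ := s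
        refine (rsum_succ n b t c).trans ?_
        rw [hb n (by omega), zero_mul, add_zero, h2 b hb]
      · obtain ⟨j', hj, he⟩ := h3 (φ n (κ n) (2 * j + s.2.toNat)) s.1
        refine ⟨j', le_trans ?_ hj, by rw [hκ, he]⟩
        exact le_trans (show j ≤ 2 * j + s.2.toNat by omega) ((hφ n (κ n)).id_le _)
  let u : ℕ → ℕ → X →L[ℝ] ℝ := fun i n =>
    ((2 : ℝ) ^ n)⁻¹ • ∑ s, rad n i s • w ((κ n).1 n s)
  have hu : ∀ i n, ‖u i n‖ ≤ 1 := by
    intro i n
    rw [norm_smul, norm_inv, Real.norm_of_nonneg (by positivity), inv_mul_le_iff₀ (by positivity),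
      mul_one, ← sum_one_BT n]
    exact (norm_sum_le_l1 _ _ (fun s => hw _) _).trans
      (Finset.sum_le_sum fun s _ => abs_rad_le n i s)
  choose g hg using fun i => exists_ulim (hyperfilter ℕ) (u i) (hu i)
  have hU : (hyperfilter ℕ : Filter ℕ) ≤ atTop := Nat.hyperfilter_le_atTop
  have hcomb : ∀ (m : ℕ) (b : ℕ → ℝ) (x : X), (∀ i, m ≤ i → b i = 0) →
      Tendsto (fun n => ((2 : ℝ) ^ n)⁻¹ * ∑ s, rsum n b s * w ((κ n).1 n s) x) (hyperfilter ℕ)
        (𝓝 (∑ i ∈ Finset.range m, b i * g i x)) := by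
    intro m b x hb
    refine (tendsto_finsetSum _ fun i _ => (hg i x).const_mul (b i)).congr' ?_
    filter_upwards [hU (eventually_ge_atTop m)] with n hn
    rw [Finset.sum_subset (Finset.range_mono hn) (fun i _ hi => by
      rw [hb i (by simpa using hi), zero_mul])]
    simp only [u, smul_apply, sum_apply, smul_eq_mul, rsum, Finset.mul_sum, Finset.sum_mul]
    rw [Finset.sum_comm]
    exact Finset.sum_congr rfl fun _ _ => Finset.sum_congr rfl fun _ _ => by ring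
  have hsq : ∀ (m n : ℕ) (b : ℕ → ℝ), m ≤ n → (∀ i, m ≤ i → b i = 0) →
      ∑ i ∈ Finset.range n, b i ^ 2 = ∑ i ∈ Finset.range m, b i ^ 2 := fun m n b hn hb =>
    (Finset.sum_subset (Finset.range_mono hn) (fun i _ hi => by
      rw [hb i (by simpa using hi)]; simp)).symm
  have hup : ∀ (m : ℕ) (b : ℕ → ℝ) (x : X), (∀ i, m ≤ i → b i = 0) →
      |∑ i ∈ Finset.range m, b i * g i x| ≤ √(∑ i ∈ Finset.range m, b i ^ 2) * ‖x‖ := by
    intro m b x hb
    refine le_of_tendsto (hcomb m b x hb).abs ?_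
    filter_upwards [hU (eventually_ge_atTop m)] with n hn
    rw [abs_mul, abs_of_pos (by positivity), inv_mul_le_iff₀ (by positivity)]
    refine (abs_sum_le_l1 _ _ _ ‖x‖ fun s _ => ((w _).le_opNorm x).trans
      (by nlinarith [hw ((κ n).1 n s), norm_nonneg x])).trans ?_
    rw [← mul_assoc, ← hsq m n b hn hb]
    exact mul_le_mul_of_nonneg_right (khintchine b n).2 (norm_nonneg _)
  have hlo : ∀ (m : ℕ) (b : ℕ → ℝ),
      δ / 4 * √(∑ i ∈ Finset.range m, b i ^ 2) ≤ ‖∑ i ∈ Finset.range m, b i • g i‖ := by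
    intro m b
    refine hD.induction_on (p := fun b : ℕ → ℝ => δ / 4 * √(∑ i ∈ Finset.range m, b i ^ 2) ≤
      ‖∑ i ∈ Finset.range m, b i • g i‖) b (isClosed_le (by fun_prop) (by fun_prop)) fun k => ?_
    set n0 := Nat.pair m k with hn0
    have hm : m ≤ n0 := Nat.left_le_pair m k
    have ha : ∀ i, a n0 i = if i < m then D k i else 0 := fun i => by simp [a, hn0]
    have ha0 : ∀ i, m ≤ i → a n0 i = 0 := fun i hi => by rw [ha, if_neg (by omega)]
    have ha0' : ∀ i, n0 ≤ i → a n0 i = 0 := fun i hi => ha0 i (hm.trans hi)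
    set x := xx n0 (κ n0)
    have e1 : ∑ i ∈ Finset.range m, D k i ^ 2 = ∑ i ∈ Finset.range n0, a n0 i ^ 2 := by
      rw [hsq m n0 _ hm ha0]
      exact Finset.sum_congr rfl fun i hi => by rw [ha, if_pos (Finset.mem_range.1 hi)]
    have e2 : (∑ i ∈ Finset.range m, D k i • g i) x = ∑ i ∈ Finset.range m, a n0 i * g i x := by
      rw [sum_apply]
      exact Finset.sum_congr rfl fun i hi => by
        rw [ha, if_pos (Finset.mem_range.1 hi), smul_apply, smul_eq_mul]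
    have e3 : (∑ i ∈ Finset.range m, D k i • g i) x ≤ ‖∑ i ∈ Finset.range m, D k i • g i‖ :=
      (le_abs_self _).trans (((∑ i ∈ Finset.range m, D k i • g i).le_opNorm x).trans (by
        nlinarith [hx n0 (κ n0), norm_nonneg (∑ i ∈ Finset.range m, D k i • g i)]))
    refine le_trans ?_ e3
    rw [e1, e2]
    refine ge_of_tendsto (hcomb m (a n0) x ha0) ?_
    have hev : ∀ᶠ j in atTop, ∀ t, |w ((κ n0).1 (φ n0 (κ n0) j) t) x - L n0 (κ n0) t| ≤ δ / 2 := by
      rw [eventually_all]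
      intro t
      have := Metric.tendsto_nhds.1 (hL n0 (κ n0) t) (δ / 2) (by positivity)
      exact this.mono fun j hj => hj.le
    obtain ⟨J, hJ⟩ := eventually_atTop.1 hev
    filter_upwards [hU (eventually_ge_atTop J), hU (eventually_gt_atTop n0)] with n hn1 hn2
    obtain ⟨ρ, h1, h2, h3⟩ := hρ n0 n hn2
    have e4 : ∑ s, (rsum n0 (a n0) (ρ s) * L n0 (κ n0) (ρ s) - δ / 2 * |rsum n0 (a n0) (ρ s)|) ≤
        ∑ s, rsum n (a n0) s * w ((κ n).1 n s) x := by
      refine Finset.sum_le_sum fun s _ => ?_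
      obtain ⟨j', hj', he⟩ := h3 n s
      rw [h2 _ ha0', he]
      have e5 := hJ j' (hn1.trans hj') (ρ s)
      have e6 := neg_abs_le (rsum n0 (a n0) (ρ s) *
        (w ((κ n0).1 (φ n0 (κ n0) j') (ρ s)) x - L n0 (κ n0) (ρ s)))
      rw [abs_mul] at e6
      nlinarith [abs_nonneg (rsum n0 (a n0) (ρ s))]
    have e5 := h1 fun t => rsum n0 (a n0) t * L n0 (κ n0) t - δ / 2 * |rsum n0 (a n0) t|
    rw [Finset.sum_sub_distrib (f := fun t => rsum n0 (a n0) t * L n0 (κ n0) t),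
      ← Finset.mul_sum] at e5
    have e6 := hlow n0 (κ n0)
    have e7 := (khintchine (a n0) n0).1
    rw [le_inv_mul_iff₀ (by positivity)]
    refine le_trans ?_ e4
    refine le_of_mul_le_mul_left ?_ (show (0 : ℝ) < 2 ^ n0 by positivity)
    rw [e5, mul_left_comm]
    gcongr
    nlinarith
  refine sq_of_l2 (c := δ / 4) (by positivity) g (fun s a => ?_) fun s a x => ?_
  · have := hlo (s.sup id + 1) fun i => if i ∈ s then a i else 0
    rwa [sum_trunc s a (fun r _ => r ^ 2) (by simp), sum_trunc s a (fun r i => r • g i)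
      (by simp)] at this
  · have := hup (s.sup id + 1) (fun i => if i ∈ s then a i else 0) x fun i hi =>
      if_neg fun h => absurd (Finset.le_sup (f := id) h) (by simp only [id]; omega)
    rwa [sum_trunc s a (fun r _ => r ^ 2) (by simp), sum_trunc s a (fun r i => r * g i x)
      (by simp)] at this

/-- Hagler-Johnson: `ℓ¹` in the dual gives a separable quotient. -/
theorem sq_of_l1 [CompleteSpace X] {c : ℝ} (hc : 0 < c) (w : ℕ → X →L[ℝ] ℝ)
    (h1 : ∀ k, ‖w k‖ ≤ 1)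
    (h2 : ∀ (s : Finset ℕ) (a : ℕ → ℝ), c * ∑ i ∈ s, |a i| ≤ ‖∑ i ∈ s, a i • w i‖) :
    SQ ℝ X := by
  by_cases hB : ∀ (w : ℕ → X →L[ℝ] ℝ) (δ : ℝ), Good c w → 0 < δ → ¬HA w δ
  · exact sq_of_caseB hc ⟨h1, h2⟩ hB
  · push Not at hB
    obtain ⟨w, δ, hw, hδ, h⟩ := hB
    exact sq_of_caseA hδ hw.1 h

end Vale.Agent.P129
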