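import Vale.Agent.P129.PosB4

open Filter Topology

namespace Vale.Agent.P129

variable {X : Type*} [NormedAddCommGroup X] [NormedSpace ℝ X]

theorem sum_blocks {M : Type*} [AddCommMonoid M] (t : ℕ → Finset ℕ)
    (ht : Pairwise (Function.onFun Disjoint t)) (J J' : Finset ℕ) (hJ : J' ⊆ J)
    (a : ℕ → ℕ → ℝ) (F : ℝ → ℕ → M) :
    ∑ i ∈ J'.biUnion t, F (∑ j ∈ J, if i ∈ t j then a j i else 0) i =
      ∑ j ∈ J', ∑ i ∈ t j, F (a j i) i := by
  rw [Finset.sum_biUnion (fun a _ b _ hab => ht hab)]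
  refine Finset.sum_congr rfl fun j hj => Finset.sum_congr rfl fun i hi => ?_
  rw [Finset.sum_eq_single j (fun k _ hk => if_neg fun h =>
    Finset.disjoint_left.1 (ht hk) h hi) (fun h => absurd (hJ hj) h), if_pos hi]

/-- Hagler-Johnson: a seminormalized suppression-unconditional sequence in the dual gives a
separable quotient. -/
theorem sq_of_uncond [CompleteSpace X] (f : ℕ → X →L[ℝ] ℝ) (C c : ℝ) (hc : 0 < c)
    (h1 : ∀ n, c ≤ ‖f n‖)
    (hC : ∀ (s t : Finset ℕ) (a : ℕ → ℝ), s ⊆ t →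
      ‖∑ i ∈ s, a i • f i‖ ≤ C * ‖∑ i ∈ t, a i • f i‖) : SQ ℝ X := by
  classical
  by_cases htail : ∀ x, ∀ ε > 0, ∃ N, ∀ (s : Finset ℕ) (a : ℕ → ℝ), (∀ i ∈ s, N ≤ i) →
      |∑ i ∈ s, a i * f i x| ≤ ε * ‖∑ i ∈ s, a i • f i‖
  · exact sq_of_tv' f C c hc h1 hC htail
  push Not at htail
  obtain ⟨x, ε, hε, hx⟩ := htail
  have hC1 : 1 ≤ C := by
    have := hC {0} {0} (fun _ => 1) subset_rfl
    simp only [Finset.sum_singleton, one_smul] at this
    nlinarith [h1 0]
  have hev : ∀ (s : Finset ℕ) (a : ℕ → ℝ), (∑ i ∈ s, a i • f i) x = ∑ i ∈ s, a i * f i x :=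
    fun s a => by simp
  obtain ⟨t, ht, ha⟩ := exists_disj
    (fun t => ∃ a : ℕ → ℝ, ‖∑ i ∈ t, a i • f i‖ ≤ 1 ∧ ε ≤ (∑ i ∈ t, a i • f i) x) (by
      intro s
      obtain ⟨t, a, h2, h3⟩ := hx (s.sup id + 1)
      refine ⟨t, Finset.disjoint_left.2 fun i hi his => ?_, ?_⟩
      · have := Finset.le_sup (f := id) his
        have := h2 i hi
        simp only [id] at *
        omega
      · rw [← hev] at h3
        have h0 : (∑ i ∈ t, a i • f i) x ≠ 0 := fun h => by
          rw [h, abs_zero] at h3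
          exact absurd h3 (not_lt.2 (by positivity))
        refine ⟨fun i => ε / (∑ i ∈ t, a i • f i) x * a i, ?_, ?_⟩
        · simp only [mul_smul]
          rw [← Finset.smul_sum, norm_smul, norm_div, Real.norm_of_nonneg hε.le, Real.norm_eq_abs,
            div_mul_eq_mul_div, div_le_one (abs_pos.2 h0)]
          exact h3.le
        · simp only [mul_smul]
          rw [← Finset.smul_sum, smul_apply, smul_eq_mul, div_mul_cancel₀ _ h0])
  choose a ha1 ha2 using ha
  have hxp : 0 < ‖x‖ := by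
    refine norm_pos_iff.2 fun h => ?_
    have := ha2 0
    rw [h, map_zero] at this
    linarith
  refine sq_of_l1 (c := ε / (2 * C * ‖x‖)) (by positivity) (fun j => ∑ i ∈ t j, a j i • f i) ha1
    fun J b => ?_
  have key : ∀ J' ⊆ J, ‖∑ j ∈ J', b j • ∑ i ∈ t j, a j i • f i‖ ≤
      C * ‖∑ j ∈ J, b j • ∑ i ∈ t j, a j i • f i‖ := by
    intro J' hJ'
    have := hC (J'.biUnion t) (J.biUnion t) (fun i => ∑ j ∈ J, if i ∈ t j then b j * a j i else 0)
      (Finset.biUnion_subset_biUnion_of_subset_left t hJ')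
    rw [sum_blocks t ht J J' hJ' (fun j i => b j * a j i) (fun r i => r • f i),
      sum_blocks t ht J J subset_rfl (fun j i => b j * a j i) (fun r i => r • f i)] at this
    simpa only [Finset.smul_sum, smul_smul] using this
  set B := C * ‖∑ j ∈ J, b j • ∑ i ∈ t j, a j i • f i‖ with hB
  have key2 : ∀ F : Finset ℕ,
      |∑ j ∈ F, if j ∈ J then b j * (∑ i ∈ t j, a j i • f i) x else 0| ≤ B * ‖x‖ := by
    intro F
    rw [← Finset.sum_filter]
    have h2 := (∑ j ∈ F.filter (· ∈ J), b j • ∑ i ∈ t j, a j i • f i).le_opNorm x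
    rw [sum_apply] at h2
    refine le_trans h2 ?_
    exact mul_le_mul_of_nonneg_right (key _ fun j hj => (Finset.mem_filter.1 hj).2) hxp.le
  have key3 := sum_abs_le_of_sums _ _ key2 J
  have key4 : ε * ∑ j ∈ J, |b j| ≤
      ∑ j ∈ J, |if j ∈ J then b j * (∑ i ∈ t j, a j i • f i) x else 0| := by
    rw [Finset.mul_sum]
    refine Finset.sum_le_sum fun j hj => ?_
    rw [if_pos hj, abs_mul, mul_comm]
    exact mul_le_mul_of_nonneg_left ((ha2 j).trans (le_abs_self _)) (abs_nonneg _)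
  rw [div_mul_eq_mul_div, div_le_iff₀ (by positivity)]
  nlinarith

end Vale.Agent.P129
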