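import Vale.Agent.P129.PosSN

/-! Closed range lemma and the passage from real to general scalars. -/

namespace Vale.Agent.P129

open Filter Topology

theorem cr_step {X Y : Type*} [NormedAddCommGroup X] [NormedSpace ℝ X] [NormedAddCommGroup Y]
    [NormedSpace ℝ Y] (T : X →L[ℝ] Y) (r : ℝ) (hr : 0 ≤ r) (y : Y)
    (H : ∀ q : StrongDual ℝ Y, q y ≤ r * ‖q.comp T‖) (η : ℝ) (hη : 0 < η) :
    ∃ z, ‖z‖ ≤ r ∧ ‖y - T z‖ < η := by
  have : y ∈ closure (T '' Metric.closedBall 0 r) := by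
    by_contra hy
    obtain ⟨q, u, h1, h2⟩ := geometric_hahn_banach_closed_point
      (((convex_closedBall (0 : X) r).linear_image (T : X →ₗ[ℝ] Y)).closure) isClosed_closure hy
    have h3 : ∀ z, ‖z‖ ≤ r → q (T z) < u := fun z hz =>
      h1 _ (subset_closure ⟨z, by simpa using hz, rfl⟩)
    have hu : 0 < u := by simpa using h3 0 (by simpa using hr)
    have h4 : r * ‖q.comp T‖ ≤ u := by
      rcases hr.eq_or_lt with h | h
      · rw [← h, zero_mul]; exact hu.le
      · rw [mul_comm, ← le_div_iff₀ h]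
        refine ContinuousLinearMap.opNorm_le_of_unit_norm (by positivity) fun z hz => ?_
        have a1 := h3 (r • z) (by rw [norm_smul, hz, Real.norm_of_nonneg hr, mul_one])
        have a2 := h3 (-(r • z)) (by rw [norm_neg, norm_smul, hz, Real.norm_of_nonneg hr, mul_one])
        simp only [map_neg, map_smul, smul_eq_mul] at a1 a2
        rw [le_div_iff₀ h, ContinuousLinearMap.comp_apply, Real.norm_eq_abs]
        rcases abs_cases (q (T z)) with h5 | h5 <;> rw [h5.1] <;> nlinarith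
    linarith [H q]
  obtain ⟨_, ⟨z, hz, rfl⟩, h⟩ := Metric.mem_closure_iff.1 this η hη
  exact ⟨z, by simpa using hz, by rwa [dist_eq_norm] at h⟩

theorem cr {X Y : Type*} [NormedAddCommGroup X] [NormedSpace ℝ X] [CompleteSpace X]
    [NormedAddCommGroup Y] [NormedSpace ℝ Y] (f : X →L[ℝ] Y) (C : ℝ) (C0 : 0 ≤ C) (S : Set Y)
    (hS : ∀ y ∈ S, ∀ z, y - f z ∈ S)
    (H : ∀ y ∈ S, ∀ q : StrongDual ℝ Y, q y ≤ C * ‖y‖ * ‖q.comp f‖) (y : Y) (hy : y ∈ S) :
    ∃ x, f x = y ∧ ‖x‖ ≤ 2 * C * ‖y‖ := by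
  have hC : ∀ y, ∃ z, y ∈ S → ‖z‖ ≤ C * ‖y‖ ∧ ‖y - f z‖ ≤ 1 / 2 * ‖y‖ := by
    intro y
    by_cases hy : y ∈ S
    · by_cases h0 : y = 0
      · exact ⟨0, fun _ => by simp [h0]⟩
      · have := norm_pos_iff.2 h0
        obtain ⟨z, h1, h2⟩ := cr_step f (C * ‖y‖) (by positivity) y (H y hy) (1 / 2 * ‖y‖)
          (by positivity)
        exact ⟨z, fun _ => ⟨h1, h2.le⟩⟩
    · exact ⟨0, fun h => absurd h hy⟩
  choose g hg using hC
  let h y := y - f (g y)
  have hmem : ∀ n : ℕ, h^[n] y ∈ S := by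
    intro n
    induction n with
    | zero => exact hy
    | succ n IH => rw [Function.iterate_succ_apply']; exact hS _ IH _
  have hnle : ∀ n : ℕ, ‖h^[n] y‖ ≤ (1 / 2) ^ n * ‖y‖ := by
    intro n
    induction n with
    | zero => simp
    | succ n IH =>
      rw [Function.iterate_succ_apply']
      apply le_trans (hg _ (hmem n)).2 _
      rw [pow_succ', mul_assoc]
      gcongr
  let u n := g (h^[n] y)
  have ule : ∀ n, ‖u n‖ ≤ (1 / 2) ^ n * (C * ‖y‖) := fun n ↦ by
    apply le_trans (hg _ (hmem n)).1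
    calc
      C * ‖h^[n] y‖ ≤ C * ((1 / 2) ^ n * ‖y‖) := by gcongr; exact hnle n
      _ = (1 / 2) ^ n * (C * ‖y‖) := by ring
  have sNu : Summable fun n => ‖u n‖ := by
    refine .of_nonneg_of_le (fun n => norm_nonneg _) ule ?_
    exact Summable.mul_right _ (summable_geometric_of_lt_one (by simp) (by norm_num))
  have su : Summable u := sNu.of_norm
  let x := tsum u
  have x_ineq : ‖x‖ ≤ 2 * C * ‖y‖ :=
    calc
      ‖x‖ ≤ ∑' n, ‖u n‖ := norm_tsum_le_tsum_norm sNu
      _ ≤ ∑' n, (1 / 2) ^ n * (C * ‖y‖) :=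
        sNu.tsum_le_tsum ule <| Summable.mul_right _ summable_geometric_two
      _ = (∑' n, (1 / 2) ^ n) * (C * ‖y‖) := tsum_mul_right
      _ = 2 * C * ‖y‖ := by rw [tsum_geometric_two, mul_assoc]
  have fsumeq : ∀ n : ℕ, f (∑ i ∈ Finset.range n, u i) = y - h^[n] y := by
    intro n
    induction n with
    | zero => simp
    | succ n IH => rw [Finset.sum_range_succ, f.map_add, IH, Function.iterate_succ_apply', sub_add]
  have : Tendsto (fun n => ∑ i ∈ Finset.range n, u i) atTop (𝓝 x) := su.hasSum.tendsto_sum_nat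
  have L₁ : Tendsto (fun n => f (∑ i ∈ Finset.range n, u i)) atTop (𝓝 (f x)) :=
    (f.continuous.tendsto _).comp this
  simp only [fsumeq] at L₁
  have L₂ : Tendsto (fun n => y - h^[n] y) atTop (𝓝 (y - 0)) := by
    refine tendsto_const_nhds.sub ?_
    rw [tendsto_iff_norm_sub_tendsto_zero]
    simp only [sub_zero]
    refine squeeze_zero (fun _ => norm_nonneg _) hnle ?_
    rw [← zero_mul ‖y‖]
    refine (_root_.tendsto_pow_atTop_nhds_zero_of_lt_one ?_ ?_).mul tendsto_const_nhds <;> norm_num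
  have feq : f x = y - 0 := tendsto_nhds_unique L₁ L₂
  rw [sub_zero] at feq
  exact ⟨x, feq, x_ineq⟩

theorem chain_rclike {𝕜 X : Type*} [RCLike 𝕜] [NormedAddCommGroup X] [NormedSpace 𝕜 X]
    [NormedSpace ℝ X] [IsScalarTower ℝ 𝕜 X] [CompleteSpace X] (h : Chain ℝ X) : Chain 𝕜 X := by
  obtain ⟨M, hmono, hcl, hne, hd⟩ := h
  let J : X →L[ℝ] X := ((RCLike.I : 𝕜) • ContinuousLinearMap.id 𝕜 X).restrictScalars ℝ
  have hJ : ∀ x, J x = (RCLike.I : 𝕜) • x := fun x => rfl
  have hJn : ∀ x, ‖J x‖ ≤ ‖x‖ := fun x => by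
    rw [hJ, norm_smul]
    have : ‖(RCLike.I : 𝕜)‖ ≤ 1 := by
      rcases RCLike.I_eq_zero_or_im_I_eq_one (K := 𝕜) with h | h
      · simp [h]
      · rw [RCLike.norm_I_of_ne_zero]
        intro h0; simp [h0] at h
    nlinarith [norm_nonneg x]
  let T : ∀ N, (M N × M N) →L[ℝ] X := fun N =>
    (J.comp (M N).subtypeL).coprod (M N).subtypeL
  have hT : ∀ N (a b : M N), T N (a, b) = J a + b := fun N a b => rfl
  by_cases hc : ∃ N, ∃ C : ℝ, 0 ≤ C ∧ ∀ q : StrongDual ℝ X, ‖q‖ ≤ C * ‖q.comp (T N)‖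
  · obtain ⟨N, C, C0, hC⟩ := hc
    haveI : CompleteSpace (M N) := (hcl N).completeSpace_coe
    have hsur : ∀ y, ∃ p, T N p = y ∧ ‖p‖ ≤ 2 * C * ‖y‖ := fun y =>
      cr (T N) C C0 Set.univ (by simp) (fun y _ q => by
        have a1 := q.le_opNorm y
        have a2 := hC q
        have a3 := le_abs_self (q y)
        rw [Real.norm_eq_abs] at a1
        nlinarith [norm_nonneg y]) y trivial
    have hsm : ∀ K (c : 𝕜) y, y ∈ M K → J y ∈ M K → c • y ∈ M K := by
      intro K c y h1 h2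
      have : c • y = RCLike.re c • y + RCLike.im c • J y := by
        conv_lhs => rw [← RCLike.re_add_im c]
        rw [add_smul, mul_smul, hJ, RCLike.real_smul_eq_coe_smul (K := 𝕜),
          RCLike.real_smul_eq_coe_smul (K := 𝕜)]
      rw [this]
      exact (M K).add_mem ((M K).smul_mem _ h1) ((M K).smul_mem _ h2)
    let P : ℕ → Submodule 𝕜 X := fun K =>
      { carrier := {y | y ∈ M K ∧ J y ∈ M K}
        add_mem' := fun ha hb => ⟨(M K).add_mem ha.1 hb.1, by
          rw [map_add]; exact (M K).add_mem ha.2 hb.2⟩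
        zero_mem' := ⟨(M K).zero_mem, by rw [map_zero]; exact (M K).zero_mem⟩
        smul_mem' := fun c y hy => ⟨hsm K c y hy.1 hy.2, by
          rw [hJ, ← mul_smul]; exact hsm K _ y hy.1 hy.2⟩ }
    refine ⟨P, fun a b hab y hy => ⟨hmono hab hy.1, hmono hab hy.2⟩, fun K => ?_, fun K hK => ?_,
      fun x ε hε => ?_⟩
    · exact (hcl K).inter ((hcl K).preimage J.continuous)
    · apply hne K
      rw [Submodule.eq_top_iff'] at hK ⊢
      exact fun x => (hK x).1
    · set η := ε / (4 * C + 2) with hη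
      have hη0 : 0 < η := by positivity
      obtain ⟨n1, u, hu, hxu⟩ := hd x η hη0
      obtain ⟨n2, w, hw, hxw⟩ := hd (J x) η hη0
      obtain ⟨⟨a, b⟩, hab, hn⟩ := hsur (J u - w)
      rw [hT] at hab
      have hK1 : n1 ≤ max N (max n1 n2) := by omega
      have hK2 : n2 ≤ max N (max n1 n2) := by omega
      have hK3 : N ≤ max N (max n1 n2) := by omega
      refine ⟨max N (max n1 n2), u - a, ⟨Submodule.sub_mem _ (hmono hK1 hu) (hmono hK3 a.2), ?_⟩, ?_⟩
      · have : J (u - a) = w + b := by rw [map_sub, ← sub_eq_iff_eq_add', sub_right_comm, ← hab]; abel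
        rw [this]
        exact Submodule.add_mem _ (hmono hK2 hw) (hmono hK3 b.2)
      · have a1 : ‖(a : X)‖ ≤ ‖(a, b)‖ := norm_fst_le (a, b)
        have a2 : ‖J u - w‖ ≤ 2 * η := by
          have : J u - w = (J x - w) - J (x - u) := by rw [map_sub]; abel
          rw [this]
          linarith [norm_sub_le (J x - w) (J (x - u)), hJn (x - u)]
        have a3 : x - (u - a) = (x - u) + a := by abel
        have a4 : (4 * C + 2) * η = ε := by rw [hη]; field_simp
        rw [a3]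
        have a5 : 2 * C * ‖J u - w‖ ≤ 2 * C * (2 * η) := by gcongr
        nlinarith [norm_add_le (x - u) (a : X)]
  · push Not at hc
    choose q hq using fun N : ℕ => hc N (2 ^ N) (by positivity)
    have hq0 : ∀ N, 0 < ‖q N‖ := fun N => lt_of_le_of_lt (by positivity) (hq N)
    refine chain_of_sn ⟨fun N => StrongDual.extendRCLike ((‖q N‖⁻¹) • q N), 1, one_pos,
      fun N => ?_, fun x ε hε => ?_⟩
    · rw [StrongDual.norm_extendRCLike, norm_smul, norm_inv, norm_norm, inv_mul_cancel₀ (hq0 N).ne']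
    · obtain ⟨n, y, hy, hxy⟩ := hd x ε hε
      refine ⟨y, ?_, hxy⟩
      rw [← summable_nat_add_iff n]
      refine Summable.of_nonneg_of_le (fun _ => norm_nonneg _) (fun k => ?_)
        (summable_geometric_two.mul_right (2 * ‖y‖))
      set N := k + n with hN
      have hyN : y ∈ M N := hmono (by omega) hy
      have b0 : ‖(q N).comp (T N)‖ ≤ (1 / 2) ^ k * ‖q N‖ := by
        have h1 := hq N
        have h2 : (2 : ℝ) ^ k ≤ 2 ^ N := pow_le_pow_right₀ (by norm_num) (by omega)
        rw [one_div, inv_pow, ← div_eq_inv_mul, le_div_iff₀ (by positivity)]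
        nlinarith [norm_nonneg ((q N).comp (T N))]
      have b1 : |q N y| ≤ (1 / 2) ^ k * ‖q N‖ * ‖y‖ := by
        have h1 := ((q N).comp (T N)).le_opNorm (0, ⟨y, hyN⟩)
        rw [ContinuousLinearMap.comp_apply, hT] at h1
        simp only [ZeroMemClass.coe_zero, map_zero, zero_add, Real.norm_eq_abs, Prod.norm_mk,
          norm_zero, Submodule.coe_norm, norm_nonneg, sup_of_le_right] at h1
        exact h1.trans (by gcongr)
      have b2 : |q N (J y)| ≤ (1 / 2) ^ k * ‖q N‖ * ‖y‖ := by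
        have h1 := ((q N).comp (T N)).le_opNorm (⟨y, hyN⟩, 0)
        rw [ContinuousLinearMap.comp_apply, hT] at h1
        simp only [ZeroMemClass.coe_zero, add_zero, Real.norm_eq_abs, Prod.norm_mk,
          norm_zero, Submodule.coe_norm, norm_nonneg, sup_of_le_left] at h1
        exact h1.trans (by gcongr)
      have hI : ‖(RCLike.I : 𝕜)‖ ≤ 1 := by
        rcases RCLike.I_eq_zero_or_im_I_eq_one (K := 𝕜) with h | h
        · simp [h]
        · rw [RCLike.norm_I_of_ne_zero]
          intro h0; simp [h0] at h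
      rw [StrongDual.extendRCLike_apply]
      refine (norm_sub_le _ _).trans ?_
      rw [norm_mul, RCLike.norm_ofReal, RCLike.norm_ofReal, ← hJ]
      simp only [ContinuousLinearMap.smul_apply, smul_eq_mul, abs_mul, abs_inv, abs_norm]
      have c1 : ‖q N‖⁻¹ * |q N y| ≤ (1 / 2) ^ k * ‖y‖ := by
        rw [inv_mul_le_iff₀ (hq0 N)]; linarith
      have c2 : ‖q N‖⁻¹ * |q N (J y)| ≤ (1 / 2) ^ k * ‖y‖ := by
        rw [inv_mul_le_iff₀ (hq0 N)]; linarith
      have c3 : 0 ≤ ‖q N‖⁻¹ * |q N (J y)| := by positivity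
      nlinarith

end Vale.Agent.P129
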