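import Vale.Agent.P129.PosHJ

/-! Dvoretzky-Rogers lemma and the case of small density. -/

namespace Vale.Agent.P129

open Filter Topology MeasureTheory
open scoped ENNReal

theorem dr_core {E Z : Type*} [NormedAddCommGroup E] [InnerProductSpace ℝ E] [FiniteDimensional ℝ E]
    [NormedAddCommGroup Z] [NormedSpace ℝ Z] (J : E →L[ℝ] Z) (hJ : LinearMap.ker (J : E →ₗ[ℝ] Z) = ⊥)
    (n : ℕ) (hn : Module.finrank ℝ E = 3 * n) :
    ∃ T : E →L[ℝ] Z, ‖T‖ ≤ 1 ∧ ∃ e : Fin n → E, Orthonormal ℝ e ∧ ∀ i, 1 / 2 ≤ ‖T (e i)‖ := by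
  obtain ⟨K, hK0, hK⟩ := LinearMap.exists_antilipschitzWith (J : E →ₗ[ℝ] Z) hJ
  let C : Set (E →L[ℝ] E) := {S | ‖J.comp S‖ ≤ 1}
  have hCc : IsCompact C := by
    refine Metric.isCompact_of_isClosed_isBounded ?_ ?_
    · exact isClosed_le ((ContinuousLinearMap.compL ℝ E E Z J).continuous.norm) continuous_const
    · refine (Metric.isBounded_closedBall (x := (0 : E →L[ℝ] E)) (r := K)).subset fun S hS => ?_
      rw [mem_closedBall_zero_iff]
      refine ContinuousLinearMap.opNorm_le_bound _ K.2 fun v => ?_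
      have a1 := ZeroHomClass.bound_of_antilipschitz (J : E →ₗ[ℝ] Z) hK (S v)
      have a2 := (J.comp S).le_opNorm v
      have a3 : ‖J.comp S‖ ≤ 1 := hS
      refine a1.trans ?_
      gcongr
      exact a2.trans (by nlinarith [norm_nonneg v])
  have hmem : (‖J‖ + 1)⁻¹ • ContinuousLinearMap.id ℝ E ∈ C := by
    show ‖J.comp _‖ ≤ 1
    rw [ContinuousLinearMap.comp_smul, ContinuousLinearMap.comp_id, norm_smul, norm_inv,
      Real.norm_of_nonneg (by positivity), inv_mul_le_iff₀ (by positivity)]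
    linarith
  obtain ⟨S, hS, hmax⟩ := hCc.exists_isMaxOn ⟨_, hmem⟩
    ContinuousLinearMap.continuous_det.continuousOn
  have hdet : 0 < S.det := by
    refine lt_of_lt_of_le ?_ (hmax hmem)
    show 0 < LinearMap.det ((‖J‖ + 1)⁻¹ • (LinearMap.id : E →ₗ[ℝ] E))
    rw [LinearMap.det_smul, LinearMap.det_id]
    positivity
  refine ⟨J.comp S, hS, ?_⟩
  set T := J.comp S with hT
  have hT1 : ‖T‖ ≤ 1 := hS
  have key : ∀ j ≤ n, ∃ e : Fin j → E, Orthonormal ℝ e ∧ ∀ i, 1 / 2 ≤ ‖T (e i)‖ := by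
    intro j hj
    induction j with
    | zero => exact ⟨fun i => i.elim0, Orthonormal.of_isEmpty _, fun i => i.elim0⟩
    | succ j ih =>
      obtain ⟨e, he, hTe⟩ := ih (by omega)
      let U : Submodule ℝ E := Submodule.span ℝ (Set.range e)
      have hU : Module.finrank ℝ U ≤ j := (finrank_range_le_card (R := ℝ) e).trans (by simp)
      have hW := U.finrank_add_finrank_orthogonal
      have : ∃ v ∈ Uᗮ, ‖v‖ = 1 ∧ 1 / 2 ≤ ‖T v‖ := by
        by_contra hc
        push Not at hc
        have hc' : ∀ v ∈ Uᗮ, ‖T v‖ ≤ 1 / 2 * ‖v‖ := by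
          intro v hv
          by_cases h0 : v = 0
          · simp [h0]
          have hp := norm_pos_iff.2 h0
          have := hc (‖v‖⁻¹ • v) (Submodule.smul_mem _ _ hv)
            (by rw [norm_smul, norm_inv, norm_norm, inv_mul_cancel₀ hp.ne'])
          rw [map_smul, norm_smul, norm_inv, norm_norm, inv_mul_lt_iff₀ hp] at this
          linarith
        let q := U.prodEquivOfIsCompl Uᗮ U.isCompl_orthogonal
        let D : E →ₗ[ℝ] E := (q : (U × Uᗮ) →ₗ[ℝ] E) ∘ₗ
          (LinearMap.prodMap LinearMap.id ((2 : ℝ) • LinearMap.id)) ∘ₗ (q.symm : E →ₗ[ℝ] (U × Uᗮ))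
        have hD : LinearMap.det D = 2 ^ Module.finrank ℝ Uᗮ := by
          simp only [D]
          rw [LinearMap.det_conj, LinearMap.det_prodMap, LinearMap.det_smul]; simp
        have hm : (2 / 3 : ℝ) • S.comp (LinearMap.toContinuousLinearMap D) ∈ C := by
          show ‖J.comp _‖ ≤ 1
          refine ContinuousLinearMap.opNorm_le_bound _ zero_le_one fun v => ?_
          obtain ⟨⟨u, w⟩, rfl⟩ := q.surjective v
          have e1 : D (q (u, w)) = (u + w : E) + w := by
            simp only [D, LinearMap.comp_apply, LinearEquiv.coe_coe, LinearEquiv.symm_apply_apply,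
              LinearMap.prodMap_apply, LinearMap.id_apply, LinearMap.smul_apply]
            simp only [q, Submodule.coe_prodEquivOfIsCompl', Submodule.coe_smul, two_smul,
              Submodule.coe_add]
            abel
          have e2 : q (u, w) = (u + w : E) := rfl
          have e3 : (J.comp ((2 / 3 : ℝ) • S.comp (LinearMap.toContinuousLinearMap D))) (q (u, w))
              = (2 / 3 : ℝ) • (T (u + w : E) + T w) := by
            rw [← map_add, ← e1]; simp [hT]
          have e4 := norm_add_sq_eq_norm_sq_add_norm_sq_real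
            ((Submodule.mem_orthogonal U w).1 w.2 u u.2)
          have e5 : ‖(w : E)‖ ≤ ‖(u + w : E)‖ := by
            refine le_of_sq_le_sq ?_ (norm_nonneg _) |>.trans le_rfl
            nlinarith [mul_self_nonneg ‖(u : E)‖]
          rw [e3, e2, norm_smul, Real.norm_of_nonneg (by norm_num)]
          have e6 := T.le_opNorm (u + w : E)
          have e7 := hc' w w.2
          nlinarith [norm_add_le (T (u + w : E)) (T w), norm_nonneg (u + w : E)]
        have h1 : LinearMap.det ((2 / 3 : ℝ) • ((S : E →ₗ[ℝ] E) ∘ₗ D)) ≤ S.det := hmax hm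
        rw [LinearMap.det_smul, LinearMap.det_comp, hD, hn] at h1
        have h2 : (2 / 3 : ℝ) ^ (3 * n) * 2 ^ Module.finrank ℝ Uᗮ ≤ 1 := by
          have h3 : LinearMap.det (S : E →ₗ[ℝ] E) = S.det := rfl
          rw [h3] at h1
          by_contra h4
          push Not at h4
          nlinarith
        have h3 : (2 : ℝ) ^ (2 * n + 1) ≤ 2 ^ Module.finrank ℝ Uᗮ :=
          pow_le_pow_right₀ (by norm_num) (by omega)
        have h4 : (1 : ℝ) ≤ (2 / 3 : ℝ) ^ (3 * n) * 2 ^ (2 * n) := by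
          rw [pow_mul, pow_mul, ← mul_pow]
          exact one_le_pow₀ (by norm_num)
        have h5 : (0 : ℝ) < (2 / 3 : ℝ) ^ (3 * n) := by positivity
        rw [pow_succ] at h3
        nlinarith [mul_le_mul_of_nonneg_left h3 h5.le]
      obtain ⟨v, hv, hv1, hv2⟩ := this
      refine ⟨Matrix.vecCons v e, orthonormal_vecCons_iff.2 ⟨hv1, fun i => ?_, he⟩, fun i => ?_⟩
      · exact (Submodule.mem_orthogonal' U v).1 hv _ (Submodule.subset_span ⟨i, rfl⟩)
      · refine Fin.cases ?_ (fun i => ?_) i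
        · simpa using hv2
        · simpa using hTe i
  exact key n le_rfl

theorem dr {Z : Type*} [NormedAddCommGroup Z] [NormedSpace ℝ Z] (hZ : ¬ FiniteDimensional ℝ Z)
    (n : ℕ) : ∃ h : Fin n → Z, (∀ j, 1 / 2 ≤ ‖h j‖) ∧
      ∀ a : Fin n → ℝ, ‖∑ j, a j • h j‖ ≤ √(∑ j, a j ^ 2) := by
  obtain ⟨f, hf⟩ : ∃ f : Fin (3 * n) → Z, LinearIndependent ℝ f := by
    apply natCast_le_rank_iff.1
    have : Cardinal.aleph0 ≤ Module.rank ℝ Z := by
      rw [← not_lt, Module.rank_lt_aleph0_iff]; exact hZ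
    exact (Cardinal.natCast_lt_aleph0).le.trans this
  let J0 : EuclideanSpace ℝ (Fin (3 * n)) →ₗ[ℝ] Z :=
    (Fintype.linearCombination ℝ f) ∘ₗ (WithLp.linearEquiv 2 ℝ (Fin (3 * n) → ℝ)).toLinearMap
  have hJ0 : LinearMap.ker J0 = ⊥ := by
    rw [LinearMap.ker_eq_bot]
    exact hf.fintypeLinearCombination_injective.comp
      (WithLp.linearEquiv 2 ℝ (Fin (3 * n) → ℝ)).injective
  obtain ⟨T, hT, e, he, hTe⟩ := dr_core (LinearMap.toContinuousLinearMap J0) hJ0 n (by simp)
  refine ⟨fun j => T (e j), hTe, fun a => ?_⟩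
  have e1 : ∑ j, a j • T (e j) = T (∑ j, a j • e j) := by simp
  have e2 := he.inner_sum a a Finset.univ
  rw [real_inner_self_eq_norm_sq] at e2
  simp only [conj_trivial, ← sq] at e2
  rw [e1, ← e2, Real.sqrt_sq (norm_nonneg _)]
  exact (T.le_opNorm _).trans (by nlinarith [norm_nonneg (∑ j, a j • e j)])

variable {X : Type*} [NormedAddCommGroup X] [NormedSpace ℝ X]

theorem dual_inf (hX : ¬ FiniteDimensional ℝ X) : ¬ FiniteDimensional ℝ (StrongDual ℝ X) := by
  intro h
  exact hX (FiniteDimensional.of_injective (NormedSpace.inclusionInDoubleDualLi ℝ (E := X)).toLinearMap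
    (NormedSpace.inclusionInDoubleDualLi ℝ (E := X)).injective)

theorem sn_small (hX : ¬ FiniteDimensional ℝ X) {Ω ι : Type*} [MeasurableSpace Ω]
    [DiscreteMeasurableSpace Ω] (μ : Measure Ω) (r : ∀ n : ℕ, Ω → Fin (4 ^ n))
    (hr : ∀ n j, μ (r n ⁻¹' {j}) ≤ ENNReal.ofReal (1 / 4 ^ n)) (d : ι → X) (hd : DenseRange d)
    (hcov : ∀ N : ι → Set Ω, (∀ i, μ (N i) = 0) → ∃ ω, ∀ i, ω ∉ N i) : SN ℝ X := by
  choose h h1 h2 using fun n => dr (dual_inf hX) (4 ^ n)
  have h3 : ∀ n x, ∑ j, |h n j x| ≤ 2 ^ n * ‖x‖ := by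
    intro n x
    have a1 := h2 n fun j => if 0 ≤ h n j x then 1 else -1
    have a2 : ∑ j : Fin (4 ^ n), (if 0 ≤ h n j x then (1 : ℝ) else -1) ^ 2 = (2 ^ n) ^ 2 := by
      rw [Finset.sum_congr rfl (g := fun _ => (1 : ℝ)) fun j _ => by split_ifs <;> simp]
      simp only [Finset.sum_const, Finset.card_univ, Fintype.card_fin, nsmul_eq_mul, mul_one]
      rw [← pow_mul, mul_comm, pow_mul]; norm_num
    rw [a2, Real.sqrt_sq (by positivity)] at a1
    have a3 : ∑ j, |h n j x| = (∑ j, (if 0 ≤ h n j x then (1 : ℝ) else -1) • h n j) x := by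
      rw [ContinuousLinearMap.sum_apply]
      refine Finset.sum_congr rfl fun j _ => ?_
      split_ifs with h
      · simp [abs_of_nonneg h]
      · simp [abs_of_neg (not_le.1 h)]
    rw [a3]
    refine (le_abs_self _).trans (((∑ j, (if 0 ≤ h n j x then (1 : ℝ) else -1) • h n j).le_opNorm
      x).trans ?_)
    gcongr
  have h4 : ∀ x, ∀ᵐ ω ∂μ, Summable fun n => ‖h n (r n ω) x‖ := by
    intro x
    have a1 : ∀ n, ∫⁻ ω, ENNReal.ofReal |h n (r n ω) x| ∂μ ≤ ENNReal.ofReal ((1 / 2) ^ n * ‖x‖) := by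
      intro n
      rw [← lintegral_map (f := fun j => ENNReal.ofReal |h n j x|) (Measurable.of_discrete)
        (Measurable.of_discrete), lintegral_fintype]
      calc _ ≤ ∑ j, ENNReal.ofReal |h n j x| * ENNReal.ofReal (1 / 4 ^ n) := by
            refine Finset.sum_le_sum fun j _ => ?_
            rw [Measure.map_apply Measurable.of_discrete MeasurableSet.of_discrete]
            gcongr
            exact hr n j
        _ = ENNReal.ofReal ((∑ j, |h n j x|) * (1 / 4 ^ n)) := by
            rw [← Finset.sum_mul, ← ENNReal.ofReal_sum_of_nonneg fun _ _ => abs_nonneg _,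
              ← ENNReal.ofReal_mul (Finset.sum_nonneg fun _ _ => abs_nonneg _)]
        _ ≤ _ := by
            refine ENNReal.ofReal_le_ofReal ?_
            calc _ ≤ 2 ^ n * ‖x‖ * (1 / 4 ^ n) := by gcongr; exact h3 n x
              _ = _ := by
                have : (4 : ℝ) ^ n = 2 ^ n * 2 ^ n := by rw [← mul_pow]; norm_num
                rw [this, one_div, one_div, inv_pow]; field_simp
    have a2 : ∫⁻ ω, ∑' n, ENNReal.ofReal |h n (r n ω) x| ∂μ ≠ ∞ := by
      rw [lintegral_tsum fun _ => (Measurable.of_discrete).aemeasurable]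
      refine ne_top_of_le_ne_top ?_ (ENNReal.tsum_le_tsum a1)
      exact (summable_geometric_two.mul_right ‖x‖).tsum_ofReal_ne_top
    filter_upwards [ae_lt_top Measurable.of_discrete a2] with ω hω
    simpa using ENNReal.summable_toReal hω.ne
  obtain ⟨ω, hω⟩ := hcov (fun i => {ω | ¬ Summable fun n => ‖h n (r n ω) (d i)‖})
    fun i => ae_iff.1 (h4 (d i))
  refine ⟨fun n => h n (r n ω), 1 / 2, by norm_num, fun n => h1 _ _, fun x ε hε => ?_⟩
  obtain ⟨i, hi⟩ := hd.exists_dist_lt x hε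
  exact ⟨d i, not_not.1 (hω i), by rwa [dist_eq_norm] at hi⟩

end Vale.Agent.P129
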