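import Vale.Agent.P129.PosRad

/-! The Hagler-Johnson theorem: `ℓ¹` in the dual gives a chain. -/

namespace Vale.Agent.P129

open Filter Topology

variable {X : Type*} [NormedAddCommGroup X] [NormedSpace ℝ X]

/-- admissible block data -/
def Blk (F : ℕ → Finset ℕ) (w : ℕ → ℕ → ℝ) : Prop :=
  (Pairwise fun i j => Disjoint (F i) (F j)) ∧ (∀ k, ∑ j ∈ F k, |w k j| = 1) ∧ ∀ k, ∀ j ∈ F k, k ≤ j

/-- block sequence -/
noncomputable def blk (F : ℕ → Finset ℕ) (w : ℕ → ℕ → ℝ) (H : ℕ → StrongDual ℝ X) (k : ℕ) :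
    StrongDual ℝ X := ∑ j ∈ F k, w k j • H j

/-- asymptotic smallness on the unit ball -/
def Sm (H : ℕ → StrongDual ℝ X) (t : ℝ) : Prop := ∀ x, ‖x‖ ≤ 1 → ∀ᶠ k in atTop, |H k x| ≤ t

/-- domination by tails -/
def Dom (H' H : ℕ → StrongDual ℝ X) : Prop :=
  ∀ x k (t : ℝ), (∀ j, k ≤ j → |H j x| ≤ t) → |H' k x| ≤ t

theorem blk_L1 {F w} (hB : Blk F w) {H : ℕ → StrongDual ℝ X} {c : ℝ} (hH : L1 H c) :
    L1 (blk F w H) c := by
  classical
  refine ⟨fun k => ?_, fun a s => ?_⟩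
  · refine (norm_sum_le _ _).trans ?_
    rw [← hB.2.1 k]
    refine Finset.sum_le_sum fun j _ => ?_
    rw [norm_smul, Real.norm_eq_abs]
    nlinarith [hH.1 j, abs_nonneg (w k j)]
  · obtain ⟨a', h1, h2⟩ := blk_sum (Z := StrongDual ℝ X) F hB.1 w a
    unfold blk
    rw [h2]
    refine le_trans (le_of_eq ?_) (hH.2 a' _)
    congr 1
    rw [Finset.sum_biUnion (fun i _ j _ hij => hB.1 hij)]
    refine Finset.sum_congr rfl fun k _ => ?_
    rw [Finset.sum_congr rfl (g := fun j => |a k| * |w k j|) fun j hj => by rw [h1 k j hj, abs_mul],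
      ← Finset.mul_sum, hB.2.1, mul_one]

theorem blk_dom {F w} (hB : Blk F w) (H : ℕ → StrongDual ℝ X) : Dom (blk F w H) H := by
  intro x k t h
  unfold blk
  rw [ContinuousLinearMap.sum_apply]
  refine (Finset.abs_sum_le_sum_abs _ _).trans ?_
  rw [← one_mul t, ← hB.2.1 k, Finset.sum_mul]
  refine Finset.sum_le_sum fun j hj => ?_
  rw [ContinuousLinearMap.smul_apply, smul_eq_mul, abs_mul]
  gcongr
  exact h j (hB.2.2 k j hj)

theorem hj_step {H : ℕ → StrongDual ℝ X} {c t : ℝ} (hH : L1 H c) {F w} (hB : Blk F w)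
    (hS : Sm (blk F w H) t) (n : ℕ) :
    ∃ H' : ℕ → StrongDual ℝ X, L1 H' c ∧ Sm H' t ∧ Dom H' H ∧ ∀ k < n, H' k = H k := by
  have hB' : Blk (fun k => if k < n then {k} else F k) (fun k => if k < n then 1 else w k) := by
    refine ⟨fun i j hij => ?_, fun k => ?_, fun k j hj => ?_⟩
    · dsimp only
      split_ifs with h1 h2 h2
      · simpa using hij
      · rw [Finset.disjoint_singleton_left]
        intro h; have := hB.2.2 j i h; omega
      · rw [Finset.disjoint_singleton_right]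
        intro h; have := hB.2.2 i j h; omega
      · exact hB.1 hij
    · dsimp only
      split_ifs with h1
      · simp
      · exact hB.2.1 k
    · dsimp only at hj
      split_ifs at hj with h1
      · simp at hj; omega
      · exact hB.2.2 k j hj
  refine ⟨_, blk_L1 hB' hH, fun x hx => ?_, blk_dom hB' H, fun k hk => ?_⟩
  · filter_upwards [hS x hx, eventually_ge_atTop n] with k h1 h2
    simpa [blk, not_lt.2 h2] using h1
  · simp [blk, hk]

theorem hj_null (c θ : ℝ) (hθ0 : 0 < θ) (hθ : θ < 1) (H0 : ℕ → StrongDual ℝ X) (h0 : L1 H0 c)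
    (h : ∀ H : ℕ → StrongDual ℝ X, L1 H c → ∀ t, 0 < t → Sm H t →
      ∃ F w, Blk F w ∧ Sm (blk F w H) (θ * t)) :
    ∃ d : ℕ → StrongDual ℝ X, L1 d c ∧ ∀ x, Tendsto (fun k => d k x) atTop (𝓝 0) := by
  have step : ∀ n (p : {H : ℕ → StrongDual ℝ X // L1 H c ∧ Sm H (θ ^ n)}),
      ∃ p' : {H : ℕ → StrongDual ℝ X // L1 H c ∧ Sm H (θ ^ (n + 1))},
        Dom p'.1 p.1 ∧ ∀ k < n, p'.1 k = p.1 k := by
    rintro n ⟨H, h1, h2⟩
    obtain ⟨F, w, hB, hS⟩ := h H h1 _ (by positivity) h2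
    obtain ⟨H', a1, a2, a3, a4⟩ := hj_step h1 hB hS n
    exact ⟨⟨H', a1, by rwa [pow_succ']⟩, a3, a4⟩
  choose g hg1 hg2 using step
  let S : ∀ n, {H : ℕ → StrongDual ℝ X // L1 H c ∧ Sm H (θ ^ n)} := fun n =>
    Nat.rec ⟨H0, h0, fun x hx => Eventually.of_forall fun k => by
      have := (H0 k).le_opNorm x
      rw [pow_zero]
      nlinarith [h0.1 k, norm_nonneg x, Real.norm_eq_abs (H0 k x)]⟩ (fun n p => g n p) n
  have hS : ∀ n, S (n + 1) = g n (S n) := fun n => rfl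
  have hdom : ∀ m n, m ≤ n → ∀ x k (t : ℝ), (∀ j, k ≤ j → |(S m).1 j x| ≤ t) →
      ∀ j, k ≤ j → |(S n).1 j x| ≤ t := by
    intro m n hmn x k t ht
    induction n, hmn using Nat.le_induction with
    | base => exact ht
    | succ n hn ih =>
      intro j hj
      rw [hS]
      exact hg1 n (S n) x j t fun l hl => ih l (hj.trans hl)
  have hst : ∀ k n, k < n → (S n).1 k = (S (k + 1)).1 k := by
    intro k n hkn
    induction n with
    | zero => omega
    | succ n ih =>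
      rcases Nat.lt_succ_iff_lt_or_eq.1 hkn with h | h
      · rw [hS n, hg2 n _ k h, ih h]
      · subst h; rfl
  refine ⟨fun k => (S (k + 1)).1 k, ⟨fun k => (S (k + 1)).2.1.1 k, fun a s => ?_⟩, fun x => ?_⟩
  · have := (S (s.sup id + 1)).2.1.2 a s
    rwa [Finset.sum_congr rfl (g := fun i => a i • (S (i + 1)).1 i) fun i hi => by
      rw [hst i _ (Nat.lt_succ_of_le (Finset.le_sup (f := id) hi))]] at this
  · rw [Metric.tendsto_atTop]
    intro ε hε
    set r := ‖x‖ + 1 with hr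
    have hr0 : 0 < r := by positivity
    obtain ⟨m, hm⟩ := exists_pow_lt_of_lt_one (show 0 < ε / r by positivity) hθ
    have hx : ‖r⁻¹ • x‖ ≤ 1 := by
      rw [norm_smul, norm_inv, Real.norm_of_nonneg hr0.le, inv_mul_le_iff₀ hr0]; linarith
    obtain ⟨N, hN⟩ := eventually_atTop.1 ((S m).2.2 _ hx)
    refine ⟨max N m, fun k hk => ?_⟩
    have := hdom m (k + 1) (by omega) _ N _ hN k (by omega)
    rw [map_smul, smul_eq_mul, abs_mul, abs_inv, abs_of_pos hr0, inv_mul_le_iff₀ hr0] at this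
    rw [Real.dist_eq, sub_zero]
    rw [lt_div_iff₀ hr0] at hm
    linarith

theorem tree_step {H : ℕ → StrongDual ℝ X} {τ : ℝ}
    (h : ∀ F w, Blk F w → ¬ Sm (blk F w H) τ) (κ : ℕ → ℕ) (hκ : StrictMono κ) (N : ℕ) (σ : ℕ → ℝ)
    (hσ : ∀ s, |σ s| = 1) :
    ∃ x : X, ‖x‖ ≤ 1 ∧ ∃ φ : ℕ → ℕ, StrictMono φ ∧ ∀ j,
      τ * 2 ^ N < ∑ s ∈ Finset.range (2 ^ N), σ s * H (κ (2 ^ N * φ j + s)) x := by
  classical
  let e : ℕ → ℕ ↪ ℕ := fun k => ⟨fun s => κ (2 ^ N * k + s), fun a b hab => by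
    have := hκ.injective hab; omega⟩
  have he : ∀ k s, e k s = κ (2 ^ N * k + s) := fun k s => rfl
  let w : ℕ → ℕ → ℝ := fun k j => σ (Function.invFun κ j - 2 ^ N * k) / 2 ^ N
  have hw : ∀ k s, w k (e k s) = σ s / 2 ^ N := by
    intro k s
    simp only [w, he]
    rw [Function.leftInverse_invFun hκ.injective, Nat.add_sub_cancel_left]
  have hB : Blk (fun k => (Finset.range (2 ^ N)).map (e k)) w := by
    refine ⟨fun i j hij => ?_, fun k => ?_, fun k j hj => ?_⟩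
    · refine Finset.disjoint_left.2 ?_
      intro a h1 h2
      obtain ⟨s, hs, rfl⟩ := Finset.mem_map.1 h1
      obtain ⟨s', hs', h⟩ := Finset.mem_map.1 h2
      have h3 : 2 ^ N * j + s' = 2 ^ N * i + s := hκ.injective h
      rw [Finset.mem_range] at hs hs'
      have h4 : (2 ^ N * j + s') / 2 ^ N = (2 ^ N * i + s) / 2 ^ N := by rw [h3]
      rw [Nat.mul_add_div (by positivity), Nat.mul_add_div (by positivity), Nat.div_eq_of_lt hs,
        Nat.div_eq_of_lt hs'] at h4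
      exact hij (by omega)
    · rw [Finset.sum_map]
      simp only [hw, abs_div, hσ]
      simp
    · obtain ⟨s, hs, rfl⟩ := Finset.mem_map.1 hj
      have a1 : 2 ^ N * k + s ≤ κ (2 ^ N * k + s) := hκ.le_apply
      have a2 : 1 ≤ 2 ^ N := Nat.one_le_two_pow
      show k ≤ κ (2 ^ N * k + s)
      nlinarith
  have h1 := h _ _ hB
  unfold Sm at h1
  push Not at h1
  obtain ⟨x, hx, h1⟩ := h1
  have hb : ∀ k y, blk (fun k => (Finset.range (2 ^ N)).map (e k)) w H k y =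
      (∑ s ∈ Finset.range (2 ^ N), σ s * H (κ (2 ^ N * k + s)) y) / 2 ^ N := by
    intro k y
    unfold blk
    rw [Finset.sum_map, ContinuousLinearMap.sum_apply, Finset.sum_div]
    refine Finset.sum_congr rfl fun s _ => ?_
    rw [hw, he]
    simp; ring
  have h2 : ∃ y : X, ‖y‖ ≤ 1 ∧ ∃ᶠ k in atTop,
      τ < blk (fun k => (Finset.range (2 ^ N)).map (e k)) w H k y := by
    by_contra hc
    push Not at hc
    have a1 := hc x hx
    have a2 := hc (-x) (by simpa using hx)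
    obtain ⟨k, b1, b2, b3⟩ := (h1.and_eventually (a1.and a2)).exists
    rw [map_neg] at b3
    exact absurd b1 (not_lt.2 (abs_le.2 ⟨by linarith, b2⟩))
  obtain ⟨y, hy, h2⟩ := h2
  obtain ⟨φ, hφ, h3⟩ := extraction_of_frequently_atTop h2
  refine ⟨y, hy, φ, hφ, fun j => ?_⟩
  have := h3 j
  rwa [hb, lt_div_iff₀ (by positivity)] at this

theorem psi_mono (N : ℕ) {φ : ℕ → ℕ} (hφ : StrictMono φ) :
    StrictMono fun p => 2 ^ N * φ (p / 2 ^ N) + p % 2 ^ N := by
  intro p p' hp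
  dsimp only
  have h1 : p / 2 ^ N ≤ p' / 2 ^ N := Nat.div_le_div_right hp.le
  have h2 := Nat.div_add_mod p (2 ^ N)
  have h3 := Nat.div_add_mod p' (2 ^ N)
  rcases h1.eq_or_lt with h | h
  · rw [h] at h2 ⊢; omega
  · have a1 := hφ h
    have a2 : p % 2 ^ N < 2 ^ N := Nat.mod_lt _ (by positivity)
    have a3 : 2 ^ N * (φ (p / 2 ^ N) + 1) ≤ 2 ^ N * φ (p' / 2 ^ N) := Nat.mul_le_mul_left _ a1
    rw [mul_add] at a3
    omega

theorem tree {H : ℕ → StrongDual ℝ X} {τ : ℝ}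
    (h : ∀ F w, Blk F w → ¬ Sm (blk F w H) τ) (σ : ℕ → ℕ → ℝ) (hσ : ∀ r s, |σ r s| = 1)
    (hper : ∀ r N s, r ≤ N → σ r (2 ^ N + s) = σ r s) :
    ∃ (κ : ℕ → ℕ → ℕ) (x : ℕ → X), (∀ N, StrictMono (κ N)) ∧ (∀ r, ‖x r‖ ≤ 1) ∧ ∀ N, ∀ r < N, ∀ j,
      τ * 2 ^ N < ∑ s ∈ Finset.range (2 ^ N), σ r s * H (κ N (2 ^ N * j + s)) (x r) := by
  choose x hx φ hφ hxφ using fun (κ : {κ : ℕ → ℕ // StrictMono κ}) (N : ℕ) =>
    tree_step h κ.1 κ.2 N (σ N) (hσ N)
  let K : ℕ → {κ : ℕ → ℕ // StrictMono κ} := fun N =>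
    Nat.rec ⟨id, strictMono_id⟩
      (fun N κ => ⟨κ.1 ∘ fun p => 2 ^ N * φ κ N (p / 2 ^ N) + p % 2 ^ N,
        κ.2.comp (psi_mono N (hφ κ N))⟩) N
  have hK : ∀ N j s, s < 2 ^ N → (K (N + 1)).1 (2 ^ N * j + s) =
      (K N).1 (2 ^ N * φ (K N) N j + s) := by
    intro N j s hs
    show (K N).1 (2 ^ N * φ (K N) N ((2 ^ N * j + s) / 2 ^ N) + (2 ^ N * j + s) % 2 ^ N) = _
    rw [Nat.mul_add_div (by positivity), Nat.div_eq_of_lt hs, Nat.mul_add_mod, Nat.mod_eq_of_lt hs,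
      add_zero]
  refine ⟨fun N => (K N).1, fun r => x (K r) r, fun N => (K N).2, fun r => hx _ _, fun N => ?_⟩
  induction N with
  | zero => simp
  | succ N ih =>
    intro r hr j
    have key : ∀ j, τ * 2 ^ N <
        ∑ s ∈ Finset.range (2 ^ N), σ r s * H ((K (N + 1)).1 (2 ^ N * j + s)) (x (K r) r) := by
      intro j
      rw [Finset.sum_congr rfl (g := fun s => σ r s * H ((K N).1 (2 ^ N * φ (K N) N j + s))
        (x (K r) r)) fun s hs => by rw [hK N j s (Finset.mem_range.1 hs)]]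
      rcases Nat.lt_succ_iff_lt_or_eq.1 hr with h1 | h1
      · exact ih r h1 _
      · subst h1; exact hxφ _ _ _
    rw [sum_double, Finset.sum_add_distrib]
    have a1 := key (2 * j)
    have a2 := key (2 * j + 1)
    have e1 : ∀ s, 2 ^ (N + 1) * j + s = 2 ^ N * (2 * j) + s := fun s => by ring
    have e2 : ∀ s, 2 ^ (N + 1) * j + (2 ^ N + s) = 2 ^ N * (2 * j + 1) + s := fun s => by ring
    simp only [e2, hper r N _ (by omega)]
    simp only [e1]
    rw [pow_succ]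
    linarith

theorem hj_l2 {H : ℕ → StrongDual ℝ X} (hH : ∀ k, ‖H k‖ ≤ 1) {t : ℝ} (ht : 0 < t) (hS : Sm H t)
    (h : ∀ F w, Blk F w → ¬ Sm (blk F w H) (255 / 256 * t)) :
    ∃ g : ℕ → StrongDual ℝ X, ∀ (a : ℕ → ℝ) (m : ℕ),
      t / 16 * √(∑ i ∈ Finset.range m, a i ^ 2) ≤ ‖∑ i ∈ Finset.range m, a i • g i‖ ∧
      ‖∑ i ∈ Finset.range m, a i • g i‖ ≤ √(∑ i ∈ Finset.range m, a i ^ 2) := by
  classical
  obtain ⟨en, hen⟩ := exists_surjective_nat (Finset ℕ)
  let σ : ℕ → ℕ → ℝ := fun r s =>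
    if s % 2 ^ r.unpair.2 ∈ en r.unpair.1 then 1 else -1
  obtain ⟨κ, x, hκ, hx, hT⟩ := tree h σ (fun r s => by simp only [σ]; split_ifs <;> simp) (by
    intro r N s hr
    simp only [σ]
    obtain ⟨d, rfl⟩ := Nat.exists_eq_add_of_le ((Nat.unpair_right_le r).trans hr)
    rw [pow_add, Nat.mul_add_mod])
  let G : ℕ → ℕ → StrongDual ℝ X := fun i N =>
    ((2 : ℝ) ^ N)⁻¹ • ∑ s ∈ Finset.range (2 ^ N), rad i s • H (κ N (2 ^ N * N + s))
  have hG : ∀ i N, ‖G i N‖ ≤ 1 := by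
    intro i N
    simp only [G]
    rw [norm_smul, norm_inv, Real.norm_of_nonneg (by positivity), inv_mul_le_iff₀ (by positivity)]
    refine (norm_sum_le _ _).trans ?_
    refine (Finset.sum_le_sum (g := fun _ => (1 : ℝ)) fun s _ => ?_).trans (by simp)
    rw [norm_smul, Real.norm_eq_abs, abs_rad, one_mul]; exact hH _
  choose g hg using fun i => ulim_clm (hyperfilter ℕ) (G i) 1 (hG i)
  have hlim : ∀ (a : ℕ → ℝ) (m : ℕ) (y : X), Tendsto (fun N => ((2 : ℝ) ^ N)⁻¹ *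
      ∑ s ∈ Finset.range (2 ^ N), RS a m s * H (κ N (2 ^ N * N + s)) y) (hyperfilter ℕ)
      (𝓝 ((∑ i ∈ Finset.range m, a i • g i) y)) := by
    intro a m y
    rw [ContinuousLinearMap.sum_apply]
    refine (tendsto_finset_sum (Finset.range m) fun i _ => (hg i y).const_mul (a i)).congr fun N => ?_
    simp only [G, RS, ContinuousLinearMap.smul_apply, ContinuousLinearMap.sum_apply, smul_eq_mul,
      Finset.sum_mul, Finset.mul_sum]
    rw [Finset.sum_comm]
    exact Finset.sum_congr rfl fun s _ => Finset.sum_congr rfl fun i _ => by ring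
  refine ⟨g, fun a m => ⟨?_, ?_⟩⟩
  · obtain ⟨A, hA⟩ := hen ((Finset.range (2 ^ m)).filter fun s => 0 ≤ RS a m s)
    let r := Nat.pair A m
    have hσ : ∀ s, σ r s = if 0 ≤ RS a m s then 1 else -1 := by
      intro s
      simp only [σ, r, Nat.unpair_pair, hA, Finset.mem_filter,
        Finset.mem_range, RS_mod, Nat.mod_lt s (show 0 < 2 ^ m by positivity), true_and]
    obtain ⟨k0, hk0⟩ := eventually_atTop.1 (hS _ (hx r))
    have : t / 16 * √(∑ i ∈ Finset.range m, a i ^ 2) ≤ (∑ i ∈ Finset.range m, a i • g i) (x r) := by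
      refine ge_of_tendsto (hlim a m (x r)) (Nat.hyperfilter_le_atTop ?_)
      filter_upwards [eventually_ge_atTop m, eventually_gt_atTop r, eventually_ge_atTop k0]
        with N h1 h2 h3
      rw [le_inv_mul_iff₀ (by positivity)]
      refine khin a h1 _ t ht.le (fun s => hk0 _ ?_) ?_
      · have a1 : 2 ^ N * N + s ≤ κ N (2 ^ N * N + s) := (hκ N).le_apply
        have a2 : 1 ≤ 2 ^ N := Nat.one_le_two_pow
        nlinarith
      · have := hT N r h2 N
        simp only [hσ] at this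
        exact this.le
    refine this.trans ((le_abs_self _).trans ?_)
    have a1 := (∑ i ∈ Finset.range m, a i • g i).le_opNorm (x r)
    rw [Real.norm_eq_abs] at a1
    nlinarith [hx r, norm_nonneg (∑ i ∈ Finset.range m, a i • g i)]
  · refine ContinuousLinearMap.opNorm_le_bound _ (by positivity) fun y => ?_
    refine le_of_tendsto (hlim a m y).norm (Nat.hyperfilter_le_atTop ?_)
    filter_upwards [eventually_ge_atTop m] with N h1
    rw [norm_mul, norm_inv, Real.norm_of_nonneg (by positivity), inv_mul_le_iff₀ (by positivity),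
      ← mul_assoc]
    refine (norm_sum_le _ _).trans ?_
    refine le_trans ?_ (mul_le_mul_of_nonneg_right (mom1 a h1) (norm_nonneg y))
    rw [Finset.sum_mul]
    refine Finset.sum_le_sum fun s _ => ?_
    rw [norm_mul, Real.norm_eq_abs]
    gcongr
    have := (H (κ N (2 ^ N * N + s))).le_opNorm y
    nlinarith [hH (κ N (2 ^ N * N + s)), norm_nonneg y]

theorem chain_of_l2 [CompleteSpace X] (g : ℕ → StrongDual ℝ X) (c : ℝ) (hc : 0 < c)
    (h : ∀ (a : ℕ → ℝ) (m : ℕ),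
      c * √(∑ i ∈ Finset.range m, a i ^ 2) ≤ ‖∑ i ∈ Finset.range m, a i • g i‖ ∧
      ‖∑ i ∈ Finset.range m, a i • g i‖ ≤ √(∑ i ∈ Finset.range m, a i ^ 2)) : Chain ℝ X := by
  classical
  have h' : ∀ (a : ℕ → ℝ) (s : Finset ℕ), c * √(∑ i ∈ s, a i ^ 2) ≤ ‖∑ i ∈ s, a i • g i‖ ∧
      ‖∑ i ∈ s, a i • g i‖ ≤ √(∑ i ∈ s, a i ^ 2) := by
    intro a s
    have hs : s ⊆ Finset.range (s.sup id + 1) := fun i hi =>
      Finset.mem_range.2 (Nat.lt_succ_of_le (Finset.le_sup (f := id) hi))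
    have := h (fun i => if i ∈ s then a i else 0) (s.sup id + 1)
    simp only [ite_pow, ite_smul, zero_smul, ne_eq, OfNat.ofNat_ne_zero, not_false_eq_true,
      zero_pow, Finset.sum_ite_mem, Finset.inter_eq_right.2 hs] at this
    exact this
  refine ub0 g c⁻¹ (by positivity) (fun n h0 => ?_) (fun a A B hAB => ?_) fun x ε hε => ?_
  · have := (h' (fun _ => 1) {n}).1
    simp [h0] at this
    linarith
  · rw [le_inv_mul_iff₀ hc]
    refine le_trans ?_ (h' a B).1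
    gcongr
    refine (h' a A).2.trans (Real.sqrt_le_sqrt ?_)
    exact Finset.sum_le_sum_of_subset_of_nonneg hAB fun _ _ _ => sq_nonneg _
  · have hs : Summable fun i => g i x ^ 2 := by
      refine summable_of_sum_le (c := ‖x‖ ^ 2) (fun _ => sq_nonneg _) fun s => ?_
      have a1 := (h' (fun i => g i x) s).2
      have a2 := (∑ i ∈ s, g i x • g i).le_opNorm x
      have a3 : (∑ i ∈ s, g i x • g i) x = ∑ i ∈ s, g i x ^ 2 := by
        simp [ContinuousLinearMap.sum_apply, sq]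
      have a4 : 0 ≤ ∑ i ∈ s, g i x ^ 2 := Finset.sum_nonneg fun _ _ => sq_nonneg _
      rw [a3, Real.norm_of_nonneg a4] at a2
      have a5 := Real.sq_sqrt a4
      have a6 : ∑ i ∈ s, g i x ^ 2 ≤ √(∑ i ∈ s, g i x ^ 2) * ‖x‖ := a2.trans (by gcongr)
      nlinarith [sq_nonneg (√(∑ i ∈ s, g i x ^ 2) - ‖x‖)]
    obtain ⟨s0, hs0⟩ := summable_iff_vanishing_norm.1 hs ((ε * c) ^ 2) (by positivity)
    refine ⟨s0.sup id + 1, fun a s hs => ?_⟩
    have b1 := hs0 s (Finset.disjoint_left.2 fun i hi hi' => by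
      have := hs i hi
      have : i ≤ s0.sup id := Finset.le_sup (f := id) hi'
      omega)
    rw [Real.norm_of_nonneg (Finset.sum_nonneg fun _ _ => sq_nonneg _)] at b1
    have b2 : (∑ i ∈ s, a i • g i) x = ∑ i ∈ s, a i * g i x := by
      simp [ContinuousLinearMap.sum_apply]
    have b3 := Finset.sum_mul_sq_le_sq_mul_sq s a fun i => g i x
    have a4 : 0 ≤ ∑ i ∈ s, a i ^ 2 := Finset.sum_nonneg fun _ _ => sq_nonneg _
    rw [b2]
    calc |∑ i ∈ s, a i * g i x| ≤ ε * (c * √(∑ i ∈ s, a i ^ 2)) := by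
          refine abs_le_of_sq_le_sq ?_ (by positivity)
          rw [← mul_assoc, mul_pow, Real.sq_sqrt a4]
          nlinarith
      _ ≤ _ := by gcongr; exact (h' a s).1

theorem chain_of_null [CompleteSpace X] (d : ℕ → StrongDual ℝ X) (c : ℝ) (hc : 0 < c) (hd : L1 d c)
    (h : ∀ x, Tendsto (fun k => d k x) atTop (𝓝 0)) : Chain ℝ X := by
  refine ub0 d c⁻¹ (by positivity) (fun n h0 => ?_) (fun a A B hAB => ?_) fun x ε hε => ?_
  · have := hd.2 (fun _ => 1) {n}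
    simp [h0] at this
    linarith
  · rw [le_inv_mul_iff₀ hc]
    refine le_trans ?_ (hd.2 a B)
    gcongr
    refine (norm_sum_le _ _).trans (le_trans (Finset.sum_le_sum fun i _ => ?_)
      (Finset.sum_le_sum_of_subset_of_nonneg hAB fun _ _ _ => abs_nonneg _))
    rw [norm_smul, Real.norm_eq_abs]
    nlinarith [hd.1 i, abs_nonneg (a i)]
  · obtain ⟨N, hN⟩ := Metric.tendsto_atTop.1 (h x) (ε * c) (by positivity)
    refine ⟨N, fun a s hs => ?_⟩
    rw [ContinuousLinearMap.sum_apply]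
    refine (Finset.abs_sum_le_sum_abs _ _).trans (le_trans ?_
      (mul_le_mul_of_nonneg_left (hd.2 a s) hε.le))
    rw [← mul_assoc, Finset.mul_sum]
    refine Finset.sum_le_sum fun i hi => ?_
    have := hN i (hs i hi)
    rw [Real.dist_eq, sub_zero] at this
    rw [ContinuousLinearMap.smul_apply, smul_eq_mul, abs_mul, mul_comm]
    gcongr

theorem hj [CompleteSpace X] (H0 : ℕ → StrongDual ℝ X) (c : ℝ) (hc : 0 < c) (h0 : L1 H0 c) :
    Chain ℝ X := by
  by_cases h : ∀ H : ℕ → StrongDual ℝ X, L1 H c → ∀ t, 0 < t → Sm H t →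
      ∃ F w, Blk F w ∧ Sm (blk F w H) (255 / 256 * t)
  · obtain ⟨d, h1, h2⟩ := hj_null c (255 / 256) (by norm_num) (by norm_num) H0 h0 h
    exact chain_of_null d c hc h1 h2
  · push Not at h
    obtain ⟨H, h1, t, ht, h2, h3⟩ := h
    obtain ⟨g, hg⟩ := hj_l2 h1.1 ht h2 h3
    exact chain_of_l2 g (t / 16) (by positivity) hg

theorem chain_of_unc [CompleteSpace X] (f : ℕ → StrongDual ℝ X) (K : ℝ) (hK : 0 ≤ K)
    (hne : ∀ n, f n ≠ 0) (hU : Unc f K) : Chain ℝ X := by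
  by_cases hT : Tails f
  · exact ub0 f K hK hne hU hT
  · obtain ⟨h, c, hc, h1⟩ := l1_of_not_tails f K hK hU hT
    exact hj h c hc h1

end Vale.Agent.P129
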