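import Vale.Agent.P129.PosRiesz

/-! Iterated total measures on sequences. -/

namespace Vale.Agent.P129

open Filter Topology MeasureTheory

/-- sequences, with every set measurable -/
def Sq (T : Type*) := ℕ → T

instance (T : Type*) : MeasurableSpace (Sq T) := ⊤

instance (T : Type*) : DiscreteMeasurableSpace (Sq T) := ⟨fun _ => trivial⟩

instance (T : Type*) [Inhabited T] : Inhabited (Sq T) := ⟨fun _ => default⟩

variable {T : Type*}

/-- prepend a term -/
def Sq.cons (a : T) (s : Sq T) : Sq T := fun n => Nat.casesOn n a fun k => s k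

@[simp] theorem Sq.cons_zero (a : T) (s : Sq T) : Sq.cons a s 0 = a := rfl
@[simp] theorem Sq.cons_succ (a : T) (s : Sq T) (k : ℕ) : Sq.cons a s (k + 1) = s k := rfl

variable [MeasurableSpace T] [Inhabited T]

/-- iterated measure on the first `m` coordinates -/
noncomputable def it : ℕ → (ℕ → Measure T) → Measure (Sq T)
  | 0, _ => Measure.dirac default
  | m + 1, lam => (lam 0).bind fun a => (it m fun n => lam (n + 1)).map (Sq.cons a)

variable [DiscreteMeasurableSpace T]

theorem it_succ_apply (m : ℕ) (lam : ℕ → Measure T) (A : Set (Sq T)) :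
    it (m + 1) lam A = ∫⁻ a, it m (fun n => lam (n + 1)) (Sq.cons a ⁻¹' A) ∂lam 0 := by
  rw [it, Measure.bind_apply MeasurableSet.of_discrete (Measurable.of_discrete).aemeasurable]
  simp only [Measure.map_apply Measurable.of_discrete MeasurableSet.of_discrete]

theorem it_prob (m : ℕ) (lam : ℕ → Measure T) (h : ∀ n, IsProbabilityMeasure (lam n)) :
    IsProbabilityMeasure (it m lam) := by
  induction m generalizing lam with
  | zero => rw [it]; infer_instance
  | succ m ih =>
    constructor
    haveI := ih (fun n => lam (n + 1)) fun n => h _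
    haveI := h 0
    rw [it_succ_apply]; simp

theorem ae_it_succ (m : ℕ) (lam : ℕ → Measure T) (P : Sq T → Prop) :
    (∀ᵐ b ∂it (m + 1) lam, P b) ↔
      ∀ᵐ a ∂lam 0, ∀ᵐ s ∂it m (fun n => lam (n + 1)), P (Sq.cons a s) := by
  rw [ae_iff, it_succ_apply, lintegral_eq_zero_iff Measurable.of_discrete]
  rfl

theorem ae_it_coord (m : ℕ) (lam : ℕ → Measure T) (P : ℕ → T → Prop)
    (h : ∀ i, ∀ᵐ a ∂lam i, P i a) : ∀ᵐ b ∂it m lam, ∀ i < m, P i (b i) := by
  induction m generalizing lam P with
  | zero => simp
  | succ m ih =>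
    rw [ae_it_succ]
    filter_upwards [h 0] with a ha
    filter_upwards [ih (fun n => lam (n + 1)) (fun i => P (i + 1)) fun i => h _] with s hs i hi
    cases i with
    | zero => exact ha
    | succ i => exact hs i (by omega)

theorem it_box (m : ℕ) (lam : ℕ → Measure T) (h : ∀ n, IsProbabilityMeasure (lam n))
    (A : Fin m → Set T) : it m lam {b | ∀ i : Fin m, b i ∈ A i} = ∏ i : Fin m, lam i (A i) := by
  induction m generalizing lam with
  | zero => rw [it]; simp
  | succ m ih =>
    rw [it_succ_apply, Fin.prod_univ_succ]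
    have := ih (fun n => lam (n + 1)) (fun n => h _) (fun i => A i.succ)
    simp only [Fin.val_zero, Fin.val_succ]
    rw [← this, mul_comm, ← lintegral_indicator_const MeasurableSet.of_discrete]
    congr 1
    ext a
    by_cases ha : a ∈ A 0
    · rw [Set.indicator_of_mem ha]
      congr 1
      ext s
      simp [Fin.forall_fin_succ, ha]
    · rw [Set.indicator_of_notMem ha]
      have : Sq.cons a ⁻¹' {b | ∀ i : Fin (m + 1), b i ∈ A i} = ∅ := by
        ext s
        simp [Fin.forall_fin_succ, ha]
      rw [this, measure_empty]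

theorem it_select (lam : ℕ → Measure T) (h : ∀ n, IsProbabilityMeasure (lam n))
    (P : ℕ → Sq T → Prop) (hP : ∀ m, ∀ᵐ b ∂it m lam, P m b) :
    ∃ α : ℕ → T, ∀ m, P m fun i => if i < m then α i else default := by
  let St := {p : (ℕ → Measure T) × (ℕ → Sq T → Prop) //
    (∀ n, IsProbabilityMeasure (p.1 n)) ∧ ∀ m, ∀ᵐ b ∂it m p.1, p.2 m b}
  have step : ∀ p : St, ∃ a : T, ∀ m, ∀ᵐ s ∂it m (fun n => p.1.1 (n + 1)),
      p.1.2 (m + 1) (Sq.cons a s) := by
    intro p
    haveI := p.2.1 0
    exact (ae_all_iff.2 fun m => (ae_it_succ m _ _).1 (p.2.2 (m + 1))).exists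
  choose a ha using step
  let nx : St → St := fun p => ⟨(fun n => p.1.1 (n + 1), fun m s => p.1.2 (m + 1) (Sq.cons (a p) s)),
    fun n => p.2.1 _, ha p⟩
  have key : ∀ m (p : St), p.1.2 m fun i => if i < m then a (nx^[i] p) else default := by
    intro m
    induction m with
    | zero =>
      intro p
      have := p.2.2 0
      rw [it, ae_dirac_iff MeasurableSet.of_discrete] at this
      exact this
    | succ m ih =>
      intro p
      have h1 : p.1.2 (m + 1) (Sq.cons (a p) fun i => if i < m then a (nx^[i] (nx p)) else default) :=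
        ih (nx p)
      have h2 : (Sq.cons (a p) fun i => if i < m then a (nx^[i] (nx p)) else default) =
          fun i => if i < m + 1 then a (nx^[i] p) else default := by
        funext i
        cases i with
        | zero => simp; rfl
        | succ i => simp [Function.iterate_succ_apply]; rfl
      rwa [h2] at h1
  exact ⟨fun i => a (nx^[i] ⟨(lam, P), h, hP⟩), fun m => key m ⟨(lam, P), h, hP⟩⟩

theorem ae_it_perm {Ω : Type*} [MeasurableSpace Ω] (ν : Measure T) [IsProbabilityMeasure ν]
    (c : T → Ω) (m : ℕ) (σ : Equiv.Perm (Fin m)) (W : Set (Fin m → Ω)) (hW : MeasurableSet W)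
    (h : ∀ᵐ b ∂it m (fun _ => ν), (fun i : Fin m => c (b (σ i))) ∈ W) :
    ∀ᵐ b ∂it m (fun _ => ν), (fun i : Fin m => c (b i)) ∈ W := by
  haveI : IsProbabilityMeasure (ν.map c) :=
    Measure.isProbabilityMeasure_map (Measurable.of_discrete).aemeasurable
  have key : ∀ τ : Equiv.Perm (Fin m), Measure.pi (fun _ : Fin m => ν.map c) =
      (it m fun _ => ν).map fun (b : Sq T) (i : Fin m) => c (b (τ i)) := by
    intro τ
    refine Measure.pi_eq fun s hs => ?_
    rw [Measure.map_apply Measurable.of_discrete (MeasurableSet.univ_pi hs)]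
    have := it_box m (fun _ => ν) (fun _ => inferInstance) fun i => c ⁻¹' s (τ.symm i)
    rw [← Equiv.prod_comp τ] at this
    simp only [Equiv.symm_apply_apply] at this
    simp only [Measure.map_apply Measurable.of_discrete (hs _)]
    rw [← this]
    congr 1
    ext b
    simp only [Set.mem_preimage, Set.mem_pi, Set.mem_univ, true_imp_iff, Set.mem_setOf_eq]
    exact ⟨fun h i => by simpa using h (τ.symm i), fun h i => by simpa using h (τ i)⟩
  have h1 := (ae_map_iff (Measurable.of_discrete).aemeasurable hW).2 h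
  rw [← key σ, key 1] at h1
  exact (ae_map_iff (Measurable.of_discrete).aemeasurable hW).1 h1

theorem ae_it_incr [LinearOrder T] (ν : Measure T) (hν : ∀ a, ∀ᵐ b ∂ν, a < b) (m : ℕ) :
    ∀ᵐ b ∂it m (fun _ => ν), ∀ j < m, ∀ i < j, b i < b j := by
  induction m with
  | zero => simp
  | succ m ih =>
    rw [ae_it_succ]
    refine Eventually.of_forall fun a => ?_
    filter_upwards [ih, ae_it_coord m (fun _ => ν) (fun _ b => a < b) fun _ => hν a]
      with s h1 h2 j hj i hi
    obtain ⟨j, rfl⟩ : ∃ k, j = k + 1 := ⟨j - 1, by omega⟩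
    cases i with
    | zero => exact h2 j (by omega)
    | succ i => exact h1 j (by omega) i (by omega)

theorem rat_closed (C : Set (ℕ → ℝ)) (hC : IsClosed C)
    (hq : ∀ q : ℕ →₀ ℚ, (fun n => (q n : ℝ)) ∈ C) (a : ℕ → ℝ) : a ∈ C := by
  classical
  choose r hr using fun k n : ℕ => exists_rat_near (a n) (Nat.one_div_pos_of_nat (n := k) (α := ℝ))
  let q : ℕ → ℕ →₀ ℚ := fun k => Finsupp.onFinset (Finset.range k)
    (fun n => if n < k then r k n else 0) fun n hn => by
      by_contra h; exact hn (if_neg (by simpa using h))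
  refine hC.mem_of_tendsto (b := atTop) (f := fun k n => (q k n : ℝ)) ?_
    (Eventually.of_forall fun k => hq _)
  rw [tendsto_pi_nhds]
  intro n
  rw [tendsto_iff_norm_sub_tendsto_zero]
  refine squeeze_zero' (Eventually.of_forall fun _ => norm_nonneg _) ?_
    tendsto_one_div_add_atTop_nhds_zero_nat
  filter_upwards [eventually_gt_atTop n] with k hk
  simp only [q, Finsupp.onFinset_apply, if_pos hk]
  rw [Real.norm_eq_abs, abs_sub_comm]
  exact (hr k n).le

end Vale.Agent.P129
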