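import Vale.Agent.P129.PosIt

/-! Unconditional sequences from long sequences indexed by a total measure space. -/

namespace Vale.Agent.P129

open Filter Topology MeasureTheory

variable {Z : Type*} [NormedAddCommGroup Z] [NormedSpace ℝ Z]

theorem rm_ae {T : Type*} [MeasurableSpace T] [Inhabited T] [DiscreteMeasurableSpace T]
    (hno : ¬ ∃ (h : ℕ → Z) (c : ℝ), 0 < c ∧ L1 h c) (j : ℕ) :
    ∀ (m : ℕ) (lam : ℕ → Measure T) (_ : ∀ n, IsProbabilityMeasure (lam n)) (u : ℕ → T → Z)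
      (_ : ∀ n, ∃ M, ∀ b, ‖u n b‖ ≤ M) (ε : ℕ → ℝ) (_ : ∀ n, 0 ≤ ε n)
      (_ : ∀ n, ∀ y : StrongDual ℝ Z, ∀ᵐ b ∂lam n, y (u n b) ≤ ε n * ‖y‖) (g : Z) (a : ℕ → ℝ),
      j < m → ∀ᵐ b ∂it m lam, ‖g + ∑ n ∈ Finset.range m, a n • u n (b n) - a j • u j (b j)‖ ≤
        ‖g + ∑ n ∈ Finset.range m, a n • u n (b n)‖ + ε j * |a j| := by
  induction j with
  | zero =>
    intro m lam hp u hM ε hε hu g a hm
    obtain ⟨m, rfl⟩ : ∃ k, m = k + 1 := ⟨m - 1, by omega⟩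
    rw [ae_it_succ]
    haveI := it_prob m (fun n => lam (n + 1)) fun n => hp _
    choose x hx1 hx2 using fun s : Sq T =>
      exists_dual_vector'' ℝ (g + ∑ n ∈ Finset.range m, a (n + 1) • u (n + 1) (s n))
    obtain ⟨M, hM0⟩ := hM 0
    have := swap_ae (lam 0) (it m fun n => lam (n + 1)) hno (u 0) M hM0 (ε 0) (hu 0) (hε 0)
      (fun s => (if 0 ≤ a 0 then (-1 : ℝ) else 1) • x s) (fun s => by
        rw [norm_smul]; split_ifs <;> simpa using hx1 s)
    filter_upwards [this] with b hb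
    filter_upwards [hb] with s hs
    simp only [Finset.sum_range_succ', Sq.cons_zero, Sq.cons_succ]
    set w := ∑ n ∈ Finset.range m, a (n + 1) • u (n + 1) (s n) with hw
    have e1 : g + (w + a 0 • u 0 b) - a 0 • u 0 b = g + w := by abel
    have e2 : x s (g + (w + a 0 • u 0 b)) = ‖g + w‖ + a 0 * x s (u 0 b) := by
      rw [← add_assoc, map_add, hx2 s]; simp [hw]
    have e3 := (x s).le_opNorm (g + (w + a 0 • u 0 b))
    have e4 : -(a 0 * x s (u 0 b)) ≤ ε 0 * |a 0| := by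
      simp only [ContinuousLinearMap.smul_apply, smul_eq_mul] at hs
      split_ifs at hs with h
      · rw [abs_of_nonneg h]; nlinarith
      · rw [abs_of_neg (not_le.1 h)]; nlinarith
    rw [e1]
    rw [Real.norm_eq_abs] at e3
    nlinarith [le_abs_self (x s (g + (w + a 0 • u 0 b))), hx1 s,
      norm_nonneg (g + (w + a 0 • u 0 b))]
  | succ j ih =>
    intro m lam hp u hM ε hε hu g a hm
    obtain ⟨m, rfl⟩ : ∃ k, m = k + 1 := ⟨m - 1, by omega⟩
    rw [ae_it_succ]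
    refine Eventually.of_forall fun b => ?_
    filter_upwards [ih m (fun n => lam (n + 1)) (fun n => hp _) (fun n => u (n + 1)) (fun n => hM _)
      (fun n => ε (n + 1)) (fun n => hε _) (fun n => hu _) (g + a 0 • u 0 b) (fun n => a (n + 1))
      (by omega)] with s hs
    simp only [Finset.sum_range_succ', Sq.cons_zero, Sq.cons_succ]
    have e : ∀ w : Z, g + (w + a 0 • u 0 b) = g + a 0 • u 0 b + w := fun w => by abel
    rw [e]
    exact hs

theorem unc_of_rm (f : ℕ → Z) (hf : ∀ n, 1 ≤ ‖f n‖)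
    (h : ∀ (a : ℕ → ℝ) (B : Finset ℕ), ∀ j ∈ B,
      ‖∑ i ∈ B.erase j, a i • f i‖ ≤ ‖∑ i ∈ B, a i • f i‖ + (1 / 2) ^ j / 2 * |a j|) :
    Unc f (Real.exp 4) := by
  classical
  have h1 : ∀ (a : ℕ → ℝ) (B : Finset ℕ), ∀ j ∈ B,
      ‖∑ i ∈ B.erase j, a i • f i‖ ≤ Real.exp (2 * (1 / 2) ^ j) * ‖∑ i ∈ B, a i • f i‖ := by
    intro a B j hj
    have a1 := h a B j hj
    have a2 : a j • f j = ∑ i ∈ B, a i • f i - ∑ i ∈ B.erase j, a i • f i := by
      rw [← Finset.add_sum_erase B _ hj]; abel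
    have a3 : |a j| ≤ ‖a j • f j‖ := by
      rw [norm_smul, Real.norm_eq_abs]; nlinarith [hf j, abs_nonneg (a j)]
    have a4 := norm_sub_le (∑ i ∈ B, a i • f i) (∑ i ∈ B.erase j, a i • f i)
    rw [← a2] at a4
    have a5 : ((1 : ℝ) / 2) ^ j ≤ 1 := pow_le_one₀ (by norm_num) (by norm_num)
    have a6 : (0 : ℝ) ≤ (1 / 2) ^ j := by positivity
    have a7 : |a j| ≤ 4 * ‖∑ i ∈ B, a i • f i‖ := by nlinarith [abs_nonneg (a j)]
    have a8 := Real.add_one_le_exp (2 * (1 / 2) ^ j)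
    nlinarith [norm_nonneg (∑ i ∈ B, a i • f i), mul_le_mul_of_nonneg_left a7 a6]
  have h2 : ∀ (a : ℕ → ℝ) (A D : Finset ℕ), Disjoint A D →
      ‖∑ i ∈ A, a i • f i‖ ≤ Real.exp (2 * ∑ j ∈ D, (1 / 2) ^ j) * ‖∑ i ∈ A ∪ D, a i • f i‖ := by
    intro a A D
    induction D using Finset.induction_on with
    | empty => simp
    | insert j D hj ih =>
      intro hd
      rw [Finset.disjoint_insert_right] at hd
      have a1 := h1 a (A ∪ insert j D) j (by simp)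
      have a2 : (A ∪ insert j D).erase j = A ∪ D := by
        ext i; by_cases hi : i = j
        · subst hi; simp [hj, hd.1]
        · simp [hi]
      rw [a2] at a1
      refine (ih hd.2).trans ?_
      rw [Finset.sum_insert hj, mul_add, add_comm, Real.exp_add, mul_assoc]
      gcongr
  intro a A B hAB
  have := h2 a A (B \ A) Finset.disjoint_sdiff
  rw [Finset.union_sdiff_of_subset hAB] at this
  refine this.trans ?_
  gcongr
  have := summable_geometric_two.sum_le_tsum (B \ A) fun _ _ => by positivity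
  rw [tsum_geometric_two] at this
  linarith

theorem unc_i {T : Type*} [MeasurableSpace T] [Inhabited T] [DiscreteMeasurableSpace T]
    (hno : ¬ ∃ (h : ℕ → Z) (c : ℝ), 0 < c ∧ L1 h c) (lam : ℕ → Measure T)
    (hp : ∀ n, IsProbabilityMeasure (lam n)) (u : ℕ → T → Z) (hM : ∀ n, ∃ M, ∀ b, ‖u n b‖ ≤ M)
    (h1 : ∀ n, ∀ᵐ b ∂lam n, 1 ≤ ‖u n b‖)
    (hu : ∀ n, ∀ y : StrongDual ℝ Z, ∀ᵐ b ∂lam n, y (u n b) ≤ (1 / 2) ^ n / 2 * ‖y‖) :
    ∃ (f : ℕ → Z) (K : ℝ), 0 ≤ K ∧ (∀ n, f n ≠ 0) ∧ Unc f K := by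
  classical
  obtain ⟨α, hα⟩ := it_select lam hp (fun m b => (∀ i < m, 1 ≤ ‖u i (b i)‖) ∧
    ∀ q : ℕ →₀ ℚ, ∀ j < m,
      ‖0 + ∑ n ∈ Finset.range m, (q n : ℝ) • u n (b n) - (q j : ℝ) • u j (b j)‖ ≤
        ‖0 + ∑ n ∈ Finset.range m, (q n : ℝ) • u n (b n)‖ + (1 / 2) ^ j / 2 * |(q j : ℝ)|) (by
    intro m
    refine (ae_it_coord m lam (fun i b => 1 ≤ ‖u i b‖) h1).and ?_
    rw [ae_all_iff]
    intro q
    rw [ae_all_iff]
    intro j
    by_cases hj : j < m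
    · filter_upwards [rm_ae hno j m lam hp u hM (fun n => (1 / 2) ^ n / 2) (fun n => by positivity)
        hu 0 (fun n => (q n : ℝ)) hj] with b hb _ using hb
    · exact Eventually.of_forall fun b h => absurd h hj)
  have hf : ∀ n, 1 ≤ ‖u n (α n)‖ := fun n => by simpa using (hα (n + 1)).1 n (by omega)
  refine ⟨fun n => u n (α n), Real.exp 4, (Real.exp_pos _).le, fun n h0 => ?_,
    unc_of_rm _ hf fun a B j hj => ?_⟩
  · have := hf n
    simp only at h0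
    rw [h0, norm_zero] at this
    linarith
  · refine rat_closed {a | ‖∑ i ∈ B.erase j, a i • u i (α i)‖ ≤
      ‖∑ i ∈ B, a i • u i (α i)‖ + (1 / 2) ^ j / 2 * |a j|} (isClosed_le (by fun_prop) (by fun_prop))
      (fun q => ?_) a
    set m := B.sup id + 1 with hm
    have hB : B ⊆ Finset.range m := fun i hi =>
      Finset.mem_range.2 (Nat.lt_succ_of_le (Finset.le_sup (f := id) hi))
    have hjm := Finset.mem_range.1 (hB hj)
    have := (hα m).2 (q.filter (· ∈ B)) j hjm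
    have e : ∑ n ∈ Finset.range m, ((q.filter (· ∈ B)) n : ℝ) • u n (if n < m then α n else default)
        = ∑ i ∈ B, (q i : ℝ) • u i (α i) := by
      rw [← Finset.sum_subset hB]
      · refine Finset.sum_congr rfl fun i hi => ?_
        simp [hi, Finset.mem_range.1 (hB hi)]
      · intro i _ hi
        simp [hi]
    beta_reduce at this
    rw [e] at this
    simp only [zero_add, Finsupp.filter_apply, if_pos hj, if_pos hjm] at this
    have e2 : ∑ i ∈ B, (q i : ℝ) • u i (α i) - (q j : ℝ) • u j (α j)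
        = ∑ i ∈ B.erase j, (q i : ℝ) • u i (α i) := by
      rw [← Finset.add_sum_erase B _ hj, add_sub_cancel_left]
    rw [e2] at this
    exact this

/-- evaluation of a rational pattern -/
noncomputable def pv {J : Type*} (f : J → Z) (m : ℕ) (q : Fin m → ℚ) (b : Sq J) : Z :=
  ∑ i : Fin m, (q i : ℝ) • f (b i)

theorem exhaust {T : Type*} [MeasurableSpace T] [DiscreteMeasurableSpace T] (ρ : Measure T)
    [IsFiniteMeasure ρ] (v : T → Z) (ε : ℝ) (hε : 0 ≤ ε)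
    (H : ∀ B : Set T, ρ B ≠ 0 → (∀ b ∈ B, 1 ≤ ‖v b‖) →
      ∃ y : StrongDual ℝ Z, ¬ ∀ᵐ b ∂ρ.restrict B, y (v b) ≤ ε * ‖y‖) :
    ∃ D : Set (StrongDual ℝ Z), D.Countable ∧ (∀ y ∈ D, ‖y‖ ≤ 1) ∧
      ∀ᵐ b ∂ρ, 1 ≤ ‖v b‖ → ∃ y ∈ D, ε < y (v b) := by
  obtain ⟨D, hD1, hD2, hD3⟩ := Measure.exists_ae_subset_biUnion_countable ρ
    (C := Set.range fun y : StrongDual ℝ Z => {b | ε * ‖y‖ < y (v b)})
    fun _ _ => MeasurableSet.of_discrete
  choose y hy using fun s : D => hD1 s.2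
  haveI := hD2.to_subtype
  refine ⟨Set.range fun s : D => ‖y s‖⁻¹ • y s, Set.countable_range _, ?_, ?_⟩
  · rintro _ ⟨s, rfl⟩
    rw [norm_smul, norm_inv, norm_norm]
    exact inv_mul_le_one_of_le₀ le_rfl (norm_nonneg _)
  · have : ρ ({b | 1 ≤ ‖v b‖} \ ⋃₀ D) = 0 := by
      by_contra hc
      obtain ⟨z, hz⟩ := H _ hc fun b hb => hb.1
      apply hz
      rw [ae_restrict_iff' MeasurableSet.of_discrete]
      filter_upwards [hD3 _ ⟨z, rfl⟩] with b hb hb'
      by_contra h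
      exact hb'.2 (hb (not_le.1 h))
    filter_upwards [measure_eq_zero_iff_ae_notMem.1 this] with b hb h1
    obtain ⟨s, hs, hbs⟩ : b ∈ ⋃₀ D := by
      by_contra h; exact hb ⟨h1, h⟩
    have h2 : b ∈ (⟨s, hs⟩ : D).1 := hbs
    rw [← hy ⟨s, hs⟩] at h2
    have h3 : ε * ‖y ⟨s, hs⟩‖ < y ⟨s, hs⟩ (v b) := h2
    have h4 : 0 < ‖y ⟨s, hs⟩‖ := by
      rw [norm_pos_iff]
      intro h0
      simp [h0] at h3
    refine ⟨_, ⟨⟨s, hs⟩, rfl⟩, ?_⟩
    simp only [ContinuousLinearMap.smul_apply, smul_eq_mul]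
    rw [lt_inv_mul_iff₀ h4]
    linarith

theorem unc_ii {J : Type*} [LinearOrder J] [MeasurableSpace J] [Inhabited J]
    [DiscreteMeasurableSpace J] (ν : Measure J) [IsProbabilityMeasure ν]
    (hν : ∀ a, ∀ᵐ b ∂ν, a < b) (f : J → Z) (hf : ∀ a, f a ≠ 0)
    (hmono : ∀ (m : ℕ) (q : Fin m → ℚ) (b : Fin m → J) (A : Finset (Fin m)),
      (∀ i ∈ A, ∀ j ∉ A, b i < b j) →
        ‖∑ i ∈ A, (q i : ℝ) • f (b i)‖ ≤ 2 * ‖∑ i, (q i : ℝ) • f (b i)‖)
    (ε : ℝ) (hε : 0 < ε)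
    (H : ∀ (m : ℕ) (q : Fin m → ℚ) (B : Set (Sq J)), it m (fun _ => ν) B ≠ 0 →
      (∀ b ∈ B, 1 ≤ ‖pv f m q b‖) → ∃ y : StrongDual ℝ Z,
        ¬ ∀ᵐ b ∂(it m fun _ => ν).restrict B, y (pv f m q b) ≤ ε * ‖y‖) :
    ∃ (g : ℕ → Z) (K : ℝ), 0 ≤ K ∧ (∀ n, g n ≠ 0) ∧ Unc g K := by
  classical
  haveI := fun m => it_prob m (fun _ => ν) fun _ => inferInstance
  choose D hD1 hD2 hD3 using fun (m : ℕ) (q : Fin m → ℚ) =>
    exhaust (it m fun _ => ν) (pv f m q) ε hε.le (H m q)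
  obtain ⟨y, hy⟩ := ((Set.countable_iUnion fun m => Set.countable_iUnion fun q => hD1 m q).insert
    0).exists_eq_range (Set.insert_nonempty _ _)
  have hy1 : ∀ k, ‖y k‖ ≤ 1 := by
    intro k
    have : y k ∈ insert 0 (⋃ m, ⋃ q, D m q) := hy ▸ ⟨k, rfl⟩
    rcases this with h | h
    · simp [h]
    · simp only [Set.mem_iUnion] at h
      obtain ⟨m, q, h⟩ := h
      exact hD2 m q _ h
  have hy2 : ∀ m q, ∀ᵐ b ∂it m fun _ => ν, ∀ r : ℚ, 0 < r → r ≤ ‖pv f m q b‖ →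
      ∃ k, ε * r < y k (pv f m q b) := by
    intro m q
    rw [ae_all_iff]
    intro r
    filter_upwards [hD3 m fun i => r⁻¹ * q i] with b hb hr h1
    have hr' : (0 : ℝ) < r := by exact_mod_cast hr
    have e : pv f m (fun i => r⁻¹ * q i) b = (r : ℝ)⁻¹ • pv f m q b := by
      simp [pv, Finset.smul_sum, mul_smul]
    rw [e] at hb
    obtain ⟨z, hz, h2⟩ := hb (by
      rw [norm_smul, norm_inv, Real.norm_of_nonneg hr'.le, le_inv_mul_iff₀ hr']; linarith)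
    have : z ∈ Set.range y := hy ▸ Or.inr (Set.mem_iUnion.2 ⟨m, Set.mem_iUnion.2 ⟨_, hz⟩⟩)
    obtain ⟨k, rfl⟩ := this
    rw [map_smul, smul_eq_mul, lt_inv_mul_iff₀ hr'] at h2
    exact ⟨k, by linarith⟩
  have main : ∀ (m : ℕ) (q : Fin m → ℚ) (A : Finset (Fin m)), ∀ᵐ b ∂it m fun _ => ν,
      ‖∑ i ∈ A, (q i : ℝ) • f (b i)‖ ≤ 2 / ε ^ 2 * ‖∑ i : Fin m, (q i : ℝ) • f (b i)‖ := by
    intro m q A
    let W : Set (Fin m → ℕ → ℝ) := {ω | ∀ (k : ℕ) (r : ℚ), 0 < r → (r : ℝ) < ∑ i ∈ A, q i * ω i k →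
      ∃ k', ε * r / 2 < ∑ i, q i * ω i k'}
    have hW : MeasurableSet W := by
      refine measurableSet_setOf.2 (Measurable.forall fun k => Measurable.forall fun r =>
        Measurable.imp measurable_const (Measurable.imp ?_ (Measurable.exists fun k' => ?_)))
      · exact measurableSet_setOf.1 (measurableSet_lt measurable_const (by fun_prop))
      · exact measurableSet_setOf.1 (measurableSet_lt measurable_const (by fun_prop))
    let τ := Tuple.sort fun i : Fin m => if i ∈ A then 0 else 1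
    have hτ : ∀ i ∈ A, ∀ j ∉ A, τ.symm i < τ.symm j := by
      intro i hi j hj
      by_contra hc
      have := Tuple.monotone_sort (fun i : Fin m => if i ∈ A then 0 else 1) (not_lt.1 hc)
      simp [τ, hi, hj] at this
    have h1 := ae_it_perm ν (fun a k => y k (f a)) m τ.symm W hW (by
      filter_upwards [ae_it_incr ν hν m, hy2 m fun i => q (τ i)] with b b1 b2 k r hr h3
      have c1 := hmono m q (fun i => b (τ.symm i)) A fun i hi j hj =>
        b1 _ (τ.symm j).2 _ (hτ i hi j hj)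
      have c2 : pv f m (fun i => q (τ i)) b = ∑ i, (q i : ℝ) • f (b (τ.symm i)) := by
        rw [pv, ← Equiv.sum_comp τ.symm]; simp
      have c3 : ∑ i ∈ A, (q i : ℝ) * y k (f (b (τ.symm i))) =
          y k (∑ i ∈ A, (q i : ℝ) • f (b (τ.symm i))) := by simp
      rw [c3] at h3
      have c4 := (y k).le_opNorm (∑ i ∈ A, (q i : ℝ) • f (b (τ.symm i)))
      have c5 := le_abs_self (y k (∑ i ∈ A, (q i : ℝ) • f (b (τ.symm i))))
      rw [Real.norm_eq_abs] at c4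
      obtain ⟨k', hk'⟩ := b2 (r / 2) (by positivity) (by
        rw [c2]; push_cast
        nlinarith [hy1 k, norm_nonneg (∑ i ∈ A, (q i : ℝ) • f (b (τ.symm i)))])
      refine ⟨k', ?_⟩
      rw [c2] at hk'
      push_cast at hk'
      simp only [map_sum, map_smul, smul_eq_mul] at hk'
      linarith)
    filter_upwards [h1, hy2 m fun i => if i ∈ A then q i else 0] with b b1 b2
    have c2 : pv f m (fun i => if i ∈ A then q i else 0) b = ∑ i ∈ A, (q i : ℝ) • f (b i) := by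
      simp [pv, apply_ite (fun x : ℚ => (x : ℝ)), ite_smul]
    rw [c2] at b2
    by_contra hc
    obtain ⟨r, hr1, hr2⟩ := exists_rat_btwn (not_le.1 hc)
    have hr0 : (0 : ℝ) < r := lt_of_le_of_lt (by positivity) hr1
    obtain ⟨k, hk⟩ := b2 r (by exact_mod_cast hr0) hr2.le
    obtain ⟨r', hr3, hr4⟩ := exists_rat_btwn hk
    have hr5 : (0 : ℝ) < r' := lt_trans (by positivity) hr3
    obtain ⟨k', hk'⟩ := b1 k r' (by exact_mod_cast hr5) (by simpa using hr4)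
    have c3 : ∑ i : Fin m, (q i : ℝ) * y k' (f (b i)) = y k' (∑ i : Fin m, (q i : ℝ) • f (b i)) := by
      simp
    rw [c3] at hk'
    have c4 := (y k').le_opNorm (∑ i : Fin m, (q i : ℝ) • f (b i))
    have c5 := le_abs_self (y k' (∑ i : Fin m, (q i : ℝ) • f (b i)))
    rw [Real.norm_eq_abs] at c4
    have c6 : ε * r' / 2 < ‖∑ i : Fin m, (q i : ℝ) • f (b i)‖ := by
      nlinarith [hy1 k', norm_nonneg (∑ i : Fin m, (q i : ℝ) • f (b i))]
    rw [div_mul_eq_mul_div, div_lt_iff₀ (by positivity)] at hr1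
    nlinarith [mul_lt_mul_of_pos_left hr3 hε]
  obtain ⟨α, hα⟩ := it_select (fun _ => ν) (fun _ => inferInstance)
    (fun m b => ∀ (q : Fin m → ℚ) (A : Finset (Fin m)),
      ‖∑ i ∈ A, (q i : ℝ) • f (b i)‖ ≤ 2 / ε ^ 2 * ‖∑ i : Fin m, (q i : ℝ) • f (b i)‖)
    fun m => ae_all_iff.2 fun q => ae_all_iff.2 fun A => main m q A
  refine ⟨fun n => f (α n), 2 / ε ^ 2, by positivity, fun n => hf _, fun a A B hAB => ?_⟩
  refine rat_closed {a | ‖∑ i ∈ A, a i • f (α i)‖ ≤ 2 / ε ^ 2 * ‖∑ i ∈ B, a i • f (α i)‖}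
    (isClosed_le (by fun_prop) (by fun_prop)) (fun q => ?_) a
  set m := B.sup id + 1 with hm
  have hB : B ⊆ Finset.range m := fun i hi =>
    Finset.mem_range.2 (Nat.lt_succ_of_le (Finset.le_sup (f := id) hi))
  have := hα m (fun i => if (i : ℕ) ∈ B then q i else 0) (Finset.univ.filter fun i => (i : ℕ) ∈ A)
  simp only [Fin.is_lt, if_true, Finset.sum_filter] at this
  rw [Fin.sum_univ_eq_sum_range (fun i => if i ∈ A then
      (((if i ∈ B then q i else 0 : ℚ)) : ℝ) • f (α i) else 0),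
    Fin.sum_univ_eq_sum_range (fun i => (((if i ∈ B then q i else 0 : ℚ)) : ℝ) • f (α i))] at this
  simp only [apply_ite (fun x : ℚ => (x : ℝ)), ite_smul, Rat.cast_zero, zero_smul,
    Finset.sum_ite_mem, Finset.inter_eq_right.2 hB, Finset.inter_eq_right.2 (hAB.trans hB),
    Finset.inter_eq_left.2 hAB] at this
  exact this

theorem unc_large {J : Type*} [LinearOrder J] [MeasurableSpace J] [Inhabited J]
    [DiscreteMeasurableSpace J] (ν : Measure J) [IsProbabilityMeasure ν]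
    (hν : ∀ a, ∀ᵐ b ∂ν, a < b) (f : J → Z) (hf : ∀ a, ‖f a‖ = 1)
    (hmono : ∀ (m : ℕ) (q : Fin m → ℚ) (b : Fin m → J) (A : Finset (Fin m)),
      (∀ i ∈ A, ∀ j ∉ A, b i < b j) →
        ‖∑ i ∈ A, (q i : ℝ) • f (b i)‖ ≤ 2 * ‖∑ i, (q i : ℝ) • f (b i)‖)
    (hno : ¬ ∃ (h : ℕ → Z) (c : ℝ), 0 < c ∧ L1 h c) :
    ∃ (g : ℕ → Z) (K : ℝ), 0 ≤ K ∧ (∀ n, g n ≠ 0) ∧ Unc g K := by
  by_cases H : ∃ n : ℕ, ∀ (m : ℕ) (q : Fin m → ℚ) (B : Set (Sq J)), it m (fun _ => ν) B ≠ 0 →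
      (∀ b ∈ B, 1 ≤ ‖pv f m q b‖) → ∃ y : StrongDual ℝ Z,
        ¬ ∀ᵐ b ∂(it m fun _ => ν).restrict B, y (pv f m q b) ≤ (1 / 2) ^ n / 2 * ‖y‖
  · obtain ⟨n, H⟩ := H
    exact unc_ii ν hν f (fun a h => by simpa [h] using hf a) hmono _ (by positivity) H
  · push Not at H
    choose m q B h1 h2 h3 using H
    haveI := fun m => it_prob m (fun _ => ν) fun _ => inferInstance
    refine unc_i hno (fun n => ProbabilityTheory.cond (it (m n) fun _ => ν) (B n))
      (fun n => ProbabilityTheory.cond_isProbabilityMeasure (h1 n)) (fun n => pv f (m n) (q n))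
      (fun n => ⟨∑ i, |(q n i : ℝ)|, fun b => ?_⟩)
      (fun n => ProbabilityTheory.ae_cond_of_forall_mem MeasurableSet.of_discrete (h2 n))
      fun n y => Measure.ae_smul_measure (h3 n y) _
    refine (norm_sum_le _ _).trans (le_of_eq (Finset.sum_congr rfl fun i _ => ?_))
    rw [norm_smul, hf, mul_one, Real.norm_eq_abs]

end Vale.Agent.P129
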