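import Vale.Agent.P129.PosLarge

/-! A total extension of Lebesgue measure gives separable quotients. -/

namespace Vale.Agent.P129

open Filter Topology MeasureTheory Cardinal

universe u

theorem rec_choose {J A : Type*} [Preorder J] [WellFoundedLT J]
    (P : (a : J) → (Set.Iio a → A) → A → Prop) (h : ∀ a g, ∃ x, P a g x) :
    ∃ f : J → A, ∀ a, P a (fun b => f b) (f a) := by
  let F : (a : J) → ((b : J) → b < a → A) → A := fun a prev =>
    (h a fun b => prev b.1 b.2).choose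
  refine ⟨(wellFounded_lt (α := J)).fix F, fun a => ?_⟩
  rw [WellFounded.fix_eq]
  exact (h a fun b => (wellFounded_lt (α := J)).fix F b.1).choose_spec

/-- rational combination coded by a list -/
noncomputable def lc {Z ι : Type*} [AddCommGroup Z] [Module ℝ Z] (d : ι → Z) (L : List (ℚ × ι)) : Z :=
  (L.map fun p => (p.1 : ℝ) • d p.2).sum

variable {X : Type*} [NormedAddCommGroup X] [NormedSpace ℝ X]

theorem kill_or_dense {ι : Type*} (d : ι → X) :
    DenseRange (lc d) ∨ ∃ φ : StrongDual ℝ X, ‖φ‖ = 1 ∧ ∀ i, φ (d i) = 0 := by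
  have h1 : ∀ x ∈ Set.range (lc d), ∀ y ∈ Set.range (lc d), x + y ∈ Set.range (lc d) := by
    rintro _ ⟨L, rfl⟩ _ ⟨L', rfl⟩
    exact ⟨L ++ L', by simp [lc]⟩
  have h2 : ∀ q : ℚ, ∀ x ∈ Set.range (lc d), (q : ℝ) • x ∈ Set.range (lc d) := by
    rintro q _ ⟨L, rfl⟩
    refine ⟨L.map fun p => (q * p.1, p.2), ?_⟩
    simp only [lc, List.map_map, List.smul_sum]
    congr 1
    refine List.map_congr_left fun p _ => ?_
    simp [mul_smul]
  have h3 : ∀ t : ℝ, ∀ x ∈ Set.range (lc d), t • x ∈ closure (Set.range (lc d)) := by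
    intro t x hx
    refine Rat.denseRange_cast.induction_on (p := fun t : ℝ => t • x ∈ closure (Set.range (lc d)))
      t ?_ fun q => subset_closure (h2 q x hx)
    exact isClosed_closure.preimage (by fun_prop)
  let M : Submodule ℝ X :=
    { carrier := closure (Set.range (lc d))
      add_mem' := fun ha hb => map_mem_closure₂ continuous_add ha hb h1
      zero_mem' := subset_closure ⟨[], by simp [lc]⟩
      smul_mem' := fun t x hx => by
        have := map_mem_closure (continuous_const_smul t) hx (h3 t)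
        rwa [closure_closure] at this }
  by_cases hM : M = ⊤
  · exact Or.inl fun x => (Submodule.eq_top_iff'.1 hM x : x ∈ M)
  · obtain ⟨φ, h4, h5⟩ := exists_kill M isClosed_closure hM
    exact Or.inr ⟨φ, h4, fun i => h5 _ (subset_closure ⟨[(1, i)], by simp [lc]⟩)⟩

theorem mk_list_lt {κ : Cardinal.{0}} (hκ : ℵ₀ < κ) {ι : Type} (h : #ι < κ) :
    #(List (ℚ × ι)) < κ := by
  refine (mk_list_le_max _).trans_lt (max_lt hκ ?_)
  rw [mk_prod, lift_id, lift_id]
  exact mul_lt_of_lt hκ.le (by simpa using hκ) h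

theorem chain_real [CompleteSpace X] (hX : ¬ FiniteDimensional ℝ X) {Ω : Type} [MeasurableSpace Ω]
    [DiscreteMeasurableSpace Ω] (μ : Measure Ω) [IsProbabilityMeasure μ]
    (r : ∀ n : ℕ, Ω → Fin (4 ^ n))
    (hr : ∀ n j, μ (r n ⁻¹' {j}) ≤ ENNReal.ofReal (1 / 4 ^ n)) : Chain ℝ X := by
  classical
  by_cases hno : ∃ (h : ℕ → StrongDual ℝ X) (c : ℝ), 0 < c ∧ L1 h c
  · obtain ⟨h, c, hc, h1⟩ := hno
    exact hj h c hc h1
  have hsing : ∀ ω, μ {ω} = 0 := by
    intro ω
    have l : Tendsto (fun n : ℕ => ENNReal.ofReal (1 / 4 ^ n)) atTop (𝓝 0) := by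
      have := ENNReal.tendsto_ofReal
        (tendsto_pow_atTop_nhds_zero_of_lt_one (r := (1 / 4 : ℝ)) (by norm_num) (by norm_num))
      simpa using this
    refine le_antisymm (ge_of_tendsto' l fun n => ?_) (by simp)
    exact (measure_mono (by simp)).trans (hr n (r n ω))
  let S : Set Cardinal.{0} :=
    {c | ∃ (ι : Type) (N : ι → Set Ω), #ι = c ∧ (∀ i, μ (N i) = 0) ∧ μ (⋃ i, N i) ≠ 0}
  have hS : S.Nonempty := ⟨#Ω, Ω, fun ω => {ω}, rfl, hsing, by
    rw [Set.iUnion_of_singleton]; simp⟩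
  obtain ⟨ι, N, hι, hN, hU⟩ : sInf S ∈ S := csInf_mem hS
  set κ := sInf S with hκ
  have hadd : ∀ (ι : Type) (N : ι → Set Ω), #ι < κ → (∀ i, μ (N i) = 0) → μ (⋃ i, N i) = 0 := by
    intro ι N h1 h2
    by_contra hc
    exact absurd (csInf_le' (show #ι ∈ S from ⟨ι, N, rfl, h2, hc⟩)) (not_le.2 h1)
  have hκ0 : ℵ₀ < κ := by
    by_contra hc
    haveI : Countable ι := mk_le_aleph0_iff.1 (hι ▸ not_lt.1 hc)
    exact hU (measure_iUnion_null hN)
  by_cases hsm : ∃ (ι : Type) (d : ι → X), #ι < κ ∧ DenseRange d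
  · obtain ⟨ι', d, h1, h2⟩ := hsm
    refine chain_of_sn (sn_small hX μ r hr d h2 fun N hN => ?_)
    have := (measure_eq_zero_iff_ae_notMem.1 (hadd ι' N h1 hN)).exists
    simpa using this
  push Not at hsm
  let J := κ.ord.ToType
  obtain ⟨e⟩ : Nonempty (J ≃ ι) := Cardinal.eq.1 (by rw [hι]; exact mk_ord_toType κ)
  have hIio : ∀ a : J, #(Set.Iio a) < κ := fun a => mk_Iio_toType_ord_lt a
  have hne : Nonempty ι := by
    by_contra hc
    rw [not_nonempty_iff] at hc
    exact hU (by simp)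
  letI : Inhabited J := ⟨e.symm (Classical.arbitrary ι)⟩
  letI : MeasurableSpace J := ⊤
  haveI : DiscreteMeasurableSpace J := ⟨fun _ => trivial⟩
  have hidx : ∀ ω, ∃ a : J, ω ∈ ⋃ i, N i → ω ∈ N (e a) := by
    intro ω
    by_cases h : ω ∈ ⋃ i, N i
    · obtain ⟨i, hi⟩ := Set.mem_iUnion.1 h
      exact ⟨e.symm i, fun _ => by simpa using hi⟩
    · exact ⟨default, fun h' => absurd h' h⟩
  choose idx hidx using hidx
  haveI := ProbabilityTheory.cond_isProbabilityMeasure (μ := μ) hU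
  let ν : Measure J := (ProbabilityTheory.cond μ (⋃ i, N i)).map idx
  haveI : IsProbabilityMeasure ν :=
    Measure.isProbabilityMeasure_map (Measurable.of_discrete).aemeasurable
  have hν : ∀ a, ∀ᵐ b ∂ν, a < b := by
    intro a
    rw [ae_map_iff (Measurable.of_discrete).aemeasurable MeasurableSet.of_discrete]
    have a1 := measure_eq_zero_iff_ae_notMem.1 (hadd _ (fun b : Set.Iio a => N (e b)) (hIio a)
      fun b => hN _)
    have a2 := measure_eq_zero_iff_ae_notMem.1 (hN (e a))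
    filter_upwards [ProbabilityTheory.cond_absolutelyContinuous.ae_le (a1.and a2),
      ProbabilityTheory.ae_cond_mem (μ := μ) (s := ⋃ i, N i) MeasurableSet.of_discrete]
      with ω h1 h2
    by_contra hc
    rcases (not_lt.1 hc).lt_or_eq with h | h
    · exact h1.1 (Set.mem_iUnion.2 ⟨⟨idx ω, h⟩, hidx ω h2⟩)
    · exact h1.2 (h ▸ hidx ω h2)
  have hxg : ∀ g : StrongDual ℝ X, ∃ x : X, ‖x‖ ≤ 1 ∧ ‖g‖ ≤ 2 * ‖g x‖ := by
    intro g
    by_cases h0 : g = 0
    · exact ⟨0, by simp, by simp [h0]⟩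
    · have := norm_pos_iff.2 h0
      obtain ⟨x, h1, h2⟩ := g.exists_lt_apply_of_lt_opNorm (r := ‖g‖ / 2) (by linarith)
      exact ⟨x, h1.le, by linarith⟩
  choose xg hxg1 hxg2 using hxg
  obtain ⟨f, hf⟩ := rec_choose (J := J) (A := StrongDual ℝ X)
    (fun a g φ => ‖φ‖ = 1 ∧ ∀ L, φ (xg (lc g L)) = 0) fun a g =>
      (kill_or_dense fun L => xg (lc g L)).resolve_left
        (hsm _ _ (mk_list_lt hκ0 (mk_list_lt hκ0 (hIio a))))
  obtain ⟨g, K, hK, hg, hU⟩ := unc_large ν hν f (fun a => (hf a).1) (by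
    intro m q b A hA
    set v := ∑ i ∈ A, (q i : ℝ) • f (b i) with hv
    have h1 : ∀ j ∉ A, f (b j) (xg v) = 0 := by
      intro j hj
      have := (hf (b j)).2 (A.attach.toList.map fun i : A => (q i.1, ⟨b i.1, hA i.1 i.2 j hj⟩))
      simp only [lc, List.map_map, Function.comp_def, Finset.sum_map_toList] at this
      rwa [Finset.sum_attach A fun i => (q i : ℝ) • f (b i)] at this
    have h2 : (∑ i, (q i : ℝ) • f (b i)) (xg v) = v (xg v) := by
      rw [← Finset.sum_add_sum_compl A, ← hv, ContinuousLinearMap.add_apply, _root_.add_eq_left,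
        ContinuousLinearMap.sum_apply]
      refine Finset.sum_eq_zero fun j hj => ?_
      simp [h1 j (by simpa using hj)]
    have h3 := (∑ i, (q i : ℝ) • f (b i)).le_opNorm (xg v)
    rw [h2] at h3
    nlinarith [hxg1 v, hxg2 v, norm_nonneg (∑ i, (q i : ℝ) • f (b i))]) hno
  exact chain_of_unc g K hK hg hU

theorem pos (hmu : ∃ mu : @MeasureTheory.Measure ℝ ⊤,
      ∀ s, MeasurableSet s → mu s = MeasureTheory.volume s)
    (K : Type*) [RCLike K] (X : Type u) [NormedAddCommGroup X] [NormedSpace K X] [CompleteSpace X]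
    (h : ¬ FiniteDimensional K X) :
    ∃ M : Submodule K X, IsClosed (M : Set X) ∧ TopologicalSpace.SeparableSpace (X ⧸ M) ∧
      ¬ FiniteDimensional K (X ⧸ M) := by
  obtain ⟨mu, hmu⟩ := hmu
  letI : NormedSpace ℝ X := NormedSpace.restrictScalars ℝ K X
  haveI : IsScalarTower ℝ K X := RestrictScalars.isScalarTower ℝ K X
  have hX : ¬ FiniteDimensional ℝ X := fun h' => h (Module.Finite.of_restrictScalars_finite ℝ K X)
  refine sq_of_chain (chain_rclike (@chain_real X _ _ _ hX ℝ ⊤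
    (@DiscreteMeasurableSpace.mk ℝ ⊤ fun _ => trivial)
    (mu.restrict (Set.Ico 0 1)) (@IsProbabilityMeasure.mk ℝ ⊤ _ ?_)
    (fun n ω => ⟨⌊4 ^ n * ω⌋₊ % 4 ^ n, Nat.mod_lt _ (by positivity)⟩) fun n j => ?_))
  · rw [Measure.restrict_apply_univ, hmu _ measurableSet_Ico]; simp
  · rw [Measure.restrict_apply MeasurableSpace.measurableSet_top]
    refine (measure_mono (t := Set.Ico ((j : ℝ) / 4 ^ n) (((j : ℝ) + 1) / 4 ^ n)) ?_).trans ?_
    · rintro ω ⟨h1, h2, h3⟩
      have h4 : (0 : ℝ) < 4 ^ n := by positivity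
      have h5 : ⌊4 ^ n * ω⌋₊ < 4 ^ n := by
        rw [Nat.floor_lt (by positivity)]; push_cast; nlinarith
      have h6 : ⌊4 ^ n * ω⌋₊ = j := by
        have : ⌊4 ^ n * ω⌋₊ % 4 ^ n = j := congrArg Fin.val h1
        rwa [Nat.mod_eq_of_lt h5] at this
      rw [Nat.floor_eq_iff (by positivity)] at h6
      constructor
      · rw [div_le_iff₀ h4]; linarith [h6.1]
      · rw [lt_div_iff₀ h4]; linarith [h6.2]
    · rw [hmu _ measurableSet_Ico, Real.volume_Ico]
      apply le_of_eq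
      congr 1
      ring

end Vale.Agent.P129
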