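import Vale.Agent.P129.PosS

open Filter Topology MeasureTheory

namespace Vale.Agent.P129

theorem exists_ulim' {X : Type*} [NormedAddCommGroup X] [NormedSpace ℝ X] (U : Ultrafilter ℕ)
    (u : ℕ → X →L[ℝ] ℝ) (hu : ∀ n, ‖u n‖ ≤ 1) :
    ∃ g : X →L[ℝ] ℝ, ‖g‖ ≤ 1 ∧ ∀ x, Tendsto (fun n => u n x) U (𝓝 (g x)) := by
  obtain ⟨g, hg⟩ := exists_ulim U u hu
  refine ⟨g, ContinuousLinearMap.opNorm_le_bound _ zero_le_one fun x => ?_, hg⟩
  exact le_of_tendsto' (hg x).norm fun n =>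
    ((u n).le_opNorm x).trans (by nlinarith [hu n, norm_nonneg x])

theorem ultra_cauchy (U : Ultrafilter ℕ) (v : ℕ → ℝ) (B : ℝ) (hB : ∀ n, |v n| ≤ B) {η : ℝ}
    (hη : 0 < η) : ∀ᶠ n in U, ∀ᶠ m in U, |v n - v m| ≤ η := by
  obtain ⟨l, -, hl⟩ := (isCompact_Icc (a := -B) (b := B)).ultrafilter_le_nhds (U.map v) (by
    rw [le_principal_iff, Ultrafilter.mem_coe, Ultrafilter.mem_map]
    exact univ_mem' fun n => abs_le.1 (hB n))
  have h := Metric.tendsto_nhds.1 (show Tendsto v U (𝓝 l) from hl) (η / 2) (half_pos hη)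
  filter_upwards [h] with n hn
  filter_upwards [h] with m hm
  rw [Real.dist_eq] at hn hm
  have := abs_sub_le (v n) l (v m)
  rw [abs_sub_comm l] at this
  linarith

section Riesz

variable {A : Type*} [NormedCommRing A] [NormedAlgebra ℝ A]

theorem riesz_step (E : A →L[ℝ] ℝ) (hE : ‖E‖ ≤ 1) (φ : ℕ → A) (hφ : ∀ n, ‖φ n‖ ≤ 1 / 2)
    {δ : ℝ} (hδ : ∀ n m, n ≠ m → δ ≤ E ((φ n - φ m) * (φ n - φ m))) :
    ∃ Q : A →L[ℝ] ℝ, δ ≤ Q 1 ∧ ∀ (S : Set A), S.Finite → ∀ η > 0, ∃ n m, ∀ g ∈ S,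
      |E (g * (φ n - φ m))| ≤ η ∧ |Q (g * (φ n - φ m))| ≤ η ∧
        Q g - η ≤ E (g * (φ n - φ m) * (φ n - φ m)) := by
  let U := hyperfilter ℕ
  let q : ℕ → ℕ → A →L[ℝ] ℝ := fun n m =>
    E.comp (ContinuousLinearMap.mul ℝ A ((φ n - φ m) * (φ n - φ m)))
  have hq : ∀ n m g, q n m g = E ((φ n - φ m) * (φ n - φ m) * g) := fun _ _ _ => rfl
  have hψ : ∀ n m, ‖φ n - φ m‖ ≤ 1 := fun n m => by
    linarith [norm_sub_le (φ n) (φ m), hφ n, hφ m]
  have hqn : ∀ n m, ‖q n m‖ ≤ 1 := fun n m =>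
    ContinuousLinearMap.opNorm_le_bound _ zero_le_one fun g => by
      rw [hq]
      refine (E.le_opNorm _).trans ?_
      have h1 := norm_mul_le ((φ n - φ m) * (φ n - φ m)) g
      have h2 : ‖(φ n - φ m) * (φ n - φ m)‖ ≤ 1 :=
        (norm_mul_le _ _).trans (by nlinarith [hψ n m, norm_nonneg (φ n - φ m)])
      gcongr
      nlinarith [norm_nonneg g]
  choose Q1 hQ1 hQ1' using fun n => exists_ulim' U (q n) (hqn n)
  obtain ⟨Q, hQ⟩ := exists_ulim U Q1 hQ1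
  refine ⟨Q, ge_of_tendsto' (hQ 1) fun n => ge_of_tendsto (hQ1' n 1) ?_, fun S hS η hη => ?_⟩
  · filter_upwards [Nat.hyperfilter_le_atTop (eventually_gt_atTop n)] with m hm
    rw [hq, mul_one]
    exact hδ n m hm.ne
  have hc : ∀ (Λ : A →L[ℝ] ℝ) (g : A), ∀ᶠ n in U, ∀ᶠ m in U, |Λ (g * (φ n - φ m))| ≤ η := by
    intro Λ g
    simp only [mul_sub, map_sub]
    refine ultra_cauchy U (fun n => Λ (g * φ n)) (‖Λ‖ * (‖g‖ * (1 / 2))) (fun n => ?_) hη
    refine (Λ.le_opNorm _).trans ?_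
    gcongr
    exact (norm_mul_le _ _).trans (by gcongr; exact hφ n)
  have key : ∀ g, ∀ᶠ n in U, ∀ᶠ m in U, |E (g * (φ n - φ m))| ≤ η ∧ |Q (g * (φ n - φ m))| ≤ η ∧
      Q g - η ≤ E (g * (φ n - φ m) * (φ n - φ m)) := by
    intro g
    filter_upwards [hc E g, hc Q g, (hQ g).eventually (lt_mem_nhds (sub_lt_self (Q g) hη))]
      with n h1 h2 h3
    filter_upwards [h1, h2, (hQ1' n g).eventually (lt_mem_nhds h3)] with m h4 h5 h6
    refine ⟨h4, h5, ?_⟩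
    rw [hq, mul_comm, ← mul_assoc] at h6
    exact h6.le
  obtain ⟨n, hn⟩ := ((eventually_all_finite hS).2 fun g _ => key g).exists
  obtain ⟨m, hm⟩ := ((eventually_all_finite hS).2 hn).exists
  exact ⟨n, m, hm⟩

theorem riesz_abs (E : A →L[ℝ] ℝ) (hE : ‖E‖ ≤ 1) (hE1 : E 1 = 1) (φ : ℕ → A)
    (hφ : ∀ n, ‖φ n‖ ≤ 1 / 2) {δ : ℝ} (hδ0 : 0 < δ)
    (hδ : ∀ n m, n ≠ m → δ ≤ E ((φ n - φ m) * (φ n - φ m))) :
    ∃ n m : ℕ → ℕ, ∀ θ : ℕ → ℝ, (∀ j, θ j = 1 ∨ θ j = -1) → ∀ N,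
      E (∏ j ∈ Finset.range N, (1 + θ j • (φ (n j) - φ (m j)))) ≤ 1 + δ ∧
      ∀ i < N, δ / 2 ≤ θ i *
        E ((φ (n i) - φ (m i)) * ∏ j ∈ Finset.range N, (1 + θ j • (φ (n j) - φ (m j)))) := by
  obtain ⟨Q, hQ1, hQ⟩ := riesz_step E hE φ hφ hδ
  let η : ℕ → ℝ := fun i => δ / 12 * (1 / 2) ^ i
  have hη : ∀ i, 0 < η i := fun i => by positivity
  have hη2 : ∀ i, η i = 2 * η (i + 1) := fun i => by simp only [η, pow_succ]; ring
  have hη3 : ∀ i, η i ≤ δ / 12 := fun i =>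
    mul_le_of_le_one_right (by positivity) (pow_le_one₀ (by norm_num) (by norm_num))
  choose nn mm hnm using fun (i : ℕ) (S : {S : Set A // S.Finite}) => hQ S.1 S.2 (η i) (hη i)
  let nxt : ℕ → {S : Set A // S.Finite} → {S : Set A // S.Finite} := fun i S =>
    ⟨⋃ θ ∈ ({1, -1} : Set ℝ), ((fun g => g * (1 + θ • (φ (nn i S) - φ (mm i S)))) '' S.1 ∪
      (fun g => g * (φ (nn i S) - φ (mm i S)) * (1 + θ • (φ (nn i S) - φ (mm i S)))) '' S.1),
      (Set.toFinite _).biUnion fun _ _ => (S.2.image _).union (S.2.image _)⟩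
  let G : ℕ → {S : Set A // S.Finite} := fun i => Nat.rec ⟨{1}, Set.finite_singleton _⟩ nxt i
  let ψ : ℕ → A := fun i => φ (nn i (G i)) - φ (mm i (G i))
  have hG : ∀ i, ∀ g ∈ (G i).1, ∀ θ : ℝ, (θ = 1 ∨ θ = -1) →
      g * (1 + θ • ψ i) ∈ (G (i + 1)).1 ∧ g * ψ i * (1 + θ • ψ i) ∈ (G (i + 1)).1 :=
    fun i g hg θ hθ => ⟨Set.mem_biUnion (x := θ) hθ (Or.inl ⟨g, hg, rfl⟩),
      Set.mem_biUnion (x := θ) hθ (Or.inr ⟨g, hg, rfl⟩)⟩
  have hψ : ∀ i, ∀ g ∈ (G i).1, |E (g * ψ i)| ≤ η i ∧ |Q (g * ψ i)| ≤ η i ∧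
      Q g - η i ≤ E (g * ψ i * ψ i) := fun i => hnm i (G i)
  refine ⟨fun i => nn i (G i), fun i => mm i (G i), fun θ hθ => ?_⟩
  have habs : ∀ j, |θ j| = 1 := fun j => by rcases hθ j with h | h <;> simp [h]
  have chain : ∀ Λ : A →L[ℝ] ℝ, (∀ i, ∀ g ∈ (G i).1, |Λ (g * ψ i)| ≤ η i) → ∀ i,
      ∀ g ∈ (G i).1, ∀ N, i ≤ N → g * ∏ j ∈ Finset.Ico i N, (1 + θ j • ψ j) ∈ (G N).1 ∧
        |Λ (g * ∏ j ∈ Finset.Ico i N, (1 + θ j • ψ j)) - Λ g| ≤ 2 * η i - 2 * η N := by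
    intro Λ hΛ i g hg N hN
    induction N, hN using Nat.le_induction with
    | base => simpa using hg
    | succ N hN ih =>
      rw [Finset.prod_Ico_succ_top hN, ← mul_assoc]
      refine ⟨(hG N _ ih.1 _ (hθ N)).1, ?_⟩
      have h1 := hΛ N _ ih.1
      rw [mul_add, mul_one, map_add, mul_smul_comm, map_smul, smul_eq_mul, add_sub_right_comm]
      refine (abs_add_le _ _).trans ?_
      rw [abs_mul, habs, one_mul]
      linarith [ih.2, hη2 N]
  have h0 : (1 : A) ∈ (G 0).1 := rfl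
  intro N
  refine ⟨?_, fun i hi => ?_⟩
  · have := (chain E (fun i g hg => (hψ i g hg).1) 0 1 h0 N (Nat.zero_le _)).2
    rw [one_mul, hE1, ← Finset.range_eq_Ico] at this
    linarith [(abs_le.1 this).2, hη3 0, hη N]
  · obtain ⟨h1, h2⟩ := chain Q (fun i g hg => (hψ i g hg).2.1) 0 1 h0 i (Nat.zero_le _)
    rw [one_mul, ← Finset.range_eq_Ico] at h1 h2
    set R := ∏ j ∈ Finset.range i, (1 + θ j • ψ j) with hR
    have h3 := (chain E (fun i g hg => (hψ i g hg).1) (i + 1) _ (hG i R h1 _ (hθ i)).2 N hi).2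
    have e1 : ψ i * ∏ j ∈ Finset.range N, (1 + θ j • ψ j) =
        R * ψ i * (1 + θ i • ψ i) * ∏ j ∈ Finset.Ico (i + 1) N, (1 + θ j • ψ j) := by
      rw [← Finset.prod_range_mul_prod_Ico _ hi, Finset.prod_range_succ]
      ring
    change δ / 2 ≤ θ i * E (ψ i * ∏ j ∈ Finset.range N, (1 + θ j • ψ j))
    rw [e1]
    have e2 : E (R * ψ i * (1 + θ i • ψ i)) = E (R * ψ i) + θ i * E (R * ψ i * ψ i) := by
      rw [mul_add, mul_one, map_add, mul_smul_comm, map_smul, smul_eq_mul]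
    rw [e2] at h3
    obtain ⟨h4, -, h5⟩ := hψ i R h1
    have h6 := abs_le.1 h2
    have h7 := abs_le.1 h3
    have h8 := abs_le.1 h4
    have := hη3 0
    have := hη3 i
    have := hη3 (i + 1)
    have := hη N
    have := hη i
    rcases hθ i with h | h <;> rw [h] at h7 ⊢ <;> linarith

end Riesz

theorem riesz_l1 {T : Type*} (E : lp (fun _ : T => ℝ) ⊤ →L[ℝ] ℝ) (hE : ‖E‖ ≤ 1) (hE1 : E 1 = 1)
    (hpos : ∀ g : lp (fun _ : T => ℝ) ⊤, (∀ t, 0 ≤ g t) → 0 ≤ E g)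
    (φ : ℕ → lp (fun _ : T => ℝ) ⊤) (hφ : ∀ n, ‖φ n‖ ≤ 1 / 2) {δ : ℝ} (hδ0 : 0 < δ)
    (hδ : ∀ n m, n ≠ m → δ ≤ E ((φ n - φ m) * (φ n - φ m))) :
    ∃ n m : ℕ → ℕ, ∀ (s : Finset ℕ) (a : ℕ → ℝ),
      δ / 2 / (1 + δ) * ∑ i ∈ s, |a i| ≤ ‖∑ i ∈ s, a i • (φ (n i) - φ (m i))‖ := by
  obtain ⟨n, m, h⟩ := riesz_abs E hE hE1 φ hφ hδ0 hδ
  refine ⟨n, m, fun s a => ?_⟩
  let θ : ℕ → ℝ := fun j => if 0 ≤ a j then 1 else -1
  have hθ : ∀ j, θ j = 1 ∨ θ j = -1 := fun j => by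
    simp only [θ]; split_ifs <;> simp
  obtain ⟨h1, h2⟩ := h θ hθ (s.sup id + 1)
  set R := ∏ j ∈ Finset.range (s.sup id + 1), (1 + θ j • (φ (n j) - φ (m j))) with hR
  have hR0 : ∀ t, 0 ≤ R t := by
    refine Finset.prod_induction _ (fun g : lp (fun _ : T => ℝ) ⊤ => ∀ t, 0 ≤ g t)
      (fun a b ha hb t => mul_nonneg (ha t) (hb t)) (fun t => zero_le_one) fun j _ t => ?_
    have h3 : |(φ (n j) - φ (m j)) t| ≤ 1 :=
      (lp.norm_apply_le_norm (by simp) (φ (n j) - φ (m j)) t).trans (by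
        linarith [norm_sub_le (φ (n j)) (φ (m j)), hφ (n j), hφ (m j)])
    change 0 ≤ 1 + θ j * (φ (n j) - φ (m j)) t
    rcases hθ j with h | h <;> rw [h] <;> linarith [(abs_le.1 h3).1, (abs_le.1 h3).2]
  set H := ∑ i ∈ s, a i • (φ (n i) - φ (m i)) with hH
  have h3 : E (H * R) ≤ ‖H‖ * E R := by
    have := hpos (‖H‖ • R - H * R) fun t => by
      change 0 ≤ ‖H‖ * R t - H t * R t
      have h4 : |H t| ≤ ‖H‖ := lp.norm_apply_le_norm (by simp) H t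
      nlinarith [hR0 t, le_abs_self (H t)]
    rw [map_sub, map_smul, smul_eq_mul] at this
    linarith
  have h4 : δ / 2 * ∑ i ∈ s, |a i| ≤ E (H * R) := by
    rw [hH, Finset.sum_mul, map_sum, Finset.mul_sum]
    refine Finset.sum_le_sum fun i hi => ?_
    have h5 := h2 i (Nat.lt_succ_of_le (Finset.le_sup (f := id) hi))
    rw [smul_mul_assoc, map_smul, smul_eq_mul]
    simp only [θ] at h5
    split_ifs at h5 with h6
    · rw [abs_of_nonneg h6]; nlinarith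
    · rw [abs_of_neg (not_le.1 h6)]; nlinarith [not_le.1 h6]
  rw [div_mul_eq_mul_div, div_le_iff₀ (by positivity)]
  nlinarith [norm_nonneg H]

section Swap

variable {T : Type*} [MeasurableSpace T] [DiscreteMeasurableSpace T] (τ : Measure T)
  [IsProbabilityMeasure τ]

theorem lp_integrable (g : lp (fun _ : T => ℝ) ⊤) : Integrable (fun t => g t) τ :=
  Integrable.of_bound Measurable.of_discrete.aestronglyMeasurable ‖g‖
    (Eventually.of_forall fun t => lp.norm_apply_le_norm (by simp) g t)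

/-- Integration as a functional on bounded functions. -/
noncomputable def intL : lp (fun _ : T => ℝ) ⊤ →L[ℝ] ℝ :=
  LinearMap.mkContinuous
    { toFun := fun g => ∫ t, g t ∂τ
      map_add' := fun g h => integral_add (lp_integrable τ g) (lp_integrable τ h)
      map_smul' := fun c g => integral_const_mul c fun t => g t } 1
    fun g => by
      have := norm_integral_le_of_norm_le_const (μ := τ) (f := fun t => g t) (C := ‖g‖)
        (Eventually.of_forall fun t => lp.norm_apply_le_norm (by simp) g t)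
      rw [probReal_univ, mul_one] at this
      rw [one_mul]
      exact this

theorem intL_apply (g : lp (fun _ : T => ℝ) ⊤) : intL τ g = ∫ t, g t ∂τ := rfl

variable {X : Type*} [NormedAddCommGroup X] [NormedSpace ℝ X] [CompleteSpace X]

theorem swap_one (hn : ¬SQ ℝ X) {Ω : Type*} [MeasurableSpace Ω] (P : Measure Ω)
    (u : Ω → X →L[ℝ] ℝ) (K : ℝ) (hK : 0 < K) (hu : ∀ ω, ‖u ω‖ ≤ K) (ε : ℝ) (hε : 0 ≤ ε)
    (hy : ∀ y : (X →L[ℝ] ℝ) →L[ℝ] ℝ, ∀ᵐ ω ∂P, y (u ω) ≤ ε * ‖y‖) (x : T → X)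
    (hx : ∀ t, ‖x t‖ ≤ 1) : ∀ᵐ ω ∂P, ∀ᵐ t ∂τ, u ω (x t) ≤ ε := by
  have hE : ‖intL τ‖ ≤ 1 := LinearMap.mkContinuous_norm_le _ zero_le_one _
  have hE1 : intL τ 1 = 1 := by
    rw [intL_apply]; simp [lp.infty_coeFn_one]
  have hpos : ∀ g : lp (fun _ : T => ℝ) ⊤, (∀ t, 0 ≤ g t) → 0 ≤ intL τ g := fun g hg =>
    integral_nonneg hg
  have hS : ∀ f, ‖evL x hx f‖ ≤ ‖f‖ := fun f =>
    ((evL x hx).le_opNorm f).trans (by
      nlinarith [norm_nonneg f, show ‖evL x hx‖ ≤ 1 from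
        LinearMap.mkContinuous_norm_le _ zero_le_one _])
  have hnet : ∀ δ > 0, ∃ F : Finset Ω, ∀ ω, ∃ ω' ∈ F,
      intL τ ((evL x hx (u ω') - evL x hx (u ω)) * (evL x hx (u ω') - evL x hx (u ω))) < δ := by
    intro δ hδ
    by_contra hc
    push Not at hc
    obtain ⟨w, -, hw⟩ := exists_seq_of_forall_finset_exists (fun _ : Ω => True)
      (fun ω' ω => δ ≤
        intL τ ((evL x hx (u ω') - evL x hx (u ω)) * (evL x hx (u ω') - evL x hx (u ω))))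
      (fun s _ => by obtain ⟨ω, hω⟩ := hc s; exact ⟨ω, trivial, hω⟩)
    have hr : ∀ ω, ‖(2 * K)⁻¹ • u ω‖ ≤ 1 / 2 := fun ω => by
      rw [norm_smul, norm_inv, Real.norm_of_nonneg (by positivity), inv_mul_le_iff₀ (by positivity)]
      linarith [hu ω]
    obtain ⟨n, m, h⟩ := riesz_l1 (intL τ) hE hE1 hpos (fun n => evL x hx ((2 * K)⁻¹ • u (w n)))
      (fun n => (hS _).trans (hr _)) (δ := (2 * K)⁻¹ * (2 * K)⁻¹ * δ) (by positivity) (by
        intro n m hnm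
        simp only [map_smul, ← smul_sub, smul_mul_smul_comm, smul_eq_mul]
        gcongr
        rcases lt_or_gt_of_ne hnm with h | h
        · exact hw n m h
        · rw [← neg_mul_neg, neg_sub]
          exact hw m n h)
    refine hn (sq_of_l1 ?_
      (fun i => (2 * K)⁻¹ • u (w (n i)) - (2 * K)⁻¹ • u (w (m i)))
      (fun i => (norm_sub_le _ _).trans (by linarith [hr (w (n i)), hr (w (m i))]))
      fun s a => (h s a).trans ?_)
    · positivity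
    refine le_trans (le_of_eq ?_) (hS _)
    simp only [map_sum, map_smul, map_sub]
  choose F hF using fun n : ℕ => hnet (1 / ((n : ℝ) + 1)) (by positivity)
  let g : Ω → lp (fun _ : T => ℝ) ⊤ := fun ω => ⟨fun t => max (u ω (x t) - ε) 0,
    memℓp_infty ⟨K, by
      rintro _ ⟨t, rfl⟩
      have h1 : |u ω (x t)| ≤ K :=
        ((u ω).le_opNorm _).trans (by nlinarith [hu ω, hx t, norm_nonneg (x t)])
      change |max (u ω (x t) - ε) 0| ≤ K
      rw [abs_of_nonneg (le_max_right _ _)]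
      exact max_le (by linarith [le_abs_self (u ω (x t))]) hK.le⟩⟩
  have hg : ∀ ω t, g ω t = max (u ω (x t) - ε) 0 := fun _ _ => rfl
  let y : Ω → (X →L[ℝ] ℝ) →L[ℝ] ℝ := fun ω =>
    ((intL τ).comp (ContinuousLinearMap.mul ℝ _ (g ω))).comp (evL x hx)
  have hyv : ∀ ω f, y ω f = intL τ (g ω * evL x hx f) := fun _ _ => rfl
  have hyn : ∀ ω, ‖y ω‖ ≤ intL τ (g ω) := fun ω => by
    refine ContinuousLinearMap.opNorm_le_bound _ (hpos _ fun t => le_max_right _ _) fun f => ?_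
    have h1 : ∀ t, |f (x t)| ≤ ‖f‖ := fun t =>
      (f.le_opNorm _).trans (by nlinarith [hx t, norm_nonneg f])
    have h2 := hpos (‖f‖ • g ω - g ω * evL x hx f) fun t => by
      change 0 ≤ ‖f‖ * g ω t - g ω t * f (x t)
      nlinarith [(abs_le.1 (h1 t)).2, show 0 ≤ g ω t from le_max_right _ _]
    have h3 := hpos (‖f‖ • g ω + g ω * evL x hx f) fun t => by
      change 0 ≤ ‖f‖ * g ω t + g ω t * f (x t)
      nlinarith [(abs_le.1 (h1 t)).1, show 0 ≤ g ω t from le_max_right _ _]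
    rw [map_sub, map_smul, smul_eq_mul] at h2
    rw [map_add, map_smul, smul_eq_mul] at h3
    rw [hyv, Real.norm_eq_abs, abs_le]
    constructor <;> linarith
  have hae : ∀ᵐ ω ∂P, ∀ n, ∀ ω' ∈ F n, y ω' (u ω) ≤ ε * ‖y ω'‖ :=
    ae_all_iff.2 fun n => (eventually_all_finset _).2 fun ω' _ => hy _
  filter_upwards [hae] with ω hω
  have h0 : intL τ (g ω * g ω) ≤ 0 := by
    refine ge_of_tendsto' tendsto_one_div_add_atTop_nhds_zero_nat fun n => ?_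
    obtain ⟨ω', h1, h2⟩ := hF n ω
    have h3 := hω n ω' h1
    have h4 := hpos ((2 : ℝ) • (g ω' * evL x hx (u ω) - ε • g ω') +
      (evL x hx (u ω') - evL x hx (u ω)) * (evL x hx (u ω') - evL x hx (u ω)) - g ω * g ω)
      fun t => by
        change 0 ≤ 2 * (g ω' t * u ω (x t) - ε * g ω' t) +
          (u ω' (x t) - u ω (x t)) * (u ω' (x t) - u ω (x t)) - g ω t * g ω t
        rw [hg, hg]
        rcases le_total (u ω' (x t) - ε) 0 with h5 | h5 <;>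
          rcases le_total (u ω (x t) - ε) 0 with h6 | h6
        · rw [max_eq_right h5, max_eq_right h6]; nlinarith [mul_self_nonneg (u ω' (x t) - u ω (x t))]
        · rw [max_eq_right h5, max_eq_left h6]; nlinarith
        · rw [max_eq_left h5, max_eq_right h6]
          nlinarith [mul_self_nonneg (u ω' (x t) - ε), mul_self_nonneg (u ω (x t) - ε)]
        · rw [max_eq_left h5, max_eq_left h6]; nlinarith [mul_self_nonneg (u ω' (x t) - ε)]
    rw [map_sub, map_add, map_smul, map_sub, map_smul, ← hyv, smul_eq_mul, smul_eq_mul] at h4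
    nlinarith [mul_le_mul_of_nonneg_left (hyn ω') hε]
  have h1 := (integral_eq_zero_iff_of_nonneg (fun t => mul_self_nonneg (g ω t))
    (lp_integrable τ (g ω * g ω))).1 (le_antisymm h0 (hpos (g ω * g ω) fun t => mul_self_nonneg (g ω t)))
  filter_upwards [h1] with t ht
  have h2 : g ω t = 0 := mul_self_eq_zero.1 ht
  rw [hg] at h2
  linarith [le_max_left (u ω (x t) - ε) 0]

theorem swap_ae (hn : ¬SQ ℝ X) {Ω : Type*} [MeasurableSpace Ω] (P : Measure Ω)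
    (u : Ω → X →L[ℝ] ℝ) (K : ℝ) (hK : 0 < K) (hu : ∀ ω, ‖u ω‖ ≤ K) (ε : ℝ) (hε : 0 ≤ ε)
    (hy : ∀ y : (X →L[ℝ] ℝ) →L[ℝ] ℝ, ∀ᵐ ω ∂P, |y (u ω)| ≤ ε * ‖y‖) (x : T → X)
    (hx : ∀ t, ‖x t‖ ≤ 1) : ∀ᵐ ω ∂P, ∀ᵐ t ∂τ, |u ω (x t)| ≤ ε := by
  have h1 := swap_one τ hn P u K hK hu ε hε
    (fun y => (hy y).mono fun ω h => (le_abs_self _).trans h) x hx
  have h2 := swap_one τ hn P (fun ω => -u ω) K hK (fun ω => by rw [norm_neg]; exact hu ω) ε hε
    (fun y => (hy y).mono fun ω h => by rw [map_neg]; exact (neg_le_abs _).trans h) x hx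
  filter_upwards [h1, h2] with ω h3 h4
  filter_upwards [h3, h4] with t h5 h6
  rw [neg_apply] at h6
  exact abs_le.2 ⟨by linarith, h5⟩

end Swap

end Vale.Agent.P129
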