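import Vale.Agent.P129.PosUB

/-! Rademacher sums and ultralimits of functionals. -/

namespace Vale.Agent.P129

open Filter Topology

theorem ulim_clm {Y ι : Type*} [NormedAddCommGroup Y] [NormedSpace ℝ Y] (U : Ultrafilter ι)
    (φ : ι → StrongDual ℝ Y) (C : ℝ) (hC : ∀ i, ‖φ i‖ ≤ C) :
    ∃ ψ : StrongDual ℝ Y, ∀ y, Tendsto (fun i => φ i y) U (𝓝 (ψ y)) := by
  have hb : ∀ i y, ‖φ i y‖ ≤ C * ‖y‖ := fun i y => ((φ i).le_opNorm y).trans (by gcongr; exact hC i)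
  have : ∀ y, ∃ l, Tendsto (fun i => φ i y) U (𝓝 l) := by
    intro y
    obtain ⟨l, -, hl⟩ := (isCompact_closedBall (0 : ℝ) (C * ‖y‖)).ultrafilter_le_nhds
      (U.map fun i => φ i y) (by
        rw [Ultrafilter.coe_map, le_principal_iff, mem_map]
        exact univ_mem' fun i => by simpa using hb i y)
    exact ⟨l, hl⟩
  choose l hl using this
  let L : Y →ₗ[ℝ] ℝ :=
    { toFun := l
      map_add' := fun x y => tendsto_nhds_unique (hl (x + y)) (by simpa using (hl x).add (hl y))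
      map_smul' := fun c x => tendsto_nhds_unique (hl (c • x))
        (by simpa using (hl x).const_mul c) }
  exact ⟨L.mkContinuous C fun y => le_of_tendsto' (hl y).norm fun i => hb i y, hl⟩

/-- Rademacher sign given by a binary digit -/
def rad (i s : ℕ) : ℝ := if s.testBit i then -1 else 1

/-- Rademacher sum -/
noncomputable def RS (a : ℕ → ℝ) (m s : ℕ) : ℝ := ∑ i ∈ Finset.range m, a i * rad i s

theorem abs_rad (i s : ℕ) : |rad i s| = 1 := by unfold rad; split_ifs <;> simp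

theorem RS_add (a : ℕ → ℝ) {m N : ℕ} (h : m ≤ N) (s : ℕ) : RS a m (2 ^ N + s) = RS a m s := by
  refine Finset.sum_congr rfl fun i hi => ?_
  unfold rad
  rw [Nat.testBit_two_pow_add_gt (by have := Finset.mem_range.1 hi; omega)]

theorem RS_mod (a : ℕ → ℝ) (m s : ℕ) : RS a m (s % 2 ^ m) = RS a m s := by
  refine Finset.sum_congr rfl fun i hi => ?_
  unfold rad
  simp [Finset.mem_range.1 hi]

theorem sum_double (F : ℕ → ℝ) (N : ℕ) :
    ∑ s ∈ Finset.range (2 ^ (N + 1)), F s = ∑ s ∈ Finset.range (2 ^ N), (F s + F (2 ^ N + s)) := by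
  rw [pow_succ, mul_two, Finset.sum_range_add, Finset.sum_add_distrib]

theorem RS_succ_lo (a : ℕ → ℝ) {m s : ℕ} (hs : s < 2 ^ m) : RS a (m + 1) s = RS a m s + a m := by
  unfold RS
  rw [Finset.sum_range_succ, rad, Nat.testBit_lt_two_pow hs]; simp

theorem RS_succ_hi (a : ℕ → ℝ) {m s : ℕ} (hs : s < 2 ^ m) :
    RS a (m + 1) (2 ^ m + s) = RS a m s - a m := by
  rw [← RS_add a le_rfl s]
  unfold RS
  rw [Finset.sum_range_succ, rad, Nat.testBit_two_pow_add_eq, Nat.testBit_lt_two_pow hs]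
  simp; ring

theorem mom2 (a : ℕ → ℝ) {m N : ℕ} (h : m ≤ N) :
    ∑ s ∈ Finset.range (2 ^ N), RS a m s ^ 2 = 2 ^ N * ∑ i ∈ Finset.range m, a i ^ 2 := by
  induction N, h using Nat.le_induction with
  | base =>
    induction m with
    | zero => simp [RS]
    | succ m ih =>
      rw [sum_double, Finset.sum_congr rfl (g := fun s => 2 * RS a m s ^ 2 + 2 * a m ^ 2)]
      · rw [Finset.sum_add_distrib, ← Finset.mul_sum, ih, Finset.sum_range_succ]
        simp; ring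
      · intro s hs
        rw [RS_succ_lo a (Finset.mem_range.1 hs), RS_succ_hi a (Finset.mem_range.1 hs)]; ring
  | succ N h ih =>
    rw [sum_double, Finset.sum_add_distrib]
    simp only [RS_add a h, ih]; ring

theorem mom4 (a : ℕ → ℝ) {m N : ℕ} (h : m ≤ N) :
    ∑ s ∈ Finset.range (2 ^ N), RS a m s ^ 4 ≤ 2 ^ N * (3 * (∑ i ∈ Finset.range m, a i ^ 2) ^ 2) := by
  induction N, h using Nat.le_induction with
  | base =>
    induction m with
    | zero => simp [RS]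
    | succ m ih =>
      rw [sum_double, Finset.sum_congr rfl
        (g := fun s => 2 * RS a m s ^ 4 + 12 * a m ^ 2 * RS a m s ^ 2 + 2 * a m ^ 4)]
      · rw [Finset.sum_add_distrib, Finset.sum_add_distrib, ← Finset.mul_sum, ← Finset.mul_sum,
          mom2 a le_rfl, Finset.sum_range_succ]
        simp only [Finset.sum_const, Finset.card_range, nsmul_eq_mul, Nat.cast_pow, Nat.cast_ofNat]
        have h1 : (0 : ℝ) ≤ 2 ^ m * a m ^ 4 := by positivity
        rw [pow_succ (2 : ℝ) m]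
        nlinarith
      · intro s hs
        rw [RS_succ_lo a (Finset.mem_range.1 hs), RS_succ_hi a (Finset.mem_range.1 hs)]; ring
  | succ N h ih =>
    rw [sum_double, Finset.sum_add_distrib]
    simp only [RS_add a h]
    rw [pow_succ (2 : ℝ) N]
    linarith

theorem mom1 (a : ℕ → ℝ) {m N : ℕ} (h : m ≤ N) :
    ∑ s ∈ Finset.range (2 ^ N), |RS a m s| ≤ 2 ^ N * √(∑ i ∈ Finset.range m, a i ^ 2) := by
  have h1 := sq_sum_le_card_mul_sum_sq (s := Finset.range (2 ^ N)) (f := fun s => |RS a m s|)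
  simp only [sq_abs, mom2 a h, Finset.card_range, Nat.cast_pow, Nat.cast_ofNat] at h1
  refine le_of_sq_le_sq ?_ (by positivity) |>.trans le_rfl
  rw [mul_pow, Real.sq_sqrt (Finset.sum_nonneg fun _ _ => sq_nonneg _)]
  nlinarith

theorem khin_pt (S w t σ : ℝ) (hσ : 0 < σ) (hw : |w| ≤ t) :
    t * (S ^ 2 / σ - S ^ 4 / (4 * σ ^ 3)) - 16 * σ * (t - (if 0 ≤ S then 1 else -1) * w)
      - t * S ^ 2 / (8 * σ) ≤ S * w := by
  set u := (if 0 ≤ S then 1 else -1) * w with hu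
  have h1 : S * w = |S| * u := by
    rw [hu]; split_ifs with h
    · rw [abs_of_nonneg h]; ring
    · rw [abs_of_neg (not_le.1 h)]; ring
  have h2 : |u| ≤ t := by
    rw [hu, abs_mul]; split_ifs <;> simpa using hw
  obtain ⟨h3, h4⟩ := abs_le.1 h2
  obtain ⟨r, hr0, hr⟩ : ∃ r, 0 ≤ r ∧ |S| = σ * r := ⟨|S| / σ, by positivity, by field_simp⟩
  have e2 : S ^ 2 = σ ^ 2 * r ^ 2 := by rw [← sq_abs, hr]; ring
  have e4 : S ^ 4 = σ ^ 4 * r ^ 4 := by
    have : S ^ 4 = (S ^ 2) ^ 2 := by ring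
    rw [this, e2]; ring
  rw [h1, hr, e2, e4]
  have f1 : t * (σ ^ 2 * r ^ 2 / σ - σ ^ 4 * r ^ 4 / (4 * σ ^ 3)) - 16 * σ * (t - u)
      - t * (σ ^ 2 * r ^ 2) / (8 * σ)
      = σ * (t * (r ^ 2 - r ^ 4 / 4) - 16 * (t - u) - t * r ^ 2 / 8) := by field_simp
  rw [f1, mul_assoc]
  gcongr
  have g1 : r ^ 2 - r ^ 4 / 4 ≤ r := by
    have : 0 ≤ r ^ 3 - 4 * r + 4 := by
      nlinarith [mul_nonneg hr0 (sq_nonneg (r - 6 / 5)), sq_nonneg (r - 17 / 15)]
    nlinarith [mul_nonneg hr0 this]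
  have g2 : r ≤ 16 + r ^ 2 / 16 := by nlinarith [sq_nonneg (r - 16)]
  have t0 : 0 ≤ t := by linarith
  have g3 : r * (t - u) ≤ (16 + r ^ 2 / 16) * (t - u) := by gcongr
  have g4 : r ^ 2 / 16 * (t - u) ≤ r ^ 2 / 16 * (2 * t) := by gcongr; linarith
  nlinarith [mul_le_mul_of_nonneg_left g1 t0]

theorem khin (a : ℕ → ℝ) {m N : ℕ} (h : m ≤ N) (w : ℕ → ℝ) (t : ℝ) (ht : 0 ≤ t)
    (hw : ∀ s, |w s| ≤ t)
    (hθ : 255 / 256 * t * 2 ^ N ≤
      ∑ s ∈ Finset.range (2 ^ N), (if 0 ≤ RS a m s then 1 else -1) * w s) :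
    2 ^ N * (t / 16 * √(∑ i ∈ Finset.range m, a i ^ 2)) ≤
      ∑ s ∈ Finset.range (2 ^ N), RS a m s * w s := by
  set Q := ∑ i ∈ Finset.range m, a i ^ 2 with hQ
  have hQ0 : 0 ≤ Q := Finset.sum_nonneg fun _ _ => sq_nonneg _
  rcases hQ0.eq_or_lt with h0 | h0
  · have : ∀ s, RS a m s = 0 := fun s => Finset.sum_eq_zero fun i hi => by
      have := (Finset.sum_eq_zero_iff_of_nonneg fun _ _ => sq_nonneg _).1 h0.symm i hi
      rw [pow_eq_zero_iff (by norm_num)] at this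
      simp [this]
    simp [this, ← h0]
  set σ := √Q with hσ
  have hσ0 : 0 < σ := Real.sqrt_pos.2 h0
  have hσ2 : Q = σ ^ 2 := (Real.sq_sqrt hQ0).symm
  refine le_trans ?_ (Finset.sum_le_sum fun s _ => khin_pt (RS a m s) (w s) t σ hσ0 (hw s))
  have m2 := mom2 a h
  have m4 := mom4 a h
  rw [← hQ, hσ2] at m2 m4
  simp only [Finset.sum_sub_distrib, ← Finset.mul_sum, ← Finset.sum_div, m2, Finset.sum_const,
    Finset.card_range, nsmul_eq_mul, Nat.cast_pow, Nat.cast_ofNat]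
  have b1 : (∑ s ∈ Finset.range (2 ^ N), RS a m s ^ 4) / (4 * σ ^ 3) ≤ 2 ^ N * σ * (3 / 4) := by
    rw [div_le_iff₀ (by positivity)]; nlinarith
  have b2 : 2 ^ N * σ ^ 2 / σ = 2 ^ N * σ := by field_simp
  have b3 : t * (2 ^ N * σ ^ 2) / (8 * σ) = t * (2 ^ N * σ) / 8 := by field_simp
  rw [b2, b3]
  nlinarith [mul_le_mul_of_nonneg_left b1 ht, mul_le_mul_of_nonneg_left hθ hσ0.le]

end Vale.Agent.P129
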