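import Vale.Agent.P129.PosDR

/-! Riesz products produce `ℓ¹`; interchange of almost-everywhere quantifiers. -/

namespace Vale.Agent.P129

open Filter Topology MeasureTheory BoundedContinuousFunction

/-- sign of a boolean -/
def sg (b : Bool) : ℝ := if b then 1 else -1

theorem sg_sq (b : Bool) : sg b * sg b = 1 := by cases b <;> simp [sg]

theorem abs_sg (b : Bool) : |sg b| = 1 := by cases b <;> simp [sg]

theorem riesz_seq {Y ι : Type*} [NormedCommRing Y] [NormedAlgebra ℝ Y] (E Q : Y →L[ℝ] ℝ)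
    (V : Filter ι) [V.NeBot] (d : ι → Y) (η : ℝ) (hη : 0 < η)
    (h0 : ∀ ψ : Y →L[ℝ] ℝ, Tendsto (fun p => ψ (d p)) V (𝓝 0))
    (hQ : ∀ g, Tendsto (fun p => E (d p ^ 2 * g)) V (𝓝 (Q g))) (hE1 : E 1 < 2) (hQ1 : η / 2 < Q 1) :
    ∃ s : ℕ → ι, ∀ (j : ℕ) (ε : Fin j → Bool), E (∏ i : Fin j, (1 + sg (ε i) • d (s i))) < 2 ∧
      ∀ k : Fin j, η / 4 < E (sg (ε k) • d (s k) * ∏ i : Fin j, (1 + sg (ε i) • d (s i))) := by
  haveI : Nonempty ι := Filter.nonempty_of_neBot V
  obtain ⟨s, hs⟩ := seq_inv (α := ι)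
    (fun j s => ∀ ε : Fin j → Bool, E (∏ i : Fin j, (1 + sg (ε i) • d (s i))) < 2 ∧
      η / 2 < Q (∏ i : Fin j, (1 + sg (ε i) • d (s i))) ∧
      ∀ k : Fin j, η / 4 < E (sg (ε k) • d (s k) * ∏ i : Fin j, (1 + sg (ε i) • d (s i))))
    ⟨fun _ => Classical.arbitrary ι, fun ε => ⟨by simpa using hE1, by simpa using hQ1,
      fun k => k.elim0⟩⟩
    (by
      intro j s hs
      have lim : ∀ (ψ : Y →L[ℝ] ℝ) (g : Y) (c : ℝ),
          Tendsto (fun p => ψ (g * (1 + c • d p))) V (𝓝 (ψ g)) := by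
        intro ψ g c
        have := ((h0 (ψ.comp (ContinuousLinearMap.mul ℝ Y g))).const_mul c).const_add (ψ g)
        simp only [mul_zero, add_zero] at this
        refine this.congr fun p => ?_
        simp [mul_add]
      have : ∀ᶠ p in V, ∀ ε : Fin (j + 1) → Bool,
          E ((∏ i : Fin j, (1 + sg (ε i.castSucc) • d (s i))) * (1 + sg (ε (Fin.last j)) • d p)) < 2 ∧
          η / 2 < Q ((∏ i : Fin j, (1 + sg (ε i.castSucc) • d (s i))) *
            (1 + sg (ε (Fin.last j)) • d p)) ∧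
          (∀ k : Fin j, η / 4 < E ((sg (ε k.castSucc) • d (s k) *
            ∏ i : Fin j, (1 + sg (ε i.castSucc) • d (s i))) * (1 + sg (ε (Fin.last j)) • d p))) ∧
          η / 4 < E (sg (ε (Fin.last j)) • d p * ((∏ i : Fin j, (1 + sg (ε i.castSucc) • d (s i))) *
            (1 + sg (ε (Fin.last j)) • d p))) := by
        rw [eventually_all]
        intro ε
        obtain ⟨a1, a2, a3⟩ := hs fun i => ε i.castSucc
        refine ((lim E _ _).eventually (gt_mem_nhds a1)).and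
          (((lim Q _ _).eventually (lt_mem_nhds a2)).and (Eventually.and ?_ ?_))
        · rw [eventually_all]
          exact fun k => (lim E _ _).eventually (lt_mem_nhds (a3 k))
        · set R := ∏ i : Fin j, (1 + sg (ε i.castSucc) • d (s i)) with hR
          set c := sg (ε (Fin.last j)) with hc
          have l1 := ((h0 (E.comp (ContinuousLinearMap.mul ℝ Y R))).const_mul c).add (hQ R)
          simp only [mul_zero, zero_add] at l1
          have l2 : Tendsto (fun p => E (c • d p * (R * (1 + c • d p)))) V (𝓝 (Q R)) := by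
            refine l1.congr fun p => ?_
            have : c • d p * (R * (1 + c • d p)) = c • (R * d p) + (c * c) • (d p ^ 2 * R) := by
              simp only [Algebra.smul_def, map_mul]; ring
            rw [this, hc, sg_sq]; simp
          exact l2.eventually (lt_mem_nhds (by linarith))
      obtain ⟨p, hp⟩ := this.exists
      refine ⟨p, fun ε => ?_⟩
      have e1 : ∀ i : Fin j, Function.update s j p (i.castSucc : Fin (j + 1)) = s i := fun i =>
        Function.update_of_ne (by simp; omega) _ _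
      have e2 : Function.update s j p (Fin.last j : Fin (j + 1)) = p := by simp
      obtain ⟨a1, a2, a3, a4⟩ := hp ε
      simp only [Fin.prod_univ_castSucc, Fin.forall_fin_succ', e1, e2]
      exact ⟨a1, a2, fun k => by rw [← mul_assoc]; exact a3 k, a4⟩)
    (by
      intro j s s' hss h
      have : ∀ i : Fin j, s' i = s i := fun i => (hss i i.2).symm
      simpa only [this] using h)
  exact ⟨s, fun j ε => ⟨(hs j ε).1, (hs j ε).2.2⟩⟩

theorem riesz {S Z : Type*} [TopologicalSpace S] [NormedAddCommGroup Z] [NormedSpace ℝ Z]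
    (E : (S →ᵇ ℝ) →L[ℝ] ℝ) (hpos : ∀ g : S →ᵇ ℝ, (∀ t, 0 ≤ g t) → 0 ≤ E g) (hE1 : E 1 = 1)
    (Φ : Z →L[ℝ] (S →ᵇ ℝ)) (hΦ : ∀ z, ‖Φ z‖ ≤ ‖z‖) (φ : ℕ → Z) (hφ : ∀ n, ‖φ n‖ ≤ 1 / 2)
    (η : ℝ) (hη : 0 < η) (hsep : ∀ n m, n < m → η ≤ E ((Φ (φ n) - Φ (φ m)) ^ 2)) :
    ∃ (h : ℕ → Z) (c : ℝ), 0 < c ∧ L1 h c := by
  classical
  let U := hyperfilter ℕ
  let V : Ultrafilter (ℕ × ℕ) := U.bind fun n => U.map (Prod.mk n)
  have hV : ∀ P : ℕ × ℕ → Prop, (∀ᶠ p in V, P p) ↔ ∀ᶠ n in U, ∀ᶠ m in U, P (n, m) := fun P =>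
    Filter.eventually_bind
  have t1 : Tendsto Prod.fst (V : Filter (ℕ × ℕ)) U := fun A hA =>
    (hV fun p => p.1 ∈ A).2 (Eventually.mono hA fun n hn => Eventually.of_forall fun _ => hn)
  have t2 : Tendsto Prod.snd (V : Filter (ℕ × ℕ)) U := fun A hA =>
    (hV fun p => p.2 ∈ A).2 (Eventually.of_forall fun _ => hA)
  have t3 : ∀ᶠ p : ℕ × ℕ in V, p.1 < p.2 :=
    (hV fun p => p.1 < p.2).2 (Eventually.of_forall fun n => Nat.hyperfilter_le_atTop (eventually_gt_atTop n))
  let D : ℕ × ℕ → Z := fun p => φ p.1 - φ p.2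
  have hD : ∀ p, ‖D p‖ ≤ 1 := fun p => by linarith [norm_sub_le (φ p.1) (φ p.2), hφ p.1, hφ p.2]
  have hd : ∀ p, ‖Φ (D p)‖ ≤ 1 := fun p => (hΦ _).trans (hD p)
  obtain ⟨L, hL⟩ := ulim_clm U (fun n => NormedSpace.inclusionInDoubleDual ℝ Z (φ n)) (1 / 2)
    fun n => (NormedSpace.double_dual_bound ℝ Z _).trans (hφ n)
  obtain ⟨Q, hQ⟩ := ulim_clm V
    (fun p => E.comp (ContinuousLinearMap.mul ℝ (S →ᵇ ℝ) (Φ (D p) ^ 2))) ‖E‖ fun p => by
      refine (ContinuousLinearMap.opNorm_comp_le _ _).trans ?_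
      have a1 := ContinuousLinearMap.opNorm_mul_apply_le ℝ (S →ᵇ ℝ) (Φ (D p) ^ 2)
      have a2 : ‖Φ (D p) ^ 2‖ ≤ 1 := by
        rw [sq]
        exact (norm_mul_le _ _).trans (mul_le_one₀ (hd p) (norm_nonneg _) (hd p))
      exact mul_le_of_le_one_right (norm_nonneg _) (a1.trans a2)
  obtain ⟨s, hs⟩ := riesz_seq E Q (V : Filter (ℕ × ℕ)) (fun p => Φ (D p)) η hη
    (fun ψ => by
      have := ((hL (ψ.comp Φ)).comp t1).sub ((hL (ψ.comp Φ)).comp t2)
      rw [sub_self] at this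
      refine this.congr fun p => ?_
      simp [D, NormedSpace.dual_def])
    (fun g => hQ g) (by rw [hE1]; norm_num)
    (by
      have : η ≤ Q 1 := ge_of_tendsto (hQ 1) (t3.mono fun p hp => by
        simpa [D] using hsep p.1 p.2 hp)
      linarith)
  refine ⟨fun k => D (s k), η / 8, by positivity, fun k => hD _, fun a A => ?_⟩
  set j := A.sup id + 1 with hj
  have hA : A ⊆ Finset.range j := fun i hi =>
    Finset.mem_range.2 (Nat.lt_succ_of_le (Finset.le_sup (f := id) hi))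
  let a' : ℕ → ℝ := fun i => if i ∈ A then a i else 0
  have e1 : ∑ i ∈ A, |a i| = ∑ i : Fin j, |a' i| := by
    rw [Fin.sum_univ_eq_sum_range (fun i => |a' i|)]
    simp only [a', apply_ite abs, abs_zero, Finset.sum_ite_mem, Finset.inter_eq_right.2 hA]
  have e2 : ∑ i ∈ A, a i • D (s i) = ∑ i : Fin j, a' i • D (s i) := by
    rw [Fin.sum_univ_eq_sum_range (fun i => a' i • D (s i))]
    simp only [a', ite_smul, zero_smul, Finset.sum_ite_mem, Finset.inter_eq_right.2 hA]
  rw [e1, e2]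
  set v := ∑ i : Fin j, a' i • D (s i) with hv
  let ε : Fin j → Bool := fun i => decide (0 ≤ a' i)
  have hε : ∀ i : Fin j, a' i = |a' i| * sg (ε i) := by
    intro i
    by_cases h : 0 ≤ a' i
    · simp [ε, sg, h, abs_of_nonneg h]
    · simp [ε, sg, h, abs_of_neg (not_le.1 h)]
  obtain ⟨b1, b2⟩ := hs j ε
  set R := ∏ i : Fin j, (1 + sg (ε i) • Φ (D (s i))) with hR
  have hR0 : ∀ t, 0 ≤ R t := by
    intro t
    rw [hR, BoundedContinuousFunction.prod_apply]
    refine Finset.prod_nonneg fun i _ => ?_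
    have a1 := ((Φ (D (s i))).norm_coe_le_norm t).trans (hd (s i))
    have a2 : |sg (ε i) * Φ (D (s i)) t| ≤ 1 := by rwa [abs_mul, abs_sg, one_mul]
    simp only [coe_add, coe_one, coe_smul, Pi.add_apply, Pi.one_apply, smul_eq_mul]
    linarith [neg_abs_le (sg (ε i) * Φ (D (s i)) t)]
  have c1 : E (Φ v * R) = ∑ i : Fin j, |a' i| * E (sg (ε i) • Φ (D (s i)) * R) := by
    rw [hv, map_sum, Finset.sum_mul, map_sum]
    refine Finset.sum_congr rfl fun i _ => ?_
    rw [map_smul, smul_mul_assoc, smul_mul_assoc, map_smul, map_smul, smul_eq_mul, smul_eq_mul,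
      ← mul_assoc, ← hε]
  have c2 : η / 4 * ∑ i : Fin j, |a' i| ≤ E (Φ v * R) := by
    rw [c1, Finset.mul_sum]
    refine Finset.sum_le_sum fun i _ => ?_
    rw [mul_comm]
    gcongr
    exact (b2 i).le
  have c3 := hpos (‖v‖ • R - Φ v * R) fun t => by
    have a1 := ((Φ v).norm_coe_le_norm t).trans (hΦ v)
    simp only [coe_sub, coe_smul, coe_mul, Pi.sub_apply, smul_eq_mul, Pi.mul_apply]
    rw [← sub_mul]
    exact mul_nonneg (by linarith [le_abs_self (Φ v t), Real.norm_eq_abs (Φ v t)]) (hR0 t)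
  rw [map_sub, map_smul, smul_eq_mul] at c3
  nlinarith [norm_nonneg v]

theorem swap_ae {T S Z : Type*} [NormedAddCommGroup Z] [NormedSpace ℝ Z]
    [MeasurableSpace T] (lam : Measure T) [MeasurableSpace S] [DiscreteMeasurableSpace S]
    (ρ : Measure S) [IsProbabilityMeasure ρ] (hno : ¬ ∃ (h : ℕ → Z) (c : ℝ), 0 < c ∧ L1 h c)
    (u : T → Z) (M : ℝ) (hM : ∀ b, ‖u b‖ ≤ M) (ε : ℝ)
    (hu : ∀ y : StrongDual ℝ Z, ∀ᵐ b ∂lam, y (u b) ≤ ε * ‖y‖) (hε : 0 ≤ ε)
    (x : S → StrongDual ℝ Z) (hx : ∀ t, ‖x t‖ ≤ 1) :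
    ∀ᵐ b ∂lam, ∀ᵐ t ∂ρ, x t (u b) ≤ ε := by
  classical
  letI : TopologicalSpace S := ⊥
  haveI : DiscreteTopology S := ⟨rfl⟩
  have hint : ∀ g : S →ᵇ ℝ, Integrable g ρ := fun g =>
    Integrable.of_bound (Measurable.of_discrete).aestronglyMeasurable ‖g‖
      (Eventually.of_forall fun t => g.norm_coe_le_norm t)
  let E0 : (S →ᵇ ℝ) →ₗ[ℝ] ℝ :=
    { toFun := fun g => ∫ t, g t ∂ρ
      map_add' := fun f g => by simpa using integral_add (hint f) (hint g)
      map_smul' := fun c g => by simpa using integral_const_mul c g }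
  let E : (S →ᵇ ℝ) →L[ℝ] ℝ := E0.mkContinuous 1 fun g => by
    have := norm_integral_le_of_norm_le_const (μ := ρ) (f := g) (C := ‖g‖)
      (Eventually.of_forall fun t => g.norm_coe_le_norm t)
    simpa [E0] using this
  have hE : ∀ g, E g = ∫ t, g t ∂ρ := fun g => rfl
  have hpos : ∀ g : S →ᵇ ℝ, (∀ t, 0 ≤ g t) → 0 ≤ E g := fun g hg => integral_nonneg hg
  have hxb : ∀ z t, ‖x t z‖ ≤ ‖z‖ := fun z t =>
    ((x t).le_opNorm z).trans (by nlinarith [hx t, norm_nonneg z])
  let Φ0 : Z →ₗ[ℝ] (S →ᵇ ℝ) :=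
    { toFun := fun z => ofNormedAddCommGroupDiscrete (fun t => x t z) ‖z‖ (hxb z)
      map_add' := fun f g => by ext t; simp
      map_smul' := fun c g => by ext t; simp }
  have hΦ0 : ∀ z, ‖Φ0 z‖ ≤ ‖z‖ := fun z => (norm_le (norm_nonneg _)).2 (hxb z)
  let Φ : Z →L[ℝ] (S →ᵇ ℝ) := Φ0.mkContinuous 1 fun z => by simpa using hΦ0 z
  have hΦ : ∀ z t, Φ z t = x t z := fun z t => rfl
  let g : T → S →ᵇ ℝ := fun b => (Φ (u b) - const S ε) ⊔ 0
  have hg : ∀ b t, g b t = max (x t (u b) - ε) 0 := fun b t => rfl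
  have main : ∀ n : ℕ, ∀ᵐ b ∂lam, E (g b ^ 2) ≤ 1 / ((n : ℝ) + 1) := by
    intro n
    by_contra hc
    rw [not_eventually] at hc
    simp only [not_le] at hc
    obtain ⟨b, hb1, hb2⟩ := exists_seq_of_forall_finset_exists
      (fun b => 1 / ((n : ℝ) + 1) < E (g b ^ 2)) (fun b b' => E (g b * Φ (u b')) ≤ ε * E (g b)) (by
        intro A _
        have : ∀ᵐ b' ∂lam, ∀ b ∈ A, E (g b * Φ (u b')) ≤ ε * E (g b) := by
          rw [eventually_all_finset]
          intro b _
          have hg0 : 0 ≤ E (g b) := hpos _ fun t => le_max_right _ _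
          filter_upwards [hu ((E.comp (ContinuousLinearMap.mul ℝ (S →ᵇ ℝ) (g b))).comp Φ)]
            with b' hb'
          refine hb'.trans ?_
          gcongr
          refine ContinuousLinearMap.opNorm_le_bound _ hg0 fun z => ?_
          have a1 := hpos (‖z‖ • g b - g b * Φ z) fun t => by
            simp only [coe_sub, coe_smul, coe_mul, Pi.sub_apply, smul_eq_mul, Pi.mul_apply, hΦ]
            have := abs_le.1 (hxb z t)
            have h0 : 0 ≤ g b t := le_max_right _ _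
            nlinarith
          have a2 := hpos (‖z‖ • g b + g b * Φ z) fun t => by
            simp only [coe_add, coe_smul, coe_mul, Pi.add_apply, smul_eq_mul, Pi.mul_apply, hΦ]
            have := abs_le.1 (hxb z t)
            have h0 : 0 ≤ g b t := le_max_right _ _
            nlinarith
          rw [map_sub, map_smul, smul_eq_mul] at a1
          rw [map_add, map_smul, smul_eq_mul] at a2
          show |E (g b * Φ z)| ≤ _
          rw [abs_le]; constructor <;> linarith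
        exact (hc.and_eventually this).exists)
    have hM0 : 0 < 2 * (M + 1) := by linarith [norm_nonneg (u (b 0)), hM (b 0)]
    refine hno (riesz E hpos (by simp [hE]) Φ hΦ0 (fun k => (2 * (M + 1))⁻¹ • u (b k))
      (fun k => ?_) ((2 * (M + 1))⁻¹ ^ 2 * (1 / ((n : ℝ) + 1))) (by positivity) fun i k hik => ?_)
    · rw [norm_smul, norm_inv, Real.norm_of_nonneg hM0.le, inv_mul_le_iff₀ hM0]
      linarith [hM (b k)]
    · have e0 : ∀ (c : ℝ) (A B : S →ᵇ ℝ), (c • A - c • B) ^ 2 = c ^ 2 • (A - B) ^ 2 := by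
        intro c A B; ext t; simp; ring
      rw [map_smul, map_smul, e0, map_smul, smul_eq_mul]
      gcongr
      have a1 := hb1 i
      have a2 := hb2 i k hik
      have a3 := hpos ((Φ (u (b i)) - Φ (u (b k))) ^ 2 - g (b i) ^ 2
        + (2 : ℝ) • (g (b i) * Φ (u (b k))) - (2 * ε) • g (b i)) fun t => by
        simp only [coe_sub, coe_add, coe_smul, coe_mul, coe_pow, Pi.sub_apply, Pi.add_apply,
          smul_eq_mul, Pi.mul_apply, Pi.pow_apply, hΦ, hg]
        rcases le_total (x t (u (b i)) - ε) 0 with h | h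
        · rw [max_eq_right h]; nlinarith [sq_nonneg (x t (u (b i)) - x t (u (b k)))]
        · rw [max_eq_left h]; nlinarith [sq_nonneg (x t (u (b k)) - ε)]
      rw [map_sub, map_add, map_sub, map_smul, map_smul, smul_eq_mul, smul_eq_mul] at a3
      linarith
  filter_upwards [ae_all_iff.2 main] with b hb
  have h0 : E (g b ^ 2) = 0 := by
    refine le_antisymm ?_ (hpos _ fun t => by simp only [coe_pow, Pi.pow_apply]; positivity)
    exact ge_of_tendsto' tendsto_one_div_add_atTop_nhds_zero_nat hb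
  rw [hE, integral_eq_zero_iff_of_nonneg (fun t => by
    simp only [coe_pow, Pi.pow_apply, Pi.zero_apply]; positivity) (hint _)] at h0
  filter_upwards [h0] with t ht
  simp only [coe_pow, Pi.pow_apply, Pi.zero_apply, hg] at ht
  have := pow_eq_zero_iff (two_ne_zero) |>.1 ht
  linarith [le_max_left (x t (u b) - ε) 0]

end Vale.Agent.P129
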