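import Vale.Agent.P129.PosB5

open Filter Topology MeasureTheory

namespace Vale.Agent.P129

theorem exists_orthonormal {V : Type*} [AddCommGroup V] [Module ℝ V] (hV : ¬Module.Finite ℝ V)
    (B : V →ₗ[ℝ] V →ₗ[ℝ] ℝ) (hs : ∀ g h, B g h = B h g) (hp : ∀ g, g ≠ 0 → 0 < B g g) (n : ℕ) :
    ∃ g : Fin n → V, ∀ i j, B (g i) (g j) = if i = j then 1 else 0 := by
  induction n with
  | zero => exact ⟨Fin.elim0, fun i => i.elim0⟩
  | succ n ih =>
    obtain ⟨g, hg⟩ := ih
    have : ¬Function.Injective (LinearMap.pi fun i => B (g i)) := fun h =>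
      hV (Module.Finite.of_injective _ h)
    rw [injective_iff_map_eq_zero] at this
    push Not at this
    obtain ⟨h, h1, h2⟩ := this
    have h3 : ∀ i, B (g i) h = 0 := fun i => congrFun h1 i
    have h4 := hp h h2
    have h5 : √(B h h) ≠ 0 := (Real.sqrt_pos.2 h4).ne'
    refine ⟨Fin.cons ((√(B h h))⁻¹ • h) g, fun i j => ?_⟩
    refine Fin.cases ?_ (fun i => ?_) i <;> refine Fin.cases ?_ (fun j => ?_) j
    · simp only [Fin.cons_zero, map_smul, LinearMap.smul_apply, smul_eq_mul, if_true]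
      field_simp
      exact (Real.sq_sqrt h4.le).symm
    · simp only [Fin.cons_zero, Fin.cons_succ, map_smul, LinearMap.smul_apply, smul_eq_mul]
      rw [hs h (g j), h3, mul_zero, if_neg (Fin.succ_ne_zero j).symm]
    · simp only [Fin.cons_zero, Fin.cons_succ, map_smul, smul_eq_mul]
      rw [h3, mul_zero, if_neg (Fin.succ_ne_zero i)]
    · simp only [Fin.cons_succ, hg, Fin.succ_inj]

variable {X : Type*} [NormedAddCommGroup X] [NormedSpace ℝ X]

/-- Evaluation along a family in the unit ball. -/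
noncomputable def evL {T : Type*} (x : T → X) (hx : ∀ t, ‖x t‖ ≤ 1) :
    (X →L[ℝ] ℝ) →L[ℝ] lp (fun _ : T => ℝ) ⊤ :=
  LinearMap.mkContinuous
    { toFun := fun g => ⟨fun t => g (x t), memℓp_infty ⟨‖g‖, by
        rintro _ ⟨t, rfl⟩
        exact (g.le_opNorm _).trans (by nlinarith [hx t, norm_nonneg g])⟩⟩
      map_add' := fun _ _ => rfl
      map_smul' := fun _ _ => rfl } 1
    fun g => by
      rw [one_mul]
      exact lp.norm_le_of_forall_le (norm_nonneg _) fun t =>
        (g.le_opNorm _).trans (by nlinarith [hx t, norm_nonneg g])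

theorem evL_apply {T : Type*} (x : T → X) (hx : ∀ t, ‖x t‖ ≤ 1) (g : X →L[ℝ] ℝ) (t : T) :
    evL x hx g t = g (x t) := rfl

theorem dual_infinite (hX : ¬FiniteDimensional ℝ X) : ¬Module.Finite ℝ (X →L[ℝ] ℝ) := by
  intro h
  have : FiniteDimensional ℝ ((X →L[ℝ] ℝ) →L[ℝ] ℝ) := inferInstance
  exact hX (Module.Finite.of_injective (NormedSpace.inclusionInDoubleDualLi ℝ (E := X)).toLinearMap
    (NormedSpace.inclusionInDoubleDualLi ℝ (E := X)).injective)

/-- The identity of an infinite-dimensional dual space is not `2`-summing. -/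
theorem dvoretzky_rogers (hX : ¬FiniteDimensional ℝ X) {ε : ℝ} (hε : 0 < ε) :
    ∃ (m : ℕ) (g : Fin m → X →L[ℝ] ℝ) (p : Fin m → ℝ), (∀ i, ‖g i‖ = 1) ∧ (∀ i, 0 ≤ p i) ∧
      ∑ i, p i = 1 ∧ ∀ x, ‖x‖ ≤ 1 → ∑ i, p i * g i x ^ 2 ≤ ε := by
  by_contra hn
  let ev := evL (fun x : {x : X // ‖x‖ ≤ 1} => x.1) (fun x => x.2)
  have hev : ∀ g t, ev g t = g t.1 := fun _ _ => rfl
  obtain ⟨Λ, u, h1, h2⟩ := geometric_hahn_banach_open
    (convex_ball (0 : lp (fun _ : {x : X // ‖x‖ ≤ 1} => ℝ) ⊤) ε) Metric.isOpen_ball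
    (convex_convexHull ℝ {φ | ∃ g, ‖g‖ = 1 ∧ φ = ev g * ev g}) (by
      rw [Set.disjoint_left]
      intro φ hφ1 hφ2
      obtain ⟨ι, _, w, z, hw0, hw1, hz, rfl⟩ := mem_convexHull_iff_exists_fintype.1 hφ2
      choose g hg1 hg2 using hz
      let e := (Fintype.equivFin ι).symm
      refine hn ⟨_, g ∘ e, w ∘ e, fun i => hg1 _, fun i => hw0 _, by
        rw [← hw1]; exact e.sum_comp w, fun x hx => ?_⟩
      have h3 := lp.norm_apply_le_norm (by simp) (∑ i, w i • z i) ⟨x, hx⟩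
      rw [mem_ball_zero_iff] at hφ1
      refine le_trans (le_of_eq ?_) ((le_abs_self _).trans (h3.trans hφ1.le))
      rw [lp.coeFn_sum, Finset.sum_apply]
      refine (e.sum_comp fun i => w i * g i x ^ 2).trans (Finset.sum_congr rfl fun i _ => ?_)
      rw [hg2 i, lp.coeFn_smul, lp.infty_coeFn_mul, sq]
      rfl)
  have hu : 0 < u := by simpa using h1 0 (Metric.mem_ball_self hε)
  have hΛ : ∀ φ, ε * Λ φ ≤ u * ‖φ‖ := by
    intro φ
    refine le_of_forall_pos_le_add fun η hη => ?_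
    have hp : 0 < ‖φ‖ + η / u := by positivity
    have := h1 ((ε / (‖φ‖ + η / u)) • φ) (by
      rw [mem_ball_zero_iff, norm_smul, Real.norm_of_nonneg (by positivity), div_mul_eq_mul_div,
        div_lt_iff₀ hp]
      have : 0 < η / u := by positivity
      nlinarith)
    rw [map_smul, smul_eq_mul, div_mul_eq_mul_div, div_lt_iff₀ hp, mul_add,
      mul_div_cancel₀ _ hu.ne'] at this
    exact this.le
  let B : (X →L[ℝ] ℝ) →ₗ[ℝ] (X →L[ℝ] ℝ) →ₗ[ℝ] ℝ :=
    LinearMap.mk₂ ℝ (fun g h => Λ (ev g * ev h))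
      (fun _ _ _ => by simp only [map_add, add_mul])
      (fun _ _ _ => by simp only [map_smul, smul_mul_assoc])
      (fun _ _ _ => by simp only [map_add, mul_add])
      (fun _ _ _ => by simp only [map_smul, mul_smul_comm])
  have hB : ∀ g h, B g h = Λ (ev g * ev h) := fun _ _ => rfl
  have hBl : ∀ g, u * ‖g‖ ^ 2 ≤ B g g := by
    intro g
    by_cases h0 : g = 0
    · simp [h0]
    have hp : 0 < ‖g‖ := norm_pos_iff.2 h0
    have := h2 _ (subset_convexHull ℝ _ ⟨‖g‖⁻¹ • g, by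
      rw [norm_smul, norm_inv, norm_norm, inv_mul_cancel₀ hp.ne'], rfl⟩)
    rw [← hB] at this
    simp only [map_smul, LinearMap.smul_apply, smul_eq_mul] at this
    rw [← mul_assoc, ← mul_inv, le_inv_mul_iff₀ (by positivity)] at this
    nlinarith
  obtain ⟨n, hn'⟩ := exists_nat_gt ε⁻¹
  obtain ⟨g, hg⟩ := exists_orthonormal (dual_infinite hX) B
    (fun g h => by rw [hB, hB, mul_comm]) (fun g hg =>
      lt_of_lt_of_le (by have := norm_pos_iff.2 hg; positivity) (hBl g)) n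
  have e1 : Λ (∑ i, ev (g i) * ev (g i)) = n := by
    rw [map_sum]
    simp only [← hB, hg, if_true]
    simp
  have e2 : ‖∑ i, ev (g i) * ev (g i)‖ ≤ u⁻¹ := by
    refine lp.norm_le_of_forall_le (by positivity) fun t => ?_
    have e3 : (∑ i, ev (g i) * ev (g i)) t = ∑ i, g i t.1 * g i t.1 := by
      rw [lp.coeFn_sum, Finset.sum_apply]
      rfl
    have e4 : 0 ≤ ∑ i, g i t.1 * g i t.1 := Finset.sum_nonneg fun i _ => mul_self_nonneg _
    rw [e3, Real.norm_of_nonneg e4]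
    have e5 := hBl (∑ i, g i t.1 • g i)
    have e6 : B (∑ i, g i t.1 • g i) (∑ i, g i t.1 • g i) = ∑ i, g i t.1 * g i t.1 := by
      simp only [map_sum, map_smul, LinearMap.sum_apply, LinearMap.smul_apply, hg, smul_eq_mul]
      simp
    have e7 : ∑ i, g i t.1 * g i t.1 ≤ ‖∑ i, g i t.1 • g i‖ := by
      have := (∑ i, g i t.1 • g i).le_opNorm t.1
      rw [sum_apply] at this
      refine (le_abs_self _).trans (this.trans ?_)
      nlinarith [t.2, norm_nonneg (∑ i, g i t.1 • g i)]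
    rw [e6] at e5
    set S := ∑ i, g i t.1 * g i t.1
    rcases e4.eq_or_lt with h | h
    · rw [← h]; positivity
    · rw [← one_div, le_div_iff₀ hu]
      have : u * S ^ 2 ≤ S := le_trans (by gcongr) e5
      nlinarith
  have e3 := hΛ (∑ i, ev (g i) * ev (g i))
  rw [e1] at e3
  have e4 : u * ‖∑ i, ev (g i) * ev (g i)‖ ≤ 1 :=
    (mul_le_mul_of_nonneg_left e2 hu.le).trans (mul_inv_cancel₀ hu.ne').le
  rw [inv_lt_iff_one_lt_mul₀ hε] at hn'
  nlinarith

theorem exists_cell (p : ℕ → ℝ) (t : ℝ) (h0 : 0 ≤ t) : ∀ m, t < ∑ i ∈ Finset.range m, p i →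
    ∃ i < m, t ∈ Set.Ico (∑ j ∈ Finset.range i, p j) (∑ j ∈ Finset.range (i + 1), p j)
  | 0, h => by simp at h; linarith
  | m + 1, h => by
    by_cases h1 : t < ∑ i ∈ Finset.range m, p i
    · obtain ⟨i, hi, h2⟩ := exists_cell p t h0 m h1
      exact ⟨i, by omega, h2⟩
    · exact ⟨m, by omega, not_lt.1 h1, h⟩

theorem exists_random (hX : ¬FiniteDimensional ℝ X) {ε : ℝ} (hε : 0 < ε) :
    ∃ G : ℝ → X →L[ℝ] ℝ, (∀ t, ‖G t‖ = 1) ∧
      ∀ x, volume {t ∈ Set.Ico (0 : ℝ) 1 | ε * ‖x‖ < |G t x|} ≤ ENNReal.ofReal ε := by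
  classical
  obtain ⟨m, g, p, hg, hp0, hp1, h⟩ := dvoretzky_rogers hX (ε := ε ^ 3) (by positivity)
  let q : ℕ → ℝ := fun i => if h : i < m then p ⟨i, h⟩ else 0
  have hq : ∑ i ∈ Finset.range m, q i = 1 := by
    rw [← hp1, Finset.sum_range]
    exact Finset.sum_congr rfl fun i _ => dif_pos i.2
  let A : Fin m → Set ℝ := fun i =>
    Set.Ico (∑ j ∈ Finset.range i, q j) (∑ j ∈ Finset.range (i + 1), q j)
  have hA : ∀ i, volume (A i) = ENNReal.ofReal (p i) := fun i => by
    simp [A, Finset.sum_range_succ, q]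
  have hcov : ∀ t : ℝ, ∃ i : Fin m, t ∈ Set.Ico (0 : ℝ) 1 → t ∈ A i := by
    intro t
    by_cases ht : t ∈ Set.Ico (0 : ℝ) 1
    · obtain ⟨i, hi, h2⟩ := exists_cell q t ht.1 m (hq ▸ ht.2)
      exact ⟨⟨i, hi⟩, fun _ => h2⟩
    · obtain ⟨i, hi, -⟩ := exists_cell q 0 le_rfl m (hq ▸ one_pos)
      exact ⟨⟨i, hi⟩, fun h => absurd h ht⟩
  choose r hr using hcov
  refine ⟨fun t => g (r t), fun t => hg _, fun x => ?_⟩
  let F := Finset.univ.filter fun i => ε * ‖x‖ < |g i x|
  calc volume {t ∈ Set.Ico (0 : ℝ) 1 | ε * ‖x‖ < |g (r t) x|} ≤ volume (⋃ i ∈ F, A i) :=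
        measure_mono fun t ht => Set.mem_biUnion
          (Finset.mem_filter.2 ⟨Finset.mem_univ _, ht.2⟩) (hr t ht.1)
    _ ≤ ∑ i ∈ F, volume (A i) := measure_biUnion_finset_le _ _
    _ = ENNReal.ofReal (∑ i ∈ F, p i) := by
        simp only [hA]
        rw [ENNReal.ofReal_sum_of_nonneg fun i _ => hp0 i]
    _ ≤ ENNReal.ofReal ε := by
        refine ENNReal.ofReal_le_ofReal ?_
        by_cases h0 : x = 0
        · simp [F, h0, hε.le]
        have hx : 0 < ‖x‖ := norm_pos_iff.2 h0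
        have h1 := h (‖x‖⁻¹ • x) (by rw [norm_smul, norm_inv, norm_norm, inv_mul_cancel₀ hx.ne'])
        have h2 : ∑ i ∈ F, p i * ε ^ 2 ≤ ∑ i, p i * g i (‖x‖⁻¹ • x) ^ 2 := by
          refine le_trans (Finset.sum_le_sum fun i hi => ?_)
            (Finset.sum_le_sum_of_subset_of_nonneg (Finset.subset_univ F)
              fun i _ _ => mul_nonneg (hp0 i) (sq_nonneg _))
          refine mul_le_mul_of_nonneg_left ?_ (hp0 i)
          rw [← sq_abs (g i _), map_smul, smul_eq_mul, abs_mul, abs_of_pos (inv_pos.2 hx)]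
          gcongr
          rw [le_inv_mul_iff₀ hx, mul_comm]
          exact (Finset.mem_filter.1 hi).2.le
        rw [← Finset.sum_mul] at h2
        refine le_of_mul_le_mul_right ?_ (show 0 < ε ^ 2 by positivity)
        nlinarith

/-- Spaces of density below the covering number of the null ideal. -/
theorem sq_small [CompleteSpace X] (hX : ¬FiniteDimensional ℝ X) {ι : Type*} (x : ι → X)
    (hx : ∀ g : X →L[ℝ] ℝ, (∀ i, g (x i) = 0) → g = 0)
    (hcov : ∀ N : ι → Set ℝ, (∀ i, volume (N i) = 0) → ¬Set.Ico (0 : ℝ) 1 ⊆ ⋃ i, N i) :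
    SQ ℝ X := by
  choose G hG1 hG2 using fun n : ℕ => exists_random hX (ε := (1 / 2) ^ n) (by positivity)
  have hnull : ∀ y : X, ∀ᵐ t : ℝ, ∀ᶠ n in atTop,
      t ∉ {t ∈ Set.Ico (0 : ℝ) 1 | (1 / 2) ^ n * ‖y‖ < |G n t y|} := by
    intro y
    refine ae_eventually_notMem (ne_top_of_le_ne_top ?_ (ENNReal.tsum_le_tsum fun n => hG2 n y))
    exact summable_geometric_two.tsum_ofReal_ne_top
  have := hcov _ fun i => ae_iff.1 (hnull (x i))
  rw [Set.not_subset] at this
  obtain ⟨t, ht, hN⟩ := this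
  simp only [Set.mem_iUnion, Set.mem_ofPred_eq, not_exists, not_not] at hN
  refine sq_of_summable (fun n => G n t) (fun n => hG1 n t) ?_
  let D : Submodule ℝ X :=
    { carrier := {x | Summable fun n => ‖G n t x‖}
      add_mem' := fun {a b} ha hb => Summable.of_nonneg_of_le (fun _ => norm_nonneg _)
        (fun n => by rw [map_add]; exact norm_add_le _ _) (ha.add hb)
      zero_mem' := by simp
      smul_mem' := fun c a ha => by
        simpa only [Set.mem_ofPred_eq, map_smul, norm_smul] using Summable.mul_left _ ha }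
  intro y
  by_contra hy
  obtain ⟨q, u, h1, h2⟩ := geometric_hahn_banach_closed_point D.convex.closure isClosed_closure hy
  have h3 : ∀ z ∈ D, q z = 0 := by
    intro z hz
    by_contra h0
    have := h1 ((u / q z) • z) (subset_closure (D.smul_mem _ hz))
    rw [map_smul, smul_eq_mul, div_mul_cancel₀ _ h0] at this
    exact lt_irrefl _ this
  have h4 : q = 0 := hx q fun i => h3 _ (by
    refine Summable.of_norm_bounded_eventually_nat (g := fun n => (1 / 2) ^ n * ‖x i‖)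
      (summable_geometric_two.mul_right _) ?_
    filter_upwards [hN i] with n hn
    rw [norm_norm, Real.norm_eq_abs]
    exact not_lt.1 fun h => hn ⟨ht, h⟩)
  have := h1 0 (subset_closure D.zero_mem)
  rw [h4] at h2 this
  simp only [zero_apply] at h2 this
  linarith

end Vale.Agent.P129
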