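import Mathlib

/-! Separable quotients from chains and from strongly normal sequences. -/

namespace Vale.Agent.P129

open Filter Topology

theorem seq_inv {α : Type*} (Inv : ℕ → (ℕ → α) → Prop) (h0 : ∃ s, Inv 0 s)
    (step : ∀ n s, Inv n s → ∃ a, Inv (n + 1) (Function.update s n a))
    (dep : ∀ n s s', (∀ m < n, s m = s' m) → Inv n s → Inv n s') :
    ∃ s, ∀ n, Inv n s := by
  classical
  obtain ⟨s0, hs0⟩ := h0
  choose a ha using step
  let S : ∀ n, {s : ℕ → α // Inv n s} := fun n =>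
    Nat.rec ⟨s0, hs0⟩ (fun n p => ⟨Function.update p.1 n (a n p.1 p.2), ha n p.1 p.2⟩) n
  have hS : ∀ n, (S (n + 1)).1 = Function.update (S n).1 n (a n (S n).1 (S n).2) := fun n => rfl
  have key : ∀ m n, m < n → (S n).1 m = (S (m + 1)).1 m := by
    intro m n hmn
    induction n with
    | zero => omega
    | succ n ih =>
      rcases Nat.lt_succ_iff_lt_or_eq.1 hmn with h | h
      · rw [hS n, Function.update_of_ne (by omega), ih h]
      · subst h; rfl
  exact ⟨fun m => (S (m + 1)).1 m, fun n => dep n _ _ (fun m hm => key m n hm) (S n).2⟩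

theorem seq_rec {α : Type*} [Nonempty α] (Q : ℕ → α → Prop) (r : α → α → Prop)
    (h : ∀ n (s : ℕ → α), (∀ m < n, Q m (s m)) → (∀ m < n, ∀ l < m, r (s l) (s m)) →
      ∃ a, Q n a ∧ ∀ m < n, r (s m) a) :
    ∃ s : ℕ → α, (∀ n, Q n (s n)) ∧ ∀ m n, m < n → r (s m) (s n) := by
  classical
  obtain ⟨s, hs⟩ := seq_inv (α := α)
    (fun n s => (∀ m < n, Q m (s m)) ∧ (∀ m < n, ∀ l < m, r (s l) (s m)))
    ⟨fun _ => Classical.arbitrary α, by simp⟩
    (by
      rintro n s ⟨h1, h2⟩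
      obtain ⟨a, ha1, ha2⟩ := h n s h1 h2
      refine ⟨a, fun m hm => ?_, fun m hm l hl => ?_⟩
      · rcases Nat.lt_succ_iff_lt_or_eq.1 hm with h | h
        · rw [Function.update_of_ne (by omega)]; exact h1 m h
        · subst h; simpa using ha1
      · rw [Function.update_of_ne (by omega : l ≠ n)]
        rcases Nat.lt_succ_iff_lt_or_eq.1 hm with h | h
        · rw [Function.update_of_ne (by omega)]; exact h2 m h l hl
        · subst h; simpa using ha2 l hl)
    (by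
      rintro n s s' hss ⟨h1, h2⟩
      refine ⟨fun m hm => hss m hm ▸ h1 m hm, fun m hm l hl => ?_⟩
      rw [← hss m hm, ← hss l (by omega)]; exact h2 m hm l hl)
  exact ⟨s, fun n => (hs (n + 1)).1 n (by omega), fun m n hmn => (hs (n + 1)).2 n (by omega) m hmn⟩

/-- an increasing chain of proper closed subspaces with dense union -/
def Chain (𝕜 X : Type*) [RCLike 𝕜] [NormedAddCommGroup X] [NormedSpace 𝕜 X] : Prop :=
  ∃ M : ℕ → Submodule 𝕜 X, Monotone M ∧ (∀ n, IsClosed (M n : Set X)) ∧ (∀ n, M n ≠ ⊤) ∧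
    ∀ x : X, ∀ ε : ℝ, 0 < ε → ∃ n, ∃ y ∈ M n, ‖x - y‖ < ε

/-- a strongly normal sequence of functionals -/
def SN (𝕜 X : Type*) [RCLike 𝕜] [NormedAddCommGroup X] [NormedSpace 𝕜 X] : Prop :=
  ∃ (f : ℕ → StrongDual 𝕜 X) (c : ℝ), 0 < c ∧ (∀ n, c ≤ ‖f n‖) ∧
    ∀ x : X, ∀ ε : ℝ, 0 < ε → ∃ y, (Summable fun n => ‖f n y‖) ∧ ‖x - y‖ < ε

variable {𝕜 X : Type*} [RCLike 𝕜] [NormedAddCommGroup X] [NormedSpace 𝕜 X]

theorem exists_kill (M : Submodule 𝕜 X) (hM : IsClosed (M : Set X)) (h : M ≠ ⊤) :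
    ∃ φ : StrongDual 𝕜 X, ‖φ‖ = 1 ∧ ∀ y ∈ M, φ y = 0 := by
  obtain ⟨x, hx⟩ : ∃ x, x ∉ M := by
    by_contra hc
    push Not at hc
    exact h (Submodule.eq_top_iff'.2 hc)
  have hne : ‖M.mkQ x‖ ≠ 0 := by
    rw [norm_ne_zero_iff]
    simpa using hx
  obtain ⟨g, -, hg⟩ := exists_dual_vector 𝕜 (M.mkQ x) hne
  let φ : StrongDual 𝕜 X := g.comp M.mkQL
  have hφ : φ ≠ 0 := by
    intro h0
    have : φ x = 0 := by simp [h0]
    have h2 : g (M.mkQ x) = 0 := this
    rw [hg] at h2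
    exact hne (by exact_mod_cast h2)
  have hn : ‖φ‖ ≠ 0 := norm_ne_zero_iff.2 hφ
  refine ⟨((‖φ‖⁻¹ : ℝ) : 𝕜) • φ, ?_, fun y hy => ?_⟩
  · rw [norm_smul, RCLike.norm_ofReal, abs_inv, abs_norm, inv_mul_cancel₀ hn]
  · have : φ y = 0 := by
      show g (M.mkQ y) = 0
      rw [Submodule.mkQ_apply, (Submodule.Quotient.mk_eq_zero M).2 hy, map_zero]
    simp [this]

theorem sq_of_chain (h : Chain 𝕜 X) :
    ∃ M : Submodule 𝕜 X, IsClosed (M : Set X) ∧ TopologicalSpace.SeparableSpace (X ⧸ M) ∧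
      ¬ FiniteDimensional 𝕜 (X ⧸ M) := by
  obtain ⟨M, hmono, hcl, hne, hd⟩ := h
  choose φ hφ1 hφ using fun n => exists_kill (M n) (hcl n) (hne n)
  let N : Submodule 𝕜 X := ⨅ n, LinearMap.ker (φ n : X →ₗ[𝕜] 𝕜)
  have hN : ∀ x, x ∈ N ↔ ∀ n, φ n x = 0 := fun x => by simp [N]
  have hNc : IsClosed (N : Set X) := by
    have : (N : Set X) = ⋂ n, {x | φ n x = 0} := by ext x; simp [hN]
    rw [this]
    exact isClosed_iInter fun n => isClosed_eq (φ n).continuous continuous_const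
  have hfd : ∀ n, FiniteDimensional 𝕜 ((M n).map N.mkQ) := by
    intro n
    let Φ : M n →ₗ[𝕜] (Fin n → 𝕜) := LinearMap.pi fun i => (φ i : X →ₗ[𝕜] 𝕜).comp (M n).subtype
    have hk : LinearMap.ker Φ ≤ LinearMap.ker (N.mkQ.comp (M n).subtype) := by
      intro y hy
      rw [LinearMap.mem_ker] at hy ⊢
      simp only [LinearMap.comp_apply, Submodule.mkQ_apply, Submodule.Quotient.mk_eq_zero]
      rw [hN]
      intro k
      by_cases hk : k < n
      · exact congrFun hy ⟨k, hk⟩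
      · exact hφ k _ (hmono (by omega : n ≤ k) y.2)
    haveI : FiniteDimensional 𝕜 (M n ⧸ LinearMap.ker Φ) :=
      LinearEquiv.finiteDimensional Φ.quotKerEquivRange.symm
    have : (M n).map N.mkQ = LinearMap.range ((LinearMap.ker Φ).liftQ _ hk) := by
      rw [Submodule.range_liftQ, LinearMap.range_comp, Submodule.range_subtype]
    rw [this]
    infer_instance
  have hden : ∀ z : X ⧸ N, z ∈ closure (⋃ n, ((M n).map N.mkQ : Set (X ⧸ N))) := by
    intro z
    obtain ⟨x, rfl⟩ := N.mkQ_surjective z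
    rw [Metric.mem_closure_iff]
    intro ε hε
    obtain ⟨n, y, hy, hxy⟩ := hd x ε hε
    refine ⟨N.mkQ y, Set.mem_iUnion.2 ⟨n, Submodule.mem_map_of_mem hy⟩, ?_⟩
    rw [dist_eq_norm, ← map_sub]
    exact (Submodule.Quotient.norm_mk_le N _).trans_lt hxy
  refine ⟨N, hNc, ?_, ?_⟩
  · rw [← TopologicalSpace.isSeparable_univ_iff]
    have : TopologicalSpace.IsSeparable (⋃ n, ((M n).map N.mkQ : Set (X ⧸ N))) := by
      refine TopologicalSpace.IsSeparable.iUnion fun n => ?_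
      obtain ⟨s, hs⟩ := (Submodule.fg_iff_finiteDimensional _).2 (hfd n)
      rw [← hs]
      exact s.finite_toSet.isSeparable.span
    exact this.closure.mono fun z _ => hden z
  · intro hfin
    obtain ⟨n, hn⟩ := (monotone_stabilizes_iff_noetherian (R := 𝕜) (M := X ⧸ N)).2 inferInstance
      ⟨fun n => (M n).map N.mkQ, fun a b hab => Submodule.map_mono (hmono hab)⟩
    have hsub : (⋃ k, ((M k).map N.mkQ : Set (X ⧸ N))) ⊆ ((M n).map N.mkQ : Set (X ⧸ N)) := by
      refine Set.iUnion_subset fun k => ?_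
      rcases le_total k n with hk | hk
      · exact Submodule.map_mono (hmono hk)
      · have : (M n).map N.mkQ = (M k).map N.mkQ := hn k hk
        rw [this]
    have hcl' : IsClosed ((M n).map N.mkQ : Set (X ⧸ N)) := Submodule.closed_of_finiteDimensional _
    have : φ n = 0 := by
      ext x
      obtain ⟨y, hy, hyx⟩ := (hcl'.closure_subset_iff.2 hsub) (hden (N.mkQ x))
      have h1 : y - x ∈ N := (Submodule.Quotient.eq N).1 hyx
      have h2 := (hN _).1 h1 n
      rw [map_sub, hφ n y hy] at h2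
      simpa using h2
    have h1 := hφ1 n
    rw [this, norm_zero] at h1
    exact zero_ne_one h1

theorem sn_step (f : ℕ → StrongDual 𝕜 X) (hf : ∀ n, ‖f n‖ = 1)
    (hW : ∀ x, Tendsto (fun n => f n x) atTop (𝓝 0)) (n : ℕ) (g : ℕ → StrongDual 𝕜 X) (x : ℕ → X)
    (hb : ∀ i < n, ∀ j < n, g i (x j) = if i = j then 1 else 0) (k0 : ℕ) (δ : ℝ) (hδ : 0 < δ) :
    ∃ (k : ℕ) (g' : StrongDual 𝕜 X) (x' : X), k0 < k ∧ g' x' = 1 ∧ ‖x'‖ ≤ 12 ∧ ‖g' - f k‖ ≤ δ ∧
      ∀ i < n, g i x' = 0 ∧ g' (x i) = 0 := by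
  classical
  have hz : ∀ k, ∃ z : X, ‖z‖ < 1 ∧ 3 / 4 < ‖f k z‖ := fun k =>
    (f k).exists_lt_apply_of_lt_opNorm (by rw [hf]; norm_num)
  choose z hz1 hz2 using hz
  let G : ℕ → (Fin n → 𝕜) := fun k i => g i (z k)
  haveI : ProperSpace 𝕜 := FiniteDimensional.proper_rclike 𝕜 𝕜
  set A : ℝ := ∑ i ∈ Finset.range n, ‖g i‖ with hA
  set B : ℝ := ∑ i ∈ Finset.range n, ‖x i‖ with hB
  have hA0 : 0 ≤ A := Finset.sum_nonneg fun _ _ => norm_nonneg _
  have hB0 : 0 ≤ B := Finset.sum_nonneg fun _ _ => norm_nonneg _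
  have hGb : ∀ k, G k ∈ Metric.closedBall (0 : Fin n → 𝕜) A := by
    intro k
    rw [mem_closedBall_zero_iff, pi_norm_le_iff_of_nonneg hA0]
    intro i
    calc ‖g i (z k)‖ ≤ ‖g i‖ * ‖z k‖ := (g i).le_opNorm _
      _ ≤ ‖g i‖ * 1 := by gcongr; exact (hz1 k).le
      _ ≤ A := by
        rw [mul_one]
        exact Finset.single_le_sum (f := fun i => ‖g i‖) (fun _ _ => norm_nonneg _)
          (Finset.mem_range.2 i.2)
  obtain ⟨L, -, φ, hφ, hL⟩ := tendsto_subseq_of_bounded Metric.isBounded_closedBall hGb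
  set η : ℝ := 1 / (8 * (B + 1)) with hη
  have hη0 : 0 < η := by positivity
  have hηB : η * B ≤ 1 / 8 := by
    rw [hη, div_mul_eq_mul_div, div_le_div_iff₀ (by positivity) (by positivity)]; nlinarith
  have e1 : ∀ᶠ j in atTop, ‖G (φ j) - L‖ < η := by
    have := (tendsto_iff_norm_sub_tendsto_zero.1 hL).eventually (gt_mem_nhds hη0)
    exact this
  obtain ⟨j0, hj0⟩ := e1.exists
  set w := z (φ j0) with hw
  have e2 : ∀ᶠ j in atTop, ‖f (φ j) w‖ < 1 / 4 := by
    have := ((hW w).comp hφ.tendsto_atTop).norm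
    rw [norm_zero] at this
    exact this.eventually (gt_mem_nhds (by norm_num))
  set η' : ℝ := δ / (A + 1) with hη'
  have hη'0 : 0 < η' := by positivity
  have e3 : ∀ᶠ j in atTop, ∀ i ∈ Finset.range n, ‖f (φ j) (x i)‖ < η' := by
    rw [eventually_all_finset]
    intro i _
    have := ((hW (x i)).comp hφ.tendsto_atTop).norm
    rw [norm_zero] at this
    exact this.eventually (gt_mem_nhds hη'0)
  have e4 : ∀ᶠ j in atTop, k0 < φ j := hφ.tendsto_atTop.eventually (eventually_gt_atTop k0)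
  obtain ⟨j, ⟨h1, h2⟩, h3, h4⟩ := ((e1.and e2).and (e3.and e4)).exists
  set k := φ j with hk
  set u := z k - w with hu
  set v := ∑ i ∈ Finset.range n, g i u • x i with hv
  have hgu : ∀ i < n, ‖g i u‖ ≤ 2 * η := by
    intro i hi
    have a1 := (norm_le_pi_norm (G k - L) ⟨i, hi⟩).trans h1.le
    have a2 := (norm_le_pi_norm (G (φ j0) - L) ⟨i, hi⟩).trans hj0.le
    have : g i u = (G k - L) ⟨i, hi⟩ - (G (φ j0) - L) ⟨i, hi⟩ := by
      simp [G, hu, hw]
    rw [this]
    linarith [norm_sub_le ((G k - L) ⟨i, hi⟩) ((G (φ j0) - L) ⟨i, hi⟩)]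
  have hvn : ‖v‖ ≤ 1 / 4 := by
    calc ‖v‖ ≤ ∑ i ∈ Finset.range n, ‖g i u • x i‖ := norm_sum_le _ _
      _ ≤ ∑ i ∈ Finset.range n, 2 * η * ‖x i‖ := by
        refine Finset.sum_le_sum fun i hi => ?_
        rw [norm_smul]
        gcongr
        exact hgu i (Finset.mem_range.1 hi)
      _ = 2 * (η * B) := by rw [← Finset.mul_sum]; ring
      _ ≤ 1 / 4 := by linarith
  set y := u - v with hy
  have hgy : ∀ i < n, g i y = 0 := by
    intro i hi
    rw [hy, map_sub, hv, map_sum, Finset.sum_eq_single i]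
    · rw [map_smul, hb i hi i hi]; simp
    · intro l hl hli
      rw [map_smul, hb i hi l (Finset.mem_range.1 hl), if_neg (Ne.symm hli)]; simp
    · intro h; exact absurd (Finset.mem_range.2 hi) h
  have hyn : ‖y‖ ≤ 3 := by
    have := norm_sub_le u v
    have := norm_sub_le (z k) w
    linarith [hz1 k, hz1 (φ j0)]
  have hfy : 1 / 4 ≤ ‖f k y‖ := by
    have a1 : f k (z k) = f k y + f k w + f k v := by rw [hy, hu]; simp only [map_sub]; ring
    have a2 : ‖f k v‖ ≤ 1 / 4 := by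
      have := (f k).le_opNorm v
      rw [hf] at this; linarith
    have a3 := norm_add₃_le (a := f k y) (b := f k w) (c := f k v)
    rw [← a1] at a3
    linarith [hz2 k]
  have hfy0 : f k y ≠ 0 := by
    intro h; rw [h, norm_zero] at hfy; linarith
  refine ⟨k, f k - ∑ i ∈ Finset.range n, f k (x i) • g i, (f k y)⁻¹ • y, h4, ?_, ?_, ?_, ?_⟩
  · rw [map_smul, ContinuousLinearMap.sub_apply, ContinuousLinearMap.sum_apply,
      Finset.sum_eq_zero, sub_zero, smul_eq_mul, inv_mul_cancel₀ hfy0]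
    intro i hi
    simp [hgy i (Finset.mem_range.1 hi)]
  · rw [norm_smul, norm_inv, inv_mul_le_iff₀ (by linarith)]
    linarith
  · rw [sub_sub_cancel_left, norm_neg]
    calc _ ≤ ∑ i ∈ Finset.range n, ‖f k (x i) • g i‖ := norm_sum_le _ _
      _ ≤ ∑ i ∈ Finset.range n, η' * ‖g i‖ := by
        refine Finset.sum_le_sum fun i hi => ?_
        rw [norm_smul]
        gcongr
        exact (h3 i hi).le
      _ = η' * A := by rw [← Finset.mul_sum]
      _ ≤ δ := by
        rw [hη', div_mul_eq_mul_div, div_le_iff₀ (by positivity)]; nlinarith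
  · intro i hi
    refine ⟨by rw [map_smul, hgy i hi, smul_zero], ?_⟩
    rw [ContinuousLinearMap.sub_apply, ContinuousLinearMap.sum_apply, Finset.sum_eq_single i]
    · simp [hb i hi i hi]
    · intro l hl hli
      simp [hb l (Finset.mem_range.1 hl) i hi, hli]
    · intro h; exact absurd (Finset.mem_range.2 hi) h

/-- the common kernel of a tail of functionals -/
def tailKer (g : ℕ → StrongDual 𝕜 X) (N : ℕ) : Submodule 𝕜 X :=
  ⨅ n, ⨅ _ : N ≤ n, LinearMap.ker (g n : X →ₗ[𝕜] 𝕜)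

theorem mem_tailKer {g : ℕ → StrongDual 𝕜 X} {N : ℕ} {x : X} :
    x ∈ tailKer g N ↔ ∀ n, N ≤ n → g n x = 0 := by simp [tailKer]

theorem chain_of_tail (g : ℕ → StrongDual 𝕜 X) (hg : ∀ n, g n ≠ 0)
    (h : ∀ x : X, ∀ ε : ℝ, 0 < ε → ∃ N, ∃ z, ‖z‖ < ε ∧ ∀ n, N ≤ n → g n z = g n x) :
    Chain 𝕜 X := by
  refine ⟨tailKer g, fun a b hab x hx => ?_, fun N => ?_, fun N hN => ?_, fun x ε hε => ?_⟩
  · rw [mem_tailKer] at hx ⊢
    exact fun n hn => hx n (hab.trans hn)
  · have : (tailKer g N : Set X) = ⋂ n, ⋂ _ : N ≤ n, {x | g n x = 0} := by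
      ext x; simp [mem_tailKer]
    rw [this]
    exact isClosed_iInter fun n => isClosed_iInter fun _ =>
      isClosed_eq (g n).continuous continuous_const
  · apply hg N
    ext x
    have : x ∈ tailKer g N := by rw [hN]; trivial
    exact mem_tailKer.1 this N le_rfl
  · obtain ⟨N, z, hz, hzx⟩ := h x ε hε
    refine ⟨N, x - z, mem_tailKer.2 fun n hn => by rw [map_sub, hzx n hn, sub_self], ?_⟩
    simpa using hz

theorem chain_of_sn [CompleteSpace X] (h : SN 𝕜 X) : Chain 𝕜 X := by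
  obtain ⟨f0, c, hc, hcf, hd0⟩ := h
  let f : ℕ → StrongDual 𝕜 X := fun n => ((‖f0 n‖⁻¹ : ℝ) : 𝕜) • f0 n
  have hf : ∀ n, ‖f n‖ = 1 := fun n => by
    have : ‖f0 n‖ ≠ 0 := (hc.trans_le (hcf n)).ne'
    simp only [f]
    rw [norm_smul, RCLike.norm_ofReal, abs_inv, abs_norm, inv_mul_cancel₀ this]
  have hd : ∀ x : X, ∀ ε : ℝ, 0 < ε → ∃ y, (Summable fun n => ‖f n y‖) ∧ ‖x - y‖ < ε := by
    intro x ε hε
    obtain ⟨y, hy, hxy⟩ := hd0 x ε hε
    refine ⟨y, Summable.of_nonneg_of_le (fun _ => norm_nonneg _) (fun n => ?_)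
      (hy.mul_left c⁻¹), hxy⟩
    simp only [f, ContinuousLinearMap.smul_apply]
    rw [norm_smul, RCLike.norm_ofReal, abs_inv, abs_norm]
    gcongr
    exact hcf n
  have hW : ∀ x, Tendsto (fun n => f n x) atTop (𝓝 0) := by
    intro x
    rw [Metric.tendsto_atTop]
    intro ε hε
    obtain ⟨y, hy, hxy⟩ := hd x (ε / 2) (by positivity)
    obtain ⟨N, hN⟩ := (Metric.tendsto_atTop.1 hy.tendsto_atTop_zero) (ε / 2) (by positivity)
    refine ⟨N, fun n hn => ?_⟩
    have a1 := hN n hn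
    rw [dist_zero_right, norm_norm] at a1
    rw [dist_zero_right]
    have a2 : f n x = f n (x - y) + f n y := by simp
    have a3 := (f n).le_opNorm (x - y)
    rw [hf, one_mul] at a3
    rw [a2]
    linarith [norm_add_le (f n (x - y)) (f n y)]
  obtain ⟨s, hs1, hs2⟩ := seq_rec (α := ℕ × StrongDual 𝕜 X × X)
    (fun n a => a.2.1 a.2.2 = 1 ∧ ‖a.2.2‖ ≤ 12 ∧ ‖a.2.1 - f a.1‖ ≤ (1 / 2) ^ n)
    (fun a b => a.1 < b.1 ∧ a.2.1 b.2.2 = 0 ∧ b.2.1 a.2.2 = 0)
    (by
      intro n s h1 h2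
      obtain ⟨k, g', x', a1, a2, a3, a4, a5⟩ := sn_step f hf hW n (fun i => (s i).2.1)
        (fun i => (s i).2.2) (by
          intro i hi j hj
          rcases lt_trichotomy i j with h | h | h
          · rw [if_neg h.ne]; exact (h2 j hj i h).2.1
          · subst h; rw [if_pos rfl]; exact (h1 i hi).1
          · rw [if_neg h.ne']; exact (h2 i hi j h).2.2)
        ((Finset.range n).sup fun i => (s i).1) ((1 / 2) ^ n) (by positivity)
      refine ⟨(k, g', x'), ⟨a2, a3, a4⟩, fun m hm => ⟨?_, (a5 m hm).1, (a5 m hm).2⟩⟩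
      exact (Finset.le_sup (f := fun i => (s i).1) (Finset.mem_range.2 hm)).trans_lt a1)
  set g := fun n => (s n).2.1 with hg
  set x := fun n => (s n).2.2 with hx
  have hk : StrictMono fun n => (s n).1 := fun a b hab => (hs2 a b hab).1
  have hgx : ∀ i j, g i (x j) = if i = j then 1 else 0 := by
    intro i j
    rcases lt_trichotomy i j with h | h | h
    · rw [if_neg h.ne]; exact (hs2 i j h).2.1
    · subst h; rw [if_pos rfl]; exact (hs1 i).1
    · rw [if_neg h.ne']; exact (hs2 j i h).2.2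
  have main : ∀ y : X, (Summable fun n => ‖f n y‖) → ∀ ε : ℝ, 0 < ε →
      ∃ N, ∃ z, ‖z‖ < ε ∧ ∀ n, N ≤ n → g n z = g n y := by
    intro y hy ε hε
    have hs : Summable fun n => ‖g n y‖ := by
      refine Summable.of_nonneg_of_le (fun _ => norm_nonneg _) (fun n => ?_)
        ((hy.comp_injective hk.injective).add (summable_geometric_two.mul_right ‖y‖))
      have a1 : g n y = f (s n).1 y + (g n - f (s n).1) y := by simp
      rw [a1]
      refine (norm_add_le _ _).trans (add_le_add le_rfl ?_)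
      exact ((g n - f (s n).1).le_opNorm y).trans (by gcongr; exact (hs1 n).2.2)
    have hs' : Summable fun n => ‖g n y • x n‖ := by
      refine Summable.of_nonneg_of_le (fun _ => norm_nonneg _) (fun n => ?_) (hs.mul_right 12)
      rw [norm_smul]
      gcongr
      exact (hs1 n).2.1
    obtain ⟨N, hN⟩ := ((tendsto_sum_nat_add fun n => ‖g n y • x n‖).eventually
      (gt_mem_nhds hε)).exists
    have hsN : Summable fun n => ‖g (n + N) y • x (n + N)‖ :=
      (summable_nat_add_iff (f := fun n => ‖g n y • x n‖) N).2 hs'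
    refine ⟨N, ∑' n, g (n + N) y • x (n + N), (norm_tsum_le_tsum_norm hsN).trans_lt hN, ?_⟩
    intro n hn
    obtain ⟨m, rfl⟩ := Nat.exists_eq_add_of_le' hn
    rw [(g (m + N)).map_tsum hsN.of_norm, tsum_eq_single m]
    · simp [hgx]
    · intro l hl
      rw [map_smul, hgx, if_neg (by omega), smul_zero]
  refine chain_of_tail g (fun n h0 => ?_) fun y ε hε => ?_
  · have := hgx n n
    rw [h0] at this
    simp at this
  · obtain ⟨y', hy', hyy⟩ := hd y (ε / 2) (by positivity)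
    obtain ⟨N, z, hz, hzy⟩ := main y' hy' (ε / 2) (by positivity)
    refine ⟨N, z + (y - y'), ?_, fun n hn => ?_⟩
    · linarith [norm_add_le z (y - y')]
    · rw [map_add, map_sub, hzy n hn]; ring

end Vale.Agent.P129
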