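import Vale.Agent.P129.PosCR

/-! Unconditional sequences in the dual give chains. -/

namespace Vale.Agent.P129

open Filter Topology
open scoped ENNReal

/-- suppression unconditional sequence -/
def Unc {Z : Type*} [NormedAddCommGroup Z] [NormedSpace ℝ Z] (f : ℕ → Z) (K : ℝ) : Prop :=
  ∀ (a : ℕ → ℝ) (A B : Finset ℕ), A ⊆ B → ‖∑ i ∈ A, a i • f i‖ ≤ K * ‖∑ i ∈ B, a i • f i‖

/-- bounded sequence with a lower `ℓ¹` estimate -/
def L1 {Z : Type*} [NormedAddCommGroup Z] [NormedSpace ℝ Z] (h : ℕ → Z) (c : ℝ) : Prop :=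
  (∀ k, ‖h k‖ ≤ 1) ∧ ∀ (a : ℕ → ℝ) (s : Finset ℕ), c * ∑ i ∈ s, |a i| ≤ ‖∑ i ∈ s, a i • h i‖

variable {X : Type*} [NormedAddCommGroup X] [NormedSpace ℝ X]

/-- every vector acts with vanishing norm on the tail spans -/
def Tails (f : ℕ → StrongDual ℝ X) : Prop :=
  ∀ (x : X) (ε : ℝ), 0 < ε → ∃ N, ∀ (a : ℕ → ℝ) (s : Finset ℕ), (∀ i ∈ s, N ≤ i) →
    |(∑ i ∈ s, a i • f i) x| ≤ ε * ‖∑ i ∈ s, a i • f i‖

theorem sum_abs_le (w : ℕ → ℝ) (M : ℝ) (s : Finset ℕ) (h : ∀ t ⊆ s, |∑ i ∈ t, w i| ≤ M) :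
    ∑ i ∈ s, |w i| ≤ 2 * M := by
  classical
  rw [← Finset.sum_filter_add_sum_filter_not s (fun i => 0 ≤ w i)]
  have h1 : ∑ i ∈ s.filter (fun i => 0 ≤ w i), |w i| = ∑ i ∈ s.filter (fun i => 0 ≤ w i), w i :=
    Finset.sum_congr rfl fun i hi => abs_of_nonneg (Finset.mem_filter.1 hi).2
  have h2 : ∑ i ∈ s.filter (fun i => ¬ 0 ≤ w i), |w i| =
      -∑ i ∈ s.filter (fun i => ¬ 0 ≤ w i), w i := by
    rw [← Finset.sum_neg_distrib]
    exact Finset.sum_congr rfl fun i hi => abs_of_neg (not_le.1 (Finset.mem_filter.1 hi).2)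
  rw [h1, h2]
  have a1 := h _ (Finset.filter_subset (fun i => 0 ≤ w i) s)
  have a2 := h _ (Finset.filter_subset (fun i => ¬ 0 ≤ w i) s)
  linarith [le_abs_self (∑ i ∈ s.filter (fun i => 0 ≤ w i), w i),
    neg_abs_le (∑ i ∈ s.filter (fun i => ¬ 0 ≤ w i), w i)]

theorem sn_of_not_summable (v : ℕ → StrongDual ℝ X) (M : ℝ) (hM : ∀ s : Finset ℕ, ‖∑ i ∈ s, v i‖ ≤ M)
    (hv : ¬ Summable v) : SN ℝ X := by
  classical
  rw [summable_iff_vanishing_norm] at hv
  push Not at hv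
  obtain ⟨ε, hε, hv⟩ := hv
  obtain ⟨t, ht1, ht2⟩ := exists_seq_of_forall_finset_exists (fun t : Finset ℕ => ε ≤ ‖∑ i ∈ t, v i‖)
    (fun s t => Disjoint s t) (by
      intro S _
      obtain ⟨t, h1, h2⟩ := hv (S.sup id)
      exact ⟨t, h2, fun s hs => (h1.mono_right (Finset.le_sup (f := id) hs)).symm⟩)
  have hdis : Pairwise fun i j => Disjoint (t i) (t j) := by
    intro i j hij
    rcases lt_or_gt_of_ne hij with h | h
    · exact ht2 i j h
    · exact (ht2 j i h).symm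
  refine ⟨fun j => ∑ i ∈ t j, v i, ε, hε, ht1, fun x η hη => ⟨x, ?_, by simpa using hη⟩⟩
  refine summable_of_sum_le (c := 2 * (M * ‖x‖)) (fun _ => norm_nonneg _) fun s => ?_
  refine sum_abs_le (fun j => (∑ i ∈ t j, v i) x) _ s fun u _ => ?_
  rw [← ContinuousLinearMap.sum_apply, ← Finset.sum_biUnion (fun i _ j _ hij => hdis hij)]
  exact ((∑ i ∈ u.biUnion t, v i).le_opNorm x).trans (by have := hM (u.biUnion t); gcongr)

/-- bounded function as an element of `ℓ^∞` -/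
noncomputable def lpmk {Γ : Type*} (F : Γ → ℝ) (h : ∃ C, ∀ γ, |F γ| ≤ C) : lp (fun _ : Γ => ℝ) ∞ :=
  ⟨F, memℓp_infty (by
    obtain ⟨C, hC⟩ := h
    exact ⟨C, by rintro _ ⟨γ, rfl⟩; exact hC γ⟩)⟩

@[simp] theorem lpmk_apply {Γ : Type*} (F : Γ → ℝ) (h : ∃ C, ∀ γ, |F γ| ≤ C) (γ : Γ) :
    (lpmk F h : Γ → ℝ) γ = F γ := rfl

theorem ub_core [CompleteSpace X] (f : ℕ → StrongDual ℝ X) (K : ℝ) (hK : 0 ≤ K)
    (hne : ∀ n, f n ≠ 0) (hU : Unc f K) (hT : Tails f)
    (hBC : ∀ (b : ℕ → ℝ) (M : ℝ), (∀ s : Finset ℕ, ‖∑ i ∈ s, b i • f i‖ ≤ M) →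
      Summable fun i => b i • f i)
    (N : ℕ) (x : X) (ε : ℝ) (hε : 0 ≤ ε)
    (hx : ∀ (a : ℕ → ℝ) (s : Finset ℕ), (∀ i ∈ s, N ≤ i) →
      |(∑ i ∈ s, a i • f i) x| ≤ ε * ‖∑ i ∈ s, a i • f i‖) :
    ∃ z, ‖z‖ ≤ 2 * ε ∧ ∀ n, N ≤ n → f n z = f n x := by
  classical
  let Γ := {p : (ℕ → ℝ) × Finset ℕ // (∀ i ∈ p.2, N ≤ i) ∧ ‖∑ i ∈ p.2, p.1 i • f i‖ ≤ 1}
  let V : Γ → StrongDual ℝ X := fun γ => ∑ i ∈ γ.1.2, γ.1.1 i • f i
  have hV : ∀ γ x, |V γ x| ≤ ‖x‖ := fun γ x =>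
    ((V γ).le_opNorm x).trans (by nlinarith [γ.2.2, norm_nonneg x])
  let T0 : X →ₗ[ℝ] lp (fun _ : Γ => ℝ) ∞ :=
    { toFun := fun x => lpmk (fun γ => V γ x) ⟨‖x‖, fun γ => hV γ x⟩
      map_add' := fun x y => by ext γ; simp
      map_smul' := fun c x => by ext γ; simp }
  let T : X →L[ℝ] lp (fun _ : Γ => ℝ) ∞ := T0.mkContinuous 1 fun x =>
    lp.norm_le_of_forall_le (by positivity) fun γ => by simpa [T0] using hV γ x
  have hTa : ∀ x γ, (T x : Γ → ℝ) γ = V γ x := fun x γ => rfl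
  have hTb : ∀ (x : X) (a : ℕ → ℝ) (s : Finset ℕ), (∀ i ∈ s, N ≤ i) →
      |(∑ i ∈ s, a i • f i) x| ≤ ‖T x‖ * ‖∑ i ∈ s, a i • f i‖ := by
    intro x a s hs
    by_cases h0 : ∑ i ∈ s, a i • f i = 0
    · simp [h0]
    have hp := norm_pos_iff.2 h0
    set r := ‖∑ i ∈ s, a i • f i‖ with hr
    have e : ∑ i ∈ s, (r⁻¹ * a i) • f i = r⁻¹ • ∑ i ∈ s, a i • f i := by
      rw [Finset.smul_sum]; simp [mul_smul]
    let γ : Γ := ⟨(fun i => r⁻¹ * a i, s), hs, by
      show ‖∑ i ∈ s, (r⁻¹ * a i) • f i‖ ≤ 1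
      rw [e, norm_smul, norm_inv, Real.norm_of_nonneg hp.le, inv_mul_cancel₀ hp.ne']⟩
    have h1 := lp.norm_apply_le_norm (by simp) (T x) γ
    rw [hTa] at h1
    have h2 : V γ = r⁻¹ • ∑ i ∈ s, a i • f i := e
    rw [h2, ContinuousLinearMap.smul_apply, norm_smul, norm_inv, Real.norm_of_nonneg hp.le,
      inv_mul_le_iff₀ hp, Real.norm_eq_abs] at h1
    linarith
  have hfn : ∀ n, 0 < ‖f n‖ := fun n => norm_pos_iff.2 (hne n)
  let e : ℕ → lp (fun _ : Γ => ℝ) ∞ := fun n =>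
    lpmk (fun γ => if n ∈ γ.1.2 then γ.1.1 n else 0) ⟨K / ‖f n‖, fun γ => by
      split_ifs with h
      · have := hU γ.1.1 {n} γ.1.2 (by simpa using h)
        rw [Finset.sum_singleton, norm_smul, Real.norm_eq_abs] at this
        rw [le_div_iff₀ (hfn n)]
        nlinarith [γ.2.2]
      · have := hfn n
        simp only [abs_zero]; positivity⟩
  have he : ∀ (x : X) (s : Finset ℕ) (γ : Γ), ((∑ n ∈ s, f n x • e n : lp (fun _ : Γ => ℝ) ∞) : Γ → ℝ) γ
      = (∑ i ∈ γ.1.2 ∩ s, γ.1.1 i • f i) x := by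
    intro x s γ
    rw [lp.coeFn_sum, Finset.sum_apply, ContinuousLinearMap.sum_apply, Finset.inter_comm,
      ← Finset.filter_mem_eq_inter, Finset.sum_filter]
    refine Finset.sum_congr rfl fun i _ => ?_
    simp [e, mul_comm]
  obtain ⟨z, hz1, hz2⟩ := cr T 1 zero_le_one (Set.range T)
    (by rintro _ ⟨y, rfl⟩ z; exact ⟨y - z, by simp⟩)
    (by
      rintro _ ⟨y, rfl⟩ q
      let b : ℕ → ℝ := fun n => q (e n)
      have hb0 : ∀ n < N, b n = 0 := by
        intro n hn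
        have : e n = 0 := by
          ext γ
          have : n ∉ γ.1.2 := fun h => by have := γ.2.1 n h; omega
          simp [e, this]
        simp [b, this]
      have hq : ∀ (x : X) (s : Finset ℕ), (∑ i ∈ s, b i • f i) x = q (∑ n ∈ s, f n x • e n) := by
        intro x s
        simp [b, ContinuousLinearMap.sum_apply, mul_comm]
      have hsum := hBC b (‖q‖ * K) fun s => by
        refine ContinuousLinearMap.opNorm_le_bound _ (by positivity) fun x => ?_
        rw [hq, mul_assoc]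
        refine (q.le_opNorm _).trans ?_
        gcongr
        refine lp.norm_le_of_forall_le (by positivity) fun γ => ?_
        rw [he]
        refine (ContinuousLinearMap.le_opNorm _ x).trans ?_
        gcongr
        have := hU γ.1.1 (γ.1.2 ∩ s) γ.1.2 Finset.inter_subset_left
        nlinarith [γ.2.2]
      have hlim := hsum.hasSum.tendsto_sum_nat
      have hv : ∀ x, q (T x) = (∑' i, b i • f i) x := by
        intro x
        have l1 : Tendsto (fun m => (∑ i ∈ Finset.range m, b i • f i) x) atTop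
            (𝓝 ((∑' i, b i • f i) x)) :=
          ((ContinuousLinearMap.apply ℝ ℝ x).continuous.tendsto _).comp hlim
        have l2 : Tendsto (fun m => ∑ n ∈ Finset.range m, f n x • e n) atTop (𝓝 (T x)) := by
          rw [Metric.tendsto_atTop]
          intro η hη
          obtain ⟨N', hN'⟩ := hT x (η / (2 * (K + 1))) (by positivity)
          refine ⟨N', fun m hm => ?_⟩
          rw [dist_comm, dist_eq_norm]
          refine lt_of_le_of_lt (lp.norm_le_of_forall_le (C := η / 2) (by positivity) fun γ => ?_)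
            (by linarith)
          rw [lp.coeFn_sub, Pi.sub_apply, he, hTa]
          have e1 : V γ x - (∑ i ∈ γ.1.2 ∩ Finset.range m, γ.1.1 i • f i) x
              = (∑ i ∈ γ.1.2 \ Finset.range m, γ.1.1 i • f i) x := by
            simp only [V]
            rw [← Finset.sum_inter_add_sum_sdiff γ.1.2 (Finset.range m)]
            simp
          rw [e1]
          refine (hN' γ.1.1 _ fun i hi => ?_).trans ?_
          · have := (Finset.mem_sdiff.1 hi).2
            rw [Finset.mem_range] at this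
            omega
          · have a1 := hU γ.1.1 (γ.1.2 \ Finset.range m) γ.1.2 Finset.sdiff_subset
            have a2 : ‖∑ i ∈ γ.1.2 \ Finset.range m, γ.1.1 i • f i‖ ≤ K + 1 := by
              nlinarith [γ.2.2]
            calc _ ≤ η / (2 * (K + 1)) * (K + 1) := by gcongr
              _ = η / 2 := by field_simp
        have l3 := (q.continuous.tendsto _).comp l2
        simp only [Function.comp_def, ← hq] at l3
        exact tendsto_nhds_unique l3 l1
      have hv' : q.comp T = ∑' i, b i • f i := by ext x; exact hv x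
      rw [hv', hv, one_mul]
      have l1 : Tendsto (fun m => (∑ i ∈ Finset.range m, b i • f i) y) atTop
          (𝓝 ((∑' i, b i • f i) y)) :=
        ((ContinuousLinearMap.apply ℝ ℝ y).continuous.tendsto _).comp hlim
      refine le_of_tendsto_of_tendsto' l1 (hlim.norm.const_mul ‖T y‖) fun m => ?_
      have e2 : ∑ i ∈ Finset.range m, b i • f i
          = ∑ i ∈ (Finset.range m).filter (N ≤ ·), b i • f i := by
        rw [Finset.sum_filter_of_ne]
        intro i _ hi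
        by_contra hc
        exact hi (by rw [hb0 i (not_le.1 hc), zero_smul])
      rw [e2]
      exact (le_abs_self _).trans (hTb y b _ fun i hi => (Finset.mem_filter.1 hi).2))
    (T x) ⟨x, rfl⟩
  refine ⟨z, ?_, fun n hn => ?_⟩
  · have : ‖T x‖ ≤ ε := lp.norm_le_of_forall_le hε fun γ => by
      rw [hTa]
      refine (hx γ.1.1 γ.1.2 γ.2.1).trans ?_
      nlinarith [γ.2.2]
    linarith
  · have := hTb (z - x) (fun _ => 1) {n} (by simpa using hn)
    rw [map_sub T, hz1, sub_self, norm_zero, zero_mul] at this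
    simp only [Finset.sum_singleton, one_smul, map_sub, abs_nonpos_iff] at this
    linarith

theorem ub0 [CompleteSpace X] (f : ℕ → StrongDual ℝ X) (K : ℝ) (hK : 0 ≤ K)
    (hne : ∀ n, f n ≠ 0) (hU : Unc f K) (hT : Tails f) : Chain ℝ X := by
  by_cases hSN : SN ℝ X
  · exact chain_of_sn hSN
  refine chain_of_tail f hne fun x ε hε => ?_
  obtain ⟨N, hN⟩ := hT x (ε / 4) (by positivity)
  obtain ⟨z, hz, hzx⟩ := ub_core f K hK hne hU hT (fun b M hM => by
    by_contra hc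
    exact hSN (sn_of_not_summable _ M hM hc)) N x (ε / 4) (by positivity) hN
  exact ⟨N, z, by linarith, hzx⟩

theorem blk_sum {Z : Type*} [AddCommGroup Z] [Module ℝ Z] (F : ℕ → Finset ℕ)
    (hF : Pairwise fun i j => Disjoint (F i) (F j)) (c : ℕ → ℕ → ℝ) (a : ℕ → ℝ) :
    ∃ a' : ℕ → ℝ, (∀ k, ∀ j ∈ F k, a' j = a k * c k j) ∧ ∀ (s : Finset ℕ) (H : ℕ → Z),
      ∑ k ∈ s, a k • ∑ j ∈ F k, c k j • H j = ∑ j ∈ s.biUnion F, a' j • H j := by
  classical
  let a' : ℕ → ℝ := fun j => if h : ∃ k, j ∈ F k then a h.choose * c h.choose j else 0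
  have ha : ∀ k, ∀ j ∈ F k, a' j = a k * c k j := by
    intro k j hj
    have h : ∃ k, j ∈ F k := ⟨k, hj⟩
    have : h.choose = k := by
      by_contra hc
      exact Finset.disjoint_left.1 (hF hc) h.choose_spec hj
    simp only [a', dif_pos h, this]
  refine ⟨a', ha, fun s H => ?_⟩
  rw [Finset.sum_biUnion (fun i _ j _ hij => hF hij)]
  refine Finset.sum_congr rfl fun k _ => ?_
  rw [Finset.smul_sum]
  exact Finset.sum_congr rfl fun j hj => by rw [ha k j hj, mul_smul]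

theorem l1_of_not_tails (f : ℕ → StrongDual ℝ X) (K : ℝ) (hK : 0 ≤ K) (hU : Unc f K)
    (hT : ¬ Tails f) : ∃ (h : ℕ → StrongDual ℝ X) (c : ℝ), 0 < c ∧ L1 h c := by
  classical
  unfold Tails at hT
  push Not at hT
  obtain ⟨x, ε, hε, hT⟩ := hT
  have hT' : ∀ N, ∃ p : (ℕ → ℝ) × Finset ℕ, (∀ i ∈ p.2, N ≤ i) ∧
      ‖∑ i ∈ p.2, p.1 i • f i‖ = 1 ∧ ε ≤ (∑ i ∈ p.2, p.1 i • f i) x := by
    intro N
    obtain ⟨a, s, hs, h⟩ := hT N
    set v := ∑ i ∈ s, a i • f i with hv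
    have h0 : v ≠ 0 := by
      intro h0; simp [h0] at h
    have hp := norm_pos_iff.2 h0
    have e : ∀ r : ℝ, ∑ i ∈ s, (r * a i) • f i = r • v := by
      intro r; rw [hv, Finset.smul_sum]; simp [mul_smul]
    rcases le_total 0 (v x) with h1 | h1
    · refine ⟨(fun i => ‖v‖⁻¹ * a i, s), hs, ?_, ?_⟩
      · simp only [e]
        rw [norm_smul, norm_inv, norm_norm, inv_mul_cancel₀ hp.ne']
      · simp only [e, ContinuousLinearMap.smul_apply, smul_eq_mul]
        rw [abs_of_nonneg h1] at h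
        rw [le_inv_mul_iff₀ hp]; linarith
    · refine ⟨(fun i => -‖v‖⁻¹ * a i, s), hs, ?_, ?_⟩
      · simp only [e]
        rw [norm_smul, norm_neg, norm_inv, norm_norm, inv_mul_cancel₀ hp.ne']
      · simp only [e, ContinuousLinearMap.smul_apply, smul_eq_mul]
        rw [abs_of_nonpos h1] at h
        rw [neg_mul, ← mul_neg, le_inv_mul_iff₀ hp]; linarith
  obtain ⟨p, hp1, hp2⟩ := exists_seq_of_forall_finset_exists
    (fun p : (ℕ → ℝ) × Finset ℕ => ‖∑ i ∈ p.2, p.1 i • f i‖ = 1 ∧ ε ≤ (∑ i ∈ p.2, p.1 i • f i) x)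
    (fun p p' => Disjoint p.2 p'.2) (by
      intro S _
      obtain ⟨p, h1, h2⟩ := hT' ((S.sup fun p => p.2.sup id) + 1)
      refine ⟨p, h2, fun p' hp' => Finset.disjoint_left.2 fun i hi hi' => ?_⟩
      have a1 := h1 i hi'
      have a2 : i ≤ p'.2.sup id := Finset.le_sup (f := id) hi
      have a3 : p'.2.sup id ≤ S.sup fun p => p.2.sup id :=
        Finset.le_sup (f := fun p : (ℕ → ℝ) × Finset ℕ => p.2.sup id) hp'
      omega)
  have hdis : Pairwise fun i j => Disjoint (p i).2 (p j).2 := by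
    intro i j hij
    rcases lt_or_gt_of_ne hij with h | h
    · exact hp2 i j h
    · exact (hp2 j i h).symm
  set u : ℕ → StrongDual ℝ X := fun k => ∑ i ∈ (p k).2, (p k).1 i • f i with hu
  refine ⟨u, ε / (2 * ((K + 1) * (‖x‖ + 1))), by positivity, fun k => (hp1 k).1.le, fun a s => ?_⟩
  obtain ⟨a', -, ha'⟩ := blk_sum (Z := StrongDual ℝ X) (fun k => (p k).2) hdis (fun k => (p k).1) a
  have h1 := sum_abs_le (fun k => a k * u k x) ((K + 1) * (‖x‖ + 1) * ‖∑ i ∈ s, a i • u i‖) s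
    (by
      intro t ht
      have e : ∑ i ∈ t, a i * u i x = (∑ i ∈ t, a i • u i) x := by
        simp [ContinuousLinearMap.sum_apply]
      rw [e]
      refine ((∑ i ∈ t, a i • u i).le_opNorm x).trans ?_
      have := hU a' _ _ (Finset.biUnion_subset_biUnion_of_subset_left (fun k => (p k).2) ht)
      rw [← ha', ← ha'] at this
      have n1 := norm_nonneg (∑ i ∈ s, a i • u i)
      have n2 := norm_nonneg x
      calc _ ≤ K * ‖∑ i ∈ s, a i • u i‖ * ‖x‖ := by gcongr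
        _ ≤ _ := by nlinarith [mul_nonneg n1 n2, mul_nonneg hK n1])
  have h2 : ε * ∑ i ∈ s, |a i| ≤ ∑ i ∈ s, |a i * u i x| := by
    rw [Finset.mul_sum]
    refine Finset.sum_le_sum fun i _ => ?_
    rw [abs_mul, mul_comm]
    gcongr
    exact (hp1 i).2.trans (le_abs_self _)
  rw [div_mul_eq_mul_div, div_le_iff₀ (by positivity)]
  linarith

end Vale.Agent.P129
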